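import Vale.Agent.P154.Defs

/-! the channel step -/

namespace Vale.Agent.P154

lemma sg_chan (lam : ℝ) (c : V3) : sg (chan lam c) = sg c := by
  unfold chan sg; ring

theorem Rf_chan (lam : ℝ) (c : V3) : Rf (chan lam c) = lam ^ 2 * Rf c := by
  unfold Rf
  rw [sg_chan, ← mul_div_assoc]
  congr 1
  unfold chan
  ring

lemma Sf_chan (lam : ℝ) (c : V3) : Sf (chan lam c) = lam ^ 3 * Sf c := by
  unfold Sf
  rw [sg_chan, ← mul_div_assoc]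
  congr 1
  unfold chan
  ring

/-- cube of the geometric mean -/
lemma gm_cube {c : V3} (hc : ∀ i, 0 ≤ c i) : gm c ^ 3 = 27 * (c 0 * c 1 * c 2) := by
  have h : 0 ≤ c 0 * c 1 * c 2 := mul_nonneg (mul_nonneg (hc 0) (hc 1)) (hc 2)
  unfold gm
  rw [mul_pow, ← Real.rpow_natCast ((c 0 * c 1 * c 2) ^ (1 / 3 : ℝ)) 3, ← Real.rpow_mul h]
  norm_num

lemma gm_nonneg {c : V3} (hc : ∀ i, 0 ≤ c i) : 0 ≤ gm c := by
  have h : 0 ≤ c 0 * c 1 * c 2 := mul_nonneg (mul_nonneg (hc 0) (hc 1)) (hc 2)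
  unfold gm
  exact mul_nonneg (by norm_num) (Real.rpow_nonneg h _)

lemma zero_or_pos {c : V3} (hc : ∀ i, 0 ≤ c i) : (sg c = 0 ∧ gm c = 0) ∨ 0 < sg c := by
  have h0 := hc 0
  have h1 := hc 1
  have h2 := hc 2
  have hs : 0 ≤ sg c := by unfold sg; linarith
  rcases hs.eq_or_lt with h | h
  · left
    refine ⟨h.symm, ?_⟩
    have h' : c 0 + c 1 + c 2 = 0 := h.symm
    have e0 : c 0 = 0 := by linarith
    unfold gm
    rw [e0]; simp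
  · right; exact h

/-- relations between the invariants -/
lemma invs {c : V3} (hc : ∀ i, 0 ≤ c i) (hS : 0 < sg c) :
    0 ≤ Rf c / sg c ∧ Rf c / sg c ≤ 1 ∧ (Sf c / sg c) ^ 2 ≤ (Rf c / sg c) ^ 3 ∧
      (gm c / sg c) ^ 3 = 1 - 3 * (Rf c / sg c) + 2 * (Sf c / sg c) ∧ 0 ≤ gm c / sg c := by
  have h0 := hc 0
  have h1 := hc 1
  have h2 := hc 2
  have hS2 : 0 < sg c ^ 2 := by positivity
  have eR : Rf c / sg c = (c 0 ^ 2 + c 1 ^ 2 + c 2 ^ 2 - c 0 * c 1 - c 1 * c 2 - c 2 * c 0) / sg c ^ 2 := by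
    unfold Rf; field_simp
  have eS : Sf c / sg c = ((2 * c 0 - c 1 - c 2) * (2 * c 1 - c 0 - c 2) * (2 * c 2 - c 0 - c 1) / 2)
      / sg c ^ 3 := by
    unfold Sf; field_simp
  refine ⟨?_, ?_, ?_, ?_, ?_⟩
  · rw [eR]
    apply div_nonneg _ hS2.le
    nlinarith [sq_nonneg (c 0 - c 1), sq_nonneg (c 1 - c 2), sq_nonneg (c 2 - c 0)]
  · rw [eR, div_le_one hS2]
    unfold sg
    nlinarith [mul_nonneg h0 h1, mul_nonneg h1 h2, mul_nonneg h2 h0]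
  · rw [eR, eS, div_pow _ (sg c ^ 3), div_pow _ (sg c ^ 2)]
    have e6 : (sg c ^ 3) ^ 2 = (sg c ^ 2) ^ 3 := by ring
    rw [e6]
    apply div_le_div_of_nonneg_right _ (by positivity)
    have key : (c 0 ^ 2 + c 1 ^ 2 + c 2 ^ 2 - c 0 * c 1 - c 1 * c 2 - c 2 * c 0) ^ 3
        - ((2 * c 0 - c 1 - c 2) * (2 * c 1 - c 0 - c 2) * (2 * c 2 - c 0 - c 1) / 2) ^ 2
        = 27 / 4 * ((c 0 - c 1) * (c 1 - c 2) * (c 2 - c 0)) ^ 2 := by ring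
    nlinarith [sq_nonneg ((c 0 - c 1) * (c 1 - c 2) * (c 2 - c 0))]
  · rw [eR, eS, div_pow, gm_cube hc]
    have hne : sg c ≠ 0 := hS.ne'
    rw [div_eq_iff (pow_ne_zero 3 hne)]
    have e : (1 - 3 * ((c 0 ^ 2 + c 1 ^ 2 + c 2 ^ 2 - c 0 * c 1 - c 1 * c 2 - c 2 * c 0) / sg c ^ 2) +
        2 * ((2 * c 0 - c 1 - c 2) * (2 * c 1 - c 0 - c 2) * (2 * c 2 - c 0 - c 1) / 2 / sg c ^ 3))
          * sg c ^ 3
        = sg c ^ 3 - 3 * (c 0 ^ 2 + c 1 ^ 2 + c 2 ^ 2 - c 0 * c 1 - c 1 * c 2 - c 2 * c 0) * sg c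
          + (2 * c 0 - c 1 - c 2) * (2 * c 1 - c 0 - c 2) * (2 * c 2 - c 0 - c 1) := by
      field_simp
    rw [e]
    unfold sg
    ring
  · exact div_nonneg (gm_nonneg hc) hS.le

/-- consequences for the normalised invariants -/
lemma abs_s_le {r s : ℝ} (hr0 : 0 ≤ r) (hr1 : r ≤ 1) (hs : s ^ 2 ≤ r ^ 3) : |s| ≤ r := by
  apply abs_le_of_sq_le_sq _ hr0
  nlinarith [mul_nonneg (sq_nonneg r) (sub_nonneg.2 hr1)]

lemma x_le_one {r s x : ℝ} (hr0 : 0 ≤ r) (hr1 : r ≤ 1) (hs : s ^ 2 ≤ r ^ 3)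
    (hx : x ^ 3 = 1 - 3 * r + 2 * s) : x ≤ 1 := by
  have h1 := le_trans (le_abs_self s) (abs_s_le hr0 hr1 hs)
  by_contra h
  rw [not_le] at h
  have : 1 < x ^ 3 := one_lt_pow₀ h (by norm_num)
  linarith

/-- the one-variable inequality -/
lemma key_x {r s x : ℝ} (hr0 : 0 ≤ r) (hr1 : r ≤ 1) (hs : s ^ 2 ≤ r ^ 3) (hx0 : 0 ≤ x)
    (hx : x ^ 3 = 1 - 3 * r + 2 * s) : 2 * r ≤ 2 - 3 * x ^ 2 + x ^ 3 := by
  set ρ := √r with hρ
  have hρ0 : 0 ≤ ρ := Real.sqrt_nonneg _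
  have hρ2 : ρ ^ 2 = r := Real.sq_sqrt hr0
  have hρ1 : ρ ≤ 1 := Real.sqrt_le_iff.2 ⟨zero_le_one, by rw [one_pow]; exact hr1⟩
  have hsρ : s ≤ ρ ^ 3 := by
    have h1 : s ^ 2 ≤ (ρ ^ 3) ^ 2 := by
      have : (ρ ^ 3) ^ 2 = (ρ ^ 2) ^ 3 := by ring
      rw [this, hρ2]; exact hs
    exact le_trans (le_abs_self s) (abs_le_of_sq_le_sq h1 (by positivity))
  -- y
  have hY0 : 0 ≤ (1 - ρ) ^ 2 * (1 + 2 * ρ) := by positivity
  obtain ⟨y, hy0, hy3⟩ : ∃ y : ℝ, 0 ≤ y ∧ y ^ 3 = (1 - ρ) ^ 2 * (1 + 2 * ρ) := by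
    refine ⟨((1 - ρ) ^ 2 * (1 + 2 * ρ)) ^ (1 / 3 : ℝ), Real.rpow_nonneg hY0 _, ?_⟩
    rw [← Real.rpow_natCast, ← Real.rpow_mul hY0]
    norm_num
  have hy1 : y ≤ 1 := by
    by_contra h
    rw [not_le] at h
    have h1 : 1 < y ^ 3 := one_lt_pow₀ h (by norm_num)
    rw [hy3] at h1
    nlinarith [mul_nonneg (sq_nonneg ρ) (by linarith : (0 : ℝ) ≤ 3 - 2 * ρ)]
  have hxy : x ≤ y := by
    have h1 : x ^ 3 ≤ y ^ 3 := by rw [hx, hy3, ← hρ2]; nlinarith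
    exact (pow_le_pow_iff_left₀ hx0 hy0 (by norm_num)).1 h1
  have hx1 : x ≤ 1 := le_trans hxy hy1
  -- monotone
  have hmono : 2 - 3 * y ^ 2 + y ^ 3 ≤ 2 - 3 * x ^ 2 + x ^ 3 := by
    have h1 : (2 - 3 * x ^ 2 + x ^ 3) - (2 - 3 * y ^ 2 + y ^ 3)
        = (y - x) * (3 * (x + y) - (x ^ 2 + x * y + y ^ 2)) := by ring
    have h2 : 0 ≤ 3 * (x + y) - (x ^ 2 + x * y + y ^ 2) := by
      nlinarith [mul_nonneg hx0 (sub_nonneg.2 hx1), mul_nonneg hy0 (sub_nonneg.2 hy1),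
        mul_nonneg hx0 (sub_nonneg.2 hy1)]
    have h3 := mul_nonneg (sub_nonneg.2 hxy) h2
    linarith
  -- 3 y² ≤ A
  have hA0 : 0 ≤ (1 - ρ) * (3 + 3 * ρ - 2 * ρ ^ 2) := by
    apply mul_nonneg (by linarith)
    nlinarith [mul_nonneg hρ0 (sub_nonneg.2 hρ1)]
  have h3y : 3 * y ^ 2 ≤ (1 - ρ) * (3 + 3 * ρ - 2 * ρ ^ 2) := by
    have h1 : (3 * y ^ 2) ^ 3 ≤ ((1 - ρ) * (3 + 3 * ρ - 2 * ρ ^ 2)) ^ 3 := by
      have e1 : (3 * y ^ 2) ^ 3 = 27 * (y ^ 3) ^ 2 := by ring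
      rw [e1, hy3]
      have e2 : ((1 - ρ) * (3 + 3 * ρ - 2 * ρ ^ 2)) ^ 3 - 27 * ((1 - ρ) ^ 2 * (1 + 2 * ρ)) ^ 2
          = (1 - ρ) ^ 3 * (ρ ^ 2 * (27 + 27 * ρ - 18 * ρ ^ 2 + 36 * ρ ^ 3 - 8 * ρ ^ 4)) := by ring
      have e3 : 0 ≤ (1 - ρ) ^ 3 * (ρ ^ 2 * (27 + 27 * ρ - 18 * ρ ^ 2 + 36 * ρ ^ 3 - 8 * ρ ^ 4)) := by
        apply mul_nonneg (pow_nonneg (by linarith) 3)
        apply mul_nonneg (sq_nonneg _)
        have h4 : ρ ^ 2 ≤ 1 := by nlinarith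
        have h5 : ρ ^ 4 ≤ 1 := by nlinarith [sq_nonneg (ρ ^ 2)]
        have h6 : 0 ≤ ρ ^ 3 := by positivity
        nlinarith
      linarith
    exact (pow_le_pow_iff_left₀ (by positivity) hA0 (by norm_num)).1 h1
  have hfin : 2 * r = 2 - (1 - ρ) * (3 + 3 * ρ - 2 * ρ ^ 2) + y ^ 3 := by
    rw [hy3, ← hρ2]; ring
  linarith

/-- the channel inequality for the normalised invariants, `lam = mu ^ 2` -/
lemma chan_ineq {μ r s x x' : ℝ} (hμ0 : 0 ≤ μ) (hμ1 : μ ≤ 1) (hr0 : 0 ≤ r) (hr1 : r ≤ 1)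
    (hs : s ^ 2 ≤ r ^ 3) (hx0 : 0 ≤ x) (hx : x ^ 3 = 1 - 3 * r + 2 * s) (hx'0 : 0 ≤ x')
    (hx' : x' ^ 3 = 1 - 3 * ((μ ^ 2) ^ 2 * r) + 2 * ((μ ^ 2) ^ 3 * s)) :
    1 - μ ^ 3 * (1 - x) ≤ x' := by
  have hk := key_x hr0 hr1 hs hx0 hx
  have hx1 := x_le_one hr0 hr1 hs hx
  set h := 1 - x with hh
  have hh0 : 0 ≤ h := by linarith
  have hh1 : h ≤ 1 := by linarith
  have hxh : x = 1 - h := by linarith
  have hk' : 2 * r ≤ 3 * h - h ^ 3 := by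
    rw [hxh] at hk
    nlinarith
  have hμ3 : μ ^ 3 ≤ 1 := pow_le_one₀ hμ0 hμ1
  have hh3 : 0 ≤ h ^ 3 := by positivity
  have hk2 : 2 * r ≤ 3 * h - μ ^ 3 * h ^ 3 := by nlinarith
  have hk3 : 3 * μ * (1 + μ) * r ≤ (1 + μ + μ ^ 2) * (3 * h - μ ^ 3 * h ^ 3) := by
    have h1 : 3 * μ * (1 + μ) * r ≤ (1 + μ + μ ^ 2) * (2 * r) := by
      have : 0 ≤ (2 - μ - μ ^ 2) * r := mul_nonneg (by nlinarith) hr0
      nlinarith
    exact h1.trans (mul_le_mul_of_nonneg_left hk2 (by positivity))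
  have hcube : (1 - μ ^ 3 * h) ^ 3 ≤ x' ^ 3 := by
    rw [hx']
    have hs2 : 2 * s = (1 - h) ^ 3 - 1 + 3 * r := by rw [← hxh, hx]; ring
    have e : 1 - 3 * ((μ ^ 2) ^ 2 * r) + 2 * ((μ ^ 2) ^ 3 * s) - (1 - μ ^ 3 * h) ^ 3
        = μ ^ 3 * (1 - μ) * ((1 + μ + μ ^ 2) * (3 * h - μ ^ 3 * h ^ 3) - 3 * μ * (1 + μ) * r) := by
      have e2 : 2 * ((μ ^ 2) ^ 3 * s) = (μ ^ 2) ^ 3 * (2 * s) := by ring
      rw [e2, hs2]; ring
    have e3 : 0 ≤ μ ^ 3 * (1 - μ) * ((1 + μ + μ ^ 2) * (3 * h - μ ^ 3 * h ^ 3) - 3 * μ * (1 + μ) * r) :=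
      mul_nonneg (mul_nonneg (by positivity) (by linarith)) (by linarith)
    linarith
  have hbase : 0 ≤ 1 - μ ^ 3 * h := by
    have : μ ^ 3 * h ≤ 1 := mul_le_one₀ hμ3 hh0 hh1
    linarith
  exact (pow_le_pow_iff_left₀ hbase hx'0 (by norm_num)).1 hcube

theorem pt_chan {lam : ℝ} (h0 : 0 ≤ lam) (h1 : lam ≤ 1) {c : V3} (hc : ∀ i, 0 ≤ c i) :
    lam ^ 3 * Ff c ≤ Ff (chan lam c) := by
  rcases zero_or_pos hc with ⟨hz, hg⟩ | hS
  · have hch : ∀ i, chan lam c i = lam * c i := by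
      intro i; unfold chan; rw [hz]; ring
    have h3 : c 0 + c 1 + c 2 = 0 := hz
    have a0 := hc 0
    have a1 := hc 1
    have a2 := hc 2
    have e0 : c 0 = 0 := by linarith
    have hg2 : gm (chan lam c) = 0 := by
      unfold gm
      rw [hch 0, e0]; simp
    unfold Ff
    rw [Sf_chan, sg_chan, hz, hg, hg2]
    simp
  · set μ := √lam with hμ
    have hμ0 : 0 ≤ μ := Real.sqrt_nonneg _
    have hμ2 : μ ^ 2 = lam := Real.sq_sqrt h0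
    have hμ1 : μ ≤ 1 := Real.sqrt_le_iff.2 ⟨zero_le_one, by rw [one_pow]; exact h1⟩
    have hcc : ∀ i, 0 ≤ chan lam c i := by
      intro i
      unfold chan
      have := hc i
      have h4 : 0 ≤ (1 - lam) / 3 * sg c := mul_nonneg (by linarith) hS.le
      have h5 := mul_nonneg h0 this
      linarith
    have hS' : 0 < sg (chan lam c) := by rw [sg_chan]; exact hS
    obtain ⟨a1, a2, a3, a4, a5⟩ := invs hc hS
    obtain ⟨b1, b2, b3, b4, b5⟩ := invs hcc hS'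
    rw [Rf_chan, Sf_chan, sg_chan] at b4
    have e1 : lam ^ 2 * Rf c / sg c = (μ ^ 2) ^ 2 * (Rf c / sg c) := by rw [hμ2]; ring
    have e2 : lam ^ 3 * Sf c / sg c = (μ ^ 2) ^ 3 * (Sf c / sg c) := by rw [hμ2]; ring
    rw [e1, e2] at b4
    rw [sg_chan] at b5
    have hk := chan_ineq hμ0 hμ1 a1 a2 a3 a5 a4 b5 b4
    have hx1 := x_le_one a1 a2 a3 a4
    set x := gm c / sg c with hx
    set x' := gm (chan lam c) / sg c with hx'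
    have hgx : gm c = x * sg c := by rw [hx]; field_simp
    have hgx' : gm (chan lam c) = x' * sg c := by rw [hx']; field_simp
    have hx'1 : x' ≤ 1 := by
      have := x_le_one b1 b2 b3 (invs hcc hS').2.2.2.1
      rw [sg_chan] at this
      exact this
    unfold Ff
    rw [Sf_chan, sg_chan, hgx, hgx', mul_sub]
    have e3 : lam ^ 3 * ((sg c - x * sg c) ^ 2 / (4 * sg c)) = sg c / 4 * (μ ^ 3 * (1 - x)) ^ 2 := by
      rw [← hμ2]; field_simp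
    have e4 : (sg c - x' * sg c) ^ 2 / (4 * sg c) = sg c / 4 * (1 - x') ^ 2 := by
      field_simp
    rw [e3, e4]
    have h6 : (1 - x') ^ 2 ≤ (μ ^ 3 * (1 - x)) ^ 2 := by
      apply pow_le_pow_left₀ (by linarith)
      linarith
    have h7 : sg c / 4 * (1 - x') ^ 2 ≤ sg c / 4 * (μ ^ 3 * (1 - x)) ^ 2 :=
      mul_le_mul_of_nonneg_left h6 (by positivity)
    linarith

/-! size bounds used for summability -/

theorem Rf_nonneg {c : V3} (hc : ∀ i, 0 ≤ c i) : 0 ≤ Rf c := by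
  rcases zero_or_pos hc with ⟨hz, _⟩ | hS
  · unfold Rf; rw [hz]; simp
  · have h := (invs hc hS).1
    rw [div_nonneg_iff] at h
    rcases h with h | h
    · exact h.1
    · linarith [h.2]

theorem Rf_le {c : V3} (hc : ∀ i, 0 ≤ c i) : Rf c ≤ sg c := by
  rcases zero_or_pos hc with ⟨hz, _⟩ | hS
  · unfold Rf; rw [hz]; simp
  · have h := (invs hc hS).2.1
    rwa [div_le_one hS] at h

theorem Sf_abs_le {c : V3} (hc : ∀ i, 0 ≤ c i) : |Sf c| ≤ sg c := by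
  rcases zero_or_pos hc with ⟨hz, _⟩ | hS
  · unfold Sf; rw [hz]; simp
  · obtain ⟨a1, a2, a3, a4, a5⟩ := invs hc hS
    have h := (abs_s_le a1 a2 a3).trans a2
    rwa [abs_div, abs_of_pos hS, div_le_one hS] at h

theorem Ff_abs_le {c : V3} (hc : ∀ i, 0 ≤ c i) : |Ff c| ≤ 2 * sg c := by
  rcases zero_or_pos hc with ⟨hz, hg⟩ | hS
  · unfold Ff Sf; rw [hz, hg]; simp
  · obtain ⟨a1, a2, a3, a4, a5⟩ := invs hc hS
    have hx1 := x_le_one a1 a2 a3 a4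
    have h1 := abs_le.1 (Sf_abs_le hc)
    have hg0 := gm_nonneg hc
    have hg1 : gm c ≤ sg c := by rwa [div_le_one hS] at hx1
    have h2 : 0 ≤ (sg c - gm c) ^ 2 / (4 * sg c) := by positivity
    have h3 : (sg c - gm c) ^ 2 / (4 * sg c) ≤ sg c := by
      rw [div_le_iff₀ (by positivity)]
      nlinarith
    unfold Ff
    rw [abs_le]
    constructor <;> linarith

theorem Bf_nonneg {c : V3} (hc : ∀ i, 0 ≤ c i) : 0 ≤ Bf c := by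
  rcases zero_or_pos hc with ⟨hz, _⟩ | hS
  · unfold Bf Rf Sf; rw [hz]; simp
  · obtain ⟨a1, a2, a3, a4, a5⟩ := invs hc hS
    have h := le_trans (le_abs_self _) (abs_s_le a1 a2 a3)
    have h2 : Sf c ≤ Rf c := by
      have := (div_le_div_iff_of_pos_right hS).1 h
      exact this
    have h3 := Rf_nonneg hc
    have h4 : 0 ≤ Rf c ^ 2 / sg c := by positivity
    unfold Bf
    linarith

theorem Bf_le {c : V3} (hc : ∀ i, 0 ≤ c i) : Bf c ≤ 2 * sg c := by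
  rcases zero_or_pos hc with ⟨hz, _⟩ | hS
  · unfold Bf Rf Sf; rw [hz]; simp
  · have h1 := Rf_nonneg hc
    have h2 := Rf_le hc
    have h3 := abs_le.1 (Sf_abs_le hc)
    have h4 : Rf c ^ 2 / sg c ≤ sg c := by
      rw [div_le_iff₀ hS]; nlinarith
    unfold Bf
    linarith [h3.1]

theorem Df_nonneg {c : V3} (hc : ∀ i, 0 ≤ c i) : 0 ≤ Df c := by
  have h : 0 ≤ c 0 * c 1 * c 2 := mul_nonneg (mul_nonneg (hc 0) (hc 1)) (hc 2)
  unfold Df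
  positivity

theorem Df_le {c : V3} (hc : ∀ i, 0 ≤ c i) : Df c ≤ sg c := by
  rcases zero_or_pos hc with ⟨hz, _⟩ | hS
  · unfold Df; rw [hz]; simp
  · obtain ⟨a1, a2, a3, a4, a5⟩ := invs hc hS
    have hx1 := x_le_one a1 a2 a3 a4
    have h3 : (gm c / sg c) ^ 3 ≤ 1 := pow_le_one₀ a5 hx1
    rw [div_pow, gm_cube hc, div_le_one (by positivity)] at h3
    unfold Df
    rw [div_le_iff₀ (by positivity)]
    calc 27 * (c 0 * c 1 * c 2) ≤ sg c ^ 3 := h3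
      _ = sg c * sg c ^ 2 := by ring

end Vale.Agent.P154
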