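import Mathlib

/-! P154: definitions for the pointwise (algebraic) part -/

namespace Vale.Agent.P154

/-- unnormalised likelihood vectors -/
abbrev V3 := Fin 3 → ℝ

/-- total mass -/
def sg (c : V3) : ℝ := c 0 + c 1 + c 2

/-- mass times the squared distance of the normalised vector from uniform (scaled to `1` at a vertex) -/
noncomputable def Rf (c : V3) : ℝ :=
  (c 0 ^ 2 + c 1 ^ 2 + c 2 ^ 2 - c 0 * c 1 - c 1 * c 2 - c 2 * c 0) / sg c

/-- mass times the third order symmetric invariant -/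
noncomputable def Sf (c : V3) : ℝ :=
  (2 * c 0 - c 1 - c 2) * (2 * c 1 - c 0 - c 2) * (2 * c 2 - c 0 - c 1) / (2 * sg c ^ 2)

/-- mass times `27 p₁ p₂ p₃` -/
noncomputable def Df (c : V3) : ℝ := 27 * (c 0 * c 1 * c 2) / sg c ^ 2

/-- three times the geometric mean -/
noncomputable def gm (c : V3) : ℝ := 3 * (c 0 * c 1 * c 2) ^ ((1 / 3 : ℝ))

/-- the monotone functional `s - (1-δ)²/4` -/
noncomputable def Ff (c : V3) : ℝ := Sf c - (sg c - gm c) ^ 2 / (4 * sg c)

/-- the multiplier `r - (3/4) s + (1/4) r²` -/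
noncomputable def Bf (c : V3) : ℝ := Rf c - 3 / 4 * Sf c + 1 / 4 * (Rf c ^ 2 / sg c)

/-- the Potts channel acting on likelihood vectors -/
noncomputable def chan (lam : ℝ) (c : V3) : V3 := fun i => lam * c i + (1 - lam) / 3 * sg c

/-- positive vectors -/
def Pos (c : V3) : Prop := ∀ i, 0 < c i

/-- sum over the six products of `p` with the permutations of `q` -/
noncomputable def S6 (F : V3 → ℝ) (p q : V3) : ℝ :=
  ∑ π : Equiv.Perm (Fin 3), F (fun i => p i * q (π i))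

/-! polynomials in the invariants `r, s` of `p` and `r', s'` of `q` -/

def kk (r s r' s' : ℝ) : ℝ := 1 - 3 * (r * r') + 2 * (s * s')
def bb (r r' : ℝ) : ℝ := 1 - r - r' - r * r'
def aa (r s r' s' : ℝ) : ℝ :=
  (r * r' - s * s') * (1 - r - r' - r * r') + (r' * s * (1 - r') + r * s' * (1 - r))
def ww (r s r' s' : ℝ) : ℝ := (r ^ 3 - s ^ 2) * (r' ^ 3 - s' ^ 2)
def uu (r s : ℝ) : ℝ := 3 * r - 2 * s
noncomputable def be (r s : ℝ) : ℝ := r - 3 / 4 * s + 1 / 4 * r ^ 2
noncomputable def YY (r s r' s' : ℝ) : ℝ := 5 / 2 * (r * r') + r * s' + s * r' - 2 * (s * s')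

/-- `r` of a normalised vector -/
noncomputable def rr (c : V3) : ℝ := c 0 ^ 2 + c 1 ^ 2 + c 2 ^ 2 - c 0 * c 1 - c 1 * c 2 - c 2 * c 0
/-- `s` of a normalised vector -/
noncomputable def ss (c : V3) : ℝ :=
  (2 * c 0 - c 1 - c 2) * (2 * c 1 - c 0 - c 2) * (2 * c 2 - c 0 - c 1) / 2

/-- normalised nonnegative vectors -/
def Nrm (c : V3) : Prop := (∀ i, 0 ≤ c i) ∧ sg c = 1

end Vale.Agent.P154
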