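import Vale.Agent.P154.Point
import Vale.Agent.P154.Chan

/-! symmetric families of likelihood vectors: products of two families and the channel -/

namespace Vale.Agent.P154

variable {A B : Type*}

/-- A symmetric family of likelihood vectors: `m a i` is the probability of the observation `a`
if the root has spin `i`. -/
structure Fam (m : A → V3) : Prop where
  pz : ∀ a, Pos (m a) ∨ m a = 0
  sum : ∀ i, HasSum (fun a => m a i) 1
  symm : ∀ π : Equiv.Perm (Fin 3), ∃ e : A ≃ A, ∀ a i, m (e a) (π i) = m a i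

/-- expected squared distance of the posterior from uniform -/
noncomputable def X (m : A → V3) : ℝ := 1 / 3 * ∑' a, Rf (m a)

/-- expectation of the invariant functional -/
noncomputable def Phi (m : A → V3) : ℝ := 1 / 3 * ∑' a, Ff (m a)

/-- two independent observations -/
def prodF (m : A → V3) (m' : B → V3) : A × B → V3 := fun x i => m x.1 i * m' x.2 i

lemma Fam.nn {m : A → V3} (hm : Fam m) (a : A) (i : Fin 3) : 0 ≤ m a i := by
  rcases hm.pz a with h | h
  · exact (h i).le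
  · rw [h]; exact le_rfl

lemma sg_hasSum {m : A → V3} (hs : ∀ i, HasSum (fun a => m a i) 1) :
    HasSum (fun a => sg (m a)) 3 := by
  have h := ((hs 0).add (hs 1)).add (hs 2)
  have e : (1 : ℝ) + 1 + 1 = 3 := by norm_num
  rw [e] at h
  exact h

lemma smb {F : V3 → ℝ} {C : ℝ} (hF : ∀ c : V3, (∀ i, 0 ≤ c i) → |F c| ≤ C * sg c) {m : A → V3}
    (hnn : ∀ a i, 0 ≤ m a i) (hs : ∀ i, HasSum (fun a => m a i) 1) :
    Summable (fun a => F (m a)) := by
  refine Summable.of_norm_bounded (g := fun a => C * sg (m a))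
    ((sg_hasSum hs).summable.mul_left C) fun a => ?_
  rw [Real.norm_eq_abs]
  exact hF (m a) (hnn a)

lemma bRf : ∀ c : V3, (∀ i, 0 ≤ c i) → |Rf c| ≤ 1 * sg c := fun c hc => by
  rw [abs_of_nonneg (Rf_nonneg hc), one_mul]; exact Rf_le hc

lemma bFf : ∀ c : V3, (∀ i, 0 ≤ c i) → |Ff c| ≤ 2 * sg c := fun c hc => Ff_abs_le hc

lemma bBf : ∀ c : V3, (∀ i, 0 ≤ c i) → |Bf c| ≤ 2 * sg c := fun c hc => by
  rw [abs_of_nonneg (Bf_nonneg hc)]; exact Bf_le hc

lemma bDf : ∀ c : V3, (∀ i, 0 ≤ c i) → |Df c| ≤ 1 * sg c := fun c hc => by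
  rw [abs_of_nonneg (Df_nonneg hc), one_mul]; exact Df_le hc

lemma bsg : ∀ c : V3, (∀ i, 0 ≤ c i) → |sg c| ≤ 1 * sg c := fun c hc => by
  have : 0 ≤ sg c := add_nonneg (add_nonneg (hc 0) (hc 1)) (hc 2)
  rw [abs_of_nonneg this, one_mul]

theorem X_nonneg {m : A → V3} (hm : Fam m) : 0 ≤ X m :=
  mul_nonneg (by norm_num) (tsum_nonneg fun a => Rf_nonneg (hm.nn a))

theorem X_le_one {m : A → V3} (hm : Fam m) : X m ≤ 1 := by
  have h1 : ∑' a, Rf (m a) ≤ ∑' a, sg (m a) :=
    (smb bRf hm.nn hm.sum).tsum_le_tsum (fun a => Rf_le (hm.nn a)) (smb bsg hm.nn hm.sum)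
  rw [(sg_hasSum hm.sum).tsum_eq] at h1
  unfold X
  linarith

theorem Fam.prod {m : A → V3} {m' : B → V3} (hm : Fam m) (hm' : Fam m') : Fam (prodF m m') where
  pz := by
    rintro ⟨a, b⟩
    rcases hm.pz a with h | h
    · rcases hm'.pz b with h' | h'
      · left
        intro i
        exact mul_pos (h i) (h' i)
      · right
        funext i
        show m a i * m' b i = 0
        rw [h']; simp
    · right
      funext i
      show m a i * m' b i = 0
      rw [h]; simp
  sum := by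
    intro i
    have h := (hm.sum i).mul (hm'.sum i)
      ((hm.sum i).summable.mul_of_nonneg (hm'.sum i).summable (fun a => hm.nn a i)
        (fun b => hm'.nn b i))
    rw [one_mul] at h
    exact h
  symm := by
    intro π
    obtain ⟨e, he⟩ := hm.symm π
    obtain ⟨e', he'⟩ := hm'.symm π
    refine ⟨Equiv.prodCongr e e', ?_⟩
    rintro ⟨a, b⟩ i
    show m (e a) (π i) * m' (e' b) (π i) = m a i * m' b i
    rw [he, he']

/-- symmetrisation of a sum over a product family -/
lemma tsum_S6 {F : V3 → ℝ} {C : ℝ} (hF : ∀ c : V3, (∀ i, 0 ≤ c i) → |F c| ≤ C * sg c)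
    {m : A → V3} {m' : B → V3} (hm : Fam m) (hm' : Fam m') :
    HasSum (fun x : A × B => S6 F (m x.1) (m' x.2)) (6 * ∑' x, F (prodF m m' x)) := by
  have hP := hm.prod hm'
  have hS : Summable (fun x => F (prodF m m' x)) := smb hF hP.nn hP.sum
  have key : ∀ π : Equiv.Perm (Fin 3),
      HasSum (fun x : A × B => F (fun i => m x.1 i * m' x.2 (π i))) (∑' x, F (prodF m m' x)) := by
    intro π
    obtain ⟨e, he⟩ := hm'.symm π
    rw [← (Equiv.prodCongr (Equiv.refl A) e).hasSum_iff]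
    have e1 : (fun x : A × B => F (fun i => m x.1 i * m' x.2 (π i))) ∘
        (Equiv.prodCongr (Equiv.refl A) e) = fun x => F (prodF m m' x) := by
      funext x
      show F (fun i => m x.1 i * m' (e x.2) (π i)) = F (fun i => m x.1 i * m' x.2 i)
      congr 1
      funext i
      rw [he]
    rw [e1]
    exact hS.hasSum
  have h := hasSum_sum (s := (Finset.univ : Finset (Equiv.Perm (Fin 3)))) fun π _ => key π
  have e2 : ∑ _π : Equiv.Perm (Fin 3), ∑' x, F (prodF m m' x) = 6 * ∑' x, F (prodF m m' x) := by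
    rw [Finset.sum_const, Finset.card_univ, Fintype.card_perm, Fintype.card_fin, nsmul_eq_mul]
    norm_num [Nat.factorial]
  rw [e2] at h
  exact h

lemma hasSum_FG {F G : V3 → ℝ} {C C' : ℝ}
    (hF : ∀ c : V3, (∀ i, 0 ≤ c i) → |F c| ≤ C * sg c)
    (hG : ∀ c : V3, (∀ i, 0 ≤ c i) → |G c| ≤ C' * sg c)
    {m : A → V3} {m' : B → V3} (hm : Fam m) (hm' : Fam m') :
    HasSum (fun x : A × B => F (m x.1) * G (m' x.2)) ((∑' a, F (m a)) * ∑' b, G (m' b)) := by
  have h1 : Summable (fun a => F (m a)) := smb hF hm.nn hm.sum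
  have h2 : Summable (fun b => G (m' b)) := smb hG hm'.nn hm'.sum
  exact h1.hasSum.mul h2.hasSum (summable_mul_of_summable_norm h1.norm h2.norm)

lemma F_zero {F : V3 → ℝ} {C : ℝ} (hF : ∀ c : V3, (∀ i, 0 ≤ c i) → |F c| ≤ C * sg c) :
    F 0 = 0 := by
  have h := hF 0 (fun i => le_rfl)
  have e : sg (0 : V3) = 0 := by unfold sg; simp
  rw [e, mul_zero] at h
  exact abs_nonpos_iff.1 h

lemma S6_zero_left (F : V3 → ℝ) (hF : F 0 = 0) (q : V3) : S6 F 0 q = 0 := by
  unfold S6
  apply Finset.sum_eq_zero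
  intro π _
  have : (fun i => (0 : V3) i * q (π i)) = 0 := by funext i; simp
  rw [this, hF]

lemma S6_zero_right (F : V3 → ℝ) (hF : F 0 = 0) (p : V3) : S6 F p 0 = 0 := by
  unfold S6
  apply Finset.sum_eq_zero
  intro π _
  have : (fun i => p i * (0 : V3) (π i)) = 0 := by funext i; simp
  rw [this, hF]

theorem X_prod {m : A → V3} {m' : B → V3} (hm : Fam m) (hm' : Fam m') (h : 0 ≤ Phi m)
    (h' : 0 ≤ Phi m') : X (prodF m m') ≤ X m + X m' - X m * X m' / 100 := by
  have s1 := (tsum_S6 bRf hm hm').mul_left (1 / 2)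
  have t1 := hasSum_FG bRf bsg hm hm'
  have t2 := hasSum_FG bsg bRf hm hm'
  have t3 := hasSum_FG bFf bBf hm hm'
  have t4 := hasSum_FG bBf bFf hm hm'
  have t5 := (hasSum_FG bRf bRf hm hm').mul_right (1 / 100)
  have hle := hasSum_le (f := fun x : A × B => 1 / 2 * S6 Rf (m x.1) (m' x.2))
    (g := fun x : A × B => Rf (m x.1) * sg (m' x.2) + sg (m x.1) * Rf (m' x.2) -
      (Ff (m x.1) * Bf (m' x.2) + Bf (m x.1) * Ff (m' x.2)) -
      Rf (m x.1) * Rf (m' x.2) * (1 / 100)) (by
      rintro ⟨a, b⟩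
      rcases hm.pz a with ha | ha
      · rcases hm'.pz b with hb | hb
        · have := pt_upper ha hb
          simp only
          linarith
        · simp only
          rw [hb, S6_zero_right Rf (F_zero bRf), F_zero bRf, F_zero bsg, F_zero bFf, F_zero bBf]
          simp
      · simp only
        rw [ha, S6_zero_left Rf (F_zero bRf), F_zero bRf, F_zero bsg, F_zero bFf, F_zero bBf]
        simp) s1 (((t1.add t2).sub (t3.add t4)).sub t5)
  rw [(sg_hasSum hm.sum).tsum_eq, (sg_hasSum hm'.sum).tsum_eq] at hle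
  have b1 : 0 ≤ ∑' a, Bf (m a) := tsum_nonneg fun a => Bf_nonneg (hm.nn a)
  have b2 : 0 ≤ ∑' a, Bf (m' a) := tsum_nonneg fun a => Bf_nonneg (hm'.nn a)
  unfold Phi at h h'
  have f1 : 0 ≤ ∑' a, Ff (m a) := by linarith
  have f2 : 0 ≤ ∑' a, Ff (m' a) := by linarith
  have g1 := mul_nonneg f1 b2
  have g2 := mul_nonneg b1 f2
  unfold X
  nlinarith

theorem Phi_prod {m : A → V3} {m' : B → V3} (hm : Fam m) (hm' : Fam m') (h : 0 ≤ Phi m)
    (h' : 0 ≤ Phi m') : 0 ≤ Phi (prodF m m') := by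
  have s1 := (tsum_S6 bFf hm hm').mul_left (1 / 2)
  have t1 := hasSum_FG bFf bDf hm hm'
  have t2 := hasSum_FG bDf bFf hm hm'
  have hle := hasSum_le (f := fun x : A × B => Ff (m x.1) * Df (m' x.2) + Df (m x.1) * Ff (m' x.2))
    (g := fun x : A × B => 1 / 2 * S6 Ff (m x.1) (m' x.2)) (by
      rintro ⟨a, b⟩
      rcases hm.pz a with ha | ha
      · rcases hm'.pz b with hb | hb
        · have := pt_prod ha hb
          simp only
          linarith
        · simp only
          rw [hb, S6_zero_right Ff (F_zero bFf), F_zero bFf, F_zero bDf]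
          simp
      · simp only
        rw [ha, S6_zero_left Ff (F_zero bFf), F_zero bFf, F_zero bDf]
        simp) (t1.add t2) s1
  have b1 : 0 ≤ ∑' a, Df (m a) := tsum_nonneg fun a => Df_nonneg (hm.nn a)
  have b2 : 0 ≤ ∑' a, Df (m' a) := tsum_nonneg fun a => Df_nonneg (hm'.nn a)
  unfold Phi at h h' ⊢
  have f1 : 0 ≤ ∑' a, Ff (m a) := by linarith
  have f2 : 0 ≤ ∑' a, Ff (m' a) := by linarith
  have g1 := mul_nonneg f1 b2
  have g2 := mul_nonneg b1 f2
  linarith

lemma sg_eq_sum (c : V3) : sg c = ∑ i, c i := by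
  unfold sg; rw [Fin.sum_univ_three]

lemma chan_nn {lam : ℝ} (h0 : 0 ≤ lam) (h1 : lam ≤ 1) {c : V3} (hc : ∀ i, 0 ≤ c i) (i : Fin 3) :
    0 ≤ chan lam c i := by
  have : 0 ≤ sg c := add_nonneg (add_nonneg (hc 0) (hc 1)) (hc 2)
  unfold chan
  exact add_nonneg (mul_nonneg h0 (hc i)) (mul_nonneg (by linarith) this)

lemma chan_sum {m : A → V3} (hs : ∀ i, HasSum (fun a => m a i) 1) (lam : ℝ) (i : Fin 3) :
    HasSum (fun a => chan lam (m a) i) 1 := by
  have h := ((hs i).mul_left lam).add ((sg_hasSum hs).mul_left ((1 - lam) / 3))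
  have e : lam * 1 + (1 - lam) / 3 * 3 = 1 := by ring
  rw [e] at h
  exact h

/-- the channel applied to a family (only summability, symmetry and nonnegativity are needed of
the family: it may contain boundary vectors) -/
theorem Fam.chan {m : A → V3} (hnn : ∀ a i, 0 ≤ m a i) (hs : ∀ i, HasSum (fun a => m a i) 1)
    (hsy : ∀ π : Equiv.Perm (Fin 3), ∃ e : A ≃ A, ∀ a i, m (e a) (π i) = m a i)
    {lam : ℝ} (h0 : 0 ≤ lam) (h1 : lam < 1) : Fam (fun a => chan lam (m a)) where
  pz := by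
    intro a
    have h2 : 0 ≤ sg (m a) := add_nonneg (add_nonneg (hnn a 0) (hnn a 1)) (hnn a 2)
    rcases h2.eq_or_lt with h3 | h3
    · right
      have h4 := hnn a 0
      have h5 := hnn a 1
      have h6 := hnn a 2
      unfold sg at h3
      funext i
      show lam * m a i + (1 - lam) / 3 * sg (m a) = 0
      have h7 : m a i = 0 := by
        fin_cases i
        · show m a 0 = 0; linarith
        · show m a 1 = 0; linarith
        · show m a 2 = 0; linarith
      rw [h7]
      unfold sg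
      rw [← h3]
      ring
    · left
      intro i
      show 0 < lam * m a i + (1 - lam) / 3 * sg (m a)
      have h4 := mul_nonneg h0 (hnn a i)
      have h5 : 0 < (1 - lam) / 3 * sg (m a) := mul_pos (by linarith) h3
      linarith
  sum := fun i => chan_sum hs lam i
  symm := by
    intro π
    obtain ⟨e, he⟩ := hsy π
    refine ⟨e, fun a i => ?_⟩
    show lam * m (e a) (π i) + (1 - lam) / 3 * sg (m (e a)) =
      lam * m a i + (1 - lam) / 3 * sg (m a)
    have h2 : sg (m (e a)) = sg (m a) := by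
      rw [sg_eq_sum, sg_eq_sum, ← Equiv.sum_comp π]
      exact Finset.sum_congr rfl fun i _ => he a i
    rw [he, h2]

theorem X_chan (m : A → V3) (lam : ℝ) : X (fun a => chan lam (m a)) = lam ^ 2 * X m := by
  unfold X
  simp_rw [Rf_chan]
  rw [tsum_mul_left]
  ring

theorem Phi_chan {m : A → V3} (hnn : ∀ a i, 0 ≤ m a i) (hs : ∀ i, HasSum (fun a => m a i) 1)
    {lam : ℝ} (h0 : 0 ≤ lam) (h1 : lam ≤ 1) (h : 0 ≤ Phi m) :
    0 ≤ Phi (fun a => chan lam (m a)) := by
  unfold Phi at h ⊢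
  have h2 : ∑' a, lam ^ 3 * Ff (m a) ≤ ∑' a, Ff (chan lam (m a)) :=
    ((smb bFf hnn hs).mul_left _).tsum_le_tsum (fun a => pt_chan h0 h1 (hnn a))
      (smb bFf (fun a i => chan_nn h0 h1 (hnn a) i) (fun i => chan_sum hs lam i))
  rw [tsum_mul_left] at h2
  have h3 : 0 ≤ ∑' a, Ff (m a) := by linarith
  have h4 : 0 ≤ lam ^ 3 * ∑' a, Ff (m a) := mul_nonneg (by positivity) h3
  linarith

end Vale.Agent.P154
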