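import Vale.Agent.P154.FamA

/-! symmetric families of likelihood vectors: powers and mixtures -/

namespace Vale.Agent.P154

variable {A B : Type*}

/-- `k` independent copies of a family, as a family indexed by lists -/
noncomputable def powF (m : A → V3) : ℕ → List A → V3
  | 0, [] => fun _ => 1
  | 0, _ :: _ => 0
  | _ + 1, [] => 0
  | k + 1, a :: l => fun i => m a i * powF m k l i

lemma powF_eq_zero (m : A → V3) : ∀ (k : ℕ) (l : List A), l.length ≠ k → powF m k l = 0
  | 0, [], h => absurd rfl h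
  | 0, _ :: _, _ => rfl
  | _ + 1, [], _ => rfl
  | k + 1, a :: l, h => by
    have h1 : l.length ≠ k := fun h2 => h (by rw [List.length_cons, h2])
    funext i
    show m a i * powF m k l i = 0
    rw [powF_eq_zero m k l h1]
    simp

lemma cons_inj : Function.Injective (fun x : A × List A => x.1 :: x.2) := by
  rintro ⟨a, l⟩ ⟨b, l'⟩ h
  simp only [List.cons.injEq] at h
  rw [h.1, h.2]

lemma powF_succ_hasSum (m : A → V3) (k : ℕ) {F : V3 → ℝ} (hF : F 0 = 0) {s : ℝ} :
    HasSum (fun x => F (prodF m (powF m k) x)) s ↔ HasSum (fun l => F (powF m (k + 1) l)) s := by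
  rw [← (cons_inj (A := A)).hasSum_iff (f := fun l => F (powF m (k + 1) l))]
  · rfl
  · intro l hl
    cases l with
    | nil => exact hF
    | cons a l => exact absurd ⟨(a, l), rfl⟩ hl

lemma powF_zero_hasSum (m : A → V3) {F : V3 → ℝ} (hF : F 0 = 0) :
    HasSum (fun l => F (powF m 0 l)) (F (fun _ => 1)) := by
  have h := hasSum_single (f := fun l => F (powF m 0 l)) ([] : List A) (by
    intro l hl
    cases l with
    | nil => exact absurd rfl hl
    | cons a l => exact hF)
  exact h

lemma powF_map (m : A → V3) (π : Equiv.Perm (Fin 3)) (e : A ≃ A)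
    (he : ∀ a i, m (e a) (π i) = m a i) :
    ∀ (k : ℕ) (l : List A) (i : Fin 3), powF m k (l.map e) (π i) = powF m k l i
  | 0, [], _ => rfl
  | 0, _ :: _, _ => rfl
  | _ + 1, [], _ => rfl
  | k + 1, a :: l, i => by
    show m (e a) (π i) * powF m k (l.map e) (π i) = m a i * powF m k l i
    rw [he, powF_map m π e he k l i]

/-- `List.map` of an equivalence -/
def lmap (e : A ≃ A) : List A ≃ List A where
  toFun := List.map e
  invFun := List.map e.symm
  left_inv := fun l => by simp [List.map_map]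
  right_inv := fun l => by simp [List.map_map]

theorem Fam.pow {m : A → V3} (hm : Fam m) (k : ℕ) : Fam (powF m k) := by
  induction k with
  | zero =>
    refine ⟨?_, ?_, ?_⟩
    · intro l
      cases l with
      | nil => left; intro i; exact one_pos
      | cons a l => right; rfl
    · intro i
      exact powF_zero_hasSum m (F := fun c => c i) rfl
    · intro π
      obtain ⟨e, he⟩ := hm.symm π
      exact ⟨lmap e, fun l i => powF_map m π e he 0 l i⟩
  | succ k ih =>
    have hP := hm.prod ih
    refine ⟨?_, ?_, ?_⟩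
    · intro l
      cases l with
      | nil => right; rfl
      | cons a l => exact hP.pz (a, l)
    · intro i
      exact (powF_succ_hasSum m k (F := fun c => c i) rfl).1 (hP.sum i)
    · intro π
      obtain ⟨e, he⟩ := hm.symm π
      exact ⟨lmap e, fun l i => powF_map m π e he (k + 1) l i⟩

lemma Rf_one : Rf (fun _ => 1) = 0 := by unfold Rf; norm_num

lemma Ff_one : Ff (fun _ => 1) = 0 := by
  unfold Ff Sf gm sg
  norm_num

lemma Phi_powF_zero (m : A → V3) : Phi (powF m 0) = 0 := by
  unfold Phi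
  rw [(powF_zero_hasSum m (F_zero bFf)).tsum_eq, Ff_one, mul_zero]

lemma X_powF_zero (m : A → V3) : X (powF m 0) = 0 := by
  unfold X
  rw [(powF_zero_hasSum m (F_zero bRf)).tsum_eq, Rf_one, mul_zero]

lemma Phi_powF_succ {m : A → V3} (hm : Fam m) (k : ℕ) :
    Phi (powF m (k + 1)) = Phi (prodF m (powF m k)) := by
  unfold Phi
  have hP := hm.prod (hm.pow k)
  rw [((powF_succ_hasSum m k (F_zero bFf)).1 (smb bFf hP.nn hP.sum).hasSum).tsum_eq]

lemma X_powF_succ {m : A → V3} (hm : Fam m) (k : ℕ) :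
    X (powF m (k + 1)) = X (prodF m (powF m k)) := by
  unfold X
  have hP := hm.prod (hm.pow k)
  rw [((powF_succ_hasSum m k (F_zero bRf)).1 (smb bRf hP.nn hP.sum).hasSum).tsum_eq]

theorem Phi_pow {m : A → V3} (hm : Fam m) (h : 0 ≤ Phi m) (k : ℕ) : 0 ≤ Phi (powF m k) := by
  induction k with
  | zero => rw [Phi_powF_zero]
  | succ k ih =>
    rw [Phi_powF_succ hm]
    exact Phi_prod hm (hm.pow k) h ih

theorem X_pow {m : A → V3} (hm : Fam m) (h : 0 ≤ Phi m) (k : ℕ) :
    X (powF m k) ≤ k * X m - (if 2 ≤ k then X m ^ 2 / 100 else 0) := by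
  have hX := X_nonneg hm
  have hX1 := X_le_one hm
  induction k with
  | zero => rw [X_powF_zero]; simp
  | succ k ih =>
    rw [X_powF_succ hm]
    have h1 := X_prod hm (hm.pow k) h (Phi_pow hm h k)
    have h2 := X_nonneg (hm.pow k)
    refine h1.trans ?_
    push_cast
    rcases Nat.lt_or_ge k 1 with hk | hk
    · have hk0 : k = 0 := by omega
      subst hk0
      rw [X_powF_zero]
      simp
    · rw [if_pos (by omega)]
      rcases Nat.lt_or_ge k 2 with hk2 | hk2
      · have hk1 : k = 1 := by omega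
        subst hk1
        rw [if_neg (by norm_num)] at ih
        push_cast at ih ⊢
        nlinarith
      · rw [if_pos hk2] at ih
        nlinarith [mul_nonneg hX h2]

/-- mixture over the number of copies (the number is observed) -/
noncomputable def mixF (w : ℕ → ℝ) (m : A → V3) : List A → V3 :=
  fun l i => w l.length * powF m l.length l i

lemma len_inj : Function.Injective (fun l : List A => (l.length, l)) := by
  intro l l' h
  exact (Prod.mk.inj h).2

lemma mix_hasSum_iff (w : ℕ → ℝ) (m : A → V3) {F : V3 → ℝ} (hF : F 0 = 0) {s : ℝ} :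
    HasSum (fun l => w l.length * F (powF m l.length l)) s ↔
      HasSum (fun x : ℕ × List A => w x.1 * F (powF m x.1 x.2)) s := by
  rw [← (len_inj (A := A)).hasSum_iff (f := fun x : ℕ × List A => w x.1 * F (powF m x.1 x.2))]
  · rfl
  · rintro ⟨k, l⟩ hl
    have h1 : l.length ≠ k := fun h => hl ⟨l, by rw [← h]⟩
    simp only
    rw [powF_eq_zero m k l h1, hF, mul_zero]

theorem Fam.mix {w : ℕ → ℝ} (hw : ∀ k, 0 ≤ w k) (hw1 : HasSum w 1) {m : A → V3} (hm : Fam m) :
    Fam (mixF w m) where
  pz := by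
    intro l
    rcases (hw l.length).eq_or_lt with h | h
    · right
      funext i
      show w l.length * powF m l.length l i = 0
      rw [← h, zero_mul]
    · rcases (hm.pow l.length).pz l with h2 | h2
      · left
        intro i
        exact mul_pos h (h2 i)
      · right
        funext i
        show w l.length * powF m l.length l i = 0
        rw [h2]; simp
  sum := by
    intro i
    have h0 := mix_hasSum_iff w m (F := fun c => c i) rfl (s := 1)
    refine h0.2 ?_
    have hfib : ∀ k, HasSum (fun l => w k * powF m k l i) (w k) := by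
      intro k
      have := ((hm.pow k).sum i).mul_left (w k)
      rwa [mul_one] at this
    have hs : Summable (fun x : ℕ × List A => w x.1 * powF m x.1 x.2 i) := by
      rw [summable_prod_of_nonneg]
      · refine ⟨fun k => (hfib k).summable, ?_⟩
        simp only [fun k => (hfib k).tsum_eq]
        exact hw1.summable
      · intro x
        exact mul_nonneg (hw _) ((hm.pow x.1).nn _ _)
    have h1 := hs.hasSum.prod_fiberwise hfib
    have h3 := h1.unique hw1
    have h2 := hs.hasSum
    rw [h3] at h2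
    exact h2
  symm := by
    intro π
    obtain ⟨e, he⟩ := hm.symm π
    refine ⟨lmap e, fun l i => ?_⟩
    show w (l.map e).length * powF m (l.map e).length (l.map e) (π i) =
      w l.length * powF m l.length l i
    rw [List.length_map, powF_map m π e he]

lemma tsum_mix {F : V3 → ℝ} {C : ℝ} (hF : ∀ c : V3, (∀ i, 0 ≤ c i) → |F c| ≤ C * sg c)
    (hH : ∀ (t : ℝ), 0 ≤ t → ∀ c : V3, (∀ i, 0 ≤ c i) → F (fun i => t * c i) = t * F c)
    {w : ℕ → ℝ} (hw : ∀ k, 0 ≤ w k) (hw1 : HasSum w 1) {m : A → V3} (hm : Fam m) :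
    HasSum (fun k => w k * ∑' l, F (powF m k l)) (∑' l, F (mixF w m l)) := by
  have hM := Fam.mix hw hw1 hm
  have h1 : HasSum (fun l => F (mixF w m l)) (∑' l, F (mixF w m l)) :=
    (smb hF hM.nn hM.sum).hasSum
  have e : (fun l => F (mixF w m l)) = fun l => w l.length * F (powF m l.length l) := by
    funext l
    exact hH _ (hw _) _ ((hm.pow _).nn l)
  have h2 : HasSum (fun l => w l.length * F (powF m l.length l)) (∑' l, F (mixF w m l)) := by
    rw [← e]; exact h1
  rw [mix_hasSum_iff w m (F_zero hF)] at h2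
  refine h2.prod_fiberwise fun k => ?_
  exact ((smb hF (hm.pow k).nn (hm.pow k).sum).hasSum).mul_left (w k)

lemma sg_smul (t : ℝ) (c : V3) : sg (fun i => t * c i) = t * sg c := by unfold sg; ring

lemma Rf_smul (t : ℝ) (_ht : 0 ≤ t) (c : V3) (_hc : ∀ i, 0 ≤ c i) :
    Rf (fun i => t * c i) = t * Rf c := by
  unfold Rf
  rw [sg_smul]
  rcases eq_or_ne t 0 with h | h
  · rw [h]; simp
  · rcases eq_or_ne (sg c) 0 with h2 | h2
    · rw [h2]; simp
    · field_simp

lemma Sf_smul (t : ℝ) (c : V3) : Sf (fun i => t * c i) = t * Sf c := by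
  unfold Sf
  rw [sg_smul]
  rcases eq_or_ne t 0 with h | h
  · rw [h]; simp
  · rcases eq_or_ne (sg c) 0 with h2 | h2
    · rw [h2]; simp
    · field_simp

lemma gm_smul (t : ℝ) (ht : 0 ≤ t) (c : V3) (hc : ∀ i, 0 ≤ c i) :
    gm (fun i => t * c i) = t * gm c := by
  unfold gm
  have e : t * c 0 * (t * c 1) * (t * c 2) = t ^ 3 * (c 0 * c 1 * c 2) := by ring
  have hc3 : 0 ≤ c 0 * c 1 * c 2 := mul_nonneg (mul_nonneg (hc 0) (hc 1)) (hc 2)
  rw [e, Real.mul_rpow (by positivity) hc3]
  have e2 : (t ^ 3) ^ (1 / 3 : ℝ) = t := by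
    rw [← Real.rpow_natCast, ← Real.rpow_mul ht]
    norm_num
  rw [e2]
  ring

lemma Ff_smul (t : ℝ) (ht : 0 ≤ t) (c : V3) (hc : ∀ i, 0 ≤ c i) :
    Ff (fun i => t * c i) = t * Ff c := by
  unfold Ff
  rw [Sf_smul, gm_smul t ht c hc, sg_smul]
  rcases eq_or_ne t 0 with h | h
  · rw [h]; simp
  · rcases eq_or_ne (sg c) 0 with h2 | h2
    · rw [h2]; simp
    · field_simp

theorem Phi_mix {w : ℕ → ℝ} (hw : ∀ k, 0 ≤ w k) (hw1 : HasSum w 1) {m : A → V3} (hm : Fam m)
    (h : 0 ≤ Phi m) : 0 ≤ Phi (mixF w m) := by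
  have h1 := tsum_mix bFf Ff_smul hw hw1 hm
  have h2 : 0 ≤ ∑' l, Ff (mixF w m l) := by
    refine h1.nonneg fun k => mul_nonneg (hw k) ?_
    have := Phi_pow hm h k
    unfold Phi at this
    linarith
  unfold Phi
  linarith

lemma tail_hasSum {w : ℕ → ℝ} (hw1 : HasSum w 1) :
    HasSum (fun k => if 2 ≤ k then w k else 0) (1 - w 0 - w 1) := by
  have h0 : HasSum (fun k => if k = 0 then w 0 else 0) (w 0) := hasSum_ite_eq 0 (w 0)
  have h1 : HasSum (fun k => if k = 1 then w 1 else 0) (w 1) := hasSum_ite_eq 1 (w 1)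
  have h2 := (hw1.sub h0).sub h1
  have e : (fun k => if 2 ≤ k then w k else 0) =
      fun k => w k - (if k = 0 then w 0 else 0) - (if k = 1 then w 1 else 0) := by
    funext k
    match k with
    | 0 => simp
    | 1 => simp
    | k + 2 => simp
  rw [e]
  exact h2

theorem X_mix {w : ℕ → ℝ} (hw : ∀ k, 0 ≤ w k) (hw1 : HasSum w 1) {μ : ℝ}
    (hμ : HasSum (fun k => w k * k) μ) {m : A → V3} (hm : Fam m) (h : 0 ≤ Phi m) :
    X (mixF w m) ≤ μ * X m - (1 - w 0 - w 1) * X m ^ 2 / 100 := by
  have h1 := (tsum_mix bRf Rf_smul hw hw1 hm).mul_left (1 / 3)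
  have h2 := (hμ.mul_right (X m)).sub ((tail_hasSum hw1).mul_right (X m ^ 2 / 100))
  have h3 := hasSum_le (fun k => ?_) h1 h2
  · unfold X at h3 ⊢
    refine h3.trans (le_of_eq ?_)
    ring
  · have h4 := mul_le_mul_of_nonneg_left (X_pow hm h k) (hw k)
    have e1 : 1 / 3 * (w k * ∑' l, Rf (powF m k l)) = w k * X (powF m k) := by
      unfold X; ring
    rw [e1]
    refine h4.trans (le_of_eq ?_)
    split_ifs <;> ring

end Vale.Agent.P154
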