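import Vale.Agent.P154.Laws
import Vale.Agent.P154.KS

/-! the exact threshold for the ferromagnetic three-state Potts channel -/

namespace Vale.Agent.P154

open scoped ENNReal NNReal
open Filter Topology

/-- a dichotomy turned into two equivalences -/
theorem dichotomy {a : ℕ → ℝ} {t : ℝ} (h1 : t ≤ 1 → Tendsto a atTop (𝓝 0))
    (h2 : 1 < t → ∃ c, 0 < c ∧ ∀ n, c ≤ a n) :
    ((∃ c, 0 < c ∧ ∀ n, c ≤ a n) ↔ 1 < t) ∧ (Tendsto a atTop (𝓝 0) ↔ t ≤ 1) := by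
  have key : (∃ c, 0 < c ∧ ∀ n, c ≤ a n) → ¬ Tendsto a atTop (𝓝 0) := by
    rintro ⟨c, hc, hn⟩ ht
    exact absurd (ge_of_tendsto' ht hn) (not_le.2 hc)
  refine ⟨⟨fun h => ?_, h2⟩, ⟨fun h => ?_, h1⟩⟩
  · by_contra hcon
    exact key h (h1 (not_lt.1 hcon))
  · by_contra hcon
    exact key (h2 (not_le.1 hcon)) h

theorem regular_iff {d : ℕ} (hd : 2 ≤ d) {lam : ℝ} (h : -1 / 2 ≤ lam ∧ lam ≤ 1)
    (h0 : 0 ≤ lam) :
    ((∃ c, 0 < c ∧ ∀ n, c ≤ an (PMF.pure d) (potts lam h) n) ↔ 1 < d * lam ^ 2) ∧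
    (Tendsto (fun n => an (PMF.pure d) (potts lam h) n) atTop (𝓝 0) ↔ d * lam ^ 2 ≤ 1) :=
  dichotomy (fun hle => nonrecon_regular hd h h0 hle)
    (fun hgt => reconstruction h (pure_mean d) (pure_sq d) hgt)

theorem poisson_iff (d : ℝ≥0) {lam : ℝ} (h : -1 / 2 ≤ lam ∧ lam ≤ 1)
    (h0 : 0 ≤ lam) :
    ((∃ c, 0 < c ∧ ∀ n, c ≤ an (poisson d) (potts lam h) n) ↔ 1 < d * lam ^ 2) ∧
    (Tendsto (fun n => an (poisson d) (potts lam h) n) atTop (𝓝 0) ↔ d * lam ^ 2 ≤ 1) :=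
  dichotomy (fun hle => nonrecon_poisson h h0 hle)
    (fun hgt => reconstruction h (poisson_mean d) (poisson_sq d) hgt)

end Vale.Agent.P154
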