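import Vale.Agent.P154.GDefs

/-! basic facts on the squared distance -/

namespace Vale.Agent.P154.G

variable {q : ℕ}

lemma sg_nonneg {c : V q} (hc : ∀ i, 0 ≤ c i) : 0 ≤ sg c := Finset.sum_nonneg fun i _ => hc i

lemma eq_zero_of_sg {c : V q} (hc : ∀ i, 0 ≤ c i) (h : sg c = 0) : c = 0 := by
  funext i
  exact (Finset.sum_eq_zero_iff_of_nonneg (fun i _ => hc i)).1 h i (Finset.mem_univ i)

lemma sg_smul (t : ℝ) (c : V q) : sg (fun i => t * c i) = t * sg c := by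
  unfold sg; rw [Finset.mul_sum]

theorem Rf_nonneg (hq : 2 ≤ q) {c : V q} (hc : ∀ i, 0 ≤ c i) : 0 ≤ Rf c := by
  unfold Rf
  have h1 : (∑ i, c i) ^ 2 ≤ q * ∑ i, c i ^ 2 := by
    have := sq_sum_le_card_mul_sum_sq (s := (Finset.univ : Finset (Fin q))) (f := c)
    simpa using this
  have hq1 : (1 : ℝ) ≤ q - 1 := by
    have : (2 : ℝ) ≤ q := by exact_mod_cast hq
    linarith
  exact div_nonneg (by linarith) (mul_nonneg (by linarith) (sg_nonneg hc))

theorem Rf_le (hq : 2 ≤ q) {c : V q} (hc : ∀ i, 0 ≤ c i) : Rf c ≤ sg c := by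
  have hq1 : (1 : ℝ) ≤ q - 1 := by
    have : (2 : ℝ) ≤ q := by exact_mod_cast hq
    linarith
  have hs := sg_nonneg hc
  rcases hs.eq_or_lt with h | h
  · unfold Rf
    have h2 : ∑ i, c i = 0 := h.symm
    rw [h2, mul_zero, div_zero]
    exact hs
  · unfold Rf
    have h0 : 0 < ∑ i, c i := h
    rw [div_le_iff₀ (mul_pos (by linarith) h0)]
    have h1 : ∑ i, c i ^ 2 ≤ (∑ i, c i) ^ 2 :=
      Finset.sum_sq_le_sq_sum_of_nonneg fun i _ => hc i
    unfold sg
    nlinarith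

lemma Rf_smul (t : ℝ) (_ht : 0 ≤ t) (c : V q) (_hc : ∀ i, 0 ≤ c i) :
    Rf (fun i => t * c i) = t * Rf c := by
  unfold Rf
  have e1 : ∑ i, t * c i = t * ∑ i, c i := by rw [Finset.mul_sum]
  have e2 : ∑ i, (t * c i) ^ 2 = t ^ 2 * ∑ i, c i ^ 2 := by
    rw [Finset.mul_sum]
    exact Finset.sum_congr rfl fun i _ => by ring
  rw [e1, e2]
  rcases eq_or_ne t 0 with h | h
  · rw [h]; simp
  · have e3 : (q : ℝ) * (t ^ 2 * ∑ i, c i ^ 2) - (t * ∑ i, c i) ^ 2 =
        t * (t * (q * ∑ i, c i ^ 2 - (∑ i, c i) ^ 2)) := by ring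
    have e4 : ((q : ℝ) - 1) * (t * ∑ i, c i) = t * ((q - 1) * ∑ i, c i) := by ring
    rw [e3, e4, mul_div_mul_left _ _ h, mul_div_assoc]

lemma Rf_one : Rf (fun _ : Fin q => 1) = 0 := by
  unfold Rf
  simp
  left
  ring

lemma sg_chan (hq : 2 ≤ q) (lam : ℝ) (c : V q) : sg (chan lam c) = sg c := by
  have hq0 : (q : ℝ) ≠ 0 := by
    have : (2 : ℝ) ≤ q := by exact_mod_cast hq
    linarith
  unfold chan
  show ∑ i, (lam * c i + (1 - lam) / q * sg c) = sg c
  rw [Finset.sum_add_distrib, ← Finset.mul_sum, Finset.sum_const, Finset.card_univ,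
    Fintype.card_fin, nsmul_eq_mul]
  have : ∑ i, c i = sg c := rfl
  rw [this]
  field_simp
  ring

theorem Rf_chan (hq : 2 ≤ q) (lam : ℝ) (c : V q) : Rf (chan lam c) = lam ^ 2 * Rf c := by
  have hq0 : (q : ℝ) ≠ 0 := by
    have : (2 : ℝ) ≤ q := by exact_mod_cast hq
    linarith
  have h1 : ∑ i, chan lam c i = ∑ i, c i := sg_chan hq lam c
  have h2 : ∑ i, chan lam c i ^ 2 = lam ^ 2 * ∑ i, c i ^ 2 +
      (1 - lam ^ 2) / q * (∑ i, c i) ^ 2 := by
    have e : ∀ i, chan lam c i ^ 2 = lam ^ 2 * c i ^ 2 +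
        (2 * lam * ((1 - lam) / q) * sg c) * c i + ((1 - lam) / q * sg c) ^ 2 := by
      intro i
      unfold chan
      ring
    rw [Finset.sum_congr rfl fun i _ => e i, Finset.sum_add_distrib, Finset.sum_add_distrib,
      ← Finset.mul_sum, ← Finset.mul_sum, Finset.sum_const, Finset.card_univ, Fintype.card_fin,
      nsmul_eq_mul]
    have : ∑ i, c i = sg c := rfl
    rw [this]
    field_simp
    ring
  unfold Rf
  rw [h1, h2]
  rw [mul_div_assoc']
  congr 1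
  field_simp
  ring

end Vale.Agent.P154.G
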