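import Vale.Agent.P154.GDeg

/-! bounding a law by a finitely supported one, three states -/

namespace Vale.Agent.P154.G

open scoped ENNReal NNReal
open Filter Topology

variable {A B D : Type*} {q : ℕ}

/-- symmetric sublinear functionals -/
structure SSub (F : V q → ℝ) : Prop extends Sub F where
  symm : ∀ (π : Equiv.Perm (Fin q)) (c : V q), (∀ i, 0 ≤ c i) → F (fun i => c (π i)) = F c

/-- the law of the family `m` is dominated by the masses `w` at the points `g` -/
def Bd {ι : Type*} [Fintype ι] (m : A → V q) (g : ι → V q) (w : ι → ℝ) : Prop :=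
  ∀ F : V q → ℝ, SSub F → Phi F m ≤ ∑ k, w k * F (g k)

lemma SSub.comp_chan (hq : 2 ≤ q) {F : V q → ℝ} (hF : SSub F) {lam : ℝ}
    (h : 0 ≤ 1 + ((q : ℝ) - 1) * lam ∧ lam ≤ 1) : SSub (fun c => F (chan lam c)) where
  toSub := hF.toSub.comp_chan hq h
  symm := fun π c hc => by
    have h1 := hF.symm π (chan lam c) (chan_nn2 h hc)
    have e : chan lam (fun i => c (π i)) = fun i => chan lam c (π i) := by
      funext i
      show lam * c (π i) + (1 - lam) / q * (∑ i, c (π i)) =
        lam * c (π i) + (1 - lam) / q * ∑ i, c i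
      rw [Equiv.sum_comp π c]
    show F (chan lam (fun i => c (π i))) = F (chan lam c)
    rw [e]
    exact h1

lemma SSub.spread {F : V q → ℝ} (hF : SSub F) {ι : Type*} (s : Finset ι) (a : ι → ℝ)
    (ha : ∀ j, 0 ≤ a j) (g : ι → V q) (hg : ∀ j i, 0 ≤ g j i) (π : ι → Equiv.Perm (Fin q)) :
    F (fun i => ∑ j ∈ s, a j * g j (π j i)) ≤ ∑ j ∈ s, a j * F (g j) := by
  have h := hF.toSub.finsum s (fun j i => a j * g j (π j i)) (fun j i => mul_nonneg (ha j) (hg j _))
  refine h.trans (le_of_eq (Finset.sum_congr rfl fun j _ => ?_))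
  rw [hF.smul (a j) (ha j) (fun i => g j (π j i)) (fun i => hg j _), hF.symm (π j) (g j) (hg j)]

/-- the vertex -/
def vert : V 3 := ![1, 0, 0]

lemma vert_nn (i : Fin 3) : 0 ≤ vert i := by
  fin_cases i <;> simp [vert]

/-- everything is dominated by the vertex -/
lemma SSub.le_vert {F : V 3 → ℝ} (hF : SSub F) {c : V 3} (hc : ∀ i, 0 ≤ c i) :
    F c ≤ sg c * F vert := by
  have h := hF.spread Finset.univ c hc (fun _ => vert) (fun _ => vert_nn)
    (fun j => Equiv.swap 0 j)
  have e : (fun i => ∑ j : Fin 3, c j * vert (Equiv.swap 0 j i)) = c := by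
    funext i
    rw [Fin.sum_univ_three]
    fin_cases i <;> simp [vert, Equiv.swap_apply_def]
  rw [e, ← Finset.sum_mul] at h
  exact h

/-- rounding: masses may be moved to the vertex -/
theorem Bd.round {ι : Type*} [Fintype ι] [DecidableEq ι] {m : A → V 3} {g : ι → V 3} {w : ι → ℝ}
    (h : Bd m g w) (i0 : ι) (h0 : g i0 = vert) (hg : ∀ k i, 0 ≤ g k i) (hg1 : ∀ k, sg (g k) = 1)
    {w' : ι → ℝ} (hw : ∀ k, k ≠ i0 → w' k ≤ w k) (hs : ∑ k, w' k = ∑ k, w k) : Bd m g w' := by
  intro F hF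
  refine (h F hF).trans ?_
  have e : ∀ u : ι → ℝ, ∑ k, u k * F (g k) = ∑ k, u k * (F (g k) - F vert) +
      (∑ k, u k) * F vert := by
    intro u
    rw [Finset.sum_mul, ← Finset.sum_add_distrib]
    exact Finset.sum_congr rfl fun k _ => by ring
  rw [e w, e w', hs]
  refine add_le_add (Finset.sum_le_sum fun k _ => ?_) le_rfl
  by_cases hk : k = i0
  · rw [hk, h0, sub_self, mul_zero, mul_zero]
  · have h1 := hF.le_vert (hg k)
    rw [hg1, one_mul] at h1
    have := hw k hk
    nlinarith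

lemma SSub.SS_left {F : V q → ℝ} (hF : SSub F) {r : V q} (hr : ∀ i, 0 ≤ r i) :
    SSub (fun c => SS F c r) where
  add := fun c d hc hd => by
    unfold SS
    rw [← Finset.sum_add_distrib]
    exact Finset.sum_le_sum fun π _ =>
      (hF.toSub.mul (u := fun i => r (π i)) (fun i => hr _)).add c d hc hd
  smul := fun s hs c hc => by
    unfold SS
    rw [Finset.mul_sum]
    exact Finset.sum_congr rfl fun π _ =>
      (hF.toSub.mul (u := fun i => r (π i)) (fun i => hr _)).smul s hs c hc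
  bdd := by
    choose C hC0 hC using fun π : Equiv.Perm (Fin q) =>
      (hF.toSub.mul (u := fun i => r (π i)) (fun i => hr _)).bdd
    refine ⟨∑ π, C π, Finset.sum_nonneg fun π _ => hC0 π, fun c hc => ?_⟩
    unfold SS
    rw [Finset.sum_mul]
    exact (Finset.abs_sum_le_sum_abs _ _).trans (Finset.sum_le_sum fun π _ => hC π c hc)
  symm := fun σ c hc => by
    show ∑ π : Equiv.Perm (Fin q), F (fun i => c (σ i) * r (π i)) =
      ∑ π : Equiv.Perm (Fin q), F (fun i => c i * r (π i))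
    rw [← Equiv.sum_comp (Equiv.mulRight σ)]
    refine Finset.sum_congr rfl fun π _ => ?_
    exact hF.symm σ (fun i => c i * r (π i)) (fun i => mul_nonneg (hc _) (hr _))

lemma SS_comm' {F : V q → ℝ} (hF : SSub F) {c r : V q} (hc : ∀ i, 0 ≤ c i)
    (hr : ∀ i, 0 ≤ r i) : SS F c r = SS F r c := by
  unfold SS
  rw [← Equiv.sum_comp (Equiv.inv (Equiv.Perm (Fin q)))]
  refine Finset.sum_congr rfl fun π _ => ?_
  have h := hF.symm π (fun i => c i * r (π⁻¹ i)) (fun i => mul_nonneg (hc _) (hr _))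
  have e : (fun i => c (π i) * r (π⁻¹ (π i))) = fun i => r i * c (π i) := by
    funext i
    have h2 : π⁻¹ (π i) = i := π.symm_apply_apply i
    rw [h2, mul_comm]
  show F (fun i => c i * r (π⁻¹ i)) = F (fun i => r i * c (π i))
  rw [← e]
  exact h.symm

lemma SSub.SS_right {F : V q → ℝ} (hF : SSub F) {c : V q} (hc : ∀ i, 0 ≤ c i) :
    ∀ (m : A → V q), (∀ a i, 0 ≤ m a i) → (fun a => SS F c (m a)) = fun a => SS F (m a) c := by
  intro m hm
  funext a
  exact SS_comm' hF hc (hm a)

/-- the product of two dominated laws -/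
theorem Bd.prod (hq : 2 ≤ q) {ι κ : Type*} [Fintype ι] [Fintype κ] {m : A → V q} {m' : B → V q}
    (hm : NFam m) (hm' : NFam m') {g : ι → V q} {g' : κ → V q} {w : ι → ℝ} {w' : κ → ℝ}
    (hg : ∀ k i, 0 ≤ g k i) (hg' : ∀ k i, 0 ≤ g' k i) (hw : ∀ k, 0 ≤ w k)
    (h : Bd m g w) (h' : Bd m' g' w') {F : V q → ℝ} (hF : SSub F) :
    Phi F (prodF m m') ≤
      ∑ k, ∑ l, w k * w' l * (1 / ((q - 1).factorial : ℝ) * SS F (g k) (g' l)) := by
  have hq0 := q_pos hq
  obtain ⟨C, hC0, hC⟩ := hF.bdd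
  have s1 := tsum_SS' hC hm hm'
  -- sum over the first factor for fixed second factor
  rw [← (Equiv.prodComm B A).hasSum_iff] at s1
  have s2 := s1.prod_fiberwise fun b => ((hF.SS_left (hm'.nn b)).toSub.smb hm).hasSum
  have hS : ∀ k, Summable fun b => SS F (g k) (m' b) := by
    intro k
    rw [hF.SS_right (hg k) m' hm'.nn]
    exact (hF.SS_left (hg k)).toSub.smb hm'
  have s3 : HasSum (fun b => ∑ k, w k * (q * SS F (g k) (m' b)))
      (∑ k, w k * (q * ∑' b, SS F (g k) (m' b))) :=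
    hasSum_sum fun k _ => ((hS k).hasSum.mul_left _).mul_left _
  have h1 := hasSum_le (fun b => ?_) s2 s3
  · have h2 : ∀ k, ∑' b, SS F (g k) (m' b) ≤ q * ∑ l, w' l * SS F (g k) (g' l) := by
      intro k
      have h3 := h' _ (hF.SS_left (hg k))
      unfold Phi at h3
      rw [hF.SS_right (hg k) m' hm'.nn]
      have e : ∑ l, w' l * SS F (g k) (g' l) = ∑ l, w' l * SS F (g' l) (g k) :=
        Finset.sum_congr rfl fun l _ => by rw [SS_comm' hF (hg k) (hg' l)]
      rw [e]
      have h4 := mul_le_mul_of_nonneg_left h3 hq0.le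
      have e5 : (q : ℝ) * (1 / q * ∑' b, SS F (m' b) (g k)) = ∑' b, SS F (m' b) (g k) := by
        field_simp
      rw [e5] at h4
      exact h4
    have h5 : (q.factorial : ℝ) * ∑' x, F (prodF m m' x) ≤
        ∑ k, w k * (q * (q * ∑ l, w' l * SS F (g k) (g' l))) :=
      h1.trans (Finset.sum_le_sum fun k _ => mul_le_mul_of_nonneg_left
        (mul_le_mul_of_nonneg_left (h2 k) hq0.le) (hw k))
    have h6 := fact_div hq (∑' x, F (prodF m m' x))
    have hf : (0 : ℝ) < 1 / ((q - 1).factorial : ℝ) := by positivity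
    have h7 := mul_le_mul_of_nonneg_left h5 hf.le
    rw [h6] at h7
    unfold Phi
    have h8 := mul_le_mul_of_nonneg_left h7 (show (0 : ℝ) ≤ 1 / q ^ 2 by positivity)
    have e9 : 1 / (q : ℝ) ^ 2 * (q * ∑' x, F (prodF m m' x)) =
        1 / q * ∑' x, F (prodF m m' x) := by field_simp
    rw [e9] at h8
    refine h8.trans (le_of_eq ?_)
    rw [Finset.mul_sum, Finset.mul_sum]
    refine Finset.sum_congr rfl fun k _ => ?_
    rw [Finset.mul_sum, Finset.mul_sum, Finset.mul_sum, Finset.mul_sum, Finset.mul_sum]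
    refine Finset.sum_congr rfl fun l _ => ?_
    field_simp
  · have h3 := h _ (hF.SS_left (hm'.nn b))
    unfold Phi at h3
    have h4 := mul_le_mul_of_nonneg_left h3 hq0.le
    have e5 : (q : ℝ) * (1 / q * ∑' a, SS F (m a) (m' b)) = ∑' a, SS F (m a) (m' b) := by
      field_simp
    rw [e5, Finset.mul_sum] at h4
    refine h4.trans (le_of_eq (Finset.sum_congr rfl fun k _ => ?_))
    ring

theorem Bd.prodT (hq : 2 ≤ q) {ι κ η : Type*} [Fintype ι] [Fintype κ] [Fintype η]
    {m : A → V q} {m' : B → V q}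
    (hm : NFam m) (hm' : NFam m') {g : ι → V q} {g' : κ → V q} {w : ι → ℝ} {w' : κ → ℝ}
    (hg : ∀ k i, 0 ≤ g k i) (hg' : ∀ k i, 0 ≤ g' k i) (hw : ∀ k, 0 ≤ w k) (hw' : ∀ k, 0 ≤ w' k)
    (h : Bd m g w) (h' : Bd m' g' w') {g'' : η → V q} {T : ι → κ → η → ℝ}
    (hT : ∀ F : V q → ℝ, SSub F → ∀ k l,
      1 / ((q - 1).factorial : ℝ) * SS F (g k) (g' l) ≤ ∑ j, T k l j * F (g'' j)) :
    Bd (prodF m m') g'' (fun j => ∑ k, ∑ l, w k * w' l * T k l j) := by
  intro F hF
  refine (Bd.prod hq hm hm' hg hg' hw h h' hF).trans ?_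
  have e : ∑ j, (∑ k, ∑ l, w k * w' l * T k l j) * F (g'' j) =
      ∑ k, ∑ l, w k * w' l * ∑ j, T k l j * F (g'' j) := by
    simp_rw [Finset.sum_mul, Finset.mul_sum]
    rw [Finset.sum_comm]
    refine Finset.sum_congr rfl fun k _ => ?_
    rw [Finset.sum_comm]
    refine Finset.sum_congr rfl fun l _ => Finset.sum_congr rfl fun j _ => ?_
    ring
  rw [e]
  exact Finset.sum_le_sum fun k _ => Finset.sum_le_sum fun l _ =>
    mul_le_mul_of_nonneg_left (hT F hF k l) (mul_nonneg (hw k) (hw' l))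

theorem Bd.chan (hq : 2 ≤ q) {ι : Type*} [Fintype ι] {m : A → V q} {g : ι → V q} {w : ι → ℝ}
    (h : Bd m g w) {lam : ℝ} (hl : 0 ≤ 1 + ((q : ℝ) - 1) * lam ∧ lam ≤ 1) :
    Bd (fun a => G.chan lam (m a)) (fun k => G.chan lam (g k)) w := fun F hF =>
  h _ (hF.comp_chan hq hl)

theorem Bd.of_dom (hq : 2 ≤ q) {ι : Type*} [Fintype ι] {m : A → V q} {m' : B → V q}
    {g : ι → V q} {w : ι → ℝ} (hd : Dom m m') (h : Bd m' g w) : Bd m g w := fun F hF => by
  have hq0 := q_pos hq
  exact (mul_le_mul_of_nonneg_left (hd F hF.toSub) (by positivity)).trans (h F hF)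

/-- change of the dominating law -/
theorem Bd.mono_law {ι κ : Type*} [Fintype ι] [Fintype κ] {m : A → V q} {g : ι → V q} {w : ι → ℝ}
    (hw : ∀ k, 0 ≤ w k)
    (h : Bd m g w) {g' : κ → V q} {T : ι → κ → ℝ}
    (hT : ∀ F : V q → ℝ, SSub F → ∀ k, F (g k) ≤ ∑ j, T k j * F (g' j)) :
    Bd m g' (fun j => ∑ k, w k * T k j) := by
  intro F hF
  refine (h F hF).trans ?_
  have e : ∑ j, (∑ k, w k * T k j) * F (g' j) = ∑ k, w k * ∑ j, T k j * F (g' j) := by
    simp_rw [Finset.sum_mul, Finset.mul_sum]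
    rw [Finset.sum_comm]
    refine Finset.sum_congr rfl fun k _ => Finset.sum_congr rfl fun j _ => ?_
    ring
  rw [e]
  exact Finset.sum_le_sum fun k _ => mul_le_mul_of_nonneg_left (hT F hF k) (hw k)

/-! powers -/

lemma NFam.dom_one {m : A → V q} (hm : NFam m) : Dom (powF m 1) m := by
  intro F hF
  obtain ⟨C, hC0, hC⟩ := hF.bdd
  have h := hm.Phi_powF_one hC
  rcases Nat.eq_zero_or_pos q with h0 | h0
  · subst h0
    have e1 : ∀ l, F (powF m 1 l) = 0 := fun l => by
      have := hC (powF m 1 l) (fun i => i.elim0)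
      have e : sg (powF m 1 l) = 0 := by unfold sg; simp
      rw [e, mul_zero] at this
      exact abs_nonpos_iff.1 this
    have e2 : ∀ l, F (m l) = 0 := fun l => by
      have := hC (m l) (fun i => i.elim0)
      have e : sg (m l) = 0 := by unfold sg; simp
      rw [e, mul_zero] at this
      exact abs_nonpos_iff.1 this
    simp [e1, e2]
  · have hq0 : (0 : ℝ) < q := by exact_mod_cast h0
    unfold Phi at h
    have := mul_left_cancel₀ (show (1 : ℝ) / q ≠ 0 by positivity) h
    exact this.le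

lemma NFam.dom_succ {m : A → V q} (hm : NFam m) (k : ℕ) :
    Dom (powF m (k + 1)) (prodF m (powF m k)) := fun F hF => (hm.tsum_powF_succ hF k).le

lemma NFam.dom_succ' {m : A → V q} (hm : NFam m) (k : ℕ) :
    Dom (prodF m (powF m k)) (powF m (k + 1)) := fun F hF => (hm.tsum_powF_succ hF k).ge

lemma dom_assoc {m : A → V q} {u : B → V q} {v : D → V q} :
    Dom (prodF m (prodF u v)) (prodF (prodF m u) v) := by
  intro F hF
  rw [← (Equiv.prodAssoc A B D).tsum_eq]
  refine le_of_eq (tsum_congr fun x => ?_)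
  congr 1
  funext i
  show m x.1.1 i * (u x.1.2 i * v x.2 i) = m x.1.1 i * u x.1.2 i * v x.2 i
  ring

/-- `k + 1` copies: attach `j` of them first -/
theorem NFam.dom_add {m : A → V q} (hm : NFam m) (j k : ℕ) :
    Dom (powF m (j + 1 + k)) (prodF (powF m (j + 1)) (powF m k)) := by
  induction j with
  | zero =>
    have h1 := hm.dom_succ k
    have e : 0 + 1 + k = k + 1 := by ring
    rw [e]
    refine h1.trans ?_
    refine Dom.prod_left hm (hm.pow _) (hm.pow k) ?_
    intro F hF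
    obtain ⟨C, hC0, hC⟩ := hF.bdd
    rcases Nat.eq_zero_or_pos q with h0 | h0
    · subst h0
      have e1 : ∀ l, F (powF m 1 l) = 0 := fun l => by
        have := hC (powF m 1 l) (fun i => i.elim0)
        have e : sg (powF m 1 l) = 0 := by unfold sg; simp
        rw [e, mul_zero] at this
        exact abs_nonpos_iff.1 this
      have e2 : ∀ l, F (m l) = 0 := fun l => by
        have := hC (m l) (fun i => i.elim0)
        have e : sg (m l) = 0 := by unfold sg; simp
        rw [e, mul_zero] at this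
        exact abs_nonpos_iff.1 this
      simp [e1, e2]
    · have h := hm.Phi_powF_one hC
      have hq0 : (0 : ℝ) < q := by exact_mod_cast h0
      unfold Phi at h
      have := mul_left_cancel₀ (show (1 : ℝ) / q ≠ 0 by positivity) h
      exact this.ge
  | succ j ih =>
    have e : j + 1 + 1 + k = (j + 1 + k) + 1 := by ring
    rw [e]
    refine (hm.dom_succ _).trans ?_
    refine (Dom.prod_right (hm.pow _) ((hm.pow (j + 1)).prod (hm.pow k)) hm ih).trans ?_
    refine dom_assoc.trans ?_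
    exact Dom.prod_left (hm.prod (hm.pow _)) (hm.pow _) (hm.pow k) (hm.dom_succ' (j + 1))

/-! the leaves -/

theorem Bd.zero (ξ : PMF ℕ) {lam : ℝ} (h : 0 ≤ 1 + (((3 : ℕ) : ℝ) - 1) * lam ∧ lam ≤ 1)
    {ι : Type*} [Fintype ι] [DecidableEq ι] {g : ι → V 3} (i0 : ι) (h0 : g i0 = vert) :
    Bd (fam ξ (potts (q := 3) lam h) 0) g (fun k => if k = i0 then 1 else 0) := by
  intro F hF
  unfold Phi
  have e1 : ∀ o : Fin 3, F (fam ξ (potts (q := 3) lam h) 0 o) = F vert := by
    intro o
    have e : fam ξ (potts (q := 3) lam h) 0 o = fun i => vert (Equiv.swap 0 o i) := by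
      rw [fam_zero]
      funext i
      fin_cases o <;> fin_cases i <;> simp [vert, Equiv.swap_apply_def]
    rw [e]
    exact hF.symm _ _ vert_nn
  have e2 : ∑' o : Fin 3, F (fam ξ (potts (q := 3) lam h) 0 o) = 3 * F vert := by
    rw [tsum_fintype, Finset.sum_congr rfl fun o _ => e1 o]
    simp
  have e3 : ∑' o : Obs 3 0, F (fam ξ (potts (q := 3) lam h) 0 o) = 3 * F vert := e2
  rw [e3]
  have e4 : ∑ k, (if k = i0 then (1 : ℝ) else 0) * F (g k) = F vert := by
    simp [h0]
  rw [e4]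
  push_cast
  linarith

/-! conclusions -/

lemma ssub_Rf (hq : 2 ≤ q) : SSub (Rf (q := q)) where
  toSub := sub_Rf hq
  symm := fun π c _ => by
    unfold Rf
    rw [Equiv.sum_comp π (fun i => c i ^ 2), Equiv.sum_comp π c]

lemma ssub_Yf (hq : 2 ≤ q) : SSub (Yf (q := q)) where
  add := fun c d hc hd => by
    have h1 := (sub_Rf hq).add c d hc hd
    have n1 := Rf_nonneg hq hc
    have n2 := Rf_nonneg hq hd
    have n3 : 0 ≤ Rf (fun i => c i + d i) := Rf_nonneg hq (fun i => add_nonneg (hc i) (hd i))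
    have e : sg (fun i => c i + d i) = sg c + sg d := by
      unfold sg; rw [Finset.sum_add_distrib]
    rcases (sg_nonneg hc).eq_or_lt with h0 | h0
    · have hc0 := eq_zero_of_sg hc h0.symm
      have e : (fun i => c i + d i) = d := by
        funext i; rw [hc0]; simp
      rw [e]
      have := Yf_nonneg hc
      linarith
    rcases (sg_nonneg hd).eq_or_lt with h2 | h2
    · have hd0 := eq_zero_of_sg hd h2.symm
      have e : (fun i => c i + d i) = c := by
        funext i; rw [hd0]; simp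
      rw [e]
      have := Yf_nonneg hd
      linarith
    unfold Yf
    rw [e]
    have h3 : Rf (fun i => c i + d i) ^ 2 ≤ (Rf c + Rf d) ^ 2 := pow_le_pow_left₀ n3 h1 2
    refine (div_le_div_of_nonneg_right h3 (by positivity)).trans ?_
    rw [div_add_div _ _ h0.ne' h2.ne', div_le_div_iff₀ (by positivity) (by positivity)]
    nlinarith [sq_nonneg (Rf c * sg d - Rf d * sg c), mul_pos h0 h2]
  smul := fun s hs c hc => by
    unfold Yf
    rw [Rf_smul s hs c hc, sg_smul]
    rcases hs.eq_or_lt with h | h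
    · rw [← h]; simp
    · rcases (sg_nonneg hc).eq_or_lt with h0 | h0
      · rw [← h0]; simp
      · field_simp
  bdd := ⟨1, zero_le_one, bYf hq⟩
  symm := fun π c hc => by
    unfold Yf
    rw [(ssub_Rf hq).symm π c hc]
    have : sg (fun i => c (π i)) = sg c := Equiv.sum_comp π c
    rw [this]

theorem Bd.X_le (hq : 2 ≤ q) {ι : Type*} [Fintype ι] {m : A → V q} {g : ι → V q} {w : ι → ℝ}
    (h : Bd m g w) : X m ≤ ∑ k, w k * Rf (g k) := h Rf (ssub_Rf hq)

theorem Bd.Y_le (hq : 2 ≤ q) {ι : Type*} [Fintype ι] {m : A → V q} {g : ι → V q} {w : ι → ℝ}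
    (h : Bd m g w) : Phi Yf m ≤ ∑ k, w k * Yf (g k) := h Yf (ssub_Yf hq)

end Vale.Agent.P154.G
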