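import Vale.Agent.P154.GBd

/-! one level of the regular tree for the dominating laws -/

namespace Vale.Agent.P154.G

open scoped ENNReal NNReal
open Filter Topology

variable {A B D : Type*} {q : ℕ}

theorem NFam.dom_two {m : A → V q} (hm : NFam m) : Dom (powF m 2) (prodF m m) :=
  (hm.dom_succ 1).trans (Dom.prod_right (hm.pow 1) hm hm hm.dom_one)

theorem NFam.dom_four {m : A → V q} (hm : NFam m) :
    Dom (powF m 4) (prodF (powF m 2) (powF m 2)) := hm.dom_add 1 2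

/-- from the law of the product of `d` messages to the next level -/
theorem Bd.fam_succ (hq : 2 ≤ q) {d : ℕ} {lam : ℝ}
    (h : 0 ≤ 1 + ((q : ℝ) - 1) * lam ∧ lam ≤ 1) (n : ℕ) {ι : Type*} [Fintype ι]
    {g : ι → V q} {w : ι → ℝ}
    (hB : Bd (powF (fun a => G.chan lam (fam (PMF.pure d) (potts lam h) n a)) d) g w) :
    Bd (fam (PMF.pure d) (potts lam h) (n + 1)) g w := by
  intro F hF
  have c := (NFam.fam (PMF.pure d) h n).chan hq h
  have e1 : ∑' a, F (fam (PMF.pure d) (potts lam h) (n + 1) a) =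
      ∑' l, F (powF (fun a => G.chan lam (fam (PMF.pure d) (potts lam h) n a)) d l) := by
    rw [G.fam_succ]
    exact tsum_mix_pure hF.toSub d c
  have h2 := hB F hF
  unfold Phi at h2 ⊢
  rw [e1]
  exact h2

/-- one level of the 4-ary tree: `T` bounds the products of two messages of grid points, `T'` the
products of two grid points -/
theorem Bd.level4 (hq : 2 ≤ q) {lam : ℝ}
    (h : 0 ≤ 1 + ((q : ℝ) - 1) * lam ∧ lam ≤ 1) (n : ℕ) {ι κ η : Type*} [Fintype ι] [Fintype κ]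
    [Fintype η] {g : ι → V q} {w : ι → ℝ} (hg : ∀ k i, 0 ≤ g k i) (hw : ∀ k, 0 ≤ w k)
    (hB : Bd (fam (PMF.pure 4) (potts lam h) n) g w)
    {g2 : κ → V q} {w2 : κ → ℝ} (hg2 : ∀ k i, 0 ≤ g2 k i) (hw2 : ∀ k, 0 ≤ w2 k)
    (h2 : ∀ F : V q → ℝ, SSub F → ∑ k, ∑ l, w k * w l * (1 / ((q - 1).factorial : ℝ) *
      SS F (G.chan lam (g k)) (G.chan lam (g l))) ≤ ∑ j, w2 j * F (g2 j))
    {g4 : η → V q} {w4 : η → ℝ}
    (h4 : ∀ F : V q → ℝ, SSub F → ∑ k, ∑ l, w2 k * w2 l * (1 / ((q - 1).factorial : ℝ) *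
      SS F (g2 k) (g2 l)) ≤ ∑ j, w4 j * F (g4 j)) :
    Bd (fam (PMF.pure 4) (potts lam h) (n + 1)) g4 w4 := by
  have c := (NFam.fam (PMF.pure 4) h n).chan hq h
  refine Bd.fam_succ hq h n ?_
  have b1 : Bd (powF (fun a => G.chan lam (fam (PMF.pure 4) (potts lam h) n a)) 2) g2 w2 := by
    refine Bd.of_dom hq c.dom_two fun F hF => ?_
    exact (Bd.prod hq c c (fun k i => chan_nn2 h (hg k) i) (fun k i => chan_nn2 h (hg k) i) hw
      (hB.chan hq h) (hB.chan hq h) hF).trans (h2 F hF)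
  refine Bd.of_dom hq c.dom_four fun F hF => ?_
  exact (Bd.prod hq (c.pow 2) (c.pow 2) hg2 hg2 hw2 b1 b1 hF).trans (h4 F hF)

end Vale.Agent.P154.G
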