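import Mathlib

/-! P154, `q` states: likelihood vectors, and the data needed for the potential argument -/

namespace Vale.Agent.P154.G

/-- unnormalised likelihood vectors -/
abbrev V (q : ℕ) := Fin q → ℝ

variable {q : ℕ}

/-- total mass -/
def sg (c : V q) : ℝ := ∑ i, c i

/-- mass times the squared distance of the normalised vector from uniform (`1` at a vertex) -/
noncomputable def Rf (c : V q) : ℝ :=
  (q * ∑ i, c i ^ 2 - (∑ i, c i) ^ 2) / ((q - 1) * ∑ i, c i)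

/-- the Potts channel acting on likelihood vectors -/
noncomputable def chan (lam : ℝ) (c : V q) : V q := fun i => lam * c i + (1 - lam) / q * sg c

/-- positive vectors -/
def Pos (c : V q) : Prop := ∀ i, 0 < c i

/-- sum over the products of `p` with the permutations of `r` -/
noncomputable def SS (F : V q → ℝ) (p r : V q) : ℝ :=
  ∑ π : Equiv.Perm (Fin q), F (fun i => p i * r (π i))

/-- the data of the potential argument -/
structure Scheme (q : ℕ) where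
  /-- the functional with nonnegative expectation -/
  Ff : V q → ℝ
  /-- multiplier for the upper bound -/
  Bf : V q → ℝ
  /-- multiplier for the invariance -/
  Df : V q → ℝ
  /-- bound -/
  K : ℝ
  /-- slack -/
  t : ℝ
  hq : 2 ≤ q
  t_pos : 0 < t
  Ff_bd : ∀ c : V q, (∀ i, 0 ≤ c i) → |Ff c| ≤ K * sg c
  Bf_bd : ∀ c : V q, (∀ i, 0 ≤ c i) → |Bf c| ≤ K * sg c
  Df_bd : ∀ c : V q, (∀ i, 0 ≤ c i) → |Df c| ≤ K * sg c
  Bf_nn : ∀ c : V q, (∀ i, 0 ≤ c i) → 0 ≤ Bf c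
  Df_nn : ∀ c : V q, (∀ i, 0 ≤ c i) → 0 ≤ Df c
  Ff_smul : ∀ s : ℝ, 0 ≤ s → ∀ c : V q, (∀ i, 0 ≤ c i) → Ff (fun i => s * c i) = s * Ff c
  Ff_one : Ff (fun _ => 1) = 0
  Ff_leaf : ∀ i : Fin q, 0 ≤ Ff (fun j => if i = j then 1 else 0)
  pt_chan : ∀ lam : ℝ, 0 ≤ lam → lam ≤ 1 → ∀ c : V q, (∀ i, 0 ≤ c i) →
    lam ^ 3 * Ff c ≤ Ff (chan lam c)
  pt_prod : ∀ p r : V q, Pos p → Pos r →
    Df r * Ff p + Df p * Ff r ≤ 1 / ((q - 1).factorial : ℝ) * SS Ff p r
  pt_upper : ∀ p r : V q, Pos p → Pos r →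
    1 / ((q - 1).factorial : ℝ) * SS Rf p r ≤ Rf p * sg r + sg p * Rf r -
      (Bf r * Ff p + Bf p * Ff r) -
      t * (Rf p ^ 2 / sg p * Rf r + Rf p * (Rf r ^ 2 / sg r))

end Vale.Agent.P154.G
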