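import Vale.Agent.P154.GPot

/-! nonreconstruction from one potential at one eigenvalue, for all weaker channels -/

namespace Vale.Agent.P154.G

open scoped ENNReal NNReal
open Filter Topology

variable {q : ℕ}

/-- a potential for the eigenvalue `-c` which decreases quadratically along the rays of noise -/
structure RPot (q : ℕ) (c rho : ℝ) extends Pot q (-c) rho where
  ray : ∀ τ : ℝ, 0 ≤ τ → τ ≤ 1 → ∀ r : V q, (∀ i, 0 ≤ r i) → P (chan τ r) ≤ τ ^ 2 * P r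

lemma chan_chan' (hq : 2 ≤ q) (a b : ℝ) (r : V q) : chan a (chan b r) = chan (a * b) r := by
  have hq0 : (0 : ℝ) < q := by
    have : 0 < q := by omega
    exact_mod_cast this
  funext i
  show a * chan b r i + (1 - a) / q * sg (chan b r) = a * b * r i + (1 - a * b) / q * sg r
  rw [sg_chan hq]
  show a * (b * r i + (1 - b) / q * sg r) + (1 - a) / q * sg r =
    a * b * r i + (1 - a * b) / q * sg r
  field_simp
  ring

lemma chan_nn3 {τ : ℝ} (h0 : 0 ≤ τ) (h1 : τ ≤ 1) {c : V q}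
    (hc : ∀ i, 0 ≤ c i) (i : Fin q) : 0 ≤ chan τ c i := by
  have hs : 0 ≤ sg c := Finset.sum_nonneg fun i _ => hc i
  have hq : (0 : ℝ) < q := by exact_mod_cast i.pos
  have h2 : 0 ≤ (1 - τ) / q := div_nonneg (by linarith) hq.le
  exact add_nonneg (mul_nonneg h0 (hc i)) (mul_nonneg h2 hs)

/-- the potential for a weaker channel -/
noncomputable def RPot.scale {c rho : ℝ} (R : RPot q c rho) (h0 : 0 ≤ rho)
    {τ lam : ℝ} (hτ0 : 0 ≤ τ) (hτ1 : τ ≤ 1) (e : -c * τ = lam) : Pot q lam (rho * τ ^ 2) where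
  P := R.P
  K := R.K
  a := R.a
  t := R.t * τ ^ 2
  hq := R.hq
  a_pos := R.a_pos
  K_pos := R.K_pos
  t_nn := mul_nonneg R.t_nn (sq_nonneg _)
  lower := R.lower
  upper := R.upper
  smul := R.smul
  pt := by
    intro p r hp hr
    have h := R.pt p (chan τ r) hp (chan_nn3 hτ0 hτ1 hr)
    rw [chan_chan' R.hq, sg_chan R.hq, Rf_chan R.hq, e] at h
    have h1 := R.ray τ hτ0 hτ1 r hr
    have h2 : 0 ≤ sg p := Finset.sum_nonneg fun i _ => hp i
    have h3 := mul_le_mul_of_nonneg_left (mul_le_mul_of_nonneg_right h1 h2) h0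
    refine h.trans ?_
    calc sg r * R.P p + rho * (R.P (chan τ r) * sg p) - R.t * (τ ^ 2 * Rf r * Rf p) ≤
        sg r * R.P p + rho * (τ ^ 2 * R.P r * sg p) - R.t * (τ ^ 2 * Rf r * Rf p) := by linarith
      _ = _ := by ring

lemma ray_facts {c lam : ℝ} (hc : 0 < c) (hl : -c ≤ lam) (hl' : lam < 0) :
    0 < -lam / c ∧ -lam / c ≤ 1 ∧ -c * (-lam / c) = lam ∧ (-lam / c) ^ 2 = (lam / c) ^ 2 ∧
      (lam / c) ^ 2 ≤ 1 := by
  have h1 : 0 < -lam / c := div_pos (by linarith) hc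
  have h2 : -lam / c ≤ 1 := (div_le_one hc).2 (by linarith)
  have h3 : (-lam / c) ^ 2 = (lam / c) ^ 2 := by ring
  refine ⟨h1, h2, by field_simp, h3, ?_⟩
  rw [← h3]
  nlinarith

/-- nonreconstruction for the weaker channels, strict inequality -/
theorem RPot.nonrecon_lt {c rho : ℝ} (R : RPot q c rho) (h0 : 0 ≤ rho) (h1 : rho < 1)
    (hc : 0 < c) (ξ : PMF ℕ) {lam : ℝ} (h : 0 ≤ 1 + ((q : ℝ) - 1) * lam ∧ lam ≤ 1)
    (hl : -c ≤ lam) (hl' : lam < 0) {μ : ℝ} (hμ : HasSum (fun k => (ξ k).toReal * k) μ)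
    (hle : μ * (rho * (lam / c) ^ 2) < 1) :
    Tendsto (fun n => an ξ (potts lam h) n) atTop (𝓝 0) := by
  obtain ⟨f1, f2, f3, f4, f5⟩ := ray_facts hc hl hl'
  exact (R.scale h0 f1.le f2 f3).nonrecon ξ h hμ (mul_nonneg h0 (sq_nonneg _))
    (by rw [f4]; nlinarith) (Or.inl (by rw [f4]; exact hle))

/-- nonreconstruction for the weaker channels, equality allowed -/
theorem RPot.nonrecon_le {c rho : ℝ} (R : RPot q c rho) (h0 : 0 ≤ rho) (h1 : rho < 1)
    (ht : 0 < R.t) (hc : 0 < c) (ξ : PMF ℕ) {lam : ℝ}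
    (h : 0 ≤ 1 + ((q : ℝ) - 1) * lam ∧ lam ≤ 1)
    (hl : -c ≤ lam) (hl' : lam < 0) {μ : ℝ} (hμ : HasSum (fun k => (ξ k).toReal * k) μ)
    (hle : μ * (rho * (lam / c) ^ 2) ≤ 1) :
    Tendsto (fun n => an ξ (potts lam h) n) atTop (𝓝 0) := by
  obtain ⟨f1, f2, f3, f4, f5⟩ := ray_facts hc hl hl'
  exact (R.scale h0 f1.le f2 f3).nonrecon ξ h hμ (mul_nonneg h0 (sq_nonneg _))
    (by rw [f4]; nlinarith)
    (Or.inr ⟨by rw [f4]; exact hle, mul_pos ht (by positivity), hl'.ne⟩)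

/-- the case `rho = c²`: nonreconstruction up to and including the Kesten-Stigum bound -/
theorem RPot.nonrecon_ks {c : ℝ} (R : RPot q c (c ^ 2)) (ht : 0 < R.t) (hc : 0 < c) (hc1 : c < 1)
    (ξ : PMF ℕ) {lam : ℝ} (h : 0 ≤ 1 + ((q : ℝ) - 1) * lam ∧ lam ≤ 1)
    (hl : -c ≤ lam) (hl' : lam < 0) {μ : ℝ} (hμ : HasSum (fun k => (ξ k).toReal * k) μ)
    (hle : μ * lam ^ 2 ≤ 1) :
    Tendsto (fun n => an ξ (potts lam h) n) atTop (𝓝 0) := by
  refine R.nonrecon_le (by positivity) (by nlinarith) ht hc ξ h hl hl' hμ ?_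
  have : μ * (c ^ 2 * (lam / c) ^ 2) = μ * lam ^ 2 := by field_simp
  rw [this]
  exact hle

end Vale.Agent.P154.G
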