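import Vale.Agent.P154.GDom
import Vale.Agent.P154.GRay

/-! comparison of the regular trees: fewer children and more noise give less information -/

namespace Vale.Agent.P154.G

open scoped ENNReal NNReal
open Filter Topology

variable {A B D : Type*} {q : ℕ}

lemma Sub.finsum {F : V q → ℝ} (hF : Sub F) {ι : Type*} (s : Finset ι) (f : ι → V q)
    (hf : ∀ a i, 0 ≤ f a i) : F (fun i => ∑ a ∈ s, f a i) ≤ ∑ a ∈ s, F (f a) := by
  classical
  obtain ⟨C, hC0, hC⟩ := hF.bdd
  induction s using Finset.induction_on with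
  | empty =>
    simp only [Finset.sum_empty]
    exact (F_zero hC).le
  | insert a s ha ih =>
    rw [Finset.sum_insert ha]
    have e : (fun i => ∑ a ∈ insert a s, f a i) = fun i => f a i + ∑ a ∈ s, f a i := by
      funext i; rw [Finset.sum_insert ha]
    rw [e]
    have := hF.add (f a) (fun i => ∑ a ∈ s, f a i) (hf a)
      (fun i => Finset.sum_nonneg fun b _ => hf b i)
    linarith

lemma NFam.tsum_perm {F : V q → ℝ} {m : A → V q} (hm : NFam m) (π : Equiv.Perm (Fin q)) :
    ∑' a, F (fun i => m a (π i)) = ∑' a, F (m a) := by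
  obtain ⟨e, he⟩ := hm.symm π
  rw [← e.tsum_eq (fun a => F (fun i => m a (π i)))]
  congr 1
  funext a
  congr 1
  funext i
  exact he a i

lemma Sub.comp_perm {F : V q → ℝ} (hF : Sub F) (π : Equiv.Perm (Fin q)) :
    Sub (fun c => F (fun i => c (π i))) where
  add := fun c d hc hd => hF.add (fun i => c (π i)) (fun i => d (π i)) (fun i => hc _)
    (fun i => hd _)
  smul := fun s hs c hc => hF.smul s hs (fun i => c (π i)) (fun i => hc _)
  bdd := by
    obtain ⟨C, hC0, hC⟩ := hF.bdd
    refine ⟨C, hC0, fun c hc => ?_⟩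
    have h := hC (fun i => c (π i)) (fun i => hc _)
    have e : sg (fun i => c (π i)) = sg c := Equiv.sum_comp π c
    rw [e] at h
    exact h

/-- noise degrades -/
theorem dom_noise (hq : 2 ≤ q) {m : A → V q} (hm : NFam m) {τ : ℝ} (h0 : 0 ≤ τ) (h1 : τ ≤ 1) :
    Dom (fun a => chan τ (m a)) m := by
  intro F hF
  have : NeZero q := ⟨by omega⟩
  have hq0 := q_pos hq
  have hsh : ∀ j : Fin q, Summable (fun a => F (fun i => m a (Equiv.addRight j i))) := fun j =>
    (hF.comp_perm (Equiv.addRight j)).smb hm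
  have hs1 : HasSum (fun a => τ * F (m a) + (1 - τ) / q *
      ∑ j : Fin q, F (fun i => m a (Equiv.addRight j i)))
      (τ * ∑' a, F (m a) + (1 - τ) / q * ∑ _j : Fin q, ∑' a, F (m a)) := by
    refine ((hF.smb hm).hasSum.mul_left τ).add (HasSum.mul_left _ (hasSum_sum fun j _ => ?_))
    have := (hsh j).hasSum
    rw [hm.tsum_perm (F := F) (Equiv.addRight j)] at this
    exact this
  have e1 : τ * ∑' a, F (m a) + (1 - τ) / q * ∑ _j : Fin q, ∑' a, F (m a) = ∑' a, F (m a) := by
    rw [Finset.sum_const, Finset.card_univ, Fintype.card_fin, nsmul_eq_mul]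
    field_simp
    ring
  rw [e1] at hs1
  have hN : NFam (fun a => chan τ (m a)) := hm.chan hq ⟨by
    have : (1 : ℝ) ≤ q := by
      have : 1 ≤ q := by omega
      exact_mod_cast this
    nlinarith, h1⟩
  refine hasSum_le (fun a => ?_) (hF.smb hN).hasSum hs1
  have hc := hm.nn a
  have h2 := hF.add (fun i => τ * m a i) (fun i => (1 - τ) / q * ∑ j : Fin q, m a (i + j))
    (fun i => mul_nonneg h0 (hc i)) (fun i => mul_nonneg (div_nonneg (by linarith) hq0.le)
      (Finset.sum_nonneg fun j _ => hc _))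
  have e2 : (fun i => τ * m a i + (1 - τ) / q * ∑ j : Fin q, m a (i + j)) = chan τ (m a) := by
    funext i
    show _ = τ * m a i + (1 - τ) / q * ∑ j, m a j
    rw [← Equiv.sum_comp (Equiv.addLeft i) (m a)]
    rfl
  rw [e2, hF.smul τ h0 _ hc] at h2
  have h3 := hF.smul ((1 - τ) / q) (div_nonneg (by linarith) hq0.le)
    (fun i => ∑ j : Fin q, m a (i + j)) (fun i => Finset.sum_nonneg fun j _ => hc _)
  have h4 := hF.finsum Finset.univ (fun j i => m a (i + j)) (fun j i => hc _)
  rw [h3] at h2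
  refine h2.trans (add_le_add le_rfl (mul_le_mul_of_nonneg_left h4
    (div_nonneg (by linarith) hq0.le)))

lemma pure_w (d : ℕ) : (fun k => ((PMF.pure d : PMF ℕ) k).toReal) = fun k => if k = d then 1 else 0 := by
  funext k
  rw [PMF.pure_apply]
  split_ifs <;> simp

lemma tsum_mix_pure {F : V q → ℝ} (hF : Sub F) (d : ℕ) {m : A → V q} (hm : NFam m) :
    ∑' l, F (mixF (fun k => ((PMF.pure d : PMF ℕ) k).toReal) m l) = ∑' l, F (powF m d l) := by
  obtain ⟨C, hC0, hC⟩ := hF.bdd
  rw [pure_w]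
  have hw : ∀ k : ℕ, (0 : ℝ) ≤ if k = d then 1 else 0 := fun k => by split_ifs <;> norm_num
  have hw1 : HasSum (fun k : ℕ => if k = d then (1 : ℝ) else 0) 1 := by
    have := hasSum_ite_eq d (1 : ℝ)
    exact this
  have h1 := tsum_mix' hC hF.smul hw hw1 hm
  have h2 := hasSum_single (f := fun k => (if k = d then (1 : ℝ) else 0) * ∑' l, F (powF m k l)) d
    (by intro k hk; simp [hk])
  have h3 := h1.unique h2
  rw [h3]
  simp

theorem dom_fam (hq : 2 ≤ q) {d' d : ℕ} (hd : d' ≤ d) {lam lam' τ : ℝ}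
    (h : 0 ≤ 1 + ((q : ℝ) - 1) * lam ∧ lam ≤ 1) (h' : 0 ≤ 1 + ((q : ℝ) - 1) * lam' ∧ lam' ≤ 1)
    (h0 : 0 ≤ τ) (h1 : τ ≤ 1) (hlam : lam' = lam * τ) (n : ℕ) :
    Dom (fam (PMF.pure d') (potts lam' h') n) (fam (PMF.pure d) (potts lam h) n) := by
  induction n with
  | zero =>
    intro F hF
    have : fam (PMF.pure d') (potts lam' h') 0 = fam (PMF.pure d) (potts lam h) 0 := by
      funext o
      exact (fam_zero _ _ o).trans (fam_zero _ _ o).symm
    rw [this]
  | succ n ih =>
    intro F hF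
    have hN' := NFam.fam (PMF.pure d') h' n
    have hN := NFam.fam (PMF.pure d) h n
    have c' := hN'.chan hq h'
    have c := hN.chan hq h
    have e1 : ∑' a, F (fam (PMF.pure d') (potts lam' h') (n + 1) a) =
        ∑' l, F (powF (fun a => chan lam' (fam (PMF.pure d') (potts lam' h') n a)) d' l) := by
      rw [fam_succ]
      exact tsum_mix_pure hF d' c'
    have e2 : ∑' a, F (fam (PMF.pure d) (potts lam h) (n + 1) a) =
        ∑' l, F (powF (fun a => chan lam (fam (PMF.pure d) (potts lam h) n a)) d l) := by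
      rw [fam_succ]
      exact tsum_mix_pure hF d c
    rw [e1, e2]
    refine (dom_powF_le c' hd F hF).trans ?_
    refine Dom.pow c' c ?_ d F hF
    have e : (fun a => chan lam' (fam (PMF.pure d') (potts lam' h') n a)) =
        fun a => chan lam (chan τ (fam (PMF.pure d') (potts lam' h') n a)) := by
      funext a
      rw [chan_chan' hq, ← hlam]
    rw [e]
    exact ((dom_noise hq hN' h0 h1).trans ih).chan hq h

/-- fewer children and more noise: nonreconstruction is preserved -/
theorem X_fam_le (hq : 2 ≤ q) {d' d : ℕ} (hd : d' ≤ d) {lam lam' τ : ℝ}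
    (h : 0 ≤ 1 + ((q : ℝ) - 1) * lam ∧ lam ≤ 1) (h' : 0 ≤ 1 + ((q : ℝ) - 1) * lam' ∧ lam' ≤ 1)
    (h0 : 0 ≤ τ) (h1 : τ ≤ 1) (hlam : lam' = lam * τ) (n : ℕ) :
    X (fam (PMF.pure d') (potts lam' h') n) ≤ X (fam (PMF.pure d) (potts lam h) n) :=
  (dom_fam hq hd h h' h0 h1 hlam n).X_le hq

end Vale.Agent.P154.G
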