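import Vale.Agent.P154.GPot

/-! the degradation order on families of likelihood vectors -/

namespace Vale.Agent.P154.G

open scoped ENNReal NNReal
open Filter Topology

variable {A B D : Type*} {q : ℕ}

/-- sublinear functionals on nonnegative vectors, bounded by a multiple of the mass -/
structure Sub (F : V q → ℝ) : Prop where
  add : ∀ c d : V q, (∀ i, 0 ≤ c i) → (∀ i, 0 ≤ d i) → F (fun i => c i + d i) ≤ F c + F d
  smul : ∀ s : ℝ, 0 ≤ s → ∀ c : V q, (∀ i, 0 ≤ c i) → F (fun i => s * c i) = s * F c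
  bdd : ∃ C, 0 ≤ C ∧ Bdd F C

/-- `m` is a degradation of `m'` -/
def Dom (m : A → V q) (m' : B → V q) : Prop :=
  ∀ F : V q → ℝ, Sub F → ∑' a, F (m a) ≤ ∑' b, F (m' b)

theorem Dom.refl (m : A → V q) : Dom m m := fun _ _ => le_rfl

theorem Dom.trans {m : A → V q} {m' : B → V q} {m'' : D → V q} (h : Dom m m') (h' : Dom m' m'') :
    Dom m m'' := fun F hF => (h F hF).trans (h' F hF)

lemma Sub.mul {F : V q → ℝ} (hF : Sub F) {u : V q} (hu : ∀ i, 0 ≤ u i) :
    Sub (fun c => F (fun i => c i * u i)) where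
  add := fun c d hc hd => by
    have h := hF.add (fun i => c i * u i) (fun i => d i * u i)
      (fun i => mul_nonneg (hc i) (hu i)) (fun i => mul_nonneg (hd i) (hu i))
    have e : (fun i => (c i + d i) * u i) = fun i => c i * u i + d i * u i := by
      funext i; ring
    show F (fun i => (c i + d i) * u i) ≤ _
    rw [e]
    exact h
  smul := fun s hs c hc => by
    have h := hF.smul s hs (fun i => c i * u i) (fun i => mul_nonneg (hc i) (hu i))
    have e : (fun i => s * c i * u i) = fun i => s * (c i * u i) := by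
      funext i; ring
    show F (fun i => s * c i * u i) = _
    rw [e]
    exact h
  bdd := by
    obtain ⟨C, hC0, hC⟩ := hF.bdd
    refine ⟨C * sg u, mul_nonneg hC0 (sg_nonneg hu), fun c hc => ?_⟩
    refine (hC _ (fun i => mul_nonneg (hc i) (hu i))).trans ?_
    rw [mul_assoc]
    refine mul_le_mul_of_nonneg_left ?_ hC0
    have h1 : ∀ i, u i ≤ sg u := fun i =>
      Finset.single_le_sum (f := u) (fun j _ => hu j) (Finset.mem_univ i)
    calc sg (fun i => c i * u i) = ∑ i, c i * u i := rfl
      _ ≤ ∑ i, c i * sg u := Finset.sum_le_sum fun i _ => mul_le_mul_of_nonneg_left (h1 i) (hc i)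
      _ = sg c * sg u := by rw [← Finset.sum_mul]; rfl
      _ = sg u * sg c := mul_comm _ _

lemma Sub.comp_chan (hq : 2 ≤ q) {F : V q → ℝ} (hF : Sub F) {lam : ℝ}
    (h : 0 ≤ 1 + ((q : ℝ) - 1) * lam ∧ lam ≤ 1) : Sub (fun c => F (chan lam c)) where
  add := fun c d hc hd => by
    have h1 := hF.add (chan lam c) (chan lam d) (chan_nn2 h hc) (chan_nn2 h hd)
    have e : chan lam (fun i => c i + d i) = fun i => chan lam c i + chan lam d i := by
      funext i
      show lam * (c i + d i) + (1 - lam) / q * (∑ i, (c i + d i)) =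
        lam * c i + (1 - lam) / q * (∑ i, c i) + (lam * d i + (1 - lam) / q * (∑ i, d i))
      rw [Finset.sum_add_distrib]
      ring
    show F (chan lam (fun i => c i + d i)) ≤ _
    rw [e]
    exact h1
  smul := fun s hs c hc => by
    have h1 := hF.smul s hs (chan lam c) (chan_nn2 h hc)
    have e : chan lam (fun i => s * c i) = fun i => s * chan lam c i := by
      funext i
      show lam * (s * c i) + (1 - lam) / q * (∑ i, s * c i) =
        s * (lam * c i + (1 - lam) / q * (∑ i, c i))
      rw [← Finset.mul_sum]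
      ring
    show F (chan lam (fun i => s * c i)) = _
    rw [e]
    exact h1
  bdd := by
    obtain ⟨C, hC0, hC⟩ := hF.bdd
    refine ⟨C, hC0, fun c hc => ?_⟩
    have := hC _ (chan_nn2 h hc)
    rw [sg_chan hq] at this
    exact this

lemma Sub.smb {F : V q → ℝ} (hF : Sub F) {m : A → V q} (hm : NFam m) :
    Summable (fun a => F (m a)) := by
  obtain ⟨C, _, hC⟩ := hF.bdd
  exact G.smb hC hm.nn hm.sum

lemma sub_Rf (hq : 2 ≤ q) : Sub (Rf (q := q)) where
  add := fun c d hc hd => by
    have hq0 := q_pos hq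
    have hq1 : (0 : ℝ) < q - 1 := by
      have : (2 : ℝ) ≤ q := by exact_mod_cast hq
      linarith
    rcases (sg_nonneg hc).eq_or_lt with h0 | h0
    · have hc0 := eq_zero_of_sg hc h0.symm
      have e : (fun i => c i + d i) = d := by
        funext i; rw [hc0]; simp
      rw [e]
      have := Rf_nonneg hq hc
      linarith
    rcases (sg_nonneg hd).eq_or_lt with h1 | h1
    · have hd0 := eq_zero_of_sg hd h1.symm
      have e : (fun i => c i + d i) = c := by
        funext i; rw [hd0]; simp
      rw [e]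
      have := Rf_nonneg hq hd
      linarith
    · have e1 : ∑ i, (c i + d i) = sg c + sg d := by rw [Finset.sum_add_distrib]; rfl
      have key : ∑ i, (c i + d i) ^ 2 / (sg c + sg d) ≤ ∑ i, (c i ^ 2 / sg c + d i ^ 2 / sg d) := by
        refine Finset.sum_le_sum fun i _ => ?_
        rw [div_add_div _ _ h0.ne' h1.ne', div_le_div_iff₀ (by positivity) (by positivity)]
        nlinarith [sq_nonneg (c i * sg d - d i * sg c), mul_pos h0 h1]
      have r1 : ∀ x : V q, 0 < sg x → Rf x = (q * (∑ i, x i ^ 2 / sg x) - sg x) / (q - 1) := by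
        intro x hx
        have e2 : ∑ i, x i ^ 2 / sg x = (∑ i, x i ^ 2) / sg x := by rw [Finset.sum_div]
        rw [e2]
        unfold Rf
        have : ∑ i, x i = sg x := rfl
        rw [this]
        field_simp
      have h2 : sg (fun i => c i + d i) = sg c + sg d := e1
      rw [r1 _ (by rw [h2]; positivity), r1 _ h0, r1 _ h1, h2, ← add_div]
      apply div_le_div_of_nonneg_right _ hq1.le
      rw [Finset.sum_add_distrib] at key
      nlinarith
  smul := fun s hs c hc => Rf_smul s hs c hc
  bdd := ⟨1, zero_le_one, bRf hq⟩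

theorem Dom.X_le (hq : 2 ≤ q) {m : A → V q} {m' : B → V q} (h : Dom m m') : X m ≤ X m' := by
  have hq0 := q_pos hq
  exact mul_le_mul_of_nonneg_left (h Rf (sub_Rf hq)) (by positivity)

theorem Dom.chan (hq : 2 ≤ q) {m : A → V q} {m' : B → V q} (h : Dom m m') {lam : ℝ}
    (hl : 0 ≤ 1 + ((q : ℝ) - 1) * lam ∧ lam ≤ 1) :
    Dom (fun a => G.chan lam (m a)) (fun b => G.chan lam (m' b)) := fun _ hF =>
  h _ (hF.comp_chan hq hl)

lemma Sub.fiber_left {F : V q → ℝ} (hF : Sub F) {m : A → V q} (hm : NFam m)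
    {u : D → V q} (hu : NFam u) :
    HasSum (fun d => ∑' a, F (fun i => m a i * u d i)) (∑' x, F (prodF m u x)) := by
  have h1 : HasSum (fun x => F (prodF m u x)) (∑' x, F (prodF m u x)) :=
    (hF.smb (hm.prod hu)).hasSum
  rw [← (Equiv.prodComm D A).hasSum_iff] at h1
  refine h1.prod_fiberwise fun d => ?_
  exact ((hF.mul (hu.nn d)).smb hm).hasSum

lemma Sub.fiber_right {F : V q → ℝ} (hF : Sub F) {m : A → V q} (hm : NFam m)
    {u : D → V q} (hu : NFam u) :
    HasSum (fun d => ∑' a, F (fun i => m a i * u d i)) (∑' x, F (prodF u m x)) := by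
  have h1 : HasSum (fun x => F (prodF u m x)) (∑' x, F (prodF u m x)) :=
    (hF.smb (hu.prod hm)).hasSum
  refine h1.prod_fiberwise fun d => ?_
  have h2 : (fun a => F (prodF u m (d, a))) = fun a => F (fun i => m a i * u d i) := by
    funext a
    congr 1
    funext i
    exact mul_comm _ _
  rw [h2]
  exact ((hF.mul (hu.nn d)).smb hm).hasSum

theorem Dom.prod_left {m : A → V q} {m' : B → V q} (hm : NFam m) (hm' : NFam m')
    {u : D → V q} (hu : NFam u) (h : Dom m m') : Dom (prodF m u) (prodF m' u) := fun _ hF =>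
  hasSum_le (fun d => h _ (hF.mul (hu.nn d))) (hF.fiber_left hm hu) (hF.fiber_left hm' hu)

theorem Dom.prod_right {m : A → V q} {m' : B → V q} (hm : NFam m) (hm' : NFam m')
    {u : D → V q} (hu : NFam u) (h : Dom m m') : Dom (prodF u m) (prodF u m') := fun _ hF =>
  hasSum_le (fun d => h _ (hF.mul (hu.nn d))) (hF.fiber_right hm hu) (hF.fiber_right hm' hu)

/-- Jensen: a family dominates its sum -/
theorem Sub.jensen {F : V q → ℝ} (hF : Sub F) {m : A → V q} (hm : NFam m) :
    F (fun _ => 1) ≤ ∑' a, F (m a) := by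
  classical
  obtain ⟨C, hC0, hC⟩ := hF.bdd
  have hsg := sg_hasSum hm.sum
  have hFs := hF.smb hm
  -- finite subadditivity
  have hfin : ∀ s : Finset A, F (fun i => ∑ a ∈ s, m a i) ≤ ∑ a ∈ s, F (m a) := by
    intro s
    induction s using Finset.induction_on with
    | empty =>
      simp only [Finset.sum_empty]
      exact (F_zero hC).le
    | insert a s ha ih =>
      rw [Finset.sum_insert ha]
      have e : (fun i => ∑ a ∈ insert a s, m a i) = fun i => m a i + ∑ a ∈ s, m a i := by
        funext i; rw [Finset.sum_insert ha]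
      rw [e]
      have := hF.add (m a) (fun i => ∑ a ∈ s, m a i) (hm.nn a)
        (fun i => Finset.sum_nonneg fun b _ => hm.nn b i)
      linarith
  have hb : ∀ s : Finset A, F (fun _ => 1) ≤ ∑ a ∈ s, F (m a) + C * (q - ∑ a ∈ s, sg (m a)) := by
    intro s
    have h1 : ∀ i, ∑ a ∈ s, m a i ≤ 1 := fun i =>
      sum_le_hasSum s (fun a _ => hm.nn a i) (hm.sum i)
    have h2 := hF.add (fun i => ∑ a ∈ s, m a i) (fun i => 1 - ∑ a ∈ s, m a i)
      (fun i => Finset.sum_nonneg fun b _ => hm.nn b i) (fun i => by linarith [h1 i])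
    have e : (fun i : Fin q => ∑ a ∈ s, m a i + (1 - ∑ a ∈ s, m a i)) = fun _ => 1 := by
      funext i; ring
    rw [e] at h2
    have h3 := (abs_le.1 (hC (fun i => 1 - ∑ a ∈ s, m a i) (fun i => by linarith [h1 i]))).2
    have h4 : sg (fun i => 1 - ∑ a ∈ s, m a i) = q - ∑ a ∈ s, sg (m a) := by
      unfold sg
      rw [Finset.sum_sub_distrib, Finset.sum_comm]
      simp
    rw [h4] at h3
    have := hfin s
    linarith
  have t1 : Tendsto (fun s : Finset A => ∑ a ∈ s, F (m a)) atTop (𝓝 (∑' a, F (m a))) :=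
    hFs.hasSum
  have t2 : Tendsto (fun s : Finset A => ∑ a ∈ s, sg (m a)) atTop (𝓝 (q : ℝ)) := hsg
  have h1 : Tendsto (fun s : Finset A => ∑ a ∈ s, F (m a) + C * (q - ∑ a ∈ s, sg (m a))) atTop
      (𝓝 (∑' a, F (m a) + C * (q - q))) :=
    t1.add ((tendsto_const_nhds.sub t2).const_mul C)
  rw [sub_self, mul_zero, add_zero] at h1
  exact ge_of_tendsto' h1 hb

theorem dom_prod_self {m : A → V q} {u : D → V q} (hm : NFam m) (hu : NFam u) :
    Dom u (prodF m u) := by
  intro F hF
  refine hasSum_le (fun d => ?_) (hF.smb hu).hasSum (hF.fiber_left hm hu)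
  have h3 := (hF.mul (hu.nn d)).jensen hm
  have e : (fun i => (1 : ℝ) * u d i) = u d := by funext i; ring
  simp only [e] at h3
  exact h3

theorem NFam.tsum_powF_succ {F : V q → ℝ} (hF : Sub F) {m : A → V q} (hm : NFam m)
    (k : ℕ) : ∑' l, F (powF m (k + 1) l) = ∑' x, F (prodF m (powF m k) x) := by
  obtain ⟨C, _, hC⟩ := hF.bdd
  have hP := hm.prod (hm.pow k)
  exact ((powF_succ_hasSum m k (F_zero hC)).1 (hF.smb hP).hasSum).tsum_eq

theorem dom_powF_succ {m : A → V q} (hm : NFam m) (k : ℕ) : Dom (powF m k) (powF m (k + 1)) := by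
  intro F hF
  rw [hm.tsum_powF_succ hF k]
  exact dom_prod_self hm (hm.pow k) F hF

theorem dom_powF_le {m : A → V q} (hm : NFam m) {k l : ℕ} (h : k ≤ l) :
    Dom (powF m k) (powF m l) := by
  induction l, h using Nat.le_induction with
  | base => exact Dom.refl _
  | succ l _ ih => exact ih.trans (dom_powF_succ hm l)

theorem Dom.pow {m : A → V q} {m' : B → V q} (hm : NFam m) (hm' : NFam m') (h : Dom m m')
    (k : ℕ) : Dom (powF m k) (powF m' k) := by
  induction k with
  | zero =>
    intro F hF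
    obtain ⟨C, _, hC⟩ := hF.bdd
    rw [(powF_zero_hasSum m (F_zero hC)).tsum_eq, (powF_zero_hasSum m' (F_zero hC)).tsum_eq]
  | succ k ih =>
    intro F hF
    rw [hm.tsum_powF_succ hF k, hm'.tsum_powF_succ hF k]
    exact (((Dom.prod_left hm hm' (hm.pow k) h).trans
      (Dom.prod_right (hm.pow k) (hm'.pow k) hm' ih))) F hF

end Vale.Agent.P154.G
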