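import Vale.Agent.P154.GLink

/-! extinction of the tree: offspring laws with mean at most one -/

namespace Vale.Agent.P154.G

open scoped ENNReal NNReal
open Filter Topology

variable {q : ℕ}

/-- the probability of the observation `o` if it has no vertex at depth `n`, and `0` otherwise -/
noncomputable def dm (q : ℕ) (ξ : PMF ℕ) : (n : ℕ) → Obs q n → ℝ
  | 0, _ => 0
  | n + 1, (l : List (Obs q n)) => (ξ l.length).toReal * (l.map (dm q ξ n)).prod

/-- the probability of no vertex at depth `n` -/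
noncomputable def qn (ξ : PMF ℕ) : ℕ → ℝ
  | 0 => 0
  | n + 1 => ∑' k, (ξ k).toReal * qn ξ n ^ k

theorem dm_nonneg (ξ : PMF ℕ) : ∀ (n : ℕ) (o : Obs q n), 0 ≤ dm q ξ n o
  | 0, _ => le_rfl
  | n + 1, (l : List (Obs q n)) => by
    show 0 ≤ (ξ l.length).toReal * (l.map (dm q ξ n)).prod
    refine mul_nonneg ENNReal.toReal_nonneg (List.prod_nonneg ?_)
    intro x hx
    obtain ⟨a, _, rfl⟩ := List.mem_map.1 hx
    exact dm_nonneg ξ n a

theorem dm_or (ξ : PMF ℕ) (W : Fin q → PMF (Fin q)) : ∀ (n : ℕ) (o : Obs q n),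
    dm q ξ n o = 0 ∨ ∀ i, fam ξ W n o i = dm q ξ n o
  | 0, _ => Or.inl rfl
  | n + 1, (l : List (Obs q n)) => by
    show (ξ l.length).toReal * (l.map (dm q ξ n)).prod = 0 ∨
      ∀ i, fam ξ W (n + 1) l i = (ξ l.length).toReal * (l.map (dm q ξ n)).prod
    by_cases hl : ∃ a ∈ l, dm q ξ n a = 0
    · left
      obtain ⟨a, ha, h0⟩ := hl
      rw [List.prod_eq_zero (List.mem_map.2 ⟨a, ha, h0⟩), mul_zero]
    · right
      push Not at hl
      intro i
      show ((ξ.bind fun k => iid ((W i).bind (bcast ξ W n)) k) l).toReal = _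
      rw [PMF.bind_apply, tsum_eq_single l.length]
      · rw [iid_apply, if_pos rfl, ENNReal.toReal_mul, toReal_prod_map]
        congr 2
        apply List.map_congr_left
        intro o ho
        have h1 : ∀ j, fam ξ W n o j = dm q ξ n o := by
          rcases dm_or ξ W n o with h | h
          · exact absurd h (hl o ho)
          · exact h
        rw [PMF.bind_apply, tsum_fintype, ENNReal.toReal_sum]
        · have h2 : ∀ j, (W i j * bcast ξ W n j o).toReal = (W i j).toReal * dm q ξ n o := by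
            intro j
            rw [ENNReal.toReal_mul, ← h1 j]
            rfl
          rw [Finset.sum_congr rfl fun j _ => h2 j, ← Finset.sum_mul]
          have h3 : ∑ j, (W i j).toReal = 1 := by
            rw [← ENNReal.toReal_sum fun j _ => (W i).apply_ne_top j, ← tsum_fintype (L := .unconditional _),
              PMF.tsum_coe]
            simp
          rw [h3, one_mul]
        · intro j _
          exact ENNReal.mul_ne_top ((W i).apply_ne_top j) ((bcast ξ W n j).apply_ne_top o)
      · intro k hk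
        rw [iid_apply, if_neg (Ne.symm hk), mul_zero]

theorem powF_const_hasSum {A : Type*} (f : A → ℝ) (hf : ∀ a, 0 ≤ f a) {s : ℝ} (h : HasSum f s) :
    ∀ k : ℕ, HasSum (fun l => powF (fun a (_ : Fin 1) => f a) k l 0) (s ^ k)
  | 0 => by
    have := powF_zero_hasSum (fun a (_ : Fin 1) => f a) (F := fun c => c 0) rfl
    simpa using this
  | k + 1 => by
    have ih := powF_const_hasSum f hf h k
    have h1 := (powF_succ_hasSum (fun a (_ : Fin 1) => f a) k (F := fun c => c 0) rfl
      (s := s ^ (k + 1))).1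
    refine h1 ?_
    have hnn : ∀ l, 0 ≤ powF (fun a (_ : Fin 1) => f a) k l 0 := by
      intro l
      by_cases hl : l.length = k
      · rw [← hl, powF_eq]
        refine List.prod_nonneg ?_
        intro x hx
        obtain ⟨a, _, rfl⟩ := List.mem_map.1 hx
        exact hf a
      · rw [powF_eq_zero _ k l hl]
        exact le_rfl
    have h2 := h.mul ih (h.summable.mul_of_nonneg ih.summable hf hnn)
    rw [pow_succ, mul_comm (s ^ k) s]
    exact h2

theorem pmf_nat_hasSum (ξ : PMF ℕ) : HasSum (fun k => (ξ k).toReal) 1 := by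
  have h1 : ∑' k, ξ k ≠ ∞ := ξ.tsum_coe_ne_top
  have h2 := ENNReal.hasSum_toReal h1
  have h3 : ∑' k, (ξ k).toReal = 1 := by
    rw [← ENNReal.tsum_toReal_eq (fun o => ξ.apply_ne_top o), PMF.tsum_coe]
    simp
  rwa [h3] at h2

theorem G_summable (ξ : PMF ℕ) {s : ℝ} (h0 : 0 ≤ s) (h1 : s ≤ 1) :
    Summable (fun k => (ξ k).toReal * s ^ k) :=
  Summable.of_nonneg_of_le (fun _ => mul_nonneg ENNReal.toReal_nonneg (pow_nonneg h0 _))
    (fun k => by
      have : s ^ k ≤ 1 := pow_le_one₀ h0 h1
      calc (ξ k).toReal * s ^ k ≤ (ξ k).toReal * 1 :=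
            mul_le_mul_of_nonneg_left this ENNReal.toReal_nonneg
        _ = (ξ k).toReal := mul_one _)
    (pmf_nat_hasSum ξ).summable

theorem qn_mem (ξ : PMF ℕ) : ∀ n, 0 ≤ qn ξ n ∧ qn ξ n ≤ 1
  | 0 => ⟨le_rfl, zero_le_one⟩
  | n + 1 => by
    obtain ⟨h0, h1⟩ := qn_mem ξ n
    refine ⟨tsum_nonneg fun k => mul_nonneg ENNReal.toReal_nonneg (pow_nonneg h0 _), ?_⟩
    show ∑' k, (ξ k).toReal * qn ξ n ^ k ≤ 1
    rw [← (pmf_nat_hasSum ξ).tsum_eq]
    refine (G_summable ξ h0 h1).tsum_le_tsum (fun k => ?_) (pmf_nat_hasSum ξ).summable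
    have : qn ξ n ^ k ≤ 1 := pow_le_one₀ h0 h1
    calc (ξ k).toReal * qn ξ n ^ k ≤ (ξ k).toReal * 1 :=
            mul_le_mul_of_nonneg_left this ENNReal.toReal_nonneg
        _ = (ξ k).toReal := mul_one _

theorem dm_hasSum (ξ : PMF ℕ) : ∀ n, HasSum (dm q ξ n) (qn ξ n)
  | 0 => hasSum_zero
  | n + 1 => by
    have ih := dm_hasSum ξ n
    obtain ⟨h0, h1⟩ := qn_mem ξ n
    have key : HasSum (fun l : List (Obs q n) => (ξ l.length).toReal *
        (powF (fun a (_ : Fin 1) => dm q ξ n a) l.length l 0)) (∑' k, (ξ k).toReal * qn ξ n ^ k) := by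
      rw [mix_hasSum_iff (fun k => (ξ k).toReal) (fun a (_ : Fin 1) => dm q ξ n a)
        (F := fun c => c 0) rfl]
      have hfib : ∀ k, HasSum (fun l => (ξ k).toReal *
          powF (fun a (_ : Fin 1) => dm q ξ n a) k l 0) ((ξ k).toReal * qn ξ n ^ k) :=
        fun k => (powF_const_hasSum _ (dm_nonneg ξ n) ih k).mul_left _
      have hnn : ∀ k l, 0 ≤ powF (fun a (_ : Fin 1) => dm q ξ n a) k l 0 := by
        intro k l
        by_cases hl : l.length = k
        · rw [← hl, powF_eq]
          refine List.prod_nonneg ?_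
          intro x hx
          obtain ⟨a, _, rfl⟩ := List.mem_map.1 hx
          exact dm_nonneg ξ n a
        · rw [powF_eq_zero _ k l hl]
          exact le_rfl
      have hs : Summable (fun x : ℕ × List (Obs q n) => (ξ x.1).toReal *
          powF (fun a (_ : Fin 1) => dm q ξ n a) x.1 x.2 0) := by
        rw [summable_prod_of_nonneg]
        · refine ⟨fun k => (hfib k).summable, ?_⟩
          simp only [fun k => (hfib k).tsum_eq]
          exact G_summable ξ h0 h1
        · intro x
          exact mul_nonneg ENNReal.toReal_nonneg (hnn _ _)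
      have h1 := hs.hasSum.prod_fiberwise hfib
      rw [h1.tsum_eq]
      exact hs.hasSum
    have e : (fun l : List (Obs q n) => (ξ l.length).toReal *
        (powF (fun a (_ : Fin 1) => dm q ξ n a) l.length l 0)) = dm q ξ (n + 1) := by
      funext l
      rw [powF_eq]
      rfl
    rw [e] at key
    exact key

theorem an_le_dead (hq : 2 ≤ q) (ξ : PMF ℕ) (W : Fin q → PMF (Fin q)) (n : ℕ) :
    an ξ W n ≤ 1 - qn ξ n := by
  have hq0 := q_pos hq
  have hq2 : (2 : ℝ) ≤ q := by exact_mod_cast hq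
  have hsum : ∀ i, HasSum (fun o => fam ξ W n o i) 1 := fam_zero_sum ξ W n
  have hsg : HasSum (fun o => 1 / (q : ℝ) * sg (fam ξ W n o)) 1 := by
    have := (sg_hasSum hsum).mul_left (1 / (q : ℝ))
    have e : 1 / (q : ℝ) * q = 1 := by field_simp
    rwa [e] at this
  have h1 := hsg.sub (dm_hasSum (q := q) ξ n)
  have hm0 : ∀ o, 0 ≤ 1 / (q : ℝ) * sg (fam ξ W n o) := fun o =>
    mul_nonneg (by positivity) (sg_nonneg (fam_nonneg ξ W n o))
  have hdm : ∀ o, (∀ i, fam ξ W n o i = dm q ξ n o) →
      dm q ξ n o = 1 / (q : ℝ) * sg (fam ξ W n o) := by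
    intro o h
    unfold sg
    rw [Finset.sum_congr rfl fun i _ => h i, Finset.sum_const, Finset.card_univ,
      Fintype.card_fin, nsmul_eq_mul]
    field_simp
  have h4 : ∀ o, marg ξ W n o * (1 / 2 * ∑ i, |post ξ W n i o - 1 / q|) ≤
      1 / q * sg (fam ξ W n o) - dm q ξ n o := by
    intro o
    rcases (hm0 o).eq_or_lt with hz | hz
    · rw [marg_eq, ← hz, zero_mul]
      rcases dm_or ξ W n o with h | h
      · rw [h, sub_zero]
      · rw [hdm o h, ← hz, sub_zero]
    · rcases dm_or ξ W n o with h | h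
      · rw [h, sub_zero, marg_eq]
        have hp0 : ∀ i, 0 ≤ post ξ W n i o := by
          intro i
          rw [post_eq]
          exact div_nonneg (mul_nonneg (by positivity) (fam_nonneg ξ W n o i)) hz.le
        have hp1 : ∑ i, post ξ W n i o = 1 := by
          rw [Finset.sum_congr rfl fun i _ => post_eq ξ W n i o, ← Finset.sum_div,
            ← Finset.mul_sum]
          exact div_self hz.ne'
        have habs : ∀ i, |post ξ W n i o - 1 / q| ≤ post ξ W n i o + 1 / q := by
          intro i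
          have h5 : (0 : ℝ) ≤ 1 / q := by positivity
          rw [abs_le]
          constructor <;> linarith [hp0 i]
        have : 1 / 2 * ∑ i, |post ξ W n i o - 1 / q| ≤ 1 := by
          have h6 : ∑ i, |post ξ W n i o - 1 / q| ≤ ∑ i, (post ξ W n i o + 1 / q) :=
            Finset.sum_le_sum fun i _ => habs i
          rw [Finset.sum_add_distrib, hp1, Finset.sum_const, Finset.card_univ, Fintype.card_fin,
            nsmul_eq_mul] at h6
          have e : (q : ℝ) * (1 / q) = 1 := by field_simp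
          rw [e] at h6
          linarith
        calc _ ≤ 1 / q * sg (fam ξ W n o) * 1 := mul_le_mul_of_nonneg_left this hz.le
          _ = _ := mul_one _
      · have hd := hdm o h
        have hp : ∀ i, post ξ W n i o = 1 / q := by
          intro i
          rw [post_eq, h i, ← hd, mul_div_assoc, div_self, mul_one]
          rw [hd]
          exact hz.ne'
        simp only [hp]
        rw [hd]
        simp
  unfold an
  have h5 : Summable (fun o => marg ξ W n o * (1 / 2 * ∑ i, |post ξ W n i o - 1 / q|)) :=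
    Summable.of_nonneg_of_le (term_nonneg ξ W n) h4 h1.summable
  calc _ ≤ ∑' o, (1 / q * sg (fam ξ W n o) - dm q ξ n o) := h5.tsum_le_tsum h4 h1.summable
    _ = _ := h1.tsum_eq

theorem one_sub_pow_ge {x : ℝ} (h0 : 0 ≤ x) (h1 : x ≤ 1) :
    ∀ k : ℕ, 1 - k * x + (if 2 ≤ k then x ^ 2 else 0) ≤ (1 - x) ^ k
  | 0 => by simp
  | 1 => by simp
  | 2 => by norm_num; nlinarith
  | k + 3 => by
    have ih := one_sub_pow_ge h0 h1 (k + 2)
    rw [if_pos (by omega)] at ih ⊢
    have h2 : (1 - x) * (1 - ((k + 2 : ℕ) : ℝ) * x + x ^ 2) ≤ (1 - x) * (1 - x) ^ (k + 2) :=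
      mul_le_mul_of_nonneg_left ih (by linarith)
    have h3 : (1 - x) ^ (k + 3) = (1 - x) * (1 - x) ^ (k + 2) := by ring
    rw [h3]
    refine le_trans ?_ h2
    push_cast
    have hk : (0 : ℝ) ≤ k := Nat.cast_nonneg k
    nlinarith [mul_nonneg hk (sq_nonneg x), mul_nonneg (sq_nonneg x) (sub_nonneg.2 h1)]

theorem qn_tendsto (ξ : PMF ℕ) {μ : ℝ} (hμ : HasSum (fun k => (ξ k).toReal * k) μ) (hle : μ ≤ 1)
    (hne : ξ 1 ≠ 1) : Tendsto (fun n => 1 - qn ξ n) atTop (𝓝 0) := by
  set w : ℕ → ℝ := fun k => (ξ k).toReal with hw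
  have hw0 : ∀ k, 0 ≤ w k := fun k => ENNReal.toReal_nonneg
  have hw1 : HasSum w 1 := pmf_nat_hasSum ξ
  have htail : HasSum (fun k => if 2 ≤ k then w k else 0) (1 - w 0 - w 1) := tail_hasSum hw1
  have hw01 : w 0 + w 1 ≤ 1 := by
    have := sum_le_hasSum {0, 1} (fun k _ => hw0 k) hw1
    rwa [Finset.sum_pair (by norm_num)] at this
  have hx0 : ∀ n, 0 ≤ 1 - qn ξ n := fun n => by linarith [(qn_mem ξ n).2]
  have hrec : ∀ n, 1 - qn ξ (n + 1) ≤ μ * (1 - qn ξ n) - (1 - w 0 - w 1) * (1 - qn ξ n) ^ 2 := by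
    intro n
    obtain ⟨h0, h1⟩ := qn_mem ξ n
    have h2 : HasSum (fun k => w k * qn ξ n ^ k) (qn ξ (n + 1)) := (G_summable ξ h0 h1).hasSum
    have h3 := (hw1.sub (hμ.mul_right (1 - qn ξ n))).add (htail.mul_right ((1 - qn ξ n) ^ 2))
    have h4 : 1 - μ * (1 - qn ξ n) + (1 - w 0 - w 1) * (1 - qn ξ n) ^ 2 ≤ qn ξ (n + 1) := by
      refine hasSum_le (fun k => ?_) h3 h2
      have h5 := one_sub_pow_ge (x := 1 - qn ξ n) (by linarith) (by linarith) k
      rw [sub_sub_cancel] at h5
      have h6 := mul_le_mul_of_nonneg_left h5 (hw0 k)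
      refine le_trans (le_of_eq ?_) h6
      simp only [hw]
      split_ifs <;> ring
    linarith
  have hrec' : ∀ n, 1 - qn ξ (n + 1) ≤ (1 - qn ξ n) - (1 - w 0 - w 1) * (1 - qn ξ n) ^ 2 := by
    intro n
    have h1 := hrec n
    have h2 : μ * (1 - qn ξ n) ≤ 1 * (1 - qn ξ n) := mul_le_mul_of_nonneg_right hle (hx0 n)
    linarith
  rcases (sub_nonneg.2 hw01).eq_or_lt with hp | hp
  · -- at most one child
    have hwk : ∀ k, 2 ≤ k → w k = 0 := by
      intro k hk
      have h2 := sum_le_hasSum {0, 1, k} (fun k _ => hw0 k) hw1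
      have h3 : ∑ j ∈ ({0, 1, k} : Finset ℕ), w j = w 0 + w 1 + w k := by
        rw [Finset.sum_insert, Finset.sum_insert, Finset.sum_singleton]
        · ring
        · simp; omega
        · simp; omega
      rw [h3] at h2
      have := hw0 k
      linarith
    have hμ1 : μ = w 1 := by
      have h2 : HasSum (fun k => w k * k) (w 1 * (1 : ℕ)) := by
        apply hasSum_single
        intro k hk
        rcases Nat.lt_or_ge k 2 with h3 | h3
        · have : k = 0 := by omega
          rw [this]; simp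
        · rw [hwk k h3, zero_mul]
      have h3 := hμ.unique h2
      rw [h3]
      push_cast
      ring
    have hw1lt : w 1 < 1 := by
      have h2 := hw0 0
      rcases (show w 1 ≤ 1 by linarith).eq_or_lt with h | h
      · exfalso
        apply hne
        have := ENNReal.ofReal_toReal (ξ.apply_ne_top 1)
        rw [← this]
        show ENNReal.ofReal (w 1) = 1
        rw [h, ENNReal.ofReal_one]
      · exact h
    have hle2 : ∀ n, 1 - qn ξ n ≤ (w 1) ^ n := by
      intro n
      induction n with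
      | zero => simp [qn]
      | succ n ih =>
        have h2 := hrec n
        have h3 : (1 - w 0 - w 1) = 0 := by linarith
        rw [h3, zero_mul, sub_zero, hμ1] at h2
        refine le_trans h2 ?_
        rw [pow_succ, mul_comm (w 1 ^ n)]
        exact mul_le_mul_of_nonneg_left ih (hw0 1)
    exact squeeze_zero hx0 hle2 (tendsto_pow_atTop_nhds_zero_of_lt_one (hw0 1) hw1lt)
  · exact tendsto_zero_of_rec two_ne_zero (by linarith : 0 < 1 - w 0 - w 1) hx0 hrec'

/-- nonreconstruction when the mean is at most one, for every channel -/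
theorem nonrecon_ext (hq : 2 ≤ q) (ξ : PMF ℕ) (W : Fin q → PMF (Fin q)) {μ : ℝ}
    (hμ : HasSum (fun k => (ξ k).toReal * k) μ) (hle : μ ≤ 1) (hne : ξ 1 ≠ 1) :
    Tendsto (fun n => an ξ W n) atTop (𝓝 0) :=
  squeeze_zero (an_nonneg ξ W) (an_le_dead hq ξ W) (qn_tendsto ξ hμ hle hne)

end Vale.Agent.P154.G
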