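import Vale.Agent.P154.GBase

/-! symmetric families of likelihood vectors (`q` states) -/

namespace Vale.Agent.P154.G

variable {A B : Type*} {q : ℕ}

/-- A symmetric family of likelihood vectors: `m a i` is the probability of the observation `a`
if the root has spin `i`. -/
structure Fam (m : A → V q) : Prop where
  pz : ∀ a, Pos (m a) ∨ m a = 0
  sum : ∀ i, HasSum (fun a => m a i) 1
  symm : ∀ π : Equiv.Perm (Fin q), ∃ e : A ≃ A, ∀ a i, m (e a) (π i) = m a i

/-- expected squared distance of the posterior from uniform -/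
noncomputable def X (m : A → V q) : ℝ := 1 / q * ∑' a, Rf (m a)

/-- expectation of a functional -/
noncomputable def Phi (F : V q → ℝ) (m : A → V q) : ℝ := 1 / q * ∑' a, F (m a)

/-- two independent observations -/
def prodF (m : A → V q) (m' : B → V q) : A × B → V q := fun x i => m x.1 i * m' x.2 i

/-- bounded by a multiple of the mass -/
def Bdd (F : V q → ℝ) (C : ℝ) : Prop := ∀ c : V q, (∀ i, 0 ≤ c i) → |F c| ≤ C * sg c

lemma Fam.nn {m : A → V q} (hm : Fam m) (a : A) (i : Fin q) : 0 ≤ m a i := by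
  rcases hm.pz a with h | h
  · exact (h i).le
  · rw [h]; exact le_rfl

lemma sg_hasSum {m : A → V q} (hs : ∀ i, HasSum (fun a => m a i) 1) :
    HasSum (fun a => sg (m a)) q := by
  have h := hasSum_sum (s := (Finset.univ : Finset (Fin q))) fun i _ => hs i
  simpa [sg] using h

lemma smb {F : V q → ℝ} {C : ℝ} (hF : Bdd F C) {m : A → V q}
    (hnn : ∀ a i, 0 ≤ m a i) (hs : ∀ i, HasSum (fun a => m a i) 1) :
    Summable (fun a => F (m a)) := by
  refine Summable.of_norm_bounded (g := fun a => C * sg (m a))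
    ((sg_hasSum hs).summable.mul_left C) fun a => ?_
  rw [Real.norm_eq_abs]
  exact hF (m a) (hnn a)

lemma bRf (hq : 2 ≤ q) : Bdd (Rf (q := q)) 1 := fun c hc => by
  rw [abs_of_nonneg (Rf_nonneg hq hc), one_mul]; exact Rf_le hq hc

lemma bsg : Bdd (sg (q := q)) 1 := fun c hc => by
  rw [abs_of_nonneg (sg_nonneg hc), one_mul]

/-- the square of `Rf` over the mass -/
noncomputable def Yf (c : V q) : ℝ := Rf c ^ 2 / sg c

lemma Yf_nonneg {c : V q} (hc : ∀ i, 0 ≤ c i) : 0 ≤ Yf c :=
  div_nonneg (sq_nonneg _) (sg_nonneg hc)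

lemma bYf (hq : 2 ≤ q) : Bdd (Yf (q := q)) 1 := fun c hc => by
  rw [abs_of_nonneg (Yf_nonneg hc), one_mul]
  have h1 := Rf_nonneg hq hc
  have h2 := Rf_le hq hc
  unfold Yf
  rcases (sg_nonneg hc).eq_or_lt with h | h
  · rw [← h, div_zero]
  · rw [div_le_iff₀ h]
    nlinarith

theorem X_nonneg (hq : 2 ≤ q) {m : A → V q} (hnn : ∀ a i, 0 ≤ m a i) : 0 ≤ X m :=
  mul_nonneg (by positivity) (tsum_nonneg fun a => Rf_nonneg hq (hnn a))

lemma q_pos (hq : 2 ≤ q) : (0 : ℝ) < q := by
  have : (2 : ℝ) ≤ q := by exact_mod_cast hq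
  linarith

theorem X_le_one (hq : 2 ≤ q) {m : A → V q} (hnn : ∀ a i, 0 ≤ m a i)
    (hs : ∀ i, HasSum (fun a => m a i) 1) : X m ≤ 1 := by
  have h1 : ∑' a, Rf (m a) ≤ ∑' a, sg (m a) :=
    (smb (bRf hq) hnn hs).tsum_le_tsum (fun a => Rf_le hq (hnn a)) (smb bsg hnn hs)
  rw [(sg_hasSum hs).tsum_eq] at h1
  have h2 := q_pos hq
  unfold X
  rw [one_div, inv_mul_le_iff₀ h2, mul_one]
  exact h1

theorem Fam.prod {m : A → V q} {m' : B → V q} (hm : Fam m) (hm' : Fam m') : Fam (prodF m m') where
  pz := by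
    rintro ⟨a, b⟩
    rcases hm.pz a with h | h
    · rcases hm'.pz b with h' | h'
      · left
        intro i
        exact mul_pos (h i) (h' i)
      · right
        funext i
        show m a i * m' b i = 0
        rw [h']; simp
    · right
      funext i
      show m a i * m' b i = 0
      rw [h]; simp
  sum := by
    intro i
    have h := (hm.sum i).mul (hm'.sum i)
      ((hm.sum i).summable.mul_of_nonneg (hm'.sum i).summable (fun a => hm.nn a i)
        (fun b => hm'.nn b i))
    rw [one_mul] at h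
    exact h
  symm := by
    intro π
    obtain ⟨e, he⟩ := hm.symm π
    obtain ⟨e', he'⟩ := hm'.symm π
    refine ⟨Equiv.prodCongr e e', ?_⟩
    rintro ⟨a, b⟩ i
    show m (e a) (π i) * m' (e' b) (π i) = m a i * m' b i
    rw [he, he']

/-- symmetrisation of a sum over a product family -/
lemma tsum_SS {F : V q → ℝ} {C : ℝ} (hF : Bdd F C)
    {m : A → V q} {m' : B → V q} (hm : Fam m) (hm' : Fam m') :
    HasSum (fun x : A × B => SS F (m x.1) (m' x.2))
      ((q.factorial : ℝ) * ∑' x, F (prodF m m' x)) := by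
  have hP := hm.prod hm'
  have hS : Summable (fun x => F (prodF m m' x)) := smb hF hP.nn hP.sum
  have key : ∀ π : Equiv.Perm (Fin q),
      HasSum (fun x : A × B => F (fun i => m x.1 i * m' x.2 (π i))) (∑' x, F (prodF m m' x)) := by
    intro π
    obtain ⟨e, he⟩ := hm'.symm π
    rw [← (Equiv.prodCongr (Equiv.refl A) e).hasSum_iff]
    have e1 : (fun x : A × B => F (fun i => m x.1 i * m' x.2 (π i))) ∘
        (Equiv.prodCongr (Equiv.refl A) e) = fun x => F (prodF m m' x) := by
      funext x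
      show F (fun i => m x.1 i * m' (e x.2) (π i)) = F (fun i => m x.1 i * m' x.2 i)
      congr 1
      funext i
      rw [he]
    rw [e1]
    exact hS.hasSum
  have h := hasSum_sum (s := (Finset.univ : Finset (Equiv.Perm (Fin q)))) fun π _ => key π
  have e2 : ∑ _π : Equiv.Perm (Fin q), ∑' x, F (prodF m m' x) =
      (q.factorial : ℝ) * ∑' x, F (prodF m m' x) := by
    rw [Finset.sum_const, Finset.card_univ, Fintype.card_perm, Fintype.card_fin, nsmul_eq_mul]
  rw [e2] at h
  exact h

lemma hasSum_FG {F G : V q → ℝ} {C C' : ℝ} (hF : Bdd F C) (hG : Bdd G C')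
    {m : A → V q} {m' : B → V q} (hm : Fam m) (hm' : Fam m') :
    HasSum (fun x : A × B => F (m x.1) * G (m' x.2)) ((∑' a, F (m a)) * ∑' b, G (m' b)) := by
  have h1 : Summable (fun a => F (m a)) := smb hF hm.nn hm.sum
  have h2 : Summable (fun b => G (m' b)) := smb hG hm'.nn hm'.sum
  exact h1.hasSum.mul h2.hasSum (summable_mul_of_summable_norm h1.norm h2.norm)

lemma F_zero {F : V q → ℝ} {C : ℝ} (hF : Bdd F C) : F 0 = 0 := by
  have h := hF 0 (fun i => le_rfl)
  have e : sg (0 : V q) = 0 := by unfold sg; simp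
  rw [e, mul_zero] at h
  exact abs_nonpos_iff.1 h

lemma SS_zero_left (F : V q → ℝ) (hF : F 0 = 0) (r : V q) : SS F 0 r = 0 := by
  unfold SS
  apply Finset.sum_eq_zero
  intro π _
  have : (fun i => (0 : V q) i * r (π i)) = 0 := by funext i; simp
  rw [this, hF]

lemma SS_zero_right (F : V q → ℝ) (hF : F 0 = 0) (p : V q) : SS F p 0 = 0 := by
  unfold SS
  apply Finset.sum_eq_zero
  intro π _
  have : (fun i => p i * (0 : V q) (π i)) = 0 := by funext i; simp
  rw [this, hF]

lemma fact_div (hq : 2 ≤ q) (z : ℝ) :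
    1 / ((q - 1).factorial : ℝ) * ((q.factorial : ℝ) * z) = q * z := by
  have h1 : q.factorial = q * (q - 1).factorial := (Nat.mul_factorial_pred (by omega)).symm
  have h2 : ((q - 1).factorial : ℝ) ≠ 0 := by positivity
  rw [h1]
  push_cast
  field_simp

/-- Cauchy-Schwarz -/
lemma sq_le_Y (hq : 2 ≤ q) {m : A → V q} (hm : Fam m) :
    (∑' a, Rf (m a)) ^ 2 ≤ q * ∑' a, Yf (m a) := by
  have hq0 := q_pos hq
  set S := ∑' a, Rf (m a) with hS
  have h1 : Summable (fun a => Rf (m a)) := smb (bRf hq) hm.nn hm.sum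
  have h2 : Summable (fun a => Yf (m a)) := smb (bYf hq) hm.nn hm.sum
  have h3 := sg_hasSum hm.sum
  set s : ℝ := S / q with hs
  -- `2 s Rf ≤ Yf + s² sg`
  have h4 : 2 * s * S ≤ ∑' a, Yf (m a) + s ^ 2 * q := by
    refine hasSum_le (f := fun a => 2 * s * Rf (m a))
      (g := fun a => Yf (m a) + s ^ 2 * sg (m a)) (fun a => ?_)
      (h1.hasSum.mul_left _) (h2.hasSum.add (h3.mul_left _))
    have hn := sg_nonneg (hm.nn a)
    rcases hn.eq_or_lt with h | h
    · have h5 : Rf (m a) = 0 := by
        have := Rf_le hq (hm.nn a)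
        have := Rf_nonneg hq (hm.nn a)
        linarith
      unfold Yf
      rw [h5, ← h]
      simp
    · unfold Yf
      have e : Rf (m a) ^ 2 / sg (m a) + s ^ 2 * sg (m a) - 2 * s * Rf (m a) =
          (Rf (m a) - s * sg (m a)) ^ 2 / sg (m a) := by
        field_simp
        ring
      have : 0 ≤ (Rf (m a) - s * sg (m a)) ^ 2 / sg (m a) := by positivity
      linarith
  have e1 : s * q = S := by rw [hs]; field_simp
  have e2 : s ^ 2 * q = s * S := by rw [sq, mul_assoc, e1]
  have e3 : q * (s * S) = S ^ 2 := by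
    calc q * (s * S) = (s * q) * S := by ring
      _ = S ^ 2 := by rw [e1, sq]
  have h5 : s * S ≤ ∑' a, Yf (m a) := by linarith
  calc S ^ 2 = q * (s * S) := e3.symm
    _ ≤ q * ∑' a, Yf (m a) := mul_le_mul_of_nonneg_left h5 hq0.le

lemma tsum_Rf_eq (hq : 2 ≤ q) (m : A → V q) : ∑' a, Rf (m a) = q * X m := by
  have hq0 := q_pos hq
  unfold X
  field_simp

theorem X_prod (sc : Scheme q) {m : A → V q} {m' : B → V q} (hm : Fam m) (hm' : Fam m')
    (h : 0 ≤ Phi sc.Ff m) (h' : 0 ≤ Phi sc.Ff m') :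
    X (prodF m m') ≤ X m + X m' - sc.t * (X m ^ 2 * X m' + X m * X m' ^ 2) := by
  have hq := sc.hq
  have hq0 := q_pos hq
  have bF : Bdd sc.Ff sc.K := sc.Ff_bd
  have bB : Bdd sc.Bf sc.K := sc.Bf_bd
  have s1 := (tsum_SS (bRf hq) hm hm').mul_left (1 / ((q - 1).factorial : ℝ))
  have t1 := hasSum_FG (bRf hq) bsg hm hm'
  have t2 := hasSum_FG bsg (bRf hq) hm hm'
  have t3 := hasSum_FG bF bB hm hm'
  have t4 := hasSum_FG bB bF hm hm'
  have t5 := hasSum_FG (bYf hq) (bRf hq) hm hm'
  have t6 := hasSum_FG (bRf hq) (bYf hq) hm hm'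
  have hle := hasSum_le (f := fun x : A × B => 1 / ((q - 1).factorial : ℝ) * SS Rf (m x.1) (m' x.2))
    (g := fun x : A × B => Rf (m x.1) * sg (m' x.2) + sg (m x.1) * Rf (m' x.2) -
      (sc.Ff (m x.1) * sc.Bf (m' x.2) + sc.Bf (m x.1) * sc.Ff (m' x.2)) -
      sc.t * (Yf (m x.1) * Rf (m' x.2) + Rf (m x.1) * Yf (m' x.2))) (by
      rintro ⟨a, b⟩
      rcases hm.pz a with ha | ha
      · rcases hm'.pz b with hb | hb
        · have := sc.pt_upper _ _ ha hb
          simp only
          unfold Yf
          linarith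
        · simp only
          rw [hb, SS_zero_right Rf (F_zero (bRf hq)), F_zero (bRf hq), F_zero bsg, F_zero bF,
            F_zero bB, F_zero (bYf hq)]
          simp
      · simp only
        rw [ha, SS_zero_left Rf (F_zero (bRf hq)), F_zero (bRf hq), F_zero bsg, F_zero bF,
          F_zero bB, F_zero (bYf hq)]
        simp) s1 (((t1.add t2).sub (t3.add t4)).sub ((t5.add t6).mul_left sc.t))
  rw [(sg_hasSum hm.sum).tsum_eq, (sg_hasSum hm'.sum).tsum_eq, fact_div hq] at hle
  have b1 : 0 ≤ ∑' a, sc.Bf (m a) := tsum_nonneg fun a => sc.Bf_nn _ (hm.nn a)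
  have b2 : 0 ≤ ∑' a, sc.Bf (m' a) := tsum_nonneg fun a => sc.Bf_nn _ (hm'.nn a)
  unfold Phi at h h'
  have f1 : 0 ≤ ∑' a, sc.Ff (m a) := by
    by_contra hcon
    have := mul_neg_of_pos_of_neg (show (0 : ℝ) < 1 / q by positivity) (not_le.1 hcon)
    linarith
  have f2 : 0 ≤ ∑' a, sc.Ff (m' a) := by
    by_contra hcon
    have := mul_neg_of_pos_of_neg (show (0 : ℝ) < 1 / q by positivity) (not_le.1 hcon)
    linarith
  have g1 := mul_nonneg f1 b2
  have g2 := mul_nonneg b1 f2
  have y1 := sq_le_Y hq hm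
  have y2 := sq_le_Y hq hm'
  have x1 := X_nonneg hq hm.nn
  have x2 := X_nonneg hq hm'.nn
  have e1 := tsum_Rf_eq hq m
  have e2 := tsum_Rf_eq hq m'
  have e3 := tsum_Rf_eq hq (prodF m m')
  rw [e1] at y1
  rw [e2] at y2
  rw [e1, e2, e3] at hle
  have y1' : q * X m ^ 2 ≤ ∑' a, Yf (m a) := by
    have : q * (q * X m ^ 2) ≤ q * ∑' a, Yf (m a) := by
      calc q * (q * X m ^ 2) = (q * X m) ^ 2 := by ring
        _ ≤ _ := y1
    exact le_of_mul_le_mul_left this hq0
  have y2' : q * X m' ^ 2 ≤ ∑' a, Yf (m' a) := by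
    have : q * (q * X m' ^ 2) ≤ q * ∑' a, Yf (m' a) := by
      calc q * (q * X m' ^ 2) = (q * X m') ^ 2 := by ring
        _ ≤ _ := y2
    exact le_of_mul_le_mul_left this hq0
  have z1 : q * X m ^ 2 * (q * X m') ≤ (∑' a, Yf (m a)) * (q * X m') :=
    mul_le_mul_of_nonneg_right y1' (mul_nonneg hq0.le x2)
  have z2 : q * X m * (q * X m' ^ 2) ≤ q * X m * (∑' a, Yf (m' a)) :=
    mul_le_mul_of_nonneg_left y2' (mul_nonneg hq0.le x1)
  have z3 := mul_le_mul_of_nonneg_left (add_le_add z1 z2) sc.t_pos.le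
  have fin : q * q * X (prodF m m') ≤
      q * q * (X m + X m' - sc.t * (X m ^ 2 * X m' + X m * X m' ^ 2)) := by
    have e5 : (q : ℝ) * q * (X m + X m' - sc.t * (X m ^ 2 * X m' + X m * X m' ^ 2)) =
        q * X m * q + q * (q * X m') -
          sc.t * (q * X m ^ 2 * (q * X m') + q * X m * (q * X m' ^ 2)) := by ring
    rw [e5]
    have e6 : (q : ℝ) * q * X (prodF m m') = q * (q * X (prodF m m')) := by ring
    rw [e6]
    linarith
  exact le_of_mul_le_mul_left fin (mul_pos hq0 hq0)

lemma Phi_nonneg_iff (hq : 2 ≤ q) {F : V q → ℝ} {m : A → V q} :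
    0 ≤ Phi F m ↔ 0 ≤ ∑' a, F (m a) := by
  have hq0 := q_pos hq
  unfold Phi
  constructor
  · intro h
    by_contra hcon
    have := mul_neg_of_pos_of_neg (show (0 : ℝ) < 1 / q by positivity) (not_le.1 hcon)
    linarith
  · intro h
    positivity

theorem Phi_prod (sc : Scheme q) {m : A → V q} {m' : B → V q} (hm : Fam m) (hm' : Fam m')
    (h : 0 ≤ Phi sc.Ff m) (h' : 0 ≤ Phi sc.Ff m') : 0 ≤ Phi sc.Ff (prodF m m') := by
  have hq := sc.hq
  have hq0 := q_pos hq
  have bF : Bdd sc.Ff sc.K := sc.Ff_bd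
  have bD : Bdd sc.Df sc.K := sc.Df_bd
  have s1 := (tsum_SS bF hm hm').mul_left (1 / ((q - 1).factorial : ℝ))
  have t1 := hasSum_FG bF bD hm hm'
  have t2 := hasSum_FG bD bF hm hm'
  have hle := hasSum_le
    (f := fun x : A × B => sc.Ff (m x.1) * sc.Df (m' x.2) + sc.Df (m x.1) * sc.Ff (m' x.2))
    (g := fun x : A × B => 1 / ((q - 1).factorial : ℝ) * SS sc.Ff (m x.1) (m' x.2)) (by
      rintro ⟨a, b⟩
      rcases hm.pz a with ha | ha
      · rcases hm'.pz b with hb | hb
        · have := sc.pt_prod _ _ ha hb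
          simp only
          linarith
        · simp only
          rw [hb, SS_zero_right sc.Ff (F_zero bF), F_zero bF, F_zero bD]
          simp
      · simp only
        rw [ha, SS_zero_left sc.Ff (F_zero bF), F_zero bF, F_zero bD]
        simp) (t1.add t2) s1
  have b1 : 0 ≤ ∑' a, sc.Df (m a) := tsum_nonneg fun a => sc.Df_nn _ (hm.nn a)
  have b2 : 0 ≤ ∑' a, sc.Df (m' a) := tsum_nonneg fun a => sc.Df_nn _ (hm'.nn a)
  rw [Phi_nonneg_iff hq] at h h' ⊢
  have g1 := mul_nonneg h b2
  have g2 := mul_nonneg b1 h'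
  rw [fact_div hq] at hle
  have : 0 ≤ (q : ℝ) * ∑' x, sc.Ff (prodF m m' x) := by linarith
  exact nonneg_of_mul_nonneg_right this hq0

lemma chan_nn (hq : 2 ≤ q) {lam : ℝ} (h0 : 0 ≤ lam) (h1 : lam ≤ 1) {c : V q}
    (hc : ∀ i, 0 ≤ c i) (i : Fin q) : 0 ≤ chan lam c i := by
  have := sg_nonneg hc
  have := q_pos hq
  unfold chan
  exact add_nonneg (mul_nonneg h0 (hc i)) (mul_nonneg (div_nonneg (by linarith) this.le) (sg_nonneg hc))

lemma chan_sum (hq : 2 ≤ q) {m : A → V q} (hs : ∀ i, HasSum (fun a => m a i) 1) (lam : ℝ)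
    (i : Fin q) : HasSum (fun a => chan lam (m a) i) 1 := by
  have h := ((hs i).mul_left lam).add ((sg_hasSum hs).mul_left ((1 - lam) / q))
  have hq0 := q_pos hq
  have e : lam * 1 + (1 - lam) / q * q = 1 := by field_simp; ring
  rw [e] at h
  exact h

/-- the channel applied to a family (only summability, symmetry and nonnegativity are needed of
the family: it may contain boundary vectors) -/
theorem Fam.chan (hq : 2 ≤ q) {m : A → V q} (hnn : ∀ a i, 0 ≤ m a i)
    (hs : ∀ i, HasSum (fun a => m a i) 1)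
    (hsy : ∀ π : Equiv.Perm (Fin q), ∃ e : A ≃ A, ∀ a i, m (e a) (π i) = m a i)
    {lam : ℝ} (h0 : 0 ≤ lam) (h1 : lam < 1) : Fam (fun a => chan lam (m a)) where
  pz := by
    intro a
    rcases (sg_nonneg (hnn a)).eq_or_lt with h3 | h3
    · right
      have h4 := eq_zero_of_sg (hnn a) h3.symm
      funext i
      show lam * m a i + (1 - lam) / q * sg (m a) = 0
      rw [← h3, h4]
      simp
    · left
      intro i
      show 0 < lam * m a i + (1 - lam) / q * sg (m a)
      have h4 := mul_nonneg h0 (hnn a i)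
      have h5 : 0 < (1 - lam) / q * sg (m a) :=
        mul_pos (div_pos (by linarith) (q_pos hq)) h3
      linarith
  sum := fun i => chan_sum hq hs lam i
  symm := by
    intro π
    obtain ⟨e, he⟩ := hsy π
    refine ⟨e, fun a i => ?_⟩
    show lam * m (e a) (π i) + (1 - lam) / q * sg (m (e a)) =
      lam * m a i + (1 - lam) / q * sg (m a)
    have h2 : sg (m (e a)) = sg (m a) := by
      unfold sg
      rw [← Equiv.sum_comp π]
      exact Finset.sum_congr rfl fun i _ => he a i
    rw [he, h2]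

theorem X_chan (hq : 2 ≤ q) (m : A → V q) (lam : ℝ) :
    X (fun a => chan lam (m a)) = lam ^ 2 * X m := by
  unfold X
  simp_rw [Rf_chan hq]
  rw [tsum_mul_left]
  ring

theorem Phi_chan (sc : Scheme q) {m : A → V q} (hnn : ∀ a i, 0 ≤ m a i)
    (hs : ∀ i, HasSum (fun a => m a i) 1)
    {lam : ℝ} (h0 : 0 ≤ lam) (h1 : lam ≤ 1) (h : 0 ≤ Phi sc.Ff m) :
    0 ≤ Phi sc.Ff (fun a => chan lam (m a)) := by
  have hq := sc.hq
  rw [Phi_nonneg_iff hq] at h ⊢
  have bF : Bdd sc.Ff sc.K := sc.Ff_bd
  have h2 : ∑' a, lam ^ 3 * sc.Ff (m a) ≤ ∑' a, sc.Ff (chan lam (m a)) :=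
    ((smb bF hnn hs).mul_left _).tsum_le_tsum (fun a => sc.pt_chan lam h0 h1 _ (hnn a))
      (smb bF (fun a i => chan_nn hq h0 h1 (hnn a) i) (fun i => chan_sum hq hs lam i))
  rw [tsum_mul_left] at h2
  have h4 : 0 ≤ lam ^ 3 * ∑' a, sc.Ff (m a) := mul_nonneg (by positivity) h
  linarith

/-- `k` independent copies of a family, as a family indexed by lists -/
noncomputable def powF (m : A → V q) : ℕ → List A → V q
  | 0, [] => fun _ => 1
  | 0, _ :: _ => 0
  | _ + 1, [] => 0
  | k + 1, a :: l => fun i => m a i * powF m k l i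

lemma powF_eq_zero (m : A → V q) : ∀ (k : ℕ) (l : List A), l.length ≠ k → powF m k l = 0
  | 0, [], h => absurd rfl h
  | 0, _ :: _, _ => rfl
  | _ + 1, [], _ => rfl
  | k + 1, a :: l, h => by
    have h1 : l.length ≠ k := fun h2 => h (by rw [List.length_cons, h2])
    funext i
    show m a i * powF m k l i = 0
    rw [powF_eq_zero m k l h1]
    simp

lemma cons_inj : Function.Injective (fun x : A × List A => x.1 :: x.2) := by
  rintro ⟨a, l⟩ ⟨b, l'⟩ h
  simp only [List.cons.injEq] at h
  rw [h.1, h.2]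

lemma powF_succ_hasSum (m : A → V q) (k : ℕ) {F : V q → ℝ} (hF : F 0 = 0) {s : ℝ} :
    HasSum (fun x => F (prodF m (powF m k) x)) s ↔ HasSum (fun l => F (powF m (k + 1) l)) s := by
  rw [← (cons_inj (A := A)).hasSum_iff (f := fun l => F (powF m (k + 1) l))]
  · rfl
  · intro l hl
    cases l with
    | nil => exact hF
    | cons a l => exact absurd ⟨(a, l), rfl⟩ hl

lemma powF_zero_hasSum (m : A → V q) {F : V q → ℝ} (hF : F 0 = 0) :
    HasSum (fun l => F (powF m 0 l)) (F (fun _ => 1)) := by
  have h := hasSum_single (f := fun l => F (powF m 0 l)) ([] : List A) (by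
    intro l hl
    cases l with
    | nil => exact absurd rfl hl
    | cons a l => exact hF)
  exact h

lemma powF_map (m : A → V q) (π : Equiv.Perm (Fin q)) (e : A ≃ A)
    (he : ∀ a i, m (e a) (π i) = m a i) :
    ∀ (k : ℕ) (l : List A) (i : Fin q), powF m k (l.map e) (π i) = powF m k l i
  | 0, [], _ => rfl
  | 0, _ :: _, _ => rfl
  | _ + 1, [], _ => rfl
  | k + 1, a :: l, i => by
    show m (e a) (π i) * powF m k (l.map e) (π i) = m a i * powF m k l i
    rw [he, powF_map m π e he k l i]

/-- `List.map` of an equivalence -/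
def lmap (e : A ≃ A) : List A ≃ List A where
  toFun := List.map e
  invFun := List.map e.symm
  left_inv := fun l => by simp [List.map_map]
  right_inv := fun l => by simp [List.map_map]

theorem Fam.pow {m : A → V q} (hm : Fam m) (k : ℕ) : Fam (powF m k) := by
  induction k with
  | zero =>
    refine ⟨?_, ?_, ?_⟩
    · intro l
      cases l with
      | nil => left; intro i; exact one_pos
      | cons a l => right; rfl
    · intro i
      exact powF_zero_hasSum m (F := fun c => c i) rfl
    · intro π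
      obtain ⟨e, he⟩ := hm.symm π
      exact ⟨lmap e, fun l i => powF_map m π e he 0 l i⟩
  | succ k ih =>
    have hP := hm.prod ih
    refine ⟨?_, ?_, ?_⟩
    · intro l
      cases l with
      | nil => right; rfl
      | cons a l => exact hP.pz (a, l)
    · intro i
      exact (powF_succ_hasSum m k (F := fun c => c i) rfl).1 (hP.sum i)
    · intro π
      obtain ⟨e, he⟩ := hm.symm π
      exact ⟨lmap e, fun l i => powF_map m π e he (k + 1) l i⟩

lemma Phi_powF_zero (sc : Scheme q) (m : A → V q) : Phi sc.Ff (powF m 0) = 0 := by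
  unfold Phi
  rw [(powF_zero_hasSum m (F_zero sc.Ff_bd)).tsum_eq, sc.Ff_one, mul_zero]

lemma X_powF_zero (hq : 2 ≤ q) (m : A → V q) : X (powF m 0) = 0 := by
  unfold X
  rw [(powF_zero_hasSum m (F_zero (bRf hq))).tsum_eq, Rf_one, mul_zero]

lemma Phi_powF_succ (sc : Scheme q) {m : A → V q} (hm : Fam m) (k : ℕ) :
    Phi sc.Ff (powF m (k + 1)) = Phi sc.Ff (prodF m (powF m k)) := by
  unfold Phi
  have hP := hm.prod (hm.pow k)
  have bF : Bdd sc.Ff sc.K := sc.Ff_bd
  rw [((powF_succ_hasSum m k (F_zero bF)).1 (smb bF hP.nn hP.sum).hasSum).tsum_eq]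

lemma X_powF_succ (hq : 2 ≤ q) {m : A → V q} (hm : Fam m) (k : ℕ) :
    X (powF m (k + 1)) = X (prodF m (powF m k)) := by
  unfold X
  have hP := hm.prod (hm.pow k)
  rw [((powF_succ_hasSum m k (F_zero (bRf hq))).1 (smb (bRf hq) hP.nn hP.sum).hasSum).tsum_eq]

theorem Phi_pow (sc : Scheme q) {m : A → V q} (hm : Fam m) (h : 0 ≤ Phi sc.Ff m) (k : ℕ) :
    0 ≤ Phi sc.Ff (powF m k) := by
  induction k with
  | zero => rw [Phi_powF_zero]
  | succ k ih =>
    rw [Phi_powF_succ sc hm]
    exact Phi_prod sc hm (hm.pow k) h ih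

theorem X_pow (sc : Scheme q) {m : A → V q} (hm : Fam m) (h : 0 ≤ Phi sc.Ff m) (k : ℕ) :
    X (powF m k) ≤ k * X m - (if 2 ≤ k then 2 * sc.t * X m ^ 3 else 0) := by
  have hq := sc.hq
  have hX := X_nonneg hq hm.nn
  have ht := sc.t_pos
  induction k with
  | zero => rw [X_powF_zero hq]; simp
  | succ k ih =>
    rw [X_powF_succ hq hm]
    have h1 := X_prod sc hm (hm.pow k) h (Phi_pow sc hm h k)
    have h2 := X_nonneg hq (hm.pow k).nn
    rcases Nat.lt_or_ge k 1 with hk | hk
    · have hk0 : k = 0 := by omega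
      subst hk0
      rw [X_powF_zero hq] at h1
      refine h1.trans (le_of_eq ?_)
      simp
    · rw [if_pos (by omega)]
      rcases Nat.lt_or_ge k 2 with hk2 | hk2
      · have hk1 : k = 1 := by omega
        subst hk1
        have e1 : X (powF m 1) = X m := by
          apply le_antisymm
          · have := ih
            rw [if_neg (by norm_num)] at this
            push_cast at this
            linarith
          · -- equality is not needed below; we only need the lower bound on `X m`
            have h3 : X (powF m 1) = X (prodF m (powF m 0)) := X_powF_succ hq hm 0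
            rw [h3]
            unfold X
            have hP := hm.prod (hm.pow 0)
            have h4 : HasSum (fun x : A × List A => Rf (prodF m (powF m 0) x))
                (∑' a, Rf (m a)) := by
              have hinj : Function.Injective (fun a : A => ((a, []) : A × List A)) := by
                intro a b hab
                exact (Prod.mk.inj hab).1
              rw [← hinj.hasSum_iff]
              · have : (fun x : A × List A => Rf (prodF m (powF m 0) x)) ∘
                    (fun a : A => ((a, []) : A × List A)) = fun a => Rf (m a) := by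
                  funext a
                  show Rf (fun i => m a i * 1) = Rf (m a)
                  simp
                rw [this]
                exact (smb (bRf hq) hm.nn hm.sum).hasSum
              · rintro ⟨a, l⟩ hl
                cases l with
                | nil => exact absurd ⟨a, rfl⟩ hl
                | cons b l =>
                  show Rf (fun i => m a i * (0 : V q) i) = 0
                  have : (fun i => m a i * (0 : V q) i) = 0 := by funext i; simp
                  rw [this]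
                  exact F_zero (bRf hq)
            rw [h4.tsum_eq]
        rw [e1] at h1
        refine h1.trans (le_of_eq ?_)
        push_cast
        ring
      · rw [if_pos hk2] at ih
        have h5 : 0 ≤ sc.t * (X m ^ 2 * X (powF m k) + X m * X (powF m k) ^ 2) := by positivity
        push_cast
        linarith

/-- mixture over the number of copies (the number is observed) -/
noncomputable def mixF (w : ℕ → ℝ) (m : A → V q) : List A → V q :=
  fun l i => w l.length * powF m l.length l i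

lemma len_inj : Function.Injective (fun l : List A => (l.length, l)) := by
  intro l l' h
  exact (Prod.mk.inj h).2

lemma mix_hasSum_iff (w : ℕ → ℝ) (m : A → V q) {F : V q → ℝ} (hF : F 0 = 0) {s : ℝ} :
    HasSum (fun l => w l.length * F (powF m l.length l)) s ↔
      HasSum (fun x : ℕ × List A => w x.1 * F (powF m x.1 x.2)) s := by
  rw [← (len_inj (A := A)).hasSum_iff (f := fun x : ℕ × List A => w x.1 * F (powF m x.1 x.2))]
  · rfl
  · rintro ⟨k, l⟩ hl
    have h1 : l.length ≠ k := fun h => hl ⟨l, by rw [← h]⟩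
    simp only
    rw [powF_eq_zero m k l h1, hF, mul_zero]

theorem Fam.mix {w : ℕ → ℝ} (hw : ∀ k, 0 ≤ w k) (hw1 : HasSum w 1) {m : A → V q} (hm : Fam m) :
    Fam (mixF w m) where
  pz := by
    intro l
    rcases (hw l.length).eq_or_lt with h | h
    · right
      funext i
      show w l.length * powF m l.length l i = 0
      rw [← h, zero_mul]
    · rcases (hm.pow l.length).pz l with h2 | h2
      · left
        intro i
        exact mul_pos h (h2 i)
      · right
        funext i
        show w l.length * powF m l.length l i = 0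
        rw [h2]; simp
  sum := by
    intro i
    have h0 := mix_hasSum_iff w m (F := fun c => c i) rfl (s := 1)
    refine h0.2 ?_
    have hfib : ∀ k, HasSum (fun l => w k * powF m k l i) (w k) := by
      intro k
      have := ((hm.pow k).sum i).mul_left (w k)
      rwa [mul_one] at this
    have hs : Summable (fun x : ℕ × List A => w x.1 * powF m x.1 x.2 i) := by
      rw [summable_prod_of_nonneg]
      · refine ⟨fun k => (hfib k).summable, ?_⟩
        simp only [fun k => (hfib k).tsum_eq]
        exact hw1.summable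
      · intro x
        exact mul_nonneg (hw _) ((hm.pow x.1).nn _ _)
    have h1 := hs.hasSum.prod_fiberwise hfib
    have h3 := h1.unique hw1
    have h2 := hs.hasSum
    rw [h3] at h2
    exact h2
  symm := by
    intro π
    obtain ⟨e, he⟩ := hm.symm π
    refine ⟨lmap e, fun l i => ?_⟩
    show w (l.map e).length * powF m (l.map e).length (l.map e) (π i) =
      w l.length * powF m l.length l i
    rw [List.length_map, powF_map m π e he]

lemma tsum_mix {F : V q → ℝ} {C : ℝ} (hF : Bdd F C)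
    (hH : ∀ (t : ℝ), 0 ≤ t → ∀ c : V q, (∀ i, 0 ≤ c i) → F (fun i => t * c i) = t * F c)
    {w : ℕ → ℝ} (hw : ∀ k, 0 ≤ w k) (hw1 : HasSum w 1) {m : A → V q} (hm : Fam m) :
    HasSum (fun k => w k * ∑' l, F (powF m k l)) (∑' l, F (mixF w m l)) := by
  have hM := Fam.mix hw hw1 hm
  have h1 : HasSum (fun l => F (mixF w m l)) (∑' l, F (mixF w m l)) :=
    (smb hF hM.nn hM.sum).hasSum
  have e : (fun l => F (mixF w m l)) = fun l => w l.length * F (powF m l.length l) := by
    funext l
    exact hH _ (hw _) _ ((hm.pow _).nn l)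
  have h2 : HasSum (fun l => w l.length * F (powF m l.length l)) (∑' l, F (mixF w m l)) := by
    rw [← e]; exact h1
  rw [mix_hasSum_iff w m (F_zero hF)] at h2
  refine h2.prod_fiberwise fun k => ?_
  exact ((smb hF (hm.pow k).nn (hm.pow k).sum).hasSum).mul_left (w k)

theorem Phi_mix (sc : Scheme q) {w : ℕ → ℝ} (hw : ∀ k, 0 ≤ w k) (hw1 : HasSum w 1)
    {m : A → V q} (hm : Fam m) (h : 0 ≤ Phi sc.Ff m) : 0 ≤ Phi sc.Ff (mixF w m) := by
  have bF : Bdd sc.Ff sc.K := sc.Ff_bd
  have h1 := tsum_mix bF sc.Ff_smul hw hw1 hm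
  rw [Phi_nonneg_iff sc.hq]
  refine h1.nonneg fun k => mul_nonneg (hw k) ?_
  exact (Phi_nonneg_iff sc.hq).1 (Phi_pow sc hm h k)

lemma tail_hasSum {w : ℕ → ℝ} (hw1 : HasSum w 1) :
    HasSum (fun k => if 2 ≤ k then w k else 0) (1 - w 0 - w 1) := by
  have h0 : HasSum (fun k => if k = 0 then w 0 else 0) (w 0) := hasSum_ite_eq 0 (w 0)
  have h1 : HasSum (fun k => if k = 1 then w 1 else 0) (w 1) := hasSum_ite_eq 1 (w 1)
  have h2 := (hw1.sub h0).sub h1
  have e : (fun k => if 2 ≤ k then w k else 0) =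
      fun k => w k - (if k = 0 then w 0 else 0) - (if k = 1 then w 1 else 0) := by
    funext k
    match k with
    | 0 => simp
    | 1 => simp
    | k + 2 => simp
  rw [e]
  exact h2

theorem X_mix (sc : Scheme q) {w : ℕ → ℝ} (hw : ∀ k, 0 ≤ w k) (hw1 : HasSum w 1) {μ : ℝ}
    (hμ : HasSum (fun k => w k * k) μ) {m : A → V q} (hm : Fam m) (h : 0 ≤ Phi sc.Ff m) :
    X (mixF w m) ≤ μ * X m - (1 - w 0 - w 1) * (2 * sc.t * X m ^ 3) := by
  have hq := sc.hq
  have h1 := (tsum_mix (bRf hq) Rf_smul hw hw1 hm).mul_left (1 / (q : ℝ))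
  have h2 := (hμ.mul_right (X m)).sub ((tail_hasSum hw1).mul_right (2 * sc.t * X m ^ 3))
  have h3 := hasSum_le (fun k => ?_) h1 h2
  · unfold X at h3 ⊢
    exact h3
  · have h4 := mul_le_mul_of_nonneg_left (X_pow sc hm h k) (hw k)
    have e1 : 1 / (q : ℝ) * (w k * ∑' l, Rf (powF m k l)) = w k * X (powF m k) := by
      unfold X; ring
    rw [e1]
    refine h4.trans (le_of_eq ?_)
    split_ifs <;> ring

end Vale.Agent.P154.G
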