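import Vale.Agent.P154.GLink

/-! the Kesten-Stigum direction, `q` states: reconstruction if `μ λ² > 1` -/

namespace Vale.Agent.P154.G

open scoped ENNReal NNReal
open Filter Topology

namespace KS

section mom
variable {A : Type*} {q : ℕ}

lemma hsc {β : Type*} {f g : β → ℝ} {a : ℝ} (h : ∀ b, f b = g b) : HasSum f a ↔ HasSum g a := by
  rw [funext h]

/-- additive functional on lists -/
noncomputable def Sl (T : A → ℝ) (l : List A) : ℝ := (l.map T).sum

lemma powF_succ_G (m : A → V q) (k : ℕ) (i : Fin q) (G : List A → ℝ) {s : ℝ}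
    (h : HasSum (fun x : A × List A => m x.1 i * powF m k x.2 i * G (x.1 :: x.2)) s) :
    HasSum (fun l => powF m (k + 1) l i * G l) s := by
  rw [← (cons_inj (A := A)).hasSum_iff (f := fun l => powF m (k + 1) l i * G l)]
  · exact h
  · intro l hl
    cases l with
    | nil => show (0 : ℝ) * G [] = 0; rw [zero_mul]
    | cons a l => exact absurd ⟨(a, l), rfl⟩ hl

lemma powF_zero_G (m : A → V q) (i : Fin q) (G : List A → ℝ) :
    HasSum (fun l => powF m 0 l i * G l) (G []) := by
  have h := hasSum_single (f := fun l => powF m 0 l i * G l) ([] : List A) (by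
    intro l hl
    cases l with
    | nil => exact absurd rfl hl
    | cons a l => show (0 : ℝ) * G (a :: l) = 0; rw [zero_mul])
  have e : powF m 0 [] i * G [] = G [] := by show (1 : ℝ) * G [] = G []; rw [one_mul]
  rwa [e] at h

lemma powF_nn {m : A → V q} (hnn : ∀ a i, 0 ≤ m a i) (k : ℕ) (l : List A) (i : Fin q) :
    0 ≤ powF m k l i := by
  induction k generalizing l with
  | zero =>
    cases l with
    | nil => exact zero_le_one
    | cons a l => exact le_rfl
  | succ k ih =>
    cases l with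
    | nil => exact le_rfl
    | cons a l => exact mul_nonneg (hnn a i) (ih l)

lemma hasSum_mul' {B : Type*} {f : A → ℝ} {g : B → ℝ} {s t : ℝ} (hf : HasSum f s)
    (hg : HasSum g t) : HasSum (fun x : A × B => f x.1 * g x.2) (s * t) :=
  hf.mul hg (summable_mul_of_summable_norm hf.summable.norm hg.summable.norm)

lemma pow_mom {m : A → V q} {T : A → ℝ} {i : Fin q} (h0 : HasSum (fun a => m a i) 1) {x β : ℝ}
    (h1 : HasSum (fun a => m a i * T a) x) (h2 : HasSum (fun a => m a i * T a ^ 2) β) (k : ℕ) :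
    HasSum (fun l => powF m k l i) 1 ∧ HasSum (fun l => powF m k l i * Sl T l) (k * x) ∧
      HasSum (fun l => powF m k l i * Sl T l ^ 2) (k * β + k * (k - 1) * x ^ 2) := by
  induction k with
  | zero =>
    refine ⟨?_, ?_, ?_⟩
    · have := powF_zero_G m i (fun _ => 1)
      simpa using this
    · have := powF_zero_G m i (Sl T)
      simpa [Sl] using this
    · have := powF_zero_G m i (fun l => Sl T l ^ 2)
      simpa [Sl] using this
  | succ k ih =>
    obtain ⟨i0, i1, i2⟩ := ih
    refine ⟨?_, ?_, ?_⟩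
    · have h := powF_succ_G m k i (fun _ => 1) (s := 1) (by
        have := hasSum_mul' h0 i0
        simpa using this)
      simpa using h
    · apply powF_succ_G
      have t1 := hasSum_mul' h1 i0
      have t2 := hasSum_mul' h0 i1
      have t := t1.add t2
      have e : x * 1 + 1 * (k * x) = ((k + 1 : ℕ) : ℝ) * x := by push_cast; ring
      rw [e] at t
      refine (hsc ?_).2 t
      rintro ⟨a, l⟩
      simp only [Sl, List.map_cons, List.sum_cons]
      ring
    · apply powF_succ_G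
      have t1 := hasSum_mul' h2 i0
      have t2 := (hasSum_mul' h1 i1).mul_left 2
      have t3 := hasSum_mul' h0 i2
      have t := (t1.add t2).add t3
      have e : β * 1 + 2 * (x * (k * x)) + 1 * (k * β + k * (k - 1) * x ^ 2) =
          ((k + 1 : ℕ) : ℝ) * β + ((k + 1 : ℕ) : ℝ) * (((k + 1 : ℕ) : ℝ) - 1) * x ^ 2 := by
        push_cast; ring
      rw [e] at t
      refine (hsc ?_).2 t
      rintro ⟨a, l⟩
      simp only [Sl, List.map_cons, List.sum_cons]
      ring

lemma mix_G {w : ℕ → ℝ} {m : A → V q} {i : Fin q} {G : List A → ℝ} {v : ℕ → ℝ} {Y : ℝ}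
    (hs : Summable (fun x : ℕ × List A => w x.1 * (powF m x.1 x.2 i * G x.2)))
    (hk : ∀ k, HasSum (fun l => powF m k l i * G l) (v k)) (hV : HasSum (fun k => w k * v k) Y) :
    HasSum (fun l => mixF w m l i * G l) Y := by
  have h1 := hs.hasSum.prod_fiberwise fun k => (hk k).mul_left (w k)
  have h2 := hs.hasSum
  rw [h1.unique hV] at h2
  rw [← (len_inj (A := A)).hasSum_iff
    (f := fun x : ℕ × List A => w x.1 * (powF m x.1 x.2 i * G x.2))] at h2
  · refine (hsc ?_).2 h2
    intro l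
    show w l.length * powF m l.length l i * G l = w l.length * (powF m l.length l i * G l)
    ring
  · rintro ⟨k, l⟩ hl
    have h1 : l.length ≠ k := fun h => hl ⟨l, by rw [← h]⟩
    show w k * (powF m k l i * G l) = 0
    rw [powF_eq_zero m k l h1]
    simp

lemma mix_summable_nn {w : ℕ → ℝ} (hw : ∀ k, 0 ≤ w k) {m : A → V q} (hnn : ∀ a i, 0 ≤ m a i)
    {i : Fin q} {G : List A → ℝ} (hG : ∀ l, 0 ≤ G l) {v : ℕ → ℝ} {Y : ℝ}
    (hk : ∀ k, HasSum (fun l => powF m k l i * G l) (v k)) (hV : HasSum (fun k => w k * v k) Y) :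
    Summable (fun x : ℕ × List A => w x.1 * (powF m x.1 x.2 i * G x.2)) := by
  rw [summable_prod_of_nonneg]
  · refine ⟨fun k => ((hk k).mul_left (w k)).summable, ?_⟩
    have e : (fun k => ∑' l, w k * (powF m k l i * G l)) = fun k => w k * v k := by
      funext k
      exact ((hk k).mul_left (w k)).tsum_eq
    simp only
    rw [e]
    exact hV.summable
  · intro x
    exact mul_nonneg (hw _) (mul_nonneg (powF_nn hnn _ _ _) (hG _))

/-- moments of the additive functional on a mixture -/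
lemma mix_mom {w : ℕ → ℝ} (hw : ∀ k, 0 ≤ w k) (hw1 : HasSum w 1) {μ κ : ℝ}
    (hμ : HasSum (fun k => w k * k) μ) (hκ : HasSum (fun k => w k * (k * (k - 1))) κ)
    {m : A → V q} (hnn : ∀ a i, 0 ≤ m a i) {T : A → ℝ} {i : Fin q}
    (h0 : HasSum (fun a => m a i) 1) {x β : ℝ}
    (h1 : HasSum (fun a => m a i * T a) x) (h2 : HasSum (fun a => m a i * T a ^ 2) β) :
    HasSum (fun l => mixF w m l i * Sl T l) (μ * x) ∧
      HasSum (fun l => mixF w m l i * Sl T l ^ 2) (μ * β + κ * x ^ 2) := by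
  have hP := pow_mom h0 h1 h2
  have V2 : HasSum (fun k => w k * ((k : ℝ) * β + k * (k - 1) * x ^ 2)) (μ * β + κ * x ^ 2) := by
    refine (hsc ?_).2 ((hμ.mul_right β).add (hκ.mul_right (x ^ 2)))
    intro k
    ring
  have V1 : HasSum (fun k => w k * ((k : ℝ) * x)) (μ * x) := by
    refine (hsc ?_).2 (hμ.mul_right x)
    intro k
    ring
  have V0 : HasSum (fun k => w k * (1 : ℝ)) 1 := by simpa using hw1
  have s2 := mix_summable_nn hw hnn (fun l => sq_nonneg (Sl T l)) (fun k => (hP k).2.2) V2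
  have s0 := mix_summable_nn hw hnn (G := fun _ => 1) (i := i) (fun _ => zero_le_one)
    (v := fun _ => 1) (fun k => by simpa using (hP k).1) V0
  have s1 : Summable (fun x : ℕ × List A => w x.1 * (powF m x.1 x.2 i * Sl T x.2)) := by
    refine Summable.of_norm_bounded (s0.add s2) ?_
    rintro ⟨k, l⟩
    simp only
    rw [Real.norm_eq_abs, abs_mul, abs_mul, abs_of_nonneg (hw k),
      abs_of_nonneg (powF_nn hnn k l i)]
    have e : w k * (powF m k l i * 1) + w k * (powF m k l i * Sl T l ^ 2) =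
        w k * (powF m k l i * (1 + Sl T l ^ 2)) := by ring
    rw [e]
    apply mul_le_mul_of_nonneg_left _ (hw k)
    apply mul_le_mul_of_nonneg_left _ (powF_nn hnn k l i)
    have h3 := sq_abs (Sl T l)
    nlinarith [abs_nonneg (Sl T l), sq_nonneg (|Sl T l| - 1)]
  exact ⟨mix_G s1 (fun k => (hP k).2.1) V1, mix_G s2 (fun k => (hP k).2.2) V2⟩

end mom

variable {q : ℕ}

/-- the contrast vector -/
noncomputable def gv (z i : Fin q) : ℝ := (if i = z then 1 else 0) - 1 / q

/-- the linear statistic -/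
noncomputable def Tst (z : Fin q) (μ lam : ℝ) : (n : ℕ) → Obs q n → ℝ
  | 0 => fun (o : Fin q) => gv z o
  | n + 1 => fun (l : List (Obs q n)) => 1 / (μ * lam) * Sl (Tst z μ lam n) l

lemma qpos (z : Fin q) : (0 : ℝ) < q := by exact_mod_cast z.pos

lemma gv_sum (z : Fin q) : ∑ i, gv z i = 0 := by
  have := (qpos z).ne'
  unfold gv
  rw [Finset.sum_sub_distrib, Finset.sum_ite_eq', if_pos (Finset.mem_univ _), Finset.sum_const,
    Finset.card_univ, Fintype.card_fin, nsmul_eq_mul]
  field_simp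
  ring

lemma gv_sq (z i : Fin q) : gv z i ^ 2 ≤ 1 := by
  have h1 : (1 : ℝ) ≤ q := by exact_mod_cast z.pos
  have h2 : 1 / (q : ℝ) ≤ 1 := by
    rw [div_le_one (by linarith)]; exact h1
  have h3 : 0 ≤ 1 / (q : ℝ) := by positivity
  unfold gv; split_ifs <;> nlinarith

lemma le_sg {c : V q} (hc : ∀ i, 0 ≤ c i) (i : Fin q) : c i ≤ sg c :=
  Finset.single_le_sum (fun j _ => hc j) (Finset.mem_univ i)

lemma sg_nn {c : V q} (hc : ∀ i, 0 ≤ c i) : 0 ≤ sg c := Finset.sum_nonneg fun j _ => hc j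

/-- transition probabilities -/
lemma tr_nonneg {lam : ℝ} (h : 0 ≤ 1 + ((q : ℝ) - 1) * lam ∧ lam ≤ 1) (i j : Fin q) :
    0 ≤ lam * (if i = j then 1 else 0) + (1 - lam) / q := by
  have hq := qpos i
  split_ifs
  · have : lam * 1 + (1 - lam) / q = (1 + (q - 1) * lam) / q := by field_simp; ring
    rw [this]
    exact div_nonneg h.1 hq.le
  · rw [mul_zero, zero_add]
    exact div_nonneg (by linarith [h.2]) hq.le

lemma tr_sum {lam : ℝ} (i : Fin q) :
    ∑ j : Fin q, (lam * (if i = j then 1 else 0) + (1 - lam) / q) = 1 := by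
  have := (qpos i).ne'
  rw [Finset.sum_add_distrib, ← Finset.mul_sum, Finset.sum_ite_eq, if_pos (Finset.mem_univ _),
    Finset.sum_const, Finset.card_univ, Fintype.card_fin, nsmul_eq_mul]
  field_simp
  ring

lemma tr_apply {lam : ℝ} (i : Fin q) (β : Fin q → ℝ) :
    ∑ j : Fin q, (lam * (if i = j then 1 else 0) + (1 - lam) / q) * β j =
      lam * β i + (1 - lam) / q * ∑ j, β j := by
  simp_rw [add_mul]
  rw [Finset.sum_add_distrib, ← Finset.mul_sum]
  congr 1
  rw [Finset.sum_eq_single i]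
  · rw [if_pos rfl, mul_one]
  · intro j _ hj
    rw [if_neg (Ne.symm hj), mul_zero, zero_mul]
  · intro hh
    exact absurd (Finset.mem_univ i) hh

lemma chan_nn' {lam : ℝ} (h : 0 ≤ 1 + ((q : ℝ) - 1) * lam ∧ lam ≤ 1) {c : V q}
    (hc : ∀ i, 0 ≤ c i) (i : Fin q) : 0 ≤ chan lam c i := by
  have e : chan lam c i = ∑ j : Fin q, (lam * (if i = j then 1 else 0) + (1 - lam) / q) * c j := by
    rw [tr_apply]; rfl
  rw [e]
  exact Finset.sum_nonneg fun j _ => mul_nonneg (tr_nonneg h i j) (hc j)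

lemma chan_sum0 (hq : 0 < q) {A : Type*} {m : A → V q} (hs : ∀ i, HasSum (fun a => m a i) 1)
    (lam : ℝ) (i : Fin q) : HasSum (fun a => chan lam (m a) i) 1 := by
  have h := ((hs i).mul_left lam).add ((sg_hasSum hs).mul_left ((1 - lam) / q))
  have hq0 : (0 : ℝ) < q := by exact_mod_cast hq
  have e : lam * 1 + (1 - lam) / q * q = 1 := by field_simp; ring
  rw [e] at h
  exact h

/-- moments of the statistic -/
theorem Tst_mom (z : Fin q) {ξ : PMF ℕ} {lam : ℝ} (h : 0 ≤ 1 + ((q : ℝ) - 1) * lam ∧ lam ≤ 1)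
    {μ κ : ℝ} (hμ : HasSum (fun k => (ξ k).toReal * k) μ)
    (hκ : HasSum (fun k => (ξ k).toReal * (k * (k - 1))) κ) (hks : 1 < μ * lam ^ 2) :
    ∃ B : ℝ, 0 < B ∧ ∀ n, ∀ i, HasSum (fun o => fam ξ (potts lam h) n o i * Tst z μ lam n o)
      (gv z i) ∧
      ∃ β ≤ B, HasSum (fun o => fam ξ (potts lam h) n o i * Tst z μ lam n o ^ 2) β := by
  have hμ0 : 0 ≤ μ := hμ.nonneg fun k => by positivity
  have hκ0 : 0 ≤ κ := hκ.nonneg fun k => by
    apply mul_nonneg ENNReal.toReal_nonneg
    rcases Nat.eq_zero_or_pos k with hk | hk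
    · rw [hk]; simp
    · have : (1 : ℝ) ≤ k := by exact_mod_cast hk
      exact mul_nonneg (by linarith) (by linarith)
  have hlam : lam ≠ 0 := by
    rintro rfl
    norm_num at hks
  have hμp : 0 < μ := by
    rcases hμ0.eq_or_lt with h1 | h1
    · rw [← h1] at hks; norm_num at hks
    · exact h1
  have hw1 : HasSum (fun k => (ξ k).toReal) 1 := by
    have h1 : ∑' k, ξ k ≠ ∞ := ξ.tsum_coe_ne_top
    have h2 := ENNReal.hasSum_toReal h1
    have h3 : ∑' k, (ξ k).toReal = 1 := by
      rw [← ENNReal.tsum_toReal_eq (fun o => ξ.apply_ne_top o), PMF.tsum_coe]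
      simp
    rw [h3] at h2
    exact h2
  obtain ⟨ρ, hρ⟩ : ∃ ρ : ℝ, ρ = 1 / (μ * lam ^ 2) := ⟨_, rfl⟩
  have hρ0 : 0 < ρ := by rw [hρ]; positivity
  have hρ1 : ρ < 1 := by
    rw [hρ, div_lt_one (by positivity)]; exact hks
  obtain ⟨B, hB⟩ : ∃ B : ℝ, B = 1 + κ / μ ^ 2 / (1 - ρ) := ⟨_, rfl⟩
  have hB1 : 1 ≤ B := by
    have : 0 ≤ κ / μ ^ 2 / (1 - ρ) := by
      apply div_nonneg (by positivity)
      linarith
    rw [hB]; linarith
  have hBrec : ρ * B + κ / μ ^ 2 ≤ B := by
    have h1 : 0 < 1 - ρ := by linarith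
    have h2 : (1 - ρ) * (κ / μ ^ 2 / (1 - ρ)) = κ / μ ^ 2 := by field_simp
    have h3 : (1 - ρ) * B = (1 - ρ) * 1 + κ / μ ^ 2 := by rw [hB, mul_add, h2]
    nlinarith
  refine ⟨B, by linarith, fun n => ?_⟩
  induction n with
  | zero =>
    intro i
    have key : ∀ G : Fin q → ℝ, HasSum (fun o : Fin q => fam ξ (potts lam h) 0 o i * G o) (G i) := by
      intro G
      have h1 := hasSum_fintype (fun o : Fin q => fam ξ (potts lam h) 0 o i * G o)
      have h2 : ∑ o : Fin q, fam ξ (potts lam h) 0 o i * G o = G i := by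
        rw [Finset.sum_eq_single i]
        · rw [fam_zero]; simp
        · intro o _ ho
          rw [fam_zero]; simp [ho]
        · simp
      rwa [h2] at h1
    refine ⟨key (gv z), gv z i ^ 2, (gv_sq z i).trans hB1, key (fun o => gv z o ^ 2)⟩
  | succ n ih =>
    -- the channel
    have c0 : ∀ i, HasSum (fun o => chan lam (fam ξ (potts lam h) n o) i) 1 :=
      fun i => chan_sum0 z.pos (fam_zero_sum ξ (potts lam h) n) lam i
    have cnn : ∀ o i, 0 ≤ chan lam (fam ξ (potts lam h) n o) i :=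
      fun o i => chan_nn' h (fam_nonneg ξ (potts lam h) n o) i
    have c1 : ∀ i, HasSum (fun o => chan lam (fam ξ (potts lam h) n o) i * Tst z μ lam n o)
        (lam * gv z i) := by
      intro i
      have ts := hasSum_sum (s := (Finset.univ : Finset (Fin q))) fun j _ => (ih j).1
      rw [gv_sum] at ts
      have t := ((ih i).1.mul_left lam).add (ts.mul_left ((1 - lam) / q))
      rw [mul_zero, add_zero] at t
      refine (hsc ?_).2 t
      intro o
      unfold chan sg
      rw [← Finset.sum_mul]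
      ring
    have c2 : ∀ i, ∃ β ≤ B, HasSum (fun o => chan lam (fam ξ (potts lam h) n o) i *
        Tst z μ lam n o ^ 2) β := by
      intro i
      choose β hβB hβ using fun j => (ih j).2
      have ts := hasSum_sum (s := (Finset.univ : Finset (Fin q))) fun j _ => hβ j
      have t := ((hβ i).mul_left lam).add (ts.mul_left ((1 - lam) / q))
      refine ⟨_, ?_, (hsc ?_).2 t⟩
      · rw [← tr_apply]
        calc ∑ j : Fin q, (lam * (if i = j then 1 else 0) + (1 - lam) / q) * β j
            ≤ ∑ j : Fin q, (lam * (if i = j then 1 else 0) + (1 - lam) / q) * B :=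
              Finset.sum_le_sum fun j _ => mul_le_mul_of_nonneg_left (hβB j) (tr_nonneg h i j)
          _ = B := by rw [← Finset.sum_mul, tr_sum, one_mul]
      · intro o
        unfold chan sg
        rw [← Finset.sum_mul]
        ring
    intro i
    obtain ⟨β, hβ, t2⟩ := c2 i
    obtain ⟨m1, m2⟩ := mix_mom (w := fun k => (ξ k).toReal) (fun k => ENNReal.toReal_nonneg) hw1 hμ
      hκ (m := fun o => chan lam (fam ξ (potts lam h) n o)) cnn (c0 i) (c1 i) t2
    rw [fam_succ]
    refine ⟨?_, (1 / (μ * lam)) ^ 2 * (μ * β + κ * (lam * gv z i) ^ 2), ?_, ?_⟩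
    · have t := m1.mul_left (1 / (μ * lam))
      have e : 1 / (μ * lam) * (μ * (lam * gv z i)) = gv z i := by field_simp
      rw [e] at t
      refine (hsc ?_).2 t
      intro l
      show _ * (1 / (μ * lam) * Sl (Tst z μ lam n) l) = _
      ring
    · refine le_trans ?_ hBrec
      have e1 : (1 / (μ * lam)) ^ 2 * (μ * β + κ * (lam * gv z i) ^ 2) =
          ρ * β + gv z i ^ 2 * κ / μ ^ 2 := by
        rw [hρ]; field_simp
      rw [e1]
      have e2 : ρ * β ≤ ρ * B := mul_le_mul_of_nonneg_left hβ hρ0.le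
      have e3 : gv z i ^ 2 * κ / μ ^ 2 ≤ κ / μ ^ 2 := by
        apply div_le_div_of_nonneg_right _ (by positivity)
        nlinarith [gv_sq z i]
      linarith
    · have t := m2.mul_left ((1 / (μ * lam)) ^ 2)
      refine (hsc ?_).2 t
      intro l
      show _ * (1 / (μ * lam) * Sl (Tst z μ lam n) l) ^ 2 = _
      ring

end KS

variable {q : ℕ}

open KS in
/-- **Kesten-Stigum**: reconstruction above the threshold -/
theorem reconstruction (hq : 2 ≤ q) {ξ : PMF ℕ} {lam : ℝ}
    (h : 0 ≤ 1 + ((q : ℝ) - 1) * lam ∧ lam ≤ 1) {μ κ : ℝ}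
    (hμ : HasSum (fun k => (ξ k).toReal * k) μ)
    (hκ : HasSum (fun k => (ξ k).toReal * (k * (k - 1))) κ) (hks : 1 < μ * lam ^ 2) :
    ∃ c : ℝ, 0 < c ∧ ∀ n, c ≤ an ξ (potts lam h) n := by
  obtain ⟨z⟩ : Nonempty (Fin q) := ⟨⟨0, by omega⟩⟩
  have hq2 : (2 : ℝ) ≤ q := by exact_mod_cast hq
  have hq0 : (0 : ℝ) < q := by linarith
  obtain ⟨B, hB, hT⟩ := Tst_mom z h hμ hκ hks
  obtain ⟨γ, hγ⟩ : ∃ γ : ℝ, γ = 1 / q * (1 - 1 / q) := ⟨_, rfl⟩
  have hγ0 : 0 < γ := by
    rw [hγ]
    apply mul_pos (by positivity)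
    rw [sub_pos, div_lt_one hq0]
    linarith
  obtain ⟨ε, hε⟩ : ∃ ε : ℝ, ε = γ / (2 * B) := ⟨_, rfl⟩
  have hε0 : 0 < ε := by rw [hε]; positivity
  refine ⟨γ * ε, by positivity, fun n => ?_⟩
  set p := fam ξ (potts lam h) n with hp
  have hpnn : ∀ o i, 0 ≤ p o i := fam_nonneg ξ (potts lam h) n
  set T := Tst z μ lam n with hTdef
  have hmarg : ∀ o, marg ξ (potts lam h) n o = 1 / q * sg (p o) := by
    intro o
    unfold marg joint sg
    rw [← Finset.mul_sum, hp]
    rfl
  have hpost : ∀ i o, post ξ (potts lam h) n i o = 1 / q * p o i / (1 / q * sg (p o)) := by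
    intro i o
    unfold post joint
    rw [hmarg, hp]
    rfl
  have hsg0 : ∀ o, 0 ≤ sg (p o) := fun o => sg_nn (hpnn o)
  have hle : ∀ o i, p o i ≤ sg (p o) := fun o i => le_sg (hpnn o) i
  have hq1 : 0 ≤ 1 / (q : ℝ) ∧ 1 / (q : ℝ) ≤ 1 := by
    refine ⟨by positivity, ?_⟩
    rw [div_le_one hq0]; linarith
  have hab : ∀ i o, |post ξ (potts lam h) n i o - 1 / q| ≤ 1 := by
    intro i o
    rw [hpost]
    have h1 : 0 ≤ 1 / q * p o i / (1 / q * sg (p o)) := by
      have := hpnn o i
      have := hsg0 o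
      positivity
    have h2 : 1 / q * p o i / (1 / q * sg (p o)) ≤ 1 := by
      apply div_le_one_of_le₀
      · exact mul_le_mul_of_nonneg_left (hle o i) hq1.1
      · exact mul_nonneg hq1.1 (hsg0 o)
    rw [abs_le]; constructor <;> linarith [hq1.1, hq1.2]
  set tm : Obs q n → ℝ := fun o => marg ξ (potts lam h) n o *
    (1 / 2 * ∑ i, |post ξ (potts lam h) n i o - 1 / q|) with htm
  have hmg0 : ∀ o, 0 ≤ marg ξ (potts lam h) n o := fun o => by
    rw [hmarg]; exact mul_nonneg hq1.1 (hsg0 o)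
  have hms : Summable (fun o => marg ξ (potts lam h) n o) := by
    have := (sg_hasSum (fam_zero_sum ξ (potts lam h) n)).mul_left (1 / (q : ℝ))
    have e : (fun o => marg ξ (potts lam h) n o) = fun o => 1 / q * sg (p o) := funext hmarg
    rw [e]
    exact this.summable
  have htm0 : ∀ o, 0 ≤ tm o := fun o => mul_nonneg (hmg0 o) (by positivity)
  have hts : Summable tm := by
    refine Summable.of_nonneg_of_le htm0 (fun o => ?_) (hms.mul_right (1 / 2 * (q : ℝ)))
    apply mul_le_mul_of_nonneg_left _ (hmg0 o)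
    have : ∑ i : Fin q, |post ξ (potts lam h) n i o - 1 / q| ≤ ∑ _i : Fin q, (1 : ℝ) :=
      Finset.sum_le_sum fun i _ => hab i o
    simp only [Finset.sum_const, Finset.card_univ, Fintype.card_fin, nsmul_eq_mul, mul_one] at this
    linarith
  have han : HasSum tm (an ξ (potts lam h) n) := hts.hasSum
  -- the correlation
  have hcor : HasSum (fun o => 1 / q * (p o z - 1 / q * sg (p o)) * T o) γ := by
    have ts := hasSum_sum (s := (Finset.univ : Finset (Fin q))) fun j _ => (hT n j).1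
    rw [gv_sum] at ts
    have t := ((hT n z).1.sub (ts.mul_left (1 / (q : ℝ)))).mul_left (1 / (q : ℝ))
    have e : 1 / (q : ℝ) * (gv z z - 1 / q * 0) = γ := by
      unfold gv
      rw [if_pos rfl, hγ]
      ring
    rw [e] at t
    refine (hsc ?_).2 t
    intro o
    unfold sg
    rw [← Finset.sum_mul]
    ring
  choose β hβB hβ using fun j => (hT n j).2
  have hsec : HasSum (fun o => 1 / q * sg (p o) * T o ^ 2) (1 / q * ∑ j, β j) := by
    have ts := (hasSum_sum (s := (Finset.univ : Finset (Fin q))) fun j _ => hβ j).mul_left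
      (1 / (q : ℝ))
    refine (hsc ?_).2 ts
    intro o
    unfold sg
    rw [← Finset.sum_mul]
    ring
  have hsecB : 1 / (q : ℝ) * ∑ j, β j ≤ B := by
    have h1 : ∑ j, β j ≤ ∑ _j : Fin q, B := Finset.sum_le_sum fun j _ => hβB j
    rw [Finset.sum_const, Finset.card_univ, Fintype.card_fin, nsmul_eq_mul] at h1
    calc 1 / (q : ℝ) * ∑ j, β j ≤ 1 / (q : ℝ) * (q * B) := mul_le_mul_of_nonneg_left h1 hq1.1
      _ = B := by field_simp
  have hfin := hasSum_le (fun o => ?_) hcor ((hsec.mul_left ε).add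
    (han.mul_left (1 / (2 * ε))))
  · have h1 : ε * (1 / (q : ℝ) * ∑ j, β j) ≤ γ / 2 := by
      calc ε * (1 / (q : ℝ) * ∑ j, β j) ≤ ε * B := mul_le_mul_of_nonneg_left hsecB hε0.le
        _ = γ / 2 := by rw [hε]; field_simp
    have h2 : γ / 2 ≤ 1 / (2 * ε) * an ξ (potts lam h) n := by linarith
    have h3 : 2 * ε * (γ / 2) ≤ 2 * ε * (1 / (2 * ε) * an ξ (potts lam h) n) :=
      mul_le_mul_of_nonneg_left h2 (by positivity)
    have h4 : 2 * ε * (1 / (2 * ε) * an ξ (potts lam h) n) = an ξ (potts lam h) n := by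
      field_simp
    rw [h4] at h3
    linarith
  · -- pointwise
    have hD1 := hab z o
    set D := post ξ (potts lam h) n z o - 1 / q with hD
    have hMD : marg ξ (potts lam h) n o * D = 1 / q * (p o z - 1 / q * sg (p o)) := by
      rw [hD, hpost, hmarg]
      rcases (hsg0 o).eq_or_lt with h0 | h0
      · have g0 : p o z = 0 := le_antisymm (by rw [h0]; exact hle o z) (hpnn o z)
        rw [← h0, g0]; ring
      · have e : sg (p o) ≠ 0 := h0.ne'
        field_simp
    rw [← hMD]
    have h2 : marg ξ (potts lam h) n o * |D| ≤ 2 * tm o := by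
      rw [htm]
      have h3 : |D| ≤ ∑ i, |post ξ (potts lam h) n i o - 1 / q| :=
        Finset.single_le_sum (f := fun i => |post ξ (potts lam h) n i o - 1 / q|)
          (fun i _ => abs_nonneg _) (Finset.mem_univ z)
      have := mul_le_mul_of_nonneg_left h3 (hmg0 o)
      simp only
      linarith
    have h3 : marg ξ (potts lam h) n o * D ^ 2 ≤ 2 * tm o := by
      refine le_trans (mul_le_mul_of_nonneg_left ?_ (hmg0 o)) h2
      rw [← sq_abs]
      nlinarith [abs_nonneg D]
    have h4 : marg ξ (potts lam h) n o * D * T o ≤ marg ξ (potts lam h) n o *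
        (ε * T o ^ 2 + 1 / (4 * ε) * D ^ 2) := by
      rw [mul_assoc]
      apply mul_le_mul_of_nonneg_left _ (hmg0 o)
      have h5 : 0 ≤ ε * (T o - 1 / (2 * ε) * D) ^ 2 := by positivity
      have h6 : ε * (T o - 1 / (2 * ε) * D) ^ 2 =
          ε * T o ^ 2 + 1 / (4 * ε) * D ^ 2 - D * T o := by
        field_simp
        ring
      linarith
    refine h4.trans ?_
    rw [← hmarg]
    have h7 : 1 / (4 * ε) * (marg ξ (potts lam h) n o * D ^ 2) ≤ 1 / (4 * ε) * (2 * tm o) :=
      mul_le_mul_of_nonneg_left h3 (by positivity)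
    have h8 : 1 / (4 * ε) * (2 * tm o) = 1 / (2 * ε) * tm o := by field_simp; ring
    calc marg ξ (potts lam h) n o * (ε * T o ^ 2 + 1 / (4 * ε) * D ^ 2) =
          ε * (marg ξ (potts lam h) n o * T o ^ 2) +
            1 / (4 * ε) * (marg ξ (potts lam h) n o * D ^ 2) := by ring
      _ ≤ _ := by rw [← h8]; linarith

end Vale.Agent.P154.G
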