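import Vale.Agent.P154.GLink

/-! nonreconstruction from one potential (`q` states, any sign of the eigenvalue) -/

namespace Vale.Agent.P154.G

open scoped ENNReal NNReal
open Filter Topology

variable {A B : Type*} {q : ℕ}

/-- the data of the one-potential argument for the channel with eigenvalue `lam` -/
structure Pot (q : ℕ) (lam rho : ℝ) where
  /-- the potential -/
  P : V q → ℝ
  /-- upper constant -/
  K : ℝ
  /-- lower constant -/
  a : ℝ
  /-- slack -/
  t : ℝ
  hq : 2 ≤ q
  a_pos : 0 < a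
  K_pos : 0 < K
  t_nn : 0 ≤ t
  lower : ∀ c : V q, (∀ i, 0 ≤ c i) → a * Rf c ≤ P c
  upper : ∀ c : V q, (∀ i, 0 ≤ c i) → P c ≤ K * Rf c
  smul : ∀ s : ℝ, 0 ≤ s → ∀ c : V q, (∀ i, 0 ≤ c i) → P (fun i => s * c i) = s * P c
  pt : ∀ p r : V q, (∀ i, 0 ≤ p i) → (∀ i, 0 ≤ r i) →
    1 / ((q - 1).factorial : ℝ) * SS P (chan lam r) p ≤
      sg r * P p + rho * (P r * sg p) - t * (Rf r * Rf p)

/-- A symmetric family of likelihood vectors, possibly with zero entries. -/
structure NFam (m : A → V q) : Prop where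
  nn : ∀ a i, 0 ≤ m a i
  sum : ∀ i, HasSum (fun a => m a i) 1
  symm : ∀ π : Equiv.Perm (Fin q), ∃ e : A ≃ A, ∀ a i, m (e a) (π i) = m a i

theorem NFam.prod {m : A → V q} {m' : B → V q} (hm : NFam m) (hm' : NFam m') :
    NFam (prodF m m') where
  nn := fun x i => mul_nonneg (hm.nn _ _) (hm'.nn _ _)
  sum := by
    intro i
    have h := (hm.sum i).mul (hm'.sum i)
      ((hm.sum i).summable.mul_of_nonneg (hm'.sum i).summable (fun a => hm.nn a i)
        (fun b => hm'.nn b i))
    rw [one_mul] at h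
    exact h
  symm := by
    intro π
    obtain ⟨e, he⟩ := hm.symm π
    obtain ⟨e', he'⟩ := hm'.symm π
    refine ⟨Equiv.prodCongr e e', ?_⟩
    rintro ⟨a, b⟩ i
    show m (e a) (π i) * m' (e' b) (π i) = m a i * m' b i
    rw [he, he']

lemma tsum_SS' {F : V q → ℝ} {C : ℝ} (hF : Bdd F C)
    {m : A → V q} {m' : B → V q} (hm : NFam m) (hm' : NFam m') :
    HasSum (fun x : A × B => SS F (m x.1) (m' x.2))
      ((q.factorial : ℝ) * ∑' x, F (prodF m m' x)) := by
  have hP := hm.prod hm'
  have hS : Summable (fun x => F (prodF m m' x)) := smb hF hP.nn hP.sum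
  have key : ∀ π : Equiv.Perm (Fin q),
      HasSum (fun x : A × B => F (fun i => m x.1 i * m' x.2 (π i))) (∑' x, F (prodF m m' x)) := by
    intro π
    obtain ⟨e, he⟩ := hm'.symm π
    rw [← (Equiv.prodCongr (Equiv.refl A) e).hasSum_iff]
    have e1 : (fun x : A × B => F (fun i => m x.1 i * m' x.2 (π i))) ∘
        (Equiv.prodCongr (Equiv.refl A) e) = fun x => F (prodF m m' x) := by
      funext x
      show F (fun i => m x.1 i * m' (e x.2) (π i)) = F (fun i => m x.1 i * m' x.2 i)
      congr 1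
      funext i
      rw [he]
    rw [e1]
    exact hS.hasSum
  have h := hasSum_sum (s := (Finset.univ : Finset (Equiv.Perm (Fin q)))) fun π _ => key π
  have e2 : ∑ _π : Equiv.Perm (Fin q), ∑' x, F (prodF m m' x) =
      (q.factorial : ℝ) * ∑' x, F (prodF m m' x) := by
    rw [Finset.sum_const, Finset.card_univ, Fintype.card_perm, Fintype.card_fin, nsmul_eq_mul]
  rw [e2] at h
  exact h

lemma hasSum_FG' {F G : V q → ℝ} {C C' : ℝ} (hF : Bdd F C) (hG : Bdd G C')
    {m : A → V q} {m' : B → V q} (hm : NFam m) (hm' : NFam m') :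
    HasSum (fun x : A × B => F (m x.1) * G (m' x.2)) ((∑' a, F (m a)) * ∑' b, G (m' b)) := by
  have h1 : Summable (fun a => F (m a)) := smb hF hm.nn hm.sum
  have h2 : Summable (fun b => G (m' b)) := smb hG hm'.nn hm'.sum
  exact h1.hasSum.mul h2.hasSum (summable_mul_of_summable_norm h1.norm h2.norm)

lemma Pot.nn {lam rho : ℝ} (pt : Pot q lam rho) {c : V q} (hc : ∀ i, 0 ≤ c i) : 0 ≤ pt.P c :=
  le_trans (mul_nonneg pt.a_pos.le (Rf_nonneg pt.hq hc)) (pt.lower c hc)

lemma Pot.bdd {lam rho : ℝ} (pt : Pot q lam rho) : Bdd pt.P pt.K := fun c hc => by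
  rw [abs_of_nonneg (pt.nn hc)]
  exact (pt.upper c hc).trans (mul_le_mul_of_nonneg_left (Rf_le pt.hq hc) pt.K_pos.le)

lemma Pot.one {lam rho : ℝ} (pt : Pot q lam rho) : pt.P (fun _ => 1) = 0 := by
  have h1 := pt.lower (fun _ => 1) (fun _ => zero_le_one)
  have h2 := pt.upper (fun _ => 1) (fun _ => zero_le_one)
  rw [Rf_one, mul_zero] at h1 h2
  exact le_antisymm h2 h1

lemma chan_nn2 {lam : ℝ} (h : 0 ≤ 1 + ((q : ℝ) - 1) * lam ∧ lam ≤ 1) {c : V q}
    (hc : ∀ i, 0 ≤ c i) (i : Fin q) : 0 ≤ chan lam c i := by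
  have hq : (0 : ℝ) < q := by exact_mod_cast i.pos
  have h1 : c i ≤ sg c := Finset.single_le_sum (f := c) (fun j _ => hc j) (Finset.mem_univ i)
  have h0 := hc i
  show 0 ≤ lam * c i + (1 - lam) / q * sg c
  have e : lam * c i + (1 - lam) / q * sg c =
      (1 - lam) / q * (sg c - c i) + (1 + ((q : ℝ) - 1) * lam) / q * c i := by
    field_simp
    ring
  rw [e]
  have h2 : 0 ≤ (1 - lam) / q := div_nonneg (by linarith [h.2]) hq.le
  have h3 : 0 ≤ (1 + ((q : ℝ) - 1) * lam) / q := div_nonneg h.1 hq.le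
  exact add_nonneg (mul_nonneg h2 (by linarith)) (mul_nonneg h3 h0)

theorem NFam.chan (hq : 2 ≤ q) {m : A → V q} (hm : NFam m)
    {lam : ℝ} (h : 0 ≤ 1 + ((q : ℝ) - 1) * lam ∧ lam ≤ 1) : NFam (fun a => chan lam (m a)) where
  nn := fun a i => chan_nn2 h (hm.nn a) i
  sum := fun i => chan_sum hq hm.sum lam i
  symm := by
    intro π
    obtain ⟨e, he⟩ := hm.symm π
    refine ⟨e, fun a i => ?_⟩
    show lam * m (e a) (π i) + (1 - lam) / q * sg (m (e a)) =
      lam * m a i + (1 - lam) / q * sg (m a)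
    have h2 : sg (m (e a)) = sg (m a) := by
      unfold sg
      rw [← Equiv.sum_comp π]
      exact Finset.sum_congr rfl fun i _ => he a i
    rw [he, h2]

theorem NFam.pow {m : A → V q} (hm : NFam m) (k : ℕ) : NFam (powF m k) := by
  induction k with
  | zero =>
    refine ⟨?_, ?_, ?_⟩
    · intro l i
      cases l with
      | nil => exact zero_le_one
      | cons a l => exact le_rfl
    · intro i
      exact powF_zero_hasSum m (F := fun c => c i) rfl
    · intro π
      obtain ⟨e, he⟩ := hm.symm π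
      exact ⟨lmap e, fun l i => powF_map m π e he 0 l i⟩
  | succ k ih =>
    have hP := hm.prod ih
    refine ⟨?_, ?_, ?_⟩
    · intro l i
      cases l with
      | nil => exact le_rfl
      | cons a l => exact hP.nn (a, l) i
    · intro i
      exact (powF_succ_hasSum m k (F := fun c => c i) rfl).1 (hP.sum i)
    · intro π
      obtain ⟨e, he⟩ := hm.symm π
      exact ⟨lmap e, fun l i => powF_map m π e he (k + 1) l i⟩

theorem NFam.mix {w : ℕ → ℝ} (hw : ∀ k, 0 ≤ w k) (hw1 : HasSum w 1) {m : A → V q}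
    (hm : NFam m) : NFam (mixF w m) where
  nn := fun l i => mul_nonneg (hw _) ((hm.pow _).nn _ _)
  sum := by
    intro i
    have h0 := mix_hasSum_iff w m (F := fun c => c i) rfl (s := 1)
    refine h0.2 ?_
    have hfib : ∀ k, HasSum (fun l => w k * powF m k l i) (w k) := by
      intro k
      have := ((hm.pow k).sum i).mul_left (w k)
      rwa [mul_one] at this
    have hs : Summable (fun x : ℕ × List A => w x.1 * powF m x.1 x.2 i) := by
      rw [summable_prod_of_nonneg]
      · refine ⟨fun k => (hfib k).summable, ?_⟩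
        simp only [fun k => (hfib k).tsum_eq]
        exact hw1.summable
      · intro x
        exact mul_nonneg (hw _) ((hm.pow x.1).nn _ _)
    have h1 := hs.hasSum.prod_fiberwise hfib
    have h3 := h1.unique hw1
    have h2 := hs.hasSum
    rw [h3] at h2
    exact h2
  symm := by
    intro π
    obtain ⟨e, he⟩ := hm.symm π
    refine ⟨lmap e, fun l i => ?_⟩
    show w (l.map e).length * powF m (l.map e).length (l.map e) (π i) =
      w l.length * powF m l.length l i
    rw [List.length_map, powF_map m π e he]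

lemma tsum_mix' {F : V q → ℝ} {C : ℝ} (hF : Bdd F C)
    (hH : ∀ (t : ℝ), 0 ≤ t → ∀ c : V q, (∀ i, 0 ≤ c i) → F (fun i => t * c i) = t * F c)
    {w : ℕ → ℝ} (hw : ∀ k, 0 ≤ w k) (hw1 : HasSum w 1) {m : A → V q} (hm : NFam m) :
    HasSum (fun k => w k * ∑' l, F (powF m k l)) (∑' l, F (mixF w m l)) := by
  have hM := NFam.mix hw hw1 hm
  have h1 : HasSum (fun l => F (mixF w m l)) (∑' l, F (mixF w m l)) :=
    (smb hF hM.nn hM.sum).hasSum
  have e : (fun l => F (mixF w m l)) = fun l => w l.length * F (powF m l.length l) := by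
    funext l
    exact hH _ (hw _) _ ((hm.pow _).nn l)
  have h2 : HasSum (fun l => w l.length * F (powF m l.length l)) (∑' l, F (mixF w m l)) := by
    rw [← e]; exact h1
  rw [mix_hasSum_iff w m (F_zero hF)] at h2
  refine h2.prod_fiberwise fun k => ?_
  exact ((smb hF (hm.pow k).nn (hm.pow k).sum).hasSum).mul_left (w k)

/-- attaching one more subtree -/
theorem Pot.prod {lam rho : ℝ} (pt : Pot q lam rho)
    (h : 0 ≤ 1 + ((q : ℝ) - 1) * lam ∧ lam ≤ 1) {m : A → V q} {m' : B → V q}
    (hm : NFam m) (hm' : NFam m') :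
    Phi pt.P (prodF (fun a => chan lam (m a)) m') ≤
      Phi pt.P m' + rho * Phi pt.P m - pt.t * (X m * X m') := by
  have hq := pt.hq
  have hq0 := q_pos hq
  have bP := pt.bdd
  have hc := hm.chan hq h
  have s1 := (tsum_SS' bP hc hm').mul_left (1 / ((q - 1).factorial : ℝ))
  have t1 := hasSum_FG' bsg bP hm hm'
  have t2 := (hasSum_FG' bP bsg hm hm').mul_left rho
  have t3 := (hasSum_FG' (bRf hq) (bRf hq) hm hm').mul_left pt.t
  have hle := hasSum_le (f := fun x : A × B =>
      1 / ((q - 1).factorial : ℝ) * SS pt.P (chan lam (m x.1)) (m' x.2))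
    (g := fun x : A × B => sg (m x.1) * pt.P (m' x.2) + rho * (pt.P (m x.1) * sg (m' x.2)) -
      pt.t * (Rf (m x.1) * Rf (m' x.2))) (fun x => pt.pt _ _ (hm'.nn x.2) (hm.nn x.1))
    s1 ((t1.add t2).sub t3)
  rw [(sg_hasSum hm.sum).tsum_eq, (sg_hasSum hm'.sum).tsum_eq, fact_div hq,
    tsum_Rf_eq hq m, tsum_Rf_eq hq m'] at hle
  unfold Phi
  have e1 : (1 : ℝ) / q * ∑' x, pt.P (prodF (fun a => chan lam (m a)) m' x) =
      1 / q ^ 2 * (q * ∑' x, pt.P (prodF (fun a => chan lam (m a)) m' x)) := by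
    field_simp
  rw [e1]
  have h2 := mul_le_mul_of_nonneg_left hle (show (0 : ℝ) ≤ 1 / q ^ 2 by positivity)
  refine h2.trans (le_of_eq ?_)
  field_simp

lemma Pot.Phi_powF_zero {lam rho : ℝ} (pt : Pot q lam rho) (m : A → V q) :
    Phi pt.P (powF m 0) = 0 := by
  unfold Phi
  rw [(powF_zero_hasSum m (F_zero pt.bdd)).tsum_eq, pt.one, mul_zero]

lemma NFam.Phi_powF_succ {F : V q → ℝ} {C : ℝ} (bF : Bdd F C) {m : A → V q} (hm : NFam m)
    (k : ℕ) : Phi F (powF m (k + 1)) = Phi F (prodF m (powF m k)) := by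
  unfold Phi
  have hP := hm.prod (hm.pow k)
  rw [((powF_succ_hasSum m k (F_zero bF)).1 (smb bF hP.nn hP.sum).hasSum).tsum_eq]

lemma NFam.Phi_powF_one {F : V q → ℝ} {C : ℝ} (bF : Bdd F C) {m : A → V q} (hm : NFam m) :
    Phi F (powF m 1) = Phi F m := by
  rw [hm.Phi_powF_succ bF 0]
  unfold Phi
  have h4 : HasSum (fun x : A × List A => F (prodF m (powF m 0) x)) (∑' a, F (m a)) := by
    have hinj : Function.Injective (fun a : A => ((a, []) : A × List A)) := by
      intro a b hab
      exact (Prod.mk.inj hab).1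
    rw [← hinj.hasSum_iff]
    · have : (fun x : A × List A => F (prodF m (powF m 0) x)) ∘
          (fun a : A => ((a, []) : A × List A)) = fun a => F (m a) := by
        funext a
        show F (fun i => m a i * 1) = F (m a)
        simp
      rw [this]
      exact (smb bF hm.nn hm.sum).hasSum
    · rintro ⟨a, l⟩ hl
      cases l with
      | nil => exact absurd ⟨a, rfl⟩ hl
      | cons b l =>
        show F (fun i => m a i * (0 : V q) i) = 0
        have : (fun i => m a i * (0 : V q) i) = 0 := by funext i; simp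
        rw [this]
        exact F_zero bF
  rw [h4.tsum_eq]

theorem Pot.pow {lam rho : ℝ} (pt : Pot q lam rho)
    (h : 0 ≤ 1 + ((q : ℝ) - 1) * lam ∧ lam ≤ 1) {m : A → V q} (hm : NFam m) (k : ℕ) :
    Phi pt.P (powF (fun a => chan lam (m a)) k) ≤
      k * (rho * Phi pt.P m) - (if 2 ≤ k then pt.t * lam ^ 2 * X m ^ 2 else 0) := by
  have hq := pt.hq
  have hX := X_nonneg hq hm.nn
  have ht := pt.t_nn
  have hc := hm.chan hq h
  induction k with
  | zero => rw [pt.Phi_powF_zero]; simp
  | succ k ih =>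
    rw [hc.Phi_powF_succ pt.bdd]
    have h1 := pt.prod h hm (hc.pow k)
    have h2 := X_nonneg hq (hc.pow k).nn
    have h5 : 0 ≤ pt.t * (X m * X (powF (fun a => chan lam (m a)) k)) := by positivity
    rcases Nat.lt_or_ge k 1 with hk | hk
    · have hk0 : k = 0 := by omega
      subst hk0
      rw [pt.Phi_powF_zero] at h1
      rw [if_neg (by norm_num)]
      push_cast
      linarith
    · rw [if_pos (by omega)]
      rcases Nat.lt_or_ge k 2 with hk2 | hk2
      · have hk1 : k = 1 := by omega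
        subst hk1
        rw [if_neg (by norm_num)] at ih
        have e1 : X (powF (fun a => chan lam (m a)) 1) = lam ^ 2 * X m := by
          have := hc.Phi_powF_one (bRf hq)
          have e2 : X (powF (fun a => chan lam (m a)) 1) = X (fun a => chan lam (m a)) := this
          rw [e2, X_chan hq]
        rw [e1] at h1
        have e3 : pt.t * (X m * (lam ^ 2 * X m)) = pt.t * lam ^ 2 * X m ^ 2 := by ring
        rw [e3] at h1
        push_cast at ih ⊢
        linarith
      · rw [if_pos hk2] at ih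
        push_cast
        linarith

theorem Pot.mix {lam rho : ℝ} (pt : Pot q lam rho)
    (h : 0 ≤ 1 + ((q : ℝ) - 1) * lam ∧ lam ≤ 1) {w : ℕ → ℝ} (hw : ∀ k, 0 ≤ w k)
    (hw1 : HasSum w 1) {μ : ℝ} (hμ : HasSum (fun k => w k * k) μ) {m : A → V q}
    (hm : NFam m) :
    Phi pt.P (mixF w (fun a => chan lam (m a))) ≤
      μ * (rho * Phi pt.P m) - (1 - w 0 - w 1) * (pt.t * lam ^ 2 * X m ^ 2) := by
  have hq := pt.hq
  have hc := hm.chan hq h
  have h1 := (tsum_mix' pt.bdd pt.smul hw hw1 hc).mul_left (1 / (q : ℝ))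
  have h2 := (hμ.mul_right (rho * Phi pt.P m)).sub
    ((tail_hasSum hw1).mul_right (pt.t * lam ^ 2 * X m ^ 2))
  have h3 := hasSum_le (fun k => ?_) h1 h2
  · exact h3
  · have h4 := mul_le_mul_of_nonneg_left (pt.pow h hm k) (hw k)
    have e1 : 1 / (q : ℝ) * (w k * ∑' l, pt.P (powF (fun a => chan lam (m a)) k l)) =
        w k * Phi pt.P (powF (fun a => chan lam (m a)) k) := by
      unfold Phi; ring
    rw [e1]
    refine h4.trans (le_of_eq ?_)
    split_ifs <;> ring

lemma Pot.X_le {lam rho : ℝ} (pt : Pot q lam rho) {m : A → V q} (hm : NFam m) :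
    pt.a * X m ≤ Phi pt.P m := by
  have hq := pt.hq
  have hq0 := q_pos hq
  have h1 : ∑' a, pt.a * Rf (m a) ≤ ∑' a, pt.P (m a) :=
    ((smb (bRf hq) hm.nn hm.sum).mul_left _).tsum_le_tsum (fun a => pt.lower _ (hm.nn a))
      (smb pt.bdd hm.nn hm.sum)
  rw [tsum_mul_left] at h1
  unfold X Phi
  calc pt.a * (1 / q * ∑' a, Rf (m a)) = 1 / q * (pt.a * ∑' a, Rf (m a)) := by ring
    _ ≤ _ := mul_le_mul_of_nonneg_left h1 (by positivity)

lemma Pot.le_X {lam rho : ℝ} (pt : Pot q lam rho) {m : A → V q} (hm : NFam m) :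
    Phi pt.P m ≤ pt.K * X m := by
  have hq := pt.hq
  have hq0 := q_pos hq
  have h1 : ∑' a, pt.P (m a) ≤ ∑' a, pt.K * Rf (m a) :=
    (smb pt.bdd hm.nn hm.sum).tsum_le_tsum (fun a => pt.upper _ (hm.nn a))
      ((smb (bRf hq) hm.nn hm.sum).mul_left _)
  rw [tsum_mul_left] at h1
  unfold X Phi
  calc 1 / (q : ℝ) * ∑' a, pt.P (m a) ≤ 1 / q * (pt.K * ∑' a, Rf (m a)) :=
        mul_le_mul_of_nonneg_left h1 (by positivity)
    _ = _ := by ring

lemma NFam.fam (ξ : PMF ℕ) {lam : ℝ} (h : 0 ≤ 1 + ((q : ℝ) - 1) * lam ∧ lam ≤ 1) (n : ℕ) :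
    NFam (fam ξ (potts lam h) n) :=
  ⟨fam_nonneg ξ _ n, fam_zero_sum ξ _ n, fun π => fam_symm ξ h n π⟩

/-- Nonreconstruction from one potential, every offspring law. -/
theorem Pot.nonrecon {lam rho : ℝ} (pt : Pot q lam rho) (ξ : PMF ℕ)
    (h : 0 ≤ 1 + ((q : ℝ) - 1) * lam ∧ lam ≤ 1) {μ : ℝ}
    (hμ : HasSum (fun k => (ξ k).toReal * k) μ) (hρ0 : 0 ≤ rho) (hρ1 : rho < 1)
    (hle : μ * rho < 1 ∨ (μ * rho ≤ 1 ∧ 0 < pt.t ∧ lam ≠ 0)) :
    Tendsto (fun n => an ξ (potts lam h) n) atTop (𝓝 0) := by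
  have hq := pt.hq
  set W := potts lam h with hW
  set w : ℕ → ℝ := fun k => (ξ k).toReal with hw
  have hw0 : ∀ k, 0 ≤ w k := fun k => ENNReal.toReal_nonneg
  have hw1 : HasSum w 1 := by
    have h1 : ∑' k, ξ k ≠ ∞ := ξ.tsum_coe_ne_top
    have h2 := ENNReal.hasSum_toReal h1
    have h3 : ∑' k, (ξ k).toReal = 1 := by
      rw [← ENNReal.tsum_toReal_eq (fun o => ξ.apply_ne_top o), PMF.tsum_coe]
      simp
    rw [h3] at h2
    exact h2
  have hμ0 : 0 ≤ μ := hμ.nonneg fun k => mul_nonneg (hw0 k) (Nat.cast_nonneg k)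
  have hw01 : w 0 + w 1 ≤ 1 := by
    have := sum_le_hasSum {0, 1} (fun k _ => hw0 k) hw1
    rwa [Finset.sum_pair (by norm_num)] at this
  have hN : ∀ n, NFam (fam ξ W n) := fun n => NFam.fam ξ h n
  have hP0 : ∀ n, 0 ≤ Phi pt.P (fam ξ W n) := fun n =>
    mul_nonneg (by positivity) (tsum_nonneg fun a => pt.nn ((hN n).nn a))
  have hX0 : ∀ n, 0 ≤ X (fam ξ W n) := fun n => X_nonneg hq (hN n).nn
  have hrec : ∀ n, Phi pt.P (fam ξ W (n + 1)) ≤ μ * (rho * Phi pt.P (fam ξ W n)) -
      (1 - w 0 - w 1) * (pt.t * lam ^ 2 * X (fam ξ W n) ^ 2) := by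
    intro n
    have h2 := pt.mix h hw0 hw1 hμ (hN n)
    rw [hW, fam_succ, ← hW]
    exact h2
  have hpos : 0 ≤ 1 - w 0 - w 1 := by linarith
  have ht := pt.t_nn
  -- it is enough that the potential tends to `0`
  suffices hs : Tendsto (fun n => Phi pt.P (fam ξ W n)) atTop (𝓝 0) by
    apply an_tendsto_of_X hq
    refine squeeze_zero hX0 (g := fun n => Phi pt.P (fam ξ W n) / pt.a) (fun n => ?_) ?_
    · rw [le_div_iff₀ pt.a_pos, mul_comm]
      exact pt.X_le (hN n)
    · have := hs.div_const pt.a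
      rwa [zero_div] at this
  rcases hle with hlt | ⟨hle, htp, hl⟩
  · -- strict inequality
    have hρμ : 0 ≤ μ * rho := mul_nonneg hμ0 hρ0
    have hb : ∀ n, Phi pt.P (fam ξ W n) ≤ Phi pt.P (fam ξ W 0) * (μ * rho) ^ n := by
      intro n
      induction n with
      | zero => simp
      | succ n ih =>
        have h1 := hrec n
        have h2 : 0 ≤ (1 - w 0 - w 1) * (pt.t * lam ^ 2 * X (fam ξ W n) ^ 2) := by positivity
        have h3 := mul_le_mul_of_nonneg_left ih hρμ
        calc Phi pt.P (fam ξ W (n + 1)) ≤ μ * (rho * Phi pt.P (fam ξ W n)) := by linarith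
          _ = (μ * rho) * Phi pt.P (fam ξ W n) := by ring
          _ ≤ (μ * rho) * (Phi pt.P (fam ξ W 0) * (μ * rho) ^ n) := h3
          _ = _ := by ring
    refine squeeze_zero hP0 hb ?_
    have := (tendsto_pow_atTop_nhds_zero_of_lt_one hρμ hlt).const_mul (Phi pt.P (fam ξ W 0))
    rwa [mul_zero] at this
  · rcases (sub_nonneg.2 hw01).eq_or_lt with hp | hp
    · -- at most one child
      have hwk : ∀ k, 2 ≤ k → w k = 0 := by
        intro k hk
        have h2 := sum_le_hasSum {0, 1, k} (fun k _ => hw0 k) hw1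
        have h3 : ∑ j ∈ ({0, 1, k} : Finset ℕ), w j = w 0 + w 1 + w k := by
          rw [Finset.sum_insert, Finset.sum_insert, Finset.sum_singleton]
          · ring
          · simp; omega
          · simp; omega
        rw [h3] at h2
        have := hw0 k
        linarith
      have hμ1 : μ ≤ 1 := by
        have h2 : HasSum (fun k => w k * k) (w 1 * (1 : ℕ)) := by
          apply hasSum_single
          intro k hk
          rcases Nat.lt_or_ge k 2 with h3 | h3
          · have : k = 0 := by omega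
            rw [this]; simp
          · rw [hwk k h3, zero_mul]
        have h3 := hμ.unique h2
        have h4 := hw0 0
        rw [h3]
        push_cast
        linarith
      have hb : ∀ n, Phi pt.P (fam ξ W n) ≤ Phi pt.P (fam ξ W 0) * rho ^ n := by
        intro n
        induction n with
        | zero => simp
        | succ n ih =>
          have h1 := hrec n
          have h2 : 0 ≤ (1 - w 0 - w 1) * (pt.t * lam ^ 2 * X (fam ξ W n) ^ 2) := by positivity
          have h3 := mul_le_mul_of_nonneg_left ih hρ0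
          have h4 : 0 ≤ rho * Phi pt.P (fam ξ W n) := mul_nonneg hρ0 (hP0 n)
          calc Phi pt.P (fam ξ W (n + 1)) ≤ μ * (rho * Phi pt.P (fam ξ W n)) := by linarith
            _ ≤ 1 * (rho * Phi pt.P (fam ξ W n)) := mul_le_mul_of_nonneg_right hμ1 h4
            _ = rho * Phi pt.P (fam ξ W n) := one_mul _
            _ ≤ rho * (Phi pt.P (fam ξ W 0) * rho ^ n) := h3
            _ = _ := by ring
      refine squeeze_zero hP0 hb ?_
      have := (tendsto_pow_atTop_nhds_zero_of_lt_one hρ0 hρ1).const_mul (Phi pt.P (fam ξ W 0))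
      rwa [mul_zero] at this
    · -- the main case
      have hp' : 0 < 1 - w 0 - w 1 := by linarith
      have hl2 : 0 < lam ^ 2 := by positivity
      have hK := pt.K_pos
      refine tendsto_zero_of_rec (k := 2) (by norm_num)
        (c := (1 - w 0 - w 1) * (pt.t * lam ^ 2 / pt.K ^ 2)) (by positivity) hP0 ?_
      intro n
      have h2 := hrec n
      have h3 : μ * (rho * Phi pt.P (fam ξ W n)) ≤ Phi pt.P (fam ξ W n) := by
        calc _ = μ * rho * Phi pt.P (fam ξ W n) := by ring
          _ ≤ 1 * Phi pt.P (fam ξ W n) := mul_le_mul_of_nonneg_right hle (hP0 n)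
          _ = _ := one_mul _
      have h4 : Phi pt.P (fam ξ W n) ^ 2 ≤ pt.K ^ 2 * X (fam ξ W n) ^ 2 := by
        rw [← mul_pow]
        exact pow_le_pow_left₀ (hP0 n) (pt.le_X (hN n)) 2
      have h5 : pt.t * lam ^ 2 / pt.K ^ 2 * Phi pt.P (fam ξ W n) ^ 2 ≤
          pt.t * lam ^ 2 * X (fam ξ W n) ^ 2 := by
        rw [div_mul_eq_mul_div, div_le_iff₀ (by positivity)]
        have := mul_le_mul_of_nonneg_left h4 (mul_nonneg ht hl2.le)
        linarith
      have h6 := mul_le_mul_of_nonneg_left h5 hp'.le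
      linarith

end Vale.Agent.P154.G
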