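import Vale.Agent.P154.GFinal
import Vale.Agent.P154.GPot

/-! from nonreconstruction to the exact threshold (any sign of the eigenvalue) -/

namespace Vale.Agent.P154.G

open scoped ENNReal NNReal
open Filter Topology

theorem regular_iff_of {q : ℕ} (hq : 2 ≤ q) (d : ℕ) {lam : ℝ}
    (h : 0 ≤ 1 + ((q : ℝ) - 1) * lam ∧ lam ≤ 1)
    (hn : d * lam ^ 2 ≤ 1 → Tendsto (fun n => an (PMF.pure d) (potts lam h) n) atTop (𝓝 0)) :
    ((∃ c, 0 < c ∧ ∀ n, c ≤ an (PMF.pure d) (potts lam h) n) ↔ 1 < d * lam ^ 2) ∧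
    (Tendsto (fun n => an (PMF.pure d) (potts lam h) n) atTop (𝓝 0) ↔ d * lam ^ 2 ≤ 1) :=
  dichotomy hn (fun hgt => reconstruction hq h (pure_mean d) (pure_sq d) hgt)

theorem poisson_iff_of {q : ℕ} (hq : 2 ≤ q) (d : ℝ≥0) {lam : ℝ}
    (h : 0 ≤ 1 + ((q : ℝ) - 1) * lam ∧ lam ≤ 1)
    (hn : d * lam ^ 2 ≤ 1 → Tendsto (fun n => an (poisson d) (potts lam h) n) atTop (𝓝 0)) :
    ((∃ c, 0 < c ∧ ∀ n, c ≤ an (poisson d) (potts lam h) n) ↔ 1 < d * lam ^ 2) ∧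
    (Tendsto (fun n => an (poisson d) (potts lam h) n) atTop (𝓝 0) ↔ d * lam ^ 2 ≤ 1) :=
  dichotomy hn (fun hgt => reconstruction hq h (poisson_mean d) (poisson_sq d) hgt)

end Vale.Agent.P154.G
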