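import Mathlib

/-! the Poisson offspring law -/

namespace Vale.Agent.P154

open scoped NNReal

/-- The Poisson law with mean `d`: the weight of `n` is `exp(-d) d^n / n!`. -/
noncomputable def poisson (d : ℝ≥0) : PMF ℕ :=
  ⟨fun n => ENNReal.ofReal (Real.exp (-d) * (d : ℝ) ^ n / (n.factorial : ℝ)), by
    have h := ENNReal.hasSum_coe.2
      ((ProbabilityTheory.hasSum_one_poissonMeasure d).toNNReal (fun n => by positivity))
    rw [Real.toNNReal_one, ENNReal.coe_one] at h
    exact h⟩

end Vale.Agent.P154
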