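import Vale.Agent.P154.GExt
import Vale.Agent.P154.Poi

/-! the regular tree and the Poisson tree -/

namespace Vale.Agent.P154.G

open scoped ENNReal NNReal
open Filter Topology

theorem poisson_toReal (d : ℝ≥0) (n : ℕ) :
    (poisson d n).toReal = Real.exp (-d) * (d : ℝ) ^ n / (n.factorial : ℝ) :=
  ENNReal.toReal_ofReal (by positivity)

theorem poisson_mean (d : ℝ≥0) : HasSum (fun k => (poisson d k).toReal * k) (d : ℝ) := by
  have h := (ProbabilityTheory.hasSum_one_poissonMeasure d).mul_left (d : ℝ)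
  rw [mul_one] at h
  have h2 := (hasSum_nat_add_iff (f := fun k => (poisson d k).toReal * k) 1 (g := (d : ℝ))).1 (by
    refine Eq.subst (motive := fun f => HasSum f (d : ℝ)) (funext fun k => ?_) h
    rw [poisson_toReal, Nat.factorial_succ]
    have : (k.factorial : ℝ) ≠ 0 := by positivity
    push_cast
    field_simp
    ring)
  simpa using h2

theorem poisson_sq (d : ℝ≥0) :
    HasSum (fun k => (poisson d k).toReal * (k * (k - 1))) ((d : ℝ) ^ 2) := by
  have h := (ProbabilityTheory.hasSum_one_poissonMeasure d).mul_left ((d : ℝ) ^ 2)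
  rw [mul_one] at h
  have h2 := (hasSum_nat_add_iff (f := fun k => (poisson d k).toReal * (k * (k - 1))) 2
    (g := (d : ℝ) ^ 2)).1 (by
    refine Eq.subst (motive := fun f => HasSum f ((d : ℝ) ^ 2)) (funext fun k => ?_) h
    rw [poisson_toReal, Nat.factorial_succ, Nat.factorial_succ]
    have : (k.factorial : ℝ) ≠ 0 := by positivity
    push_cast
    field_simp
    ring)
  simpa [Finset.sum_range_succ] using h2

theorem poisson_one_ne (d : ℝ≥0) : poisson d 1 ≠ 1 := by
  intro h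
  have h1 := poisson_toReal d 1
  rw [h] at h1
  have h2 : Real.exp (-d) * Real.exp d = 1 := by rw [← Real.exp_add]; simp
  have h3 := Real.add_one_le_exp (d : ℝ)
  have h4 := Real.exp_pos (-(d : ℝ))
  simp at h1
  nlinarith

theorem pure_mean (d : ℕ) : HasSum (fun k => (PMF.pure d k).toReal * k) (d : ℝ) := by
  have h := hasSum_single (f := fun k => (PMF.pure d k).toReal * (k : ℝ)) d (by
    intro k hk
    simp [PMF.pure_apply, hk])
  simpa using h

theorem pure_sq (d : ℕ) :
    HasSum (fun k => (PMF.pure d k).toReal * (k * (k - 1) : ℝ)) ((d : ℝ) * (d - 1)) := by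
  have h := hasSum_single (f := fun k => (PMF.pure d k).toReal * ((k : ℝ) * (k - 1))) d (by
    intro k hk
    simp [PMF.pure_apply, hk])
  simpa using h

/-- nonreconstruction for the ferromagnetic Potts channel, every offspring law -/
theorem nonrecon {q : ℕ} (sc : Scheme q) (ξ : PMF ℕ) {lam : ℝ}
    (h : 0 ≤ 1 + ((q : ℝ) - 1) * lam ∧ lam ≤ 1) (h0 : 0 ≤ lam) {μ : ℝ}
    (hμ : HasSum (fun k => (ξ k).toReal * k) μ) (hle : μ * lam ^ 2 ≤ 1)
    (hne : lam < 1 ∨ ξ 1 ≠ 1) :
    Tendsto (fun n => an ξ (potts lam h) n) atTop (𝓝 0) := by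
  rcases lt_or_ge lam 1 with h1 | h1
  · exact nonreconstruction sc ξ h0 h1 hμ hle h
  · have hl : lam = 1 := le_antisymm h.2 h1
    rcases hne with h2 | h2
    · linarith
    · subst hl
      exact nonrecon_ext sc.hq ξ _ hμ (by linarith) h2

theorem nonrecon_regular {q : ℕ} (sc : Scheme q) {d : ℕ} (hd : 2 ≤ d) {lam : ℝ}
    (h : 0 ≤ 1 + ((q : ℝ) - 1) * lam ∧ lam ≤ 1) (h0 : 0 ≤ lam) (hle : d * lam ^ 2 ≤ 1) :
    Tendsto (fun n => an (PMF.pure d) (potts lam h) n) atTop (𝓝 0) := by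
  refine nonrecon sc _ h h0 (pure_mean d) hle (Or.inr ?_)
  rw [PMF.pure_apply, if_neg (by omega)]
  exact zero_ne_one

theorem nonrecon_poisson {q : ℕ} (sc : Scheme q) {d : ℝ≥0} {lam : ℝ}
    (h : 0 ≤ 1 + ((q : ℝ) - 1) * lam ∧ lam ≤ 1) (h0 : 0 ≤ lam) (hle : d * lam ^ 2 ≤ 1) :
    Tendsto (fun n => an (poisson d) (potts lam h) n) atTop (𝓝 0) :=
  nonrecon sc _ h h0 (poisson_mean d) hle (Or.inr (poisson_one_ne d))

end Vale.Agent.P154.G
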