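import Mathlib

/-! P154: broadcasting on Galton-Watson trees, `q` states -/

namespace Vale.Agent.P154.G

open scoped ENNReal NNReal

/-- The `q`-state Potts channel: the law of the spin of a child of a vertex with spin `i`,
`P_lam(j | i) = lam 1{i = j} + (1 - lam)/q`; the condition is `-1/(q-1) ≤ lam ≤ 1`. -/
noncomputable def potts {q : ℕ} (lam : ℝ) (h : 0 ≤ 1 + (q - 1) * lam ∧ lam ≤ 1) (i : Fin q) :
    PMF (Fin q) :=
  PMF.ofFintype (fun j => ENNReal.ofReal (lam * (if i = j then 1 else 0) + (1 - lam) / q)) (by
    have hq : (0 : ℝ) < q := by exact_mod_cast i.pos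
    rw [← ENNReal.ofReal_sum_of_nonneg]
    · rw [← ENNReal.ofReal_one]
      congr 1
      rw [Finset.sum_add_distrib, ← Finset.mul_sum, Finset.sum_ite_eq, if_pos (Finset.mem_univ _),
        Finset.sum_const, Finset.card_univ, Fintype.card_fin, nsmul_eq_mul]
      field_simp
      ring
    · intro j _
      split_ifs
      · have : lam * 1 + (1 - lam) / q = (1 + (q - 1) * lam) / q := by field_simp; ring
        rw [this]
        exact div_nonneg h.1 hq.le
      · rw [mul_zero, zero_add]
        exact div_nonneg (by linarith [h.2]) hq.le)

/-- The law of `k` independent samples of `μ`, as a list. -/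
noncomputable def iid {α : Type} (μ : PMF α) : ℕ → PMF (List α)
  | 0 => PMF.pure []
  | k + 1 => μ.bind fun a => (iid μ k).map fun l => a :: l

/-- What is observed at depth `n` of a rooted tree: the tree up to depth `n` together with the
spins of the vertices at depth `n`.  At depth `0` it is the spin of the root; at depth `n + 1`
it is the list, over the children of the root, of what is observed at depth `n` of the subtree
of the child. -/
def Obs (q : ℕ) : ℕ → Type
  | 0 => Fin q
  | n + 1 => List (Obs q n)

/-- The law of the observation at depth `n` on the Galton-Watson tree with offspring law `ξ`,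
when the root has spin `i` and every child of a vertex with spin `j` gets, independently, a spin
with law `W j`. -/
noncomputable def bcast {q : ℕ} (ξ : PMF ℕ) (W : Fin q → PMF (Fin q)) :
    (n : ℕ) → Fin q → PMF (Obs q n)
  | 0, i => PMF.pure i
  | n + 1, i => ξ.bind fun k => iid ((W i).bind (bcast ξ W n)) k

section
variable {q : ℕ} (ξ : PMF ℕ) (W : Fin q → PMF (Fin q)) (n : ℕ)

/-- joint law of the (uniform) root spin and the observation -/
noncomputable def joint (i : Fin q) (o : Obs q n) : ℝ := 1 / q * (bcast ξ W n i o).toReal

/-- law of the observation -/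
noncomputable def marg (o : Obs q n) : ℝ := ∑ i, joint ξ W n i o

/-- posterior law of the root spin given the observation -/
noncomputable def post (i : Fin q) (o : Obs q n) : ℝ := joint ξ W n i o / marg ξ W n o

/-- `a_n`: the expected total variation distance of the posterior law from uniform -/
noncomputable def an : ℝ := ∑' o, marg ξ W n o * (1 / 2 * ∑ i, |post ξ W n i o - 1 / q|)

end

end Vale.Agent.P154.G
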