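import Vale.Agent.P154.GDeg

/-! nonreconstruction on the regular tree from potentials which depend on the number of subtrees
already attached -/

namespace Vale.Agent.P154.G

open scoped ENNReal NNReal
open Filter Topology

variable {A B D : Type*} {q : ℕ}

/-- the data of the argument for the `d`-ary tree: inequalities for the channel with eigenvalue
`lam`, used for the channel with eigenvalue `lam * τ` -/
structure Stage (q d : ℕ) (lam τ : ℝ) where
  /-- potential of a vertex with `k` subtrees attached -/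
  P : ℕ → V q → ℝ
  /-- cost of the `k`-th message -/
  Gf : ℕ → V q → ℝ
  /-- bound -/
  K : ℝ
  /-- slack -/
  t : ℕ → ℝ
  /-- growth -/
  R : ℝ
  hq : 2 ≤ q
  hR : 0 ≤ R
  τ_pos : 0 < τ
  τ_le : τ ≤ 1
  Rτ : R * τ ^ 2 = 1
  hd : 2 ≤ d
  t_pos : 0 < t 1
  t_nn : ∀ k, 0 ≤ t k
  P_bd : ∀ k, ∀ c : V q, (∀ i, 0 ≤ c i) → |P k c| ≤ K * sg c
  G_bd : ∀ k, ∀ c : V q, (∀ i, 0 ≤ c i) → |Gf k c| ≤ K * sg c
  step : ∀ k, 1 ≤ k → k < d → ∀ p r : V q, (∀ i, 0 ≤ p i) → (∀ i, 0 ≤ r i) →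
    (k = 1 → ∃ p' : V q, (∀ i, 0 ≤ p' i) ∧ p = chan lam p') →
    1 / ((q - 1).factorial : ℝ) * SS (P (k + 1)) (chan lam r) p ≤
      sg r * P k p + Gf k r * sg p - t k * (Rf r * Rf p)
  sum : ∀ r : V q, (∀ i, 0 ≤ r i) →
    P 1 (chan lam r) + ∑ k ∈ Finset.Ico 1 d, Gf k r ≤ R * P d r
  ray : ∀ r : V q, (∀ i, 0 ≤ r i) → P d (chan τ r) ≤ τ ^ 2 * P d r

lemma mix_pure (d : ℕ) (m : A → V q) :
    mixF (fun k => ((PMF.pure d : PMF ℕ) k).toReal) m = powF m d := by
  funext l i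
  show ((PMF.pure d : PMF ℕ) l.length).toReal * powF m l.length l i = powF m d l i
  rw [PMF.pure_apply]
  by_cases h : l.length = d
  · rw [if_pos h, h]; simp
  · rw [if_neg h, powF_eq_zero m d l h]; simp

/-- attaching one more subtree -/
theorem Stage.prod {d : ℕ} {lam τ : ℝ} (st : Stage q d lam τ)
    (h : 0 ≤ 1 + ((q : ℝ) - 1) * lam ∧ lam ≤ 1) {m : A → V q} {m' : B → V q}
    (hm : NFam m) (hm' : NFam m') {k : ℕ} (hk : 1 ≤ k) (hkd : k < d)
    (h1 : k = 1 → ∀ b, ∃ p' : V q, (∀ i, 0 ≤ p' i) ∧ m' b = chan lam p') :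
    Phi (st.P (k + 1)) (prodF (fun a => chan lam (m a)) m') ≤
      Phi (st.P k) m' + Phi (st.Gf k) m - st.t k * (X m * X m') := by
  have hq := st.hq
  have hq0 := q_pos hq
  have bP : ∀ k, Bdd (st.P k) st.K := st.P_bd
  have bG : ∀ k, Bdd (st.Gf k) st.K := st.G_bd
  have hc := hm.chan hq h
  have s1 := (tsum_SS' (bP (k + 1)) hc hm').mul_left (1 / ((q - 1).factorial : ℝ))
  have t1 := hasSum_FG' bsg (bP k) hm hm'
  have t2 := hasSum_FG' (bG k) bsg hm hm'
  have t3 := (hasSum_FG' (bRf hq) (bRf hq) hm hm').mul_left (st.t k)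
  have hle := hasSum_le (f := fun x : A × B =>
      1 / ((q - 1).factorial : ℝ) * SS (st.P (k + 1)) (chan lam (m x.1)) (m' x.2))
    (g := fun x : A × B => sg (m x.1) * st.P k (m' x.2) + st.Gf k (m x.1) * sg (m' x.2) -
      st.t k * (Rf (m x.1) * Rf (m' x.2)))
    (fun x => st.step k hk hkd _ _ (hm'.nn x.2) (hm.nn x.1) fun hk1 => h1 hk1 x.2)
    s1 ((t1.add t2).sub t3)
  rw [(sg_hasSum hm.sum).tsum_eq, (sg_hasSum hm'.sum).tsum_eq, fact_div hq,
    tsum_Rf_eq hq m, tsum_Rf_eq hq m'] at hle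
  unfold Phi
  have e1 : (1 : ℝ) / q * ∑' x, st.P (k + 1) (prodF (fun a => chan lam (m a)) m' x) =
      1 / q ^ 2 * (q * ∑' x, st.P (k + 1) (prodF (fun a => chan lam (m a)) m' x)) := by
    field_simp
  rw [e1]
  have h2 := mul_le_mul_of_nonneg_left hle (show (0 : ℝ) ≤ 1 / q ^ 2 by positivity)
  refine h2.trans (le_of_eq ?_)
  field_simp

lemma powF_one_chan (m : A → V q) (lam : ℝ) (hm : ∀ a i, 0 ≤ m a i) (l : List A) :
    ∃ p' : V q, (∀ i, 0 ≤ p' i) ∧ powF (fun a => chan lam (m a)) 1 l = chan lam p' := by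
  have h0 : (0 : V q) = chan lam 0 := by
    funext i
    show (0 : ℝ) = lam * 0 + (1 - lam) / q * (∑ i, (0 : V q) i)
    simp
  rcases l with _ | ⟨a, _ | ⟨b, l⟩⟩
  · exact ⟨0, fun i => le_rfl, (powF_eq_zero _ 1 [] (by simp)).trans h0⟩
  · refine ⟨m a, hm a, ?_⟩
    funext i
    show chan lam (m a) i * 1 = chan lam (m a) i
    ring
  · exact ⟨0, fun i => le_rfl, (powF_eq_zero _ 1 (a :: b :: l) (by simp)).trans h0⟩

/-- one level of the tree -/
theorem Stage.level {d : ℕ} {lam τ : ℝ} (st : Stage q d lam τ)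
    (h : 0 ≤ 1 + ((q : ℝ) - 1) * lam ∧ lam ≤ 1) {m : A → V q} (hm : NFam m) :
    Phi (st.P d) (powF (fun a => chan lam (m a)) d) ≤
      st.R * Phi (st.P d) m - st.t 1 * lam ^ 2 * X m ^ 2 := by
  have hq := st.hq
  have hq0 := q_pos hq
  have bP : ∀ k, Bdd (st.P k) st.K := st.P_bd
  have bG : ∀ k, Bdd (st.Gf k) st.K := st.G_bd
  have hc := hm.chan hq h
  have hX := X_nonneg hq hm.nn
  have x1 : X (powF (fun a => chan lam (m a)) 1) = lam ^ 2 * X m := by
    have := hc.Phi_powF_one (bRf hq)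
    have e2 : X (powF (fun a => chan lam (m a)) 1) = X (fun a => chan lam (m a)) := this
    rw [e2, X_chan hq]
  -- attach the children one by one
  have key : ∀ k, 2 ≤ k → k ≤ d → Phi (st.P k) (powF (fun a => chan lam (m a)) k) ≤
      Phi (st.P 1) (fun a => chan lam (m a)) + ∑ j ∈ Finset.Ico 1 k, Phi (st.Gf j) m -
        st.t 1 * lam ^ 2 * X m ^ 2 := by
    intro k hk
    induction k, hk using Nat.le_induction with
    | base =>
      intro hd
      rw [hc.Phi_powF_succ (bP 2) 1]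
      have h1 := st.prod h hm (hc.pow 1) (k := 1) le_rfl (by omega)
        (fun _ l => powF_one_chan m lam hm.nn l)
      rw [x1, hc.Phi_powF_one (bP 1)] at h1
      have e : Finset.Ico 1 2 = {1} := by decide
      rw [e, Finset.sum_singleton]
      refine h1.trans (le_of_eq ?_)
      ring
    | succ k hk ih =>
      intro hd
      rw [hc.Phi_powF_succ (bP (k + 1)) k]
      have h1 := st.prod h hm (hc.pow k) (k := k) (by omega) (by omega) (fun hk1 => by omega)
      have h2 := X_nonneg hq (hc.pow k).nn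
      have h3 : 0 ≤ st.t k * (X m * X (powF (fun a => chan lam (m a)) k)) :=
        mul_nonneg (st.t_nn k) (mul_nonneg hX h2)
      have h4 := ih (by omega)
      rw [Finset.sum_Ico_succ_top (by omega)]
      linarith
  have h1 := key d st.hd le_rfl
  -- the sum of the costs
  have s1 : HasSum (fun a => st.P 1 (chan lam (m a)) + ∑ k ∈ Finset.Ico 1 d, st.Gf k (m a))
      (∑' a, st.P 1 (chan lam (m a)) + ∑ k ∈ Finset.Ico 1 d, ∑' a, st.Gf k (m a)) :=
    ((smb (bP 1) hc.nn hc.sum).hasSum).add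
      (hasSum_sum fun k _ => (smb (bG k) hm.nn hm.sum).hasSum)
  have h2 := hasSum_le (fun a => st.sum (m a) (hm.nn a)) s1
    ((smb (bP d) hm.nn hm.sum).hasSum.mul_left st.R)
  have h3 := mul_le_mul_of_nonneg_left h2 (show (0 : ℝ) ≤ 1 / q by positivity)
  rw [mul_add, Finset.mul_sum] at h3
  unfold Phi at h1 ⊢
  have e4 : st.R * (1 / q * ∑' a, st.P d (m a)) = 1 / q * (st.R * ∑' a, st.P d (m a)) := by ring
  rw [e4]
  linarith

theorem tendsto_of_level {x y : ℕ → ℝ} {c K : ℝ} (hc : 0 < c) (hx : ∀ n, 0 ≤ x n)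
    (hy : ∀ n, -K ≤ y n) (h : ∀ n, y (n + 1) ≤ y n - c * x n ^ 2) : Tendsto x atTop (𝓝 0) := by
  have hanti : Antitone y := antitone_nat_of_succ_le fun n => by
    have := h n
    have h2 : 0 ≤ c * x n ^ 2 := by positivity
    linarith
  have hbdd : BddBelow (Set.range y) := ⟨-K, by rintro _ ⟨n, rfl⟩; exact hy n⟩
  have hlim := tendsto_atTop_ciInf hanti hbdd
  have hlim1 := hlim.comp (tendsto_add_atTop_nat 1)
  have hdiff : Tendsto (fun n => (y n - y (n + 1)) / c) atTop (𝓝 0) := by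
    have := (hlim.sub hlim1).div_const c
    rw [sub_self, zero_div] at this
    exact this
  have hsq : Tendsto (fun n => x n ^ 2) atTop (𝓝 0) := by
    refine squeeze_zero (fun n => sq_nonneg _) (fun n => ?_) hdiff
    rw [le_div_iff₀ hc]
    have := h n
    linarith
  have h2 := hsq.sqrt
  rw [Real.sqrt_zero] at h2
  refine h2.congr fun n => ?_
  exact Real.sqrt_sq (hx n)

theorem Stage.X_tendsto {d : ℕ} {lam τ lam0 : ℝ} (st : Stage q d lam τ)
    (h : 0 ≤ 1 + ((q : ℝ) - 1) * lam ∧ lam ≤ 1) (hl : lam ≠ 0)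
    (h0 : 0 ≤ 1 + ((q : ℝ) - 1) * lam0 ∧ lam0 ≤ 1) (e0 : lam0 = lam * τ) :
    Tendsto (fun n => X (fam (PMF.pure d) (potts lam0 h0) n)) atTop (𝓝 0) := by
  have hq := st.hq
  have hq0 := q_pos hq
  have hτ := st.τ_pos
  have hN : ∀ n, NFam (fam (PMF.pure d) (potts lam0 h0) n) := fun n => NFam.fam _ h0 n
  have hτv : 0 ≤ 1 + ((q : ℝ) - 1) * τ ∧ τ ≤ 1 := ⟨by
    have : (1 : ℝ) ≤ q := by
      have : 1 ≤ q := by omega
      exact_mod_cast this
    have := mul_nonneg (sub_nonneg.2 this) hτ.le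
    linarith, st.τ_le⟩
  have bP : Bdd (st.P d) st.K := st.P_bd d
  refine tendsto_of_level (y := fun n => Phi (st.P d) (fam (PMF.pure d) (potts lam0 h0) n))
    (c := st.t 1 * lam ^ 2 * τ ^ 4) (K := st.K) (mul_pos (mul_pos st.t_pos (by positivity))
      (by positivity)) (fun n => X_nonneg hq (hN n).nn) (fun n => ?_) (fun n => ?_)
  · show -st.K ≤ 1 / q * ∑' a, st.P d (fam (PMF.pure d) (potts lam0 h0) n a)
    have s1 := (smb bP (hN n).nn (hN n).sum).hasSum
    have s2 := ((sg_hasSum (hN n).sum).mul_left (-st.K))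
    have h1 := hasSum_le (fun a => by
      have := (abs_le.1 (bP _ ((hN n).nn a))).1
      linarith) s2 s1
    have h2 := mul_le_mul_of_nonneg_left h1 (show (0 : ℝ) ≤ 1 / q by positivity)
    refine le_trans (le_of_eq ?_) h2
    field_simp
  · have hc := (hN n).chan hq hτv
    have h1 := st.level h hc
    have e : fam (PMF.pure d) (potts lam0 h0) (n + 1) =
        powF (fun a => chan lam (chan τ (fam (PMF.pure d) (potts lam0 h0) n a))) d := by
      rw [fam_succ]
      refine (mix_pure d _).trans ?_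
      congr 1
      funext a
      rw [chan_chan' hq, ← e0]
    show Phi (st.P d) (fam (PMF.pure d) (potts lam0 h0) (n + 1)) ≤ _
    rw [e]
    refine h1.trans ?_
    -- the ray inequality
    have h2 := hasSum_le (fun a => st.ray _ ((hN n).nn a)) (smb bP hc.nn hc.sum).hasSum
      ((smb bP (hN n).nn (hN n).sum).hasSum.mul_left (τ ^ 2))
    have h3 := mul_le_mul_of_nonneg_left h2 (show (0 : ℝ) ≤ 1 / q by positivity)
    have h4 := mul_le_mul_of_nonneg_left h3 st.hR
    rw [X_chan hq]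
    unfold Phi
    have e5 : st.R * (1 / q * (τ ^ 2 * ∑' a, st.P d (fam (PMF.pure d) (potts lam0 h0) n a))) =
        (st.R * τ ^ 2) * (1 / q * ∑' a, st.P d (fam (PMF.pure d) (potts lam0 h0) n a)) := by ring
    rw [e5, st.Rτ, one_mul] at h4
    have e6 : st.t 1 * lam ^ 2 * (τ ^ 2 * X (fam (PMF.pure d) (potts lam0 h0) n)) ^ 2 =
        st.t 1 * lam ^ 2 * τ ^ 4 * X (fam (PMF.pure d) (potts lam0 h0) n) ^ 2 := by ring
    rw [e6]
    linarith

/-- nonreconstruction on the regular trees with at most `d` children, for the weaker channels -/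
theorem Stage.nonrecon {d : ℕ} {lam τ : ℝ} (st : Stage q d lam τ)
    (h : 0 ≤ 1 + ((q : ℝ) - 1) * lam ∧ lam ≤ 1) (hl : lam < 0) {d' : ℕ} (hd : d' ≤ d)
    {lam' : ℝ} (h' : 0 ≤ 1 + ((q : ℝ) - 1) * lam' ∧ lam' ≤ 1) (h1 : lam * τ ≤ lam')
    (h2 : lam' ≤ 0) :
    Tendsto (fun n => an (PMF.pure d') (potts lam' h') n) atTop (𝓝 0) := by
  have hq := st.hq
  have hτ := st.τ_pos
  have hneg : lam * τ < 0 := mul_neg_of_neg_of_pos hl hτ
  have hq1 : (0 : ℝ) ≤ (q : ℝ) - 1 := by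
    have : (1 : ℝ) ≤ q := by
      have : 1 ≤ q := by omega
      exact_mod_cast this
    linarith
  have h0 : 0 ≤ 1 + ((q : ℝ) - 1) * (lam * τ) ∧ lam * τ ≤ 1 := by
    refine ⟨?_, by linarith⟩
    have h3 : lam ≤ lam * τ := by nlinarith [st.τ_le]
    have := mul_le_mul_of_nonneg_left h3 hq1
    linarith [h.1]
  apply an_tendsto_of_X hq
  refine squeeze_zero (fun n => X_nonneg hq (NFam.fam _ h' n).nn) (fun n => ?_)
    (st.X_tendsto h hl.ne h0 rfl)
  refine X_fam_le hq hd h0 h' (τ := lam' / (lam * τ)) (div_nonneg_of_nonpos h2 hneg.le) ?_ ?_ n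
  · rw [div_le_one_of_neg hneg]
    exact h1
  · rw [mul_div_cancel₀]
    exact hneg.ne

end Vale.Agent.P154.G
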