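import Vale.Agent.P154.GMono
import Vale.Agent.P154.GStage

/-! the local argument on the regular tree: stage potentials with penalties `Q(p) R(w)` which are
paid by the bounds on the law at one level -/

namespace Vale.Agent.P154.G

open scoped ENNReal NNReal
open Filter Topology

variable {A B D : Type*} {q : ℕ}

/-- the data of the local argument for the `d`-ary tree: inequalities for the channel with
eigenvalue `lam`, used for the channel with eigenvalue `lam * τ` -/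
structure Loc (q d : ℕ) (lam τ : ℝ) (J : Type) [Fintype J] where
  /-- potential of a vertex with `k` subtrees attached -/
  P : ℕ → V q → ℝ
  /-- cost of the `k`-th message -/
  Gf : ℕ → V q → ℝ
  /-- penalties: factor depending on the law of the first `k` messages -/
  Q : ℕ → J → V q → ℝ
  /-- penalties: factor depending on the new message -/
  R : J → V q → ℝ
  /-- budget of the penalties -/
  gam : J → ℝ
  /-- bound -/
  K : ℝ
  /-- slack -/
  t : ℕ → ℝ
  /-- growth -/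
  G0 : ℝ
  hq : 2 ≤ q
  hG0 : 0 ≤ G0
  τ_pos : 0 < τ
  τ_le : τ ≤ 1
  Gτ : G0 * τ ^ 2 = 1
  hd : 2 ≤ d
  t_pos : 0 < t 1
  t_nn : ∀ k, 0 ≤ t k
  P_bd : ∀ k, ∀ c : V q, (∀ i, 0 ≤ c i) → |P k c| ≤ K * sg c
  G_bd : ∀ k, ∀ c : V q, (∀ i, 0 ≤ c i) → |Gf k c| ≤ K * sg c
  Q_bd : ∀ k j, ∀ c : V q, (∀ i, 0 ≤ c i) → |Q k j c| ≤ K * sg c
  R_bd : ∀ j, ∀ c : V q, (∀ i, 0 ≤ c i) → |R j c| ≤ K * sg c
  R_nn : ∀ j, ∀ c : V q, (∀ i, 0 ≤ c i) → 0 ≤ R j c
  step : ∀ k, 1 ≤ k → k < d → ∀ p r : V q, (∀ i, 0 ≤ p i) → (∀ i, 0 ≤ r i) →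
    (k = 1 → ∃ p' : V q, (∀ i, 0 ≤ p' i) ∧ p = chan lam p') →
    1 / ((q - 1).factorial : ℝ) * SS (P (k + 1)) (chan lam r) p ≤
      sg r * P k p + Gf k r * sg p - t k * (Rf r * Rf p) + ∑ j, R j r * Q k j p
  sum : ∀ r : V q, (∀ i, 0 ≤ r i) →
    P 1 (chan lam r) + ∑ k ∈ Finset.Ico 1 d, Gf k r ≤ G0 * P d r - ∑ j, gam j * R j r
  ray : ∀ r : V q, (∀ i, 0 ≤ r i) → P d (chan τ r) ≤ τ ^ 2 * P d r

/-- attaching one more subtree -/
theorem Loc.prod {d : ℕ} {lam τ : ℝ} {J : Type} [Fintype J] (st : Loc q d lam τ J)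
    (h : 0 ≤ 1 + ((q : ℝ) - 1) * lam ∧ lam ≤ 1) {m : A → V q} {m' : B → V q}
    (hm : NFam m) (hm' : NFam m') {k : ℕ} (hk : 1 ≤ k) (hkd : k < d)
    (h1 : k = 1 → ∀ b, ∃ p' : V q, (∀ i, 0 ≤ p' i) ∧ m' b = chan lam p') :
    Phi (st.P (k + 1)) (prodF (fun a => chan lam (m a)) m') ≤
      Phi (st.P k) m' + Phi (st.Gf k) m - st.t k * (X m * X m') +
        ∑ j, Phi (st.R j) m * Phi (st.Q k j) m' := by
  have hq := st.hq
  have hq0 := q_pos hq
  have bP : ∀ k, Bdd (st.P k) st.K := st.P_bd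
  have bG : ∀ k, Bdd (st.Gf k) st.K := st.G_bd
  have bQ : ∀ k j, Bdd (st.Q k j) st.K := st.Q_bd
  have bR : ∀ j, Bdd (st.R j) st.K := st.R_bd
  have hc := hm.chan hq h
  have s1 := (tsum_SS' (bP (k + 1)) hc hm').mul_left (1 / ((q - 1).factorial : ℝ))
  have t1 := hasSum_FG' bsg (bP k) hm hm'
  have t2 := hasSum_FG' (bG k) bsg hm hm'
  have t3 := (hasSum_FG' (bRf hq) (bRf hq) hm hm').mul_left (st.t k)
  have t4 := hasSum_sum (s := (Finset.univ : Finset J))
    fun j _ => hasSum_FG' (bR j) (bQ k j) hm hm'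
  have hle := hasSum_le (f := fun x : A × B =>
      1 / ((q - 1).factorial : ℝ) * SS (st.P (k + 1)) (chan lam (m x.1)) (m' x.2))
    (g := fun x : A × B => sg (m x.1) * st.P k (m' x.2) + st.Gf k (m x.1) * sg (m' x.2) -
      st.t k * (Rf (m x.1) * Rf (m' x.2)) + ∑ j, st.R j (m x.1) * st.Q k j (m' x.2))
    (fun x => st.step k hk hkd _ _ (hm'.nn x.2) (hm.nn x.1) fun hk1 => h1 hk1 x.2)
    s1 (((t1.add t2).sub t3).add t4)
  rw [(sg_hasSum hm.sum).tsum_eq, (sg_hasSum hm'.sum).tsum_eq, fact_div hq,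
    tsum_Rf_eq hq m, tsum_Rf_eq hq m'] at hle
  unfold Phi
  have e1 : (1 : ℝ) / q * ∑' x, st.P (k + 1) (prodF (fun a => chan lam (m a)) m' x) =
      1 / q ^ 2 * (q * ∑' x, st.P (k + 1) (prodF (fun a => chan lam (m a)) m' x)) := by
    field_simp
  have e2 : ∑ j, 1 / (q : ℝ) * (∑' a, st.R j (m a)) * (1 / q * ∑' b, st.Q k j (m' b)) =
      1 / q ^ 2 * ∑ j, (∑' a, st.R j (m a)) * ∑' b, st.Q k j (m' b) := by
    rw [Finset.mul_sum]
    refine Finset.sum_congr rfl fun j _ => ?_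
    field_simp
  rw [e1, e2]
  have h2 := mul_le_mul_of_nonneg_left hle (show (0 : ℝ) ≤ 1 / q ^ 2 by positivity)
  refine h2.trans (le_of_eq ?_)
  generalize (∑ j, (∑' a, st.R j (m a)) * ∑' b, st.Q k j (m' b)) = S
  field_simp

lemma Loc.Phi_nn {d : ℕ} {lam τ : ℝ} {J : Type} [Fintype J] (st : Loc q d lam τ J) {m : A → V q}
    (hm : NFam m) (j : J) : 0 ≤ Phi (st.R j) m :=
  mul_nonneg (by positivity) (tsum_nonneg fun a => st.R_nn j _ (hm.nn a))

/-- one level of the tree -/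
theorem Loc.level {d : ℕ} {lam τ : ℝ} {J : Type} [Fintype J] (st : Loc q d lam τ J)
    (h : 0 ≤ 1 + ((q : ℝ) - 1) * lam ∧ lam ≤ 1) {m : A → V q} (hm : NFam m)
    (hcl : ∀ j, ∑ k ∈ Finset.Ico 1 d, Phi (st.Q k j) (powF (fun a => chan lam (m a)) k) ≤
      st.gam j) :
    Phi (st.P d) (powF (fun a => chan lam (m a)) d) ≤
      st.G0 * Phi (st.P d) m - st.t 1 * lam ^ 2 * X m ^ 2 := by
  have hq := st.hq
  have hq0 := q_pos hq
  have bP : ∀ k, Bdd (st.P k) st.K := st.P_bd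
  have bG : ∀ k, Bdd (st.Gf k) st.K := st.G_bd
  have bR : ∀ j, Bdd (st.R j) st.K := st.R_bd
  have hc := hm.chan hq h
  have hX := X_nonneg hq hm.nn
  have x1 : X (powF (fun a => chan lam (m a)) 1) = lam ^ 2 * X m := by
    have := hc.Phi_powF_one (bRf hq)
    have e2 : X (powF (fun a => chan lam (m a)) 1) = X (fun a => chan lam (m a)) := this
    rw [e2, X_chan hq]
  -- attach the children one by one
  have key : ∀ k, 2 ≤ k → k ≤ d → Phi (st.P k) (powF (fun a => chan lam (m a)) k) ≤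
      Phi (st.P 1) (fun a => chan lam (m a)) + ∑ j ∈ Finset.Ico 1 k, Phi (st.Gf j) m -
        st.t 1 * lam ^ 2 * X m ^ 2 + ∑ l ∈ Finset.Ico 1 k, ∑ j, Phi (st.R j) m *
          Phi (st.Q l j) (powF (fun a => chan lam (m a)) l) := by
    intro k hk
    induction k, hk using Nat.le_induction with
    | base =>
      intro hd
      rw [hc.Phi_powF_succ (bP 2) 1]
      have h1 := st.prod h hm (hc.pow 1) (k := 1) le_rfl (by omega)
        (fun _ l => powF_one_chan m lam hm.nn l)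
      rw [x1, hc.Phi_powF_one (bP 1)] at h1
      have e : Finset.Ico 1 2 = {1} := by decide
      rw [e, Finset.sum_singleton, Finset.sum_singleton]
      refine h1.trans (le_of_eq ?_)
      ring
    | succ k hk ih =>
      intro hd
      rw [hc.Phi_powF_succ (bP (k + 1)) k]
      have h1 := st.prod h hm (hc.pow k) (k := k) (by omega) (by omega) (fun hk1 => by omega)
      have h2 := X_nonneg hq (hc.pow k).nn
      have h3 : 0 ≤ st.t k * (X m * X (powF (fun a => chan lam (m a)) k)) :=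
        mul_nonneg (st.t_nn k) (mul_nonneg hX h2)
      have h4 := ih (by omega)
      rw [Finset.sum_Ico_succ_top (by omega), Finset.sum_Ico_succ_top (by omega)]
      linarith
  have h1 := key d st.hd le_rfl
  -- the sum of the costs
  have s1 : HasSum (fun a => st.P 1 (chan lam (m a)) + ∑ k ∈ Finset.Ico 1 d, st.Gf k (m a))
      (∑' a, st.P 1 (chan lam (m a)) + ∑ k ∈ Finset.Ico 1 d, ∑' a, st.Gf k (m a)) :=
    ((smb (bP 1) hc.nn hc.sum).hasSum).add
      (hasSum_sum fun k _ => (smb (bG k) hm.nn hm.sum).hasSum)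
  have s2 : HasSum (fun a => st.G0 * st.P d (m a) - ∑ j, st.gam j * st.R j (m a))
      (st.G0 * ∑' a, st.P d (m a) - ∑ j, st.gam j * ∑' a, st.R j (m a)) :=
    ((smb (bP d) hm.nn hm.sum).hasSum.mul_left st.G0).sub
      (hasSum_sum fun j _ => ((smb (bR j) hm.nn hm.sum).hasSum.mul_left _))
  have h2 := hasSum_le (fun a => st.sum (m a) (hm.nn a)) s1 s2
  have h3 := mul_le_mul_of_nonneg_left h2 (show (0 : ℝ) ≤ 1 / q by positivity)
  rw [mul_add, mul_sub, Finset.mul_sum, Finset.mul_sum] at h3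
  -- the penalties
  have h5 : ∑ l ∈ Finset.Ico 1 d, ∑ j, Phi (st.R j) m *
      Phi (st.Q l j) (powF (fun a => chan lam (m a)) l) ≤ ∑ j, st.gam j * Phi (st.R j) m := by
    rw [Finset.sum_comm]
    refine Finset.sum_le_sum fun j _ => ?_
    rw [← Finset.mul_sum, mul_comm (st.gam j)]
    exact mul_le_mul_of_nonneg_left (hcl j) (st.Phi_nn hm j)
  have e6 : ∑ j, 1 / (q : ℝ) * (st.gam j * ∑' a, st.R j (m a)) = ∑ j, st.gam j * Phi (st.R j) m := by
    refine Finset.sum_congr rfl fun j _ => ?_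
    unfold Phi
    ring
  rw [e6] at h3
  have e8 : 1 / (q : ℝ) * (st.G0 * ∑' a, st.P d (m a)) = st.G0 * Phi (st.P d) m := by
    unfold Phi
    ring
  rw [e8] at h3
  have h7 : Phi (st.P 1) (fun a => chan lam (m a)) + ∑ j ∈ Finset.Ico 1 d, Phi (st.Gf j) m ≤
      st.G0 * Phi (st.P d) m - ∑ j, st.gam j * Phi (st.R j) m := h3
  linarith

theorem Loc.X_tendsto {d : ℕ} {lam τ lam0 : ℝ} {J : Type} [Fintype J] (st : Loc q d lam τ J)
    (h : 0 ≤ 1 + ((q : ℝ) - 1) * lam ∧ lam ≤ 1) (hl : lam ≠ 0)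
    (h0 : 0 ≤ 1 + ((q : ℝ) - 1) * lam0 ∧ lam0 ≤ 1) (e0 : lam0 = lam * τ) (N : ℕ)
    (hcl : ∀ n, N ≤ n → ∀ j, ∑ k ∈ Finset.Ico 1 d, Phi (st.Q k j)
      (powF (fun a => chan lam0 (fam (PMF.pure d) (potts lam0 h0) n a)) k) ≤ st.gam j) :
    Tendsto (fun n => X (fam (PMF.pure d) (potts lam0 h0) n)) atTop (𝓝 0) := by
  have hq := st.hq
  have hq0 := q_pos hq
  have hτ := st.τ_pos
  have hN : ∀ n, NFam (fam (PMF.pure d) (potts lam0 h0) n) := fun n => NFam.fam _ h0 n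
  have hτv : 0 ≤ 1 + ((q : ℝ) - 1) * τ ∧ τ ≤ 1 := ⟨by
    have : (1 : ℝ) ≤ q := by
      have : 1 ≤ q := by omega
      exact_mod_cast this
    have := mul_nonneg (sub_nonneg.2 this) hτ.le
    linarith, st.τ_le⟩
  have bP : Bdd (st.P d) st.K := st.P_bd d
  rw [← tendsto_add_atTop_iff_nat N]
  have ecomm : ∀ u : ℕ → ℝ, (fun n => u (n + N)) = fun n => u (N + n) := fun u => by
    funext n
    rw [Nat.add_comm]
  rw [ecomm (fun n => X (fam (PMF.pure d) (potts lam0 h0) n))]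
  have hl2 : 0 < lam ^ 2 := by positivity
  refine tendsto_of_level (y := fun n => Phi (st.P d) (fam (PMF.pure d) (potts lam0 h0) (N + n)))
    (c := st.t 1 * lam ^ 2 * τ ^ 4) (K := st.K) (mul_pos (mul_pos st.t_pos hl2) (by positivity))
      (fun n => X_nonneg hq (hN _).nn) (fun n => ?_) (fun n => ?_)
  · show -st.K ≤ 1 / q * ∑' a, st.P d (fam (PMF.pure d) (potts lam0 h0) (N + n) a)
    have s1 := (smb bP (hN (N + n)).nn (hN (N + n)).sum).hasSum
    have s2 := ((sg_hasSum (hN (N + n)).sum).mul_left (-st.K))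
    have h1 := hasSum_le (fun a => by
      have := (abs_le.1 (bP _ ((hN (N + n)).nn a))).1
      linarith) s2 s1
    have h2 := mul_le_mul_of_nonneg_left h1 (show (0 : ℝ) ≤ 1 / q by positivity)
    refine le_trans (le_of_eq ?_) h2
    field_simp
  · have hc := (hN (N + n)).chan hq hτv
    have ec : (fun a => chan lam (chan τ (fam (PMF.pure d) (potts lam0 h0) (N + n) a))) =
        fun a => chan lam0 (fam (PMF.pure d) (potts lam0 h0) (N + n) a) := by
      funext a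
      rw [chan_chan' hq, ← e0]
    have h1 := st.level h hc (by
      intro j
      rw [ec]
      exact hcl (N + n) (by omega) j)
    rw [ec] at h1
    have e : fam (PMF.pure d) (potts lam0 h0) (N + n + 1) =
        powF (fun a => chan lam0 (fam (PMF.pure d) (potts lam0 h0) (N + n) a)) d := by
      rw [fam_succ]
      exact mix_pure d _
    show Phi (st.P d) (fam (PMF.pure d) (potts lam0 h0) (N + n + 1)) ≤ _
    rw [e]
    refine h1.trans ?_
    -- the ray inequality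
    have h2 := hasSum_le (fun a => st.ray _ ((hN (N + n)).nn a)) (smb bP hc.nn hc.sum).hasSum
      ((smb bP (hN (N + n)).nn (hN (N + n)).sum).hasSum.mul_left (τ ^ 2))
    have h3 := mul_le_mul_of_nonneg_left h2 (show (0 : ℝ) ≤ 1 / q by positivity)
    have h4 := mul_le_mul_of_nonneg_left h3 st.hG0
    rw [X_chan hq]
    unfold Phi
    have e5 : st.G0 * (1 / q * (τ ^ 2 * ∑' a, st.P d
        (fam (PMF.pure d) (potts lam0 h0) (N + n) a))) = (st.G0 * τ ^ 2) *
        (1 / q * ∑' a, st.P d (fam (PMF.pure d) (potts lam0 h0) (N + n) a)) := by ring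
    rw [e5, st.Gτ, one_mul] at h4
    have e6 : st.t 1 * lam ^ 2 * (τ ^ 2 * X (fam (PMF.pure d) (potts lam0 h0) (N + n))) ^ 2 =
        st.t 1 * lam ^ 2 * τ ^ 4 * X (fam (PMF.pure d) (potts lam0 h0) (N + n)) ^ 2 := by ring
    rw [e6]
    linarith

/-- a bound for the law at one level bounds the penalties later on (up to `d` messages) -/
theorem Bd.Phi_pow (hq : 2 ≤ q) {d : ℕ} {lam : ℝ} {h : 0 ≤ 1 + ((q : ℝ) - 1) * lam ∧ lam ≤ 1}
    {ι : Type*} [Fintype ι] {n N : ℕ} (hn : N ≤ n) {g : ι → V q} {w : ι → ℝ}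
    (hB : Bd (fam (PMF.pure d) (potts lam h) N) g w) {F : V q → ℝ} (hF : SSub F) {k : ℕ}
    (hk : k ≤ d) :
    Phi F (powF (fun a => G.chan lam (fam (PMF.pure d) (potts lam h) n a)) k) ≤
      ∑ i, w i * F (g i) := by
  have hq0 := q_pos hq
  have hc := (NFam.fam (PMF.pure d) h n).chan hq h
  have h1 := dom_powF_le hc hk F hF.toSub
  have e : fam (PMF.pure d) (potts lam h) (n + 1) =
      powF (fun a => G.chan lam (fam (PMF.pure d) (potts lam h) n a)) d := by
    rw [G.fam_succ]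
    exact mix_pure d _
  rw [← e] at h1
  have h2 := Bd.mono hq (show N ≤ n + 1 by omega) hB F hF
  unfold Phi at h2 ⊢
  exact (mul_le_mul_of_nonneg_left h1 (by positivity)).trans h2

/-- the same for one message -/
theorem Bd.Phi_one (hq : 2 ≤ q) {d : ℕ} {lam : ℝ} {h : 0 ≤ 1 + ((q : ℝ) - 1) * lam ∧ lam ≤ 1}
    {ι : Type*} [Fintype ι] {n N : ℕ} (hn : N ≤ n) {g : ι → V q} {w : ι → ℝ}
    (hB : Bd (fam (PMF.pure d) (potts lam h) N) g w) {F : V q → ℝ} (hF : SSub F) {C : ℝ}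
    (bF : Bdd F C) :
    Phi F (powF (fun a => G.chan lam (fam (PMF.pure d) (potts lam h) n a)) 1) ≤
      ∑ i, w i * F (G.chan lam (g i)) := by
  have hc := (NFam.fam (PMF.pure d) h n).chan hq h
  rw [hc.Phi_powF_one bF]
  exact (Bd.chan hq (Bd.mono hq hn hB) h) F hF

/-- the same for `k` messages, from a bound for the law of `k` messages at one level -/
theorem Bd.Phi_pow' (hq : 2 ≤ q) {d : ℕ} {lam : ℝ} {h : 0 ≤ 1 + ((q : ℝ) - 1) * lam ∧ lam ≤ 1}
    {ι : Type*} [Fintype ι] {n N : ℕ} (hn : N ≤ n) {g : ι → V q} {w : ι → ℝ} {k : ℕ}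
    (hB : Bd (powF (fun a => G.chan lam (fam (PMF.pure d) (potts lam h) N a)) k) g w)
    {F : V q → ℝ} (hF : SSub F) :
    Phi F (powF (fun a => G.chan lam (fam (PMF.pure d) (potts lam h) n a)) k) ≤
      ∑ i, w i * F (g i) := by
  have c1 := (NFam.fam (PMF.pure d) h n).chan hq h
  have c2 := (NFam.fam (PMF.pure d) h N).chan hq h
  exact Bd.of_dom hq (Dom.pow c1 c2 ((fam_anti_le hq d h hn).chan hq h) k) hB F hF

end Vale.Agent.P154.G
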