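import Vale.Agent.P154.GBd4

/-! deeper observations carry less information -/

namespace Vale.Agent.P154.G

open scoped ENNReal NNReal
open Filter Topology

variable {A B D : Type*} {q : ℕ}

/-- the observation of the root itself dominates every symmetric family -/
theorem dom_zero (ξ : PMF ℕ) {lam : ℝ} (h : 0 ≤ 1 + ((q : ℝ) - 1) * lam ∧ lam ≤ 1)
    {m : A → V q} (hm : NFam m) : Dom m (fam ξ (potts lam h) 0) := by
  intro F hF
  have hN := NFam.fam ξ h 0
  have e : ∀ i : Fin q, fam ξ (potts lam h) 0 i = fun j => if i = j then 1 else 0 :=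
    fun i => fam_zero ξ _ i
  have hnn : ∀ i : Fin q, ∀ j : Fin q, 0 ≤ (if i = j then (1 : ℝ) else 0) := fun i j => by
    split_ifs <;> norm_num
  have h1 : ∀ a, F (m a) ≤ ∑ i, m a i * F (fun j => if i = j then 1 else 0) := by
    intro a
    have h2 := hF.finsum Finset.univ (fun i j => m a i * (if i = j then (1 : ℝ) else 0))
      (fun i j => mul_nonneg (hm.nn a i) (hnn i j))
    have e2 : (fun j => ∑ i, m a i * (if i = j then (1 : ℝ) else 0)) = m a := by
      funext j
      simp
    rw [e2] at h2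
    refine h2.trans (le_of_eq (Finset.sum_congr rfl fun i _ => ?_))
    exact hF.smul (m a i) (hm.nn a i) _ (hnn i)
  have h3 : HasSum (fun a => ∑ i, m a i * F (fun j => if i = j then 1 else 0))
      (∑ i, 1 * F (fun j => if i = j then 1 else 0)) :=
    hasSum_sum fun i _ => (hm.sum i).mul_right _
  have h4 := hasSum_le h1 (hF.smb hm).hasSum h3
  refine h4.trans (le_of_eq ?_)
  have e3 : ∑' a : Fin q, F (fam ξ (potts lam h) 0 a) =
      ∑ i, 1 * F (fun j => if i = j then 1 else 0) := by
    rw [tsum_fintype]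
    refine Finset.sum_congr rfl fun i _ => ?_
    rw [e i, one_mul]
  exact e3.symm

/-- deeper observations are degradations -/
theorem fam_anti (hq : 2 ≤ q) (d : ℕ) {lam : ℝ} (h : 0 ≤ 1 + ((q : ℝ) - 1) * lam ∧ lam ≤ 1)
    (n : ℕ) : Dom (fam (PMF.pure d) (potts lam h) (n + 1)) (fam (PMF.pure d) (potts lam h) n) := by
  induction n with
  | zero => exact dom_zero _ h (NFam.fam _ h 1)
  | succ n ih =>
    intro F hF
    have c' := (NFam.fam (PMF.pure d) h (n + 1)).chan hq h
    have c := (NFam.fam (PMF.pure d) h n).chan hq h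
    have e1 : ∑' a, F (fam (PMF.pure d) (potts lam h) (n + 1 + 1) a) =
        ∑' l, F (powF (fun a => chan lam (fam (PMF.pure d) (potts lam h) (n + 1) a)) d l) := by
      rw [fam_succ _ _ (n + 1)]
      exact tsum_mix_pure hF d c'
    have e2 : ∑' a, F (fam (PMF.pure d) (potts lam h) (n + 1) a) =
        ∑' l, F (powF (fun a => chan lam (fam (PMF.pure d) (potts lam h) n a)) d l) := by
      rw [fam_succ _ _ n]
      exact tsum_mix_pure hF d c
    rw [e1, e2]
    exact Dom.pow c' c (ih.chan hq h) d F hF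

theorem fam_anti_le (hq : 2 ≤ q) (d : ℕ) {lam : ℝ}
    (h : 0 ≤ 1 + ((q : ℝ) - 1) * lam ∧ lam ≤ 1) {n N : ℕ} (hn : N ≤ n) :
    Dom (fam (PMF.pure d) (potts lam h) n) (fam (PMF.pure d) (potts lam h) N) := by
  induction n, hn using Nat.le_induction with
  | base => exact Dom.refl _
  | succ n _ ih => exact (fam_anti hq d h n).trans ih

/-- bounds persist -/
theorem Bd.mono (hq : 2 ≤ q) {d : ℕ} {lam : ℝ} {h : 0 ≤ 1 + ((q : ℝ) - 1) * lam ∧ lam ≤ 1}
    {ι : Type*} [Fintype ι] {n N : ℕ} (hn : N ≤ n) {g : ι → V q} {w : ι → ℝ}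
    (hB : Bd (fam (PMF.pure d) (potts lam h) N) g w) :
    Bd (fam (PMF.pure d) (potts lam h) n) g w := Bd.of_dom hq (fam_anti_le hq d h hn) hB

end Vale.Agent.P154.G
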