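import Vale.Agent.P154.GBase

/-! reduction to normalised vectors, and the exact product rule for symmetric monomials -/

namespace Vale.Agent.P154.G

variable {q : ℕ}

/-- homogeneity of degree one on nonnegative vectors -/
def Hom1 (F : V q → ℝ) : Prop :=
  ∀ s : ℝ, 0 ≤ s → ∀ c : V q, (∀ i, 0 ≤ c i) → F (fun i => s * c i) = s * F c

lemma Hom1_Rf : Hom1 (Rf (q := q)) := fun s hs c hc => Rf_smul s hs c hc

lemma SS_smul {F : V q → ℝ} (hF : Hom1 F) {s t : ℝ} (hs : 0 ≤ s) (ht : 0 ≤ t) {p r : V q}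
    (hp : ∀ i, 0 ≤ p i) (hr : ∀ i, 0 ≤ r i) :
    SS F (fun i => s * p i) (fun i => t * r i) = s * t * SS F p r := by
  unfold SS
  rw [Finset.mul_sum]
  refine Finset.sum_congr rfl fun π _ => ?_
  have e : (fun i => s * p i * (t * r (π i))) = fun i => (s * t) * (p i * r (π i)) := by
    funext i; ring
  rw [e]
  exact hF _ (mul_nonneg hs ht) _ fun i => mul_nonneg (hp i) (hr _)

lemma SS_mono {F G : V q → ℝ} (h : ∀ c : V q, Pos c → F c ≤ G c) {p r : V q} (hp : Pos p)
    (hr : Pos r) : SS F p r ≤ SS G p r :=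
  Finset.sum_le_sum fun _ _ => h _ fun i => mul_pos (hp i) (hr _)

lemma SS_add (F G : V q → ℝ) (p r : V q) :
    SS (fun c => F c + G c) p r = SS F p r + SS G p r := by
  unfold SS
  rw [← Finset.sum_add_distrib]

lemma SS_mul (a : ℝ) (F : V q → ℝ) (p r : V q) : SS (fun c => a * F c) p r = a * SS F p r := by
  unfold SS
  rw [Finset.mul_sum]

/-- symmetric monomials -/
def mono (μ : Fin q → ℕ) (c : V q) : ℝ := ∑ σ : Equiv.Perm (Fin q), ∏ i, c (σ i) ^ μ i

/-- the exact product rule -/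
theorem SS_monomial (μ : Fin q → ℕ) (p r : V q) : SS (mono μ) p r = mono μ p * mono μ r := by
  unfold SS mono
  rw [Finset.sum_mul_sum, Finset.sum_comm]
  refine Finset.sum_congr rfl fun σ _ => ?_
  rw [← Equiv.sum_comp (Equiv.mulRight σ)
    (fun τ => (∏ i, p (σ i) ^ μ i) * ∏ i, r (τ i) ^ μ i)]
  refine Finset.sum_congr rfl fun π _ => ?_
  rw [← Finset.prod_mul_distrib]
  refine Finset.prod_congr rfl fun i _ => ?_
  rw [mul_pow]
  rfl

lemma scale_pos {p : V q} (hq : 0 < q) (hp : Pos p) : 0 < sg p :=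
  Finset.sum_pos (fun i _ => hp i) ⟨⟨0, hq⟩, Finset.mem_univ _⟩

lemma normal {p : V q} (hq : 0 < q) (hp : Pos p) :
    ∃ P : V q, Pos P ∧ sg P = 1 ∧ (p = fun i => sg p * P i) := by
  have h := scale_pos hq hp
  refine ⟨fun i => (sg p)⁻¹ * p i, fun i => mul_pos (inv_pos.2 h) (hp i), ?_, ?_⟩
  · rw [sg_smul]
    exact inv_mul_cancel₀ h.ne'
  · funext i
    field_simp

theorem pt_prod_of_norm (hq : 0 < q) {F D : V q → ℝ} (hF : Hom1 F) (hD : Hom1 D)
    (h : ∀ p r : V q, Pos p → Pos r → sg p = 1 → sg r = 1 →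
      D r * F p + D p * F r ≤ 1 / ((q - 1).factorial : ℝ) * SS F p r)
    (p r : V q) (hp : Pos p) (hr : Pos r) :
    D r * F p + D p * F r ≤ 1 / ((q - 1).factorial : ℝ) * SS F p r := by
  obtain ⟨P, hP, hP1, eP⟩ := normal hq hp
  obtain ⟨R, hR, hR1, eR⟩ := normal hq hr
  have sp := scale_pos hq hp
  have sr := scale_pos hq hr
  have P0 : ∀ i, 0 ≤ P i := fun i => (hP i).le
  have R0 : ∀ i, 0 ≤ R i := fun i => (hR i).le
  have e1 : F p = sg p * F P := by
    conv_lhs => rw [eP]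
    exact hF _ sp.le _ P0
  have e2 : F r = sg r * F R := by
    conv_lhs => rw [eR]
    exact hF _ sr.le _ R0
  have e3 : D p = sg p * D P := by
    conv_lhs => rw [eP]
    exact hD _ sp.le _ P0
  have e4 : D r = sg r * D R := by
    conv_lhs => rw [eR]
    exact hD _ sr.le _ R0
  have e5 : SS F p r = sg p * sg r * SS F P R := by
    conv_lhs => rw [eP, eR]
    exact SS_smul hF sp.le sr.le P0 R0
  rw [e1, e2, e3, e4, e5]
  have h1 := mul_le_mul_of_nonneg_left (h P R hP hR hP1 hR1) (mul_nonneg sp.le sr.le)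
  calc _ = sg p * sg r * (D R * F P + D P * F R) := by ring
    _ ≤ _ := h1
    _ = _ := by ring

theorem pt_upper_of_norm (hq : 0 < q) {F B : V q → ℝ} (hF : Hom1 F) (hB : Hom1 B) {t : ℝ}
    (h : ∀ p r : V q, Pos p → Pos r → sg p = 1 → sg r = 1 →
      1 / ((q - 1).factorial : ℝ) * SS Rf p r ≤ Rf p + Rf r - (B r * F p + B p * F r) -
        t * (Rf p ^ 2 * Rf r + Rf p * Rf r ^ 2))
    (p r : V q) (hp : Pos p) (hr : Pos r) :
    1 / ((q - 1).factorial : ℝ) * SS Rf p r ≤ Rf p * sg r + sg p * Rf r -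
      (B r * F p + B p * F r) -
      t * (Rf p ^ 2 / sg p * Rf r + Rf p * (Rf r ^ 2 / sg r)) := by
  obtain ⟨P, hP, hP1, eP⟩ := normal hq hp
  obtain ⟨R, hR, hR1, eR⟩ := normal hq hr
  have sp := scale_pos hq hp
  have sr := scale_pos hq hr
  have P0 : ∀ i, 0 ≤ P i := fun i => (hP i).le
  have R0 : ∀ i, 0 ≤ R i := fun i => (hR i).le
  have e1 : F p = sg p * F P := by
    conv_lhs => rw [eP]
    exact hF _ sp.le _ P0
  have e2 : F r = sg r * F R := by
    conv_lhs => rw [eR]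
    exact hF _ sr.le _ R0
  have e3 : B p = sg p * B P := by
    conv_lhs => rw [eP]
    exact hB _ sp.le _ P0
  have e4 : B r = sg r * B R := by
    conv_lhs => rw [eR]
    exact hB _ sr.le _ R0
  have e5 : SS Rf p r = sg p * sg r * SS Rf P R := by
    conv_lhs => rw [eP, eR]
    exact SS_smul Hom1_Rf sp.le sr.le P0 R0
  have e6 : Rf p = sg p * Rf P := by
    conv_lhs => rw [eP]
    exact Rf_smul _ sp.le _ P0
  have e7 : Rf r = sg r * Rf R := by
    conv_lhs => rw [eR]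
    exact Rf_smul _ sr.le _ R0
  rw [e1, e2, e3, e4, e5, e6, e7]
  have h1 := mul_le_mul_of_nonneg_left (h P R hP hR hP1 hR1) (mul_nonneg sp.le sr.le)
  calc _ = sg p * sg r * (1 / ((q - 1).factorial : ℝ) * SS Rf P R) := by ring
    _ ≤ _ := h1
    _ = _ := by
      field_simp

end Vale.Agent.P154.G
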