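import Vale.Agent.P154.Fam
import Vale.Agent.P154.Model

/-! the model in terms of families, and the main theorem -/

namespace Vale.Agent.P154

open scoped ENNReal NNReal
open Filter Topology

/-- the family of likelihood vectors of the observation at depth `n` -/
noncomputable def fam (ξ : PMF ℕ) (W : Fin 3 → PMF (Fin 3)) (n : ℕ) : Obs n → V3 :=
  fun o i => (bcast ξ W n i o).toReal

theorem fam_zero_sum (ξ : PMF ℕ) (W : Fin 3 → PMF (Fin 3)) (n : ℕ) (i : Fin 3) :
    HasSum (fun o => fam ξ W n o i) 1 := by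
  have h1 : ∑' o, bcast ξ W n i o ≠ ∞ := (bcast ξ W n i).tsum_coe_ne_top
  have h2 := ENNReal.hasSum_toReal h1
  have h3 : ∑' o, (bcast ξ W n i o).toReal = 1 := by
    rw [← ENNReal.tsum_toReal_eq (fun o => (bcast ξ W n i).apply_ne_top o), PMF.tsum_coe]
    simp
  rw [h3] at h2
  exact h2

theorem fam_nonneg (ξ : PMF ℕ) (W : Fin 3 → PMF (Fin 3)) (n : ℕ) (o : Obs n) (i : Fin 3) :
    0 ≤ fam ξ W n o i := ENNReal.toReal_nonneg

theorem iid_apply {α : Type} (μ : PMF α) (k : ℕ) (l : List α) :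
    iid μ k l = if l.length = k then (l.map μ).prod else 0 := by
  classical
  induction k generalizing l with
  | zero =>
    cases l with
    | nil => simp [iid]
    | cons a l => simp [iid, PMF.pure_apply]
  | succ k ih =>
    cases l with
    | nil =>
      simp only [iid, PMF.bind_apply, PMF.map_apply]
      simp
    | cons b l =>
      simp only [iid, PMF.bind_apply, PMF.map_apply]
      rw [tsum_eq_single b]
      · rw [tsum_eq_single l]
        · rw [if_pos rfl, ih]
          by_cases h : l.length = k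
          · simp [h]
          · simp [h]
        · intro l' hl'
          rw [if_neg]
          intro h
          exact hl' (List.cons.inj h).2.symm
      · intro a ha
        rw [mul_eq_zero]
        right
        rw [ENNReal.tsum_eq_zero]
        intro l'
        rw [if_neg]
        intro h
        exact ha (List.cons.inj h).1.symm

theorem powF_eq {A : Type*} (m : A → V3) (l : List A) (i : Fin 3) :
    powF m l.length l i = (l.map (fun a => m a i)).prod := by
  induction l with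
  | nil => simp [powF]
  | cons a l ih => simp [powF, ih]

theorem toReal_prod_map {α : Type} (f : α → ℝ≥0∞) (l : List α) :
    (l.map f).prod.toReal = (l.map (fun a => (f a).toReal)).prod := by
  induction l with
  | nil => simp
  | cons a l ih => simp [ENNReal.toReal_mul, ih]

theorem chan_fam (ξ : PMF ℕ) {lam : ℝ} (h : -1 / 2 ≤ lam ∧ lam ≤ 1) (n : ℕ) (i : Fin 3)
    (o : Obs n) :
    (((potts lam h i).bind (bcast ξ (potts lam h) n)) o).toReal =
      chan lam (fam ξ (potts lam h) n o) i := by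
  rw [PMF.bind_apply, tsum_fintype, Fin.sum_univ_three]
  have hne : ∀ j, potts lam h i j * bcast ξ (potts lam h) n j o ≠ ∞ := fun j =>
    ENNReal.mul_ne_top ((potts lam h i).apply_ne_top j) ((bcast ξ (potts lam h) n j).apply_ne_top o)
  rw [ENNReal.toReal_add (ENNReal.add_ne_top.2 ⟨hne 0, hne 1⟩) (hne 2),
    ENNReal.toReal_add (hne 0) (hne 1)]
  simp only [ENNReal.toReal_mul]
  have hp : ∀ j, (potts lam h i j).toReal = lam * (if i = j then 1 else 0) + (1 - lam) / 3 := by
    intro j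
    unfold potts
    rw [PMF.ofFintype_apply, ENNReal.toReal_ofReal]
    split_ifs <;> linarith [h.1, h.2]
  rw [hp, hp, hp]
  unfold chan sg fam
  fin_cases i <;> simp <;> ring

theorem fam_succ (ξ : PMF ℕ) {lam : ℝ} (h : -1 / 2 ≤ lam ∧ lam ≤ 1) (n : ℕ) :
    fam ξ (potts lam h) (n + 1) =
      mixF (fun k => (ξ k).toReal) (fun o => chan lam (fam ξ (potts lam h) n o)) := by
  funext (l : List (Obs n)) i
  show ((ξ.bind fun k => iid ((potts lam h i).bind (bcast ξ (potts lam h) n)) k) l).toReal = _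
  rw [PMF.bind_apply, tsum_eq_single l.length]
  · rw [iid_apply, if_pos rfl, ENNReal.toReal_mul, toReal_prod_map]
    unfold mixF
    rw [powF_eq]
    congr 2
    congr 1
    funext o
    exact chan_fam ξ h n i o
  · intro k hk
    rw [iid_apply, if_neg (Ne.symm hk), mul_zero]

theorem fam_symm (ξ : PMF ℕ) {lam : ℝ} (h : -1 / 2 ≤ lam ∧ lam ≤ 1) (n : ℕ)
    (π : Equiv.Perm (Fin 3)) :
    ∃ e : Obs n ≃ Obs n, ∀ o i, fam ξ (potts lam h) n (e o) (π i) = fam ξ (potts lam h) n o i := by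
  classical
  induction n with
  | zero =>
    have key : ∀ (o : Fin 3) (i : Fin 3), (PMF.pure (π i) (π o)).toReal = (PMF.pure i o).toReal := by
      intro o i
      rw [PMF.pure_apply, PMF.pure_apply]
      by_cases hoi : o = i
      · rw [if_pos (congrArg π hoi), if_pos hoi]
      · rw [if_neg (fun hh => hoi (π.injective hh)), if_neg hoi]
    exact ⟨π, fun o i => key o i⟩
  | succ n ih =>
    obtain ⟨e, he⟩ := ih
    have key : ∀ (l : List (Obs n)) (i : Fin 3),
        mixF (fun k => (ξ k).toReal) (fun o => chan lam (fam ξ (potts lam h) n o))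
          (List.map e l) (π i) =
        mixF (fun k => (ξ k).toReal) (fun o => chan lam (fam ξ (potts lam h) n o)) l i := by
      intro l i
      unfold mixF
      rw [powF_eq, powF_eq, List.length_map, List.map_map]
      congr 2
      apply List.map_congr_left
      intro o _
      show chan lam (fam ξ (potts lam h) n (e o)) (π i) = chan lam (fam ξ (potts lam h) n o) i
      have hs : sg (fam ξ (potts lam h) n (e o)) = sg (fam ξ (potts lam h) n o) := by
        have h1 : ∀ c : V3, sg c = ∑ i, c i := fun c => by rw [Fin.sum_univ_three]; rfl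
        rw [h1, h1, ← Equiv.sum_comp π]
        exact Finset.sum_congr rfl fun i _ => he o i
      unfold chan
      rw [he, hs]
    refine ⟨Equiv.listEquivOfEquiv e, fun l i => ?_⟩
    rw [fam_succ]
    exact key l i

theorem fam_zero (ξ : PMF ℕ) (W : Fin 3 → PMF (Fin 3)) (o : Fin 3) :
    fam ξ W 0 o = fun i => if o = i then 1 else 0 := by
  funext i
  show (PMF.pure i o).toReal = _
  classical
  rw [PMF.pure_apply]
  split_ifs <;> simp

theorem X_fam_zero (ξ : PMF ℕ) (W : Fin 3 → PMF (Fin 3)) : X (fam ξ W 0) = 1 := by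
  show 1 / 3 * ∑' a : Fin 3, Rf (fam ξ W 0 a) = 1
  rw [tsum_fintype, Fin.sum_univ_three, fam_zero, fam_zero, fam_zero]
  simp [Rf, sg]
  norm_num

theorem Phi_fam_zero (ξ : PMF ℕ) (W : Fin 3 → PMF (Fin 3)) : 0 ≤ Phi (fam ξ W 0) := by
  show 0 ≤ 1 / 3 * ∑' a : Fin 3, Ff (fam ξ W 0 a)
  rw [tsum_fintype, Fin.sum_univ_three, fam_zero, fam_zero, fam_zero]
  simp [Ff, Sf, sg, gm]
  norm_num

/-- pointwise bound for the distance of the posterior from uniform -/
theorem half_abs_le {c : V3} (hc : ∀ i, 0 ≤ c i) {ε : ℝ} (hε : 0 < ε) :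
    1 / 3 * sg c * (1 / 2 * ∑ i, |1 / 3 * c i / (1 / 3 * sg c) - 1 / 3|) ≤
      1 / 3 * sg c * ε + 1 / 3 * Rf c / (4 * ε) := by
  have hs0 : 0 ≤ sg c := by unfold sg; linarith [hc 0, hc 1, hc 2]
  rcases hs0.eq_or_lt with hs | hs
  · have h0 : c 0 = 0 := by unfold sg at hs; linarith [hc 0, hc 1, hc 2]
    have h1 : c 1 = 0 := by unfold sg at hs; linarith [hc 0, hc 1, hc 2]
    have h2 : c 2 = 0 := by unfold sg at hs; linarith [hc 0, hc 1, hc 2]
    rw [← hs]
    unfold Rf
    rw [h0, h1, h2]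
    simp
  · set P : Fin 3 → ℝ := fun i => c i / sg c - 1 / 3 with hP
    have e1 : ∀ i, 1 / 3 * c i / (1 / 3 * sg c) - 1 / 3 = P i := by
      intro i
      rw [hP]
      field_simp
    simp_rw [e1]
    set a : ℝ := 1 / 2 * ∑ i, |P i| with ha
    have ha0 : 0 ≤ a := by positivity
    have hsum : P 0 + P 1 + P 2 = 0 := by
      simp only [hP]
      have : c 0 / sg c + c 1 / sg c + c 2 / sg c = 1 := by
        rw [← add_div, ← add_div]
        exact div_self hs.ne'
      linarith
    have hR : Rf c = sg c * (3 / 2 * (P 0 ^ 2 + P 1 ^ 2 + P 2 ^ 2)) := by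
      have h0 : c 0 = sg c * (P 0 + 1 / 3) := by simp only [hP]; field_simp; ring
      have h1 : c 1 = sg c * (P 1 + 1 / 3) := by simp only [hP]; field_simp; ring
      have h2 : c 2 = sg c * (P 2 + 1 / 3) := by simp only [hP]; field_simp; ring
      unfold Rf
      rw [div_eq_iff hs.ne']
      set S := sg c with hS
      have h3 : P 2 = - P 0 - P 1 := by linarith
      rw [h0, h1, h2, h3]
      ring
    have ha2 : a ^ 2 ≤ 1 / 2 * (3 / 2 * (P 0 ^ 2 + P 1 ^ 2 + P 2 ^ 2)) := by
      rw [ha, Fin.sum_univ_three]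
      have h0 := sq_abs (P 0)
      have h1 := sq_abs (P 1)
      have h2 := sq_abs (P 2)
      nlinarith [sq_nonneg (|P 0| - |P 1|), sq_nonneg (|P 1| - |P 2|), sq_nonneg (|P 0| - |P 2|)]
    have hfin : a ≤ ε + (3 / 2 * (P 0 ^ 2 + P 1 ^ 2 + P 2 ^ 2)) / (4 * ε) := by
      have h5 : 0 ≤ P 0 ^ 2 + P 1 ^ 2 + P 2 ^ 2 := by positivity
      have h4 : a ^ 2 ≤ 3 / 2 * (P 0 ^ 2 + P 1 ^ 2 + P 2 ^ 2) := by linarith
      rw [← sub_nonneg]
      have e2 : ε + (3 / 2 * (P 0 ^ 2 + P 1 ^ 2 + P 2 ^ 2)) / (4 * ε) - a =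
        (4 * ε ^ 2 + 3 / 2 * (P 0 ^ 2 + P 1 ^ 2 + P 2 ^ 2) - 4 * ε * a) / (4 * ε) := by
        field_simp
      rw [e2]
      apply div_nonneg _ (by positivity)
      nlinarith [sq_nonneg (2 * ε - a)]
    rw [hR]
    calc 1 / 3 * sg c * a ≤ 1 / 3 * sg c *
          (ε + (3 / 2 * (P 0 ^ 2 + P 1 ^ 2 + P 2 ^ 2)) / (4 * ε)) :=
          mul_le_mul_of_nonneg_left hfin (by positivity)
      _ = _ := by ring

theorem an_le (ξ : PMF ℕ) (W : Fin 3 → PMF (Fin 3)) (n : ℕ) {ε : ℝ} (hε : 0 < ε) :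
    an ξ W n ≤ ε + X (fam ξ W n) / (4 * ε) := by
  have hsum : ∀ i, HasSum (fun o => fam ξ W n o i) 1 := fam_zero_sum ξ W n
  have hsg : HasSum (fun o => sg (fam ξ W n o)) 3 := by
    have := ((hsum 0).add (hsum 1)).add (hsum 2)
    norm_num at this
    exact this
  have hRs : Summable (fun o => Rf (fam ξ W n o)) :=
    Summable.of_nonneg_of_le (fun o => Rf_nonneg (fam_nonneg ξ W n o))
      (fun o => Rf_le (fam_nonneg ξ W n o)) hsg.summable
  have h1 : HasSum (fun o => 1 / 3 * sg (fam ξ W n o) * ε + 1 / 3 * Rf (fam ξ W n o) / (4 * ε))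
      (1 / 3 * 3 * ε + 1 / 3 * (∑' o, Rf (fam ξ W n o)) / (4 * ε)) :=
    ((hsg.mul_left (1 / 3)).mul_right ε).add (((hRs.hasSum).mul_left (1 / 3)).div_const (4 * ε))
  have h2 : ∀ o, marg ξ W n o * (1 / 2 * ∑ i, |post ξ W n i o - 1 / 3|) =
      1 / 3 * sg (fam ξ W n o) * (1 / 2 * ∑ i, |1 / 3 * fam ξ W n o i / (1 / 3 * sg (fam ξ W n o)) - 1 / 3|) := by
    intro o
    have hm : marg ξ W n o = 1 / 3 * sg (fam ξ W n o) := by
      unfold marg joint sg fam
      rw [Fin.sum_univ_three]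
      ring
    unfold post
    rw [hm]
    rfl
  have h3 : ∀ o, 0 ≤ marg ξ W n o * (1 / 2 * ∑ i, |post ξ W n i o - 1 / 3|) := by
    intro o
    have hm : marg ξ W n o = 1 / 3 * sg (fam ξ W n o) := by
      unfold marg joint sg fam
      rw [Fin.sum_univ_three]
      ring
    rw [hm]
    have : 0 ≤ sg (fam ξ W n o) := by
      unfold sg; linarith [fam_nonneg ξ W n o 0, fam_nonneg ξ W n o 1, fam_nonneg ξ W n o 2]
    positivity
  have h4 : ∀ o, marg ξ W n o * (1 / 2 * ∑ i, |post ξ W n i o - 1 / 3|) ≤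
      1 / 3 * sg (fam ξ W n o) * ε + 1 / 3 * Rf (fam ξ W n o) / (4 * ε) := by
    intro o
    rw [h2]
    exact half_abs_le (fam_nonneg ξ W n o) hε
  unfold an
  have h5 : Summable (fun o => marg ξ W n o * (1 / 2 * ∑ i, |post ξ W n i o - 1 / 3|)) :=
    Summable.of_nonneg_of_le h3 h4 h1.summable
  calc _ ≤ ∑' o, (1 / 3 * sg (fam ξ W n o) * ε + 1 / 3 * Rf (fam ξ W n o) / (4 * ε)) :=
        h5.tsum_le_tsum h4 h1.summable
    _ = 1 / 3 * 3 * ε + 1 / 3 * (∑' o, Rf (fam ξ W n o)) / (4 * ε) := h1.tsum_eq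
    _ = _ := by unfold X; ring

theorem an_nonneg (ξ : PMF ℕ) (W : Fin 3 → PMF (Fin 3)) (n : ℕ) : 0 ≤ an ξ W n := by
  unfold an
  refine tsum_nonneg fun o => ?_
  have hm : marg ξ W n o = 1 / 3 * sg (fam ξ W n o) := by
    unfold marg joint sg fam
    rw [Fin.sum_univ_three]
    ring
  rw [hm]
  have : 0 ≤ sg (fam ξ W n o) := by
    unfold sg; linarith [fam_nonneg ξ W n o 0, fam_nonneg ξ W n o 1, fam_nonneg ξ W n o 2]
  positivity

/-- a nonnegative sequence with `x (n+1) ≤ x n - c (x n)^2` tends to `0` -/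
theorem tendsto_zero_of_rec {x : ℕ → ℝ} {c : ℝ} (hc : 0 < c) (h0 : ∀ n, 0 ≤ x n)
    (h : ∀ n, x (n + 1) ≤ x n - c * x n ^ 2) : Tendsto x atTop (𝓝 0) := by
  have hanti : Antitone x := antitone_nat_of_succ_le fun n => by
    have := h n
    have h2 : 0 ≤ c * x n ^ 2 := by positivity
    linarith
  have hbdd : BddBelow (Set.range x) := ⟨0, by rintro _ ⟨n, rfl⟩; exact h0 n⟩
  have hlim := tendsto_atTop_ciInf hanti hbdd
  set L := ⨅ n, x n with hL
  have hL0 : 0 ≤ L := le_ciInf h0
  have hlim1 : Tendsto (fun n => x (n + 1)) atTop (𝓝 L) := hlim.comp (tendsto_add_atTop_nat 1)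
  have hlim2 : Tendsto (fun n => x n - c * x n ^ 2) atTop (𝓝 (L - c * L ^ 2)) :=
    hlim.sub ((hlim.pow 2).const_mul c)
  have h3 := le_of_tendsto_of_tendsto' hlim1 hlim2 h
  have h4 : L ^ 2 ≤ 0 := by
    have : c * L ^ 2 ≤ 0 := by linarith
    by_contra hcon
    have := mul_pos hc (not_le.1 hcon)
    linarith
  have h5 : L = 0 := by
    have := le_antisymm h4 (sq_nonneg L)
    exact pow_eq_zero_iff (two_ne_zero) |>.1 this
  rw [h5] at hlim
  exact hlim

/-- if `X → 0` then `a_n → 0` -/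
theorem an_tendsto_of_X (ξ : PMF ℕ) (W : Fin 3 → PMF (Fin 3))
    (hX : Tendsto (fun n => X (fam ξ W n)) atTop (𝓝 0)) :
    Tendsto (fun n => an ξ W n) atTop (𝓝 0) := by
  rw [Metric.tendsto_atTop]
  intro ε hε
  have h1 : Tendsto (fun n => ε / 2 + X (fam ξ W n) / (4 * (ε / 2))) atTop
      (𝓝 (ε / 2 + 0 / (4 * (ε / 2)))) := (hX.div_const _).const_add _
  rw [zero_div, add_zero] at h1
  have h2 : ∀ᶠ n in atTop, ε / 2 + X (fam ξ W n) / (4 * (ε / 2)) < ε :=
    h1.eventually (gt_mem_nhds (by linarith))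
  obtain ⟨N, hN⟩ := eventually_atTop.1 h2
  refine ⟨N, fun n hn => ?_⟩
  rw [Real.dist_eq, sub_zero, abs_of_nonneg (an_nonneg ξ W n)]
  exact lt_of_le_of_lt (an_le ξ W n (by linarith)) (hN n hn)

/-- general offspring law -/
theorem nonreconstruction (ξ : PMF ℕ) {lam : ℝ} (h0 : 0 ≤ lam) (h1 : lam < 1) {μ : ℝ}
    (hμ : HasSum (fun k => (ξ k).toReal * k) μ) (hle : μ * lam ^ 2 ≤ 1)
    (h : -1 / 2 ≤ lam ∧ lam ≤ 1) :
    Tendsto (fun n => an ξ (potts lam h) n) atTop (𝓝 0) := by
  apply an_tendsto_of_X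
  set W := potts lam h with hW
  set w : ℕ → ℝ := fun k => (ξ k).toReal with hw
  have hw0 : ∀ k, 0 ≤ w k := fun k => ENNReal.toReal_nonneg
  have hw1 : HasSum w 1 := by
    have h1 : ∑' k, ξ k ≠ ∞ := ξ.tsum_coe_ne_top
    have h2 := ENNReal.hasSum_toReal h1
    have h3 : ∑' k, (ξ k).toReal = 1 := by
      rw [← ENNReal.tsum_toReal_eq (fun o => ξ.apply_ne_top o), PMF.tsum_coe]
      simp
    rw [h3] at h2
    exact h2
  have hch : ∀ n, Fam (fun o => chan lam (fam ξ W n o)) := fun n =>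
    Fam.chan (fam_nonneg ξ W n) (fam_zero_sum ξ W n) (fun π => fam_symm ξ h n π) h0 h1
  have hPhi : ∀ n, 0 ≤ Phi (fam ξ W n) := by
    intro n
    induction n with
    | zero => exact Phi_fam_zero ξ W
    | succ n ih =>
      rw [hW, fam_succ]
      exact Phi_mix hw0 hw1 (hch n)
        (Phi_chan (fam_nonneg ξ W n) (fam_zero_sum ξ W n) h0 h1.le ih)
  have hPc : ∀ n, 0 ≤ Phi (fun o => chan lam (fam ξ W n o)) := fun n =>
    Phi_chan (fam_nonneg ξ W n) (fam_zero_sum ξ W n) h0 h1.le (hPhi n)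
  have hμ0 : 0 ≤ μ := hμ.nonneg fun k => mul_nonneg (hw0 k) (Nat.cast_nonneg k)
  have hrec : ∀ n, X (fam ξ W (n + 1)) ≤ μ * (lam ^ 2 * X (fam ξ W n)) -
      (1 - w 0 - w 1) * (lam ^ 2 * X (fam ξ W n)) ^ 2 / 100 := by
    intro n
    have h2 := X_mix hw0 hw1 hμ (hch n) (hPc n)
    rw [X_chan] at h2
    rw [hW, fam_succ, ← hW]
    exact h2
  have hX0 : ∀ n, 0 ≤ X (fam ξ W n) := by
    intro n
    unfold X
    have : 0 ≤ ∑' o, Rf (fam ξ W n o) := tsum_nonneg fun o => Rf_nonneg (fam_nonneg ξ W n o)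
    positivity
  have hw01 : w 0 + w 1 ≤ 1 := by
    have := sum_le_hasSum {0, 1} (fun k _ => hw0 k) hw1
    rwa [Finset.sum_pair (by norm_num)] at this
  rcases h0.eq_or_lt with hl | hl
  · -- `lam = 0`
    have hz : ∀ n, X (fam ξ W (n + 1)) = 0 := by
      intro n
      have h2 := hrec n
      rw [← hl] at h2
      have h3 : X (fam ξ W (n + 1)) ≤ 0 := by
        refine le_trans h2 (le_of_eq ?_)
        ring
      exact le_antisymm h3 (hX0 _)
    rw [← tendsto_add_atTop_iff_nat 1]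
    simp only [hz]
    exact tendsto_const_nhds
  · rcases (sub_nonneg.2 hw01).eq_or_lt with hp | hp
    · -- at most one child
      have hwk : ∀ k, 2 ≤ k → w k = 0 := by
        intro k hk
        have h2 := sum_le_hasSum {0, 1, k} (fun k _ => hw0 k) hw1
        have h3 : ∑ j ∈ ({0, 1, k} : Finset ℕ), w j = w 0 + w 1 + w k := by
          rw [Finset.sum_insert, Finset.sum_insert, Finset.sum_singleton]
          · ring
          · simp; omega
          · simp; omega
        rw [h3] at h2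
        have := hw0 k
        linarith
      have hμ1 : μ ≤ 1 := by
        have h2 : HasSum (fun k => w k * k) (w 1 * (1 : ℕ)) := by
          apply hasSum_single
          intro k hk
          rcases Nat.lt_or_ge k 2 with h3 | h3
          · have : k = 0 := by omega
            rw [this]; simp
          · rw [hwk k h3, zero_mul]
        have h3 := hμ.unique h2
        have h4 := hw0 0
        rw [h3]
        push_cast
        linarith
      have hle2 : ∀ n, X (fam ξ W n) ≤ (lam ^ 2) ^ n := by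
        intro n
        induction n with
        | zero => rw [X_fam_zero]; simp
        | succ n ih =>
          have h2 := hrec n
          have h3 : (1 - w 0 - w 1) = 0 := by linarith
          rw [h3] at h2
          have h4 : X (fam ξ W (n + 1)) ≤ μ * (lam ^ 2 * X (fam ξ W n)) := by linarith
          refine le_trans h4 ?_
          have h5 : lam ^ 2 * X (fam ξ W n) ≤ lam ^ 2 * (lam ^ 2) ^ n :=
            mul_le_mul_of_nonneg_left ih (sq_nonneg _)
          have h6 : 0 ≤ lam ^ 2 * X (fam ξ W n) := mul_nonneg (sq_nonneg _) (hX0 n)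
          calc μ * (lam ^ 2 * X (fam ξ W n)) ≤ 1 * (lam ^ 2 * X (fam ξ W n)) :=
                mul_le_mul_of_nonneg_right hμ1 h6
            _ ≤ lam ^ 2 * (lam ^ 2) ^ n := by linarith
            _ = (lam ^ 2) ^ (n + 1) := by ring
      have hl2 : lam ^ 2 < 1 := by nlinarith
      exact squeeze_zero hX0 hle2 (tendsto_pow_atTop_nhds_zero_of_lt_one (sq_nonneg _) hl2)
    · -- the main case
      have hp' : 0 < 1 - w 0 - w 1 := by linarith
      refine tendsto_zero_of_rec (c := (1 - w 0 - w 1) * lam ^ 4 / 100) (by positivity) hX0 ?_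
      intro n
      have h2 := hrec n
      have h3 : μ * (lam ^ 2 * X (fam ξ W n)) ≤ X (fam ξ W n) := by
        calc _ = μ * lam ^ 2 * X (fam ξ W n) := by ring
          _ ≤ 1 * X (fam ξ W n) := mul_le_mul_of_nonneg_right hle (hX0 n)
          _ = _ := one_mul _
      have h4 : (1 - w 0 - w 1) * (lam ^ 2 * X (fam ξ W n)) ^ 2 / 100 =
          (1 - w 0 - w 1) * lam ^ 4 / 100 * X (fam ξ W n) ^ 2 := by ring
      linarith

end Vale.Agent.P154
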