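import Vale.Agent.P154.N3M4
import Vale.Agent.P154.N3BR
import Vale.Agent.P154.N3BG
import Vale.Agent.P154.N3BP
import Vale.Agent.P154.N3BM
import Vale.Agent.P154.N3BL

/-! P154, three states: the five bilinear inequalities at eigenvalue -1/2 -/

namespace Vale.Agent.P154N

open Vale.Agent.P154.G

lemma matBR_eq : matBR = MR := by
  funext j k
  fin_cases j <;> fin_cases k <;> norm_num [matBR, MR]

lemma matBG_eq : matBG = MG := by
  funext j k
  fin_cases j <;> fin_cases k <;> norm_num [matBG, MG]

lemma matBP_eq : matBP = MP := by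
  funext j k
  fin_cases j <;> fin_cases k <;> norm_num [matBP, MP]

lemma matBM_eq : matBM = MM := by
  funext j k
  fin_cases j <;> fin_cases k <;> norm_num [matBM, MM]

lemma matBL_eq : matBL = ML := by
  funext j k
  fin_cases j <;> fin_cases k <;> norm_num [matBL, ML]

theorem biR : BilIneq 1 1 MR := matBR_eq ▸ bilBR
theorem biG : BilIneq 1 2 MG := matBG_eq ▸ bilBG
theorem biP : BilIneq 1 3 MP := matBP_eq ▸ bilBP
theorem biM : BilIneq (-1) 3 MM := matBM_eq ▸ bilBM
theorem biL : BilIneq (-1) 1 ML := matBL_eq ▸ bilBL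

end Vale.Agent.P154N
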