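import Vale.Agent.P154.N3Bil

/-! P154: range of the masses at eigenvalue -1/2 -/

namespace Vale.Agent.P154N
open Vale.Agent.P154.G

lemma msg_range {p r : V 3} (hp : ∀ i, 0 ≤ p i) (hr : ∀ i, 0 ≤ r i) (hp1 : sg p = 1)
    (hr1 : sg r = 1) (π : Equiv.Perm (Fin 3)) :
    0 ≤ 3 * ∑ i, chan (-(1 / 2)) r i * p (π i) ∧
      3 * ∑ i, chan (-(1 / 2)) r i * p (π i) ≤ 3 / 2 := by
  have hv : ∀ i, 0 ≤ chan (-(1 / 2)) r i := chan_nn3 (by norm_num) (by norm_num) hr
  have hmax : ∀ i, chan (-(1 / 2)) r i ≤ 1 / 2 := by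
    intro i
    unfold chan
    rw [hr1]
    have := hr i
    push_cast
    linarith
  have e1 : ∑ i, p (π i) = 1 := by
    have : ∑ i, p (π i) = sg p := Equiv.sum_comp π p
    rw [this, hp1]
  constructor
  · exact mul_nonneg (by norm_num) (Finset.sum_nonneg fun i _ => mul_nonneg (hv i) (hp _))
  · have h : ∑ i, chan (-(1 / 2)) r i * p (π i) ≤ ∑ i, 1 / 2 * p (π i) :=
      Finset.sum_le_sum fun i _ => mul_le_mul_of_nonneg_right (hmax i) (hp _)
    rw [← Finset.mul_sum, e1] at h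
    linarith

end Vale.Agent.P154N
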