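import Vale.Agent.P154.N3Loc

/-! P154, three states, regular trees: bilinear inequalities for `E r`, `E r²`, `E s` and the
recursion they give -/

namespace Vale.Agent.P154.G

open Filter Topology

variable {A B : Type*} {q : ℕ}

/-- attaching one more subtree: general bilinear form -/
theorem bil_prod (hq : 2 ≤ q) {J : Type*} [Fintype J] {F : V q → ℝ} {CF : ℝ} (bF : Bdd F CF)
    {a b : J → V q → ℝ} {C : ℝ} (ba : ∀ j, Bdd (a j) C) (bb : ∀ j, Bdd (b j) C) {c : ℝ}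
    (hc : 0 ≤ 1 + ((q : ℝ) - 1) * c ∧ c ≤ 1)
    (hle : ∀ p r : V q, (∀ i, 0 ≤ p i) → (∀ i, 0 ≤ r i) →
      1 / ((q - 1).factorial : ℝ) * SS F (chan c r) p ≤ ∑ j, b j (chan c r) * a j p)
    {u : A → V q} {m' : B → V q} (hu : NFam u) (hm' : NFam m') :
    Phi F (prodF (fun x => chan c (u x)) m') ≤
      ∑ j, Phi (b j) (fun x => chan c (u x)) * Phi (a j) m' := by
  have hq0 := q_pos hq
  have hv := hu.chan hq hc
  have s1 := (tsum_SS' bF hv hm').mul_left (1 / ((q - 1).factorial : ℝ))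
  have t4 := hasSum_sum (s := (Finset.univ : Finset J))
    fun j _ => hasSum_FG' (bb j) (ba j) hv hm'
  have h1 := hasSum_le (f := fun x : A × B =>
      1 / ((q - 1).factorial : ℝ) * SS F (chan c (u x.1)) (m' x.2))
    (g := fun x : A × B => ∑ j, b j (chan c (u x.1)) * a j (m' x.2))
    (fun x => hle _ _ (hm'.nn x.2) (hu.nn x.1)) s1 t4
  rw [fact_div hq] at h1
  unfold Phi
  have e1 : (1 : ℝ) / q * ∑' x, F (prodF (fun x => chan c (u x)) m' x) =
      1 / q ^ 2 * (q * ∑' x, F (prodF (fun x => chan c (u x)) m' x)) := by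
    field_simp
  have e2 : ∑ j, 1 / (q : ℝ) * (∑' x, b j (chan c (u x))) * (1 / q * ∑' y, a j (m' y)) =
      1 / q ^ 2 * ∑ j, (∑' x, b j (chan c (u x))) * ∑' y, a j (m' y) := by
    rw [Finset.mul_sum]
    refine Finset.sum_congr rfl fun j _ => ?_
    field_simp
  rw [e1, e2]
  exact mul_le_mul_of_nonneg_left h1 (by positivity)

lemma Phi_sg {q : ℕ} (hq : 2 ≤ q) {m : A → V q} (hm : NFam m) : Phi sg m = 1 := by
  have hq0 := q_pos hq
  unfold Phi
  rw [(sg_hasSum hm.sum).tsum_eq]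
  field_simp

end Vale.Agent.P154.G

namespace Vale.Agent.P154N

open Vale.Agent.P154.G Filter Topology

/-- the functionals `1, r, r², s` -/
noncomputable def fe : Fin 4 → ℝ → ℝ → ℝ :=
  ![fun _ _ => 1, fun a _ => 1 - 3 * a, fun a _ => (1 - 3 * a) ^ 2,
    fun a b => (27 * b - 9 * a + 2) / 2]

/-- their homogeneous forms -/
noncomputable def Fe (i : Fin 4) : V 3 → ℝ := Pf (fe i)

lemma fe_cont (i : Fin 4) : Continuous fun x : ℝ × ℝ => fe i x.1 x.2 := by
  fin_cases i <;> simp only [fe, Fin.mk_one, Fin.zero_eta, Fin.reduceFinMk, Matrix.cons_val_zero,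
    Matrix.cons_val_one, Matrix.cons_val] <;> fun_prop

lemma Fe_bd : ∃ K, 0 ≤ K ∧ ∀ i, Bdd (Fe i) K := by
  obtain ⟨K, hK0, hK⟩ := list_bd [fe 0, fe 1, fe 2, fe 3] (by
    intro f hf
    simp only [List.mem_cons, List.not_mem_nil, or_false] at hf
    rcases hf with h | h | h | h <;> rw [h] <;> exact fe_cont _)
  refine ⟨K, hK0, fun i v hv => Pf_bd (hK (fe i) ?_) v hv⟩
  fin_cases i <;> simp

lemma Fe_one {v : V 3} (h : sg v = 1) (i : Fin 4) : Fe i v = fe i (E2 v) (E3 v) := Pf_one h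

lemma Fe_zero : Fe 0 = sg := by
  funext v
  unfold Fe Pf fe
  simp

lemma Fe_Rf {v : V 3} (hv : ∀ i, 0 ≤ v i) : Fe 1 v = Rf v := by
  rcases norm3 hv with h0 | ⟨w, hw0, hw1, hpos, hw⟩
  · rw [h0, Rf_zero3]; exact Pf_zero _
  · rw [hw, Rf_smul _ hpos.le _ hw0, Rf_one3 hw1]
    have : Fe 1 (fun i => sg v * w i) = sg v * Fe 1 w := Pf_smul _ _ _
    rw [this, Fe_one hw1]
    rfl

lemma Fe_Yf {v : V 3} (hv : ∀ i, 0 ≤ v i) : Fe 2 v = pw 2 v := by
  rcases norm3 hv with h0 | ⟨w, hw0, hw1, hpos, hw⟩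
  · rw [h0]
    have : pw 2 (0 : V 3) = 0 := by unfold pw; simp [sg3]
    rw [this]; exact Pf_zero _
  · rw [hw, pw_smul 2 _ hpos.le _ hw0, pw_one3 2 hw1]
    have : Fe 2 (fun i => sg v * w i) = sg v * Fe 2 w := Pf_smul _ _ _
    rw [this, Fe_one hw1]
    rfl

/-- how the functionals scale under the channel -/
def pwr : Fin 4 → ℕ := ![0, 2, 4, 3]

lemma Fe_chan {τ : ℝ} {v : V 3} (hv : ∀ i, 0 ≤ v i) (i : Fin 4) :
    Fe i (chan τ v) = τ ^ (pwr i) * Fe i v := by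
  rcases norm3 hv with h0 | ⟨w, hw0, hw1, hpos, hw⟩
  · rw [h0]
    have e : chan τ (0 : V 3) = 0 := by
      funext i
      simp [chan, sg3]
    have e2 : Fe i 0 = 0 := Pf_zero _
    rw [e, e2, mul_zero]
  · have e1 : ∀ u : V 3, Fe i (fun j => sg v * u j) = sg v * Fe i u := fun u => Pf_smul _ _ _
    have hs : sg (chan τ w) = 1 := by rw [sg_chan (by norm_num)]; exact hw1
    rw [hw, chan_smul3, e1, e1, Fe_one hw1, Fe_one hs, E2_chan hw1, E3_chan hw1]
    fin_cases i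
    · simp [fe, pwr]
    · simp only [fe, pwr, Fin.mk_one, Matrix.cons_val_one, Matrix.cons_val_zero]
      ring
    · simp only [fe, pwr, Fin.reduceFinMk, Matrix.cons_val]
      ring
    · simp only [fe, pwr, Fin.reduceFinMk, Matrix.cons_val]
      ring

lemma Phi_chan {A : Type*} {m : A → V 3} (hm : NFam m) (τ : ℝ) (i : Fin 4) :
    Phi (Fe i) (fun a => chan τ (m a)) = τ ^ (pwr i) * Phi (Fe i) m := by
  unfold Phi
  have : (fun a => Fe i (chan τ (m a))) = fun a => τ ^ (pwr i) * Fe i (m a) := by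
    funext a
    exact Fe_chan (hm.nn a) i
  rw [this, tsum_mul_left]
  ring

lemma Phi_Fe_X {A : Type*} {m : A → V 3} (hm : NFam m) : Phi (Fe 1) m = X m := by
  have : X m = Phi Rf m := rfl
  rw [this]
  unfold Phi
  congr 1
  exact tsum_congr fun a => Fe_Rf (hm.nn a)

lemma Phi_Fe_Y {A : Type*} {m : A → V 3} (hm : NFam m) : Phi (Fe 2) m = Phi (pw 2) m := by
  unfold Phi
  congr 1
  exact tsum_congr fun a => Fe_Yf (hm.nn a)

/-- a bilinear inequality for messages `chan (-1/2) r` -/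
def BilIneq (σ : ℝ) (i : Fin 4) (M : Fin 4 → Fin 4 → ℝ) : Prop :=
  ∀ p r : V 3, (∀ i, 0 ≤ p i) → (∀ i, 0 ≤ r i) → sg p = 1 → sg r = 1 →
    σ * (1 / 2 * SS (Fe i) (chan (-(1 / 2)) r) p) ≤
      ∑ j, ∑ k, M j k * fe j (E2 p) (E3 p) * fe k (E2 (chan (-(1 / 2)) r))
        (E3 (chan (-(1 / 2)) r))

lemma BilIneq.hom {σ : ℝ} {i : Fin 4} {M : Fin 4 → Fin 4 → ℝ} (H : BilIneq σ i M) {p r : V 3}
    (hp : ∀ i, 0 ≤ p i) (hr : ∀ i, 0 ≤ r i) :
    σ * (1 / 2 * SS (Fe i) (chan (-(1 / 2)) r) p) ≤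
      ∑ j, ∑ k, M j k * Fe j p * Fe k (chan (-(1 / 2)) r) := by
  have F0 : ∀ j, Fe j (0 : V 3) = 0 := fun j => Pf_zero _
  have e0 : chan (-(1 / 2)) (0 : V 3) = 0 := by
    funext i
    simp [chan, sg3]
  rcases norm3 hp with h0 | ⟨P, hP0, hP1, hPp, hP⟩
  · rw [h0, SS_zero_right (Fe i) (F0 i)]
    simp [F0]
  rcases norm3 hr with h0 | ⟨R, hR0, hR1, hRp, hR⟩
  · rw [h0, e0, SS_zero_left (Fe i) (F0 i)]
    simp [F0]
  have h1 := H P R hP0 hR0 hP1 hR1
  have hv : ∀ i, 0 ≤ chan (-(1 / 2)) R i := chan_nn3 (by norm_num) le_rfl hR0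
  have hv1 : sg (chan (-(1 / 2)) R) = 1 := by rw [sg_chan (by norm_num)]; exact hR1
  have e1 : SS (Fe i) (chan (-(1 / 2)) r) p = sg r * sg p * SS (Fe i) (chan (-(1 / 2)) R) P := by
    conv_lhs => rw [hR, hP, chan_smul3]
    exact SS_smul (Hom1_Pf _) hRp.le hPp.le hv hP0
  have e2 : ∀ j, Fe j p = sg p * fe j (E2 P) (E3 P) := by
    intro j
    conv_lhs => rw [hP]
    have : Fe j (fun i => sg p * P i) = sg p * Fe j P := Pf_smul _ _ _
    rw [this, Fe_one hP1]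
  have e3 : ∀ k, Fe k (chan (-(1 / 2)) r) = sg r * fe k (E2 (chan (-(1 / 2)) R))
      (E3 (chan (-(1 / 2)) R)) := by
    intro k
    conv_lhs => rw [hR, chan_smul3]
    have : Fe k (fun i => sg r * chan (-(1 / 2)) R i) = sg r * Fe k (chan (-(1 / 2)) R) :=
      Pf_smul _ _ _
    rw [this, Fe_one hv1]
  have h2 := mul_le_mul_of_nonneg_left h1 (mul_nonneg hRp.le hPp.le)
  calc σ * (1 / 2 * SS (Fe i) (chan (-(1 / 2)) r) p) = sg r * sg p *
        (σ * (1 / 2 * SS (Fe i) (chan (-(1 / 2)) R) P)) := by rw [e1]; ring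
    _ ≤ _ := h2
    _ = _ := by
      rw [Finset.mul_sum]
      refine Finset.sum_congr rfl fun j _ => ?_
      rw [Finset.mul_sum]
      refine Finset.sum_congr rfl fun k _ => ?_
      rw [e2, e3]
      ring

lemma Bdd.smul' {q : ℕ} {F : V q → ℝ} {K : ℝ} (h : Bdd F K) (s : ℝ) :
    Bdd (fun v => s * F v) (|s| * K) := fun c hc => by
  rw [abs_mul, mul_assoc]
  exact mul_le_mul_of_nonneg_left (h c hc) (abs_nonneg s)

/-- attaching one more message of the channel with eigenvalue `lam0 ∈ [-1/2, 0]` -/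
theorem BilIneq.prod {A B : Type*} {σ : ℝ} {i : Fin 4} {M : Fin 4 → Fin 4 → ℝ}
    (H : BilIneq σ i M) {lam0 : ℝ} (h1 : -(1 / 2) ≤ lam0) (h2 : lam0 ≤ 0) {m : A → V 3}
    {m' : B → V 3} (hm : NFam m) (hm' : NFam m') :
    σ * Phi (Fe i) (prodF (fun a => chan lam0 (m a)) m') ≤
      ∑ j, ∑ k, M j k * Phi (Fe j) m' * Phi (Fe k) (fun a => chan lam0 (m a)) := by
  obtain ⟨K, hK0, hK⟩ := Fe_bd
  have hτ : 0 ≤ 1 + (((3 : ℕ) : ℝ) - 1) * (-(2 * lam0)) ∧ -(2 * lam0) ≤ 1 := by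
    push_cast
    constructor <;> linarith
  have hc : 0 ≤ 1 + (((3 : ℕ) : ℝ) - 1) * (-(1 / 2)) ∧ (-(1 / 2) : ℝ) ≤ 1 := by
    push_cast
    constructor <;> norm_num
  have hu := hm.chan (by norm_num) hτ
  have ev : (fun a => chan (-(1 / 2)) (chan (-(2 * lam0)) (m a))) = fun a => chan lam0 (m a) := by
    funext a
    rw [chan_comp]
    congr 1
    ring
  have key := bil_prod (q := 3) (J := Fin 4 × Fin 4) (by norm_num)
    (F := fun v => σ * Fe i v) (CF := |σ| * K) (Bdd.smul' (hK i) σ)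
    (a := fun x => Fe x.1) (b := fun x v => M x.1 x.2 * Fe x.2 v)
    (C := (1 + ∑ x : Fin 4 × Fin 4, |M x.1 x.2|) * K) ?_ ?_ hc ?_ hu hm'
  · rw [ev] at key
    have e1 : Phi (fun v => σ * Fe i v) (prodF (fun a => chan lam0 (m a)) m') =
        σ * Phi (Fe i) (prodF (fun a => chan lam0 (m a)) m') := by
      unfold Phi
      rw [tsum_mul_left]
      ring
    rw [e1] at key
    refine key.trans (le_of_eq ?_)
    rw [Fintype.sum_prod_type]
    refine Finset.sum_congr rfl fun j _ => Finset.sum_congr rfl fun k _ => ?_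
    have e2 : Phi (fun v => M j k * Fe k v) (fun a => chan lam0 (m a)) =
        M j k * Phi (Fe k) (fun a => chan lam0 (m a)) := by
      unfold Phi
      rw [tsum_mul_left]
      ring
    show Phi (fun v => M j k * Fe k v) (fun a => chan lam0 (m a)) * Phi (Fe j) m' = _
    rw [e2]
    ring
  · intro x v hv
    refine (hK x.1 v hv).trans (mul_le_mul_of_nonneg_right ?_ (sg_nonneg hv))
    have : 0 ≤ ∑ x : Fin 4 × Fin 4, |M x.1 x.2| := Finset.sum_nonneg fun _ _ => abs_nonneg _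
    nlinarith
  · intro x v hv
    refine (Bdd.smul' (hK x.2) (M x.1 x.2) v hv).trans (mul_le_mul_of_nonneg_right ?_
      (sg_nonneg hv))
    have h3 : |M x.1 x.2| ≤ ∑ x : Fin 4 × Fin 4, |M x.1 x.2| :=
      Finset.single_le_sum (f := fun x : Fin 4 × Fin 4 => |M x.1 x.2|)
        (fun _ _ => abs_nonneg _) (Finset.mem_univ x)
    exact mul_le_mul_of_nonneg_right (by linarith) hK0
  · intro p r hp hr
    have h3 := H.hom hp hr
    have e3 : SS (fun v => σ * Fe i v) (chan (-(1 / 2)) r) p =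
        σ * SS (Fe i) (chan (-(1 / 2)) r) p := by
      unfold SS
      rw [Finset.mul_sum]
    rw [e3, Fintype.sum_prod_type]
    have hfact : (1 : ℝ) / ((3 - 1).factorial : ℕ) = 1 / 2 := by
      norm_num [Nat.factorial]
    rw [hfact]
    calc 1 / 2 * (σ * SS (Fe i) (chan (-(1 / 2)) r) p) =
        σ * (1 / 2 * SS (Fe i) (chan (-(1 / 2)) r) p) := by ring
      _ ≤ _ := h3
      _ = _ := Finset.sum_congr rfl fun j _ => Finset.sum_congr rfl fun k _ => by ring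

end Vale.Agent.P154N
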