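import Vale.Agent.P154.N3CloP

/-! P154: the local argument for `d = 4`, `lam = -1/2` -/

namespace Vale.Agent.P154N

open Vale.Agent.P154.G Filter Topology

/-- one step of the chain: `u ≤ v * m + rest` with `v ≤ w`, `m ≥ 0` -/
lemma chain1 {v w m : ℝ} (h : v ≤ w) (hm : 0 ≤ m) : v * m ≤ w * m :=
  mul_le_mul_of_nonneg_right h hm

theorem clo_step {x y z a2 a3 a4 b2 b3 b4 c2 c3 c4 : ℝ} (hx0 : 0 ≤ x) (hx : x ≤ 1 / 10)
    (hy0 : 0 ≤ y) (hy : y ≤ 175 / 10000) (hz : |z| ≤ x / 5 + 5 / 4 * y)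
    (R1 : a2 ≤ x / 4 * TH x y z + x / 4 + 27 / 50 * (y / 16 * x) - 91 / 200 * (-(z / 8) * x))
    (R2 : a3 ≤ a2 * TH x y z + x / 4 + 27 / 50 * (b2 * x) - 91 / 200 * (c2 * x))
    (R3 : a4 ≤ a3 * TH x y z + x / 4 + 27 / 50 * (b3 * x) - 91 / 200 * (c3 * x))
    (L1 : x / 4 * (1 - 54 / 125 * x) + x / 4 ≤ a2)
    (G1 : b2 ≤ y / 16 * GF x y + y / 16 + 1307 / 1000 * (x / 4 * x))
    (G2 : b3 ≤ b2 * GF x y + y / 16 + 1307 / 1000 * (a2 * x))
    (G3 : b4 ≤ b3 * GF x y + y / 16 + 1307 / 1000 * (a3 * x))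
    (P1 : c2 ≤ -(z / 8) * (1 - 437 / 250 * x) - z / 8 + 1877 / 1000 * (x / 4 * x))
    (P2 : c3 ≤ c2 * (1 - 437 / 250 * x) - z / 8 + 1877 / 1000 * (a2 * x))
    (P3 : c4 ≤ c3 * (1 - 437 / 250 * x) - z / 8 + 1877 / 1000 * (a3 * x))
    (M1 : -(z / 8) * (1 - 1159 / 1000 * x) - z / 8 + 51 / 50 * (x / 4 * x) -
      351 / 250 * (y / 16 * x) ≤ c2)
    (M2 : c2 * (1 - 1159 / 1000 * x) - z / 8 + 51 / 50 * (a2 * x) - 351 / 250 * (b2 * x) ≤ c3)
    (ha4 : 0 ≤ a4) (ha4' : a4 ≤ x) (hb4 : 0 ≤ b4) (hc4 : |c4| ≤ a4) :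
    a4 * (1 + 67 / 100 * b4 + 921 / 2000 * c4) ≤
      x * (1 + 67 / 100 * y + 921 / 2000 * z) - 1 / 200 * x ^ 2 := by
  obtain ⟨hz1, hz2⟩ := abs_le.1 hz
  obtain ⟨hc1, hc2⟩ := abs_le.1 hc4
  have hTH : 0 ≤ TH x y z := by unfold TH; linarith
  have hGF : 0 ≤ GF x y := by unfold GF; linarith
  have hPF : 0 ≤ 1 - 437 / 250 * x := by linarith
  have hMF : 0 ≤ 1 - 1159 / 1000 * x := by linarith
  -- two messages
  have A2 : a2 ≤ pA2 x y z := R1
  have B2 : b2 ≤ pB2 x y := G1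
  have C2 : c2 ≤ pC2 x z := P1
  have D2 : pD2 x y z ≤ c2 := M1
  have L2 : pL2 x ≤ a2 := L1
  -- three messages
  have A3 : a3 ≤ pA3 x y z := by
    have h1 := chain1 A2 hTH
    have h2 := chain1 B2 hx0
    have h3 := chain1 D2 hx0
    unfold pA3
    linarith
  have B3 : b3 ≤ pB3 x y z := by
    have h1 := chain1 B2 hGF
    have h2 := chain1 A2 hx0
    unfold pB3
    linarith
  have C3 : c3 ≤ pC3 x y z := by
    have h1 := chain1 C2 hPF
    have h2 := chain1 A2 hx0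
    unfold pC3
    linarith
  have D3 : pD3 x y z ≤ c3 := by
    have h1 := chain1 D2 hMF
    have h2 := chain1 L2 hx0
    have h3 := chain1 B2 hx0
    unfold pD3
    linarith
  -- four messages
  have A4 : a4 ≤ pA4 x y z := by
    have h1 := chain1 A3 hTH
    have h2 := chain1 B3 hx0
    have h3 := chain1 D3 hx0
    unfold pA4
    linarith
  have B4 : b4 ≤ pB4 x y z := by
    have h1 := chain1 B3 hGF
    have h2 := chain1 A3 hx0
    unfold pB4
    linarith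
  have C4 : c4 ≤ pC4 x y z := by
    have h1 := chain1 C3 hPF
    have h2 := chain1 A3 hx0
    unfold pC4
    linarith
  have hpos : 0 ≤ 1 + 67 / 100 * pB4 x y z + 921 / 2000 * pC4 x y z := by linarith
  have key : a4 * (1 + 67 / 100 * b4 + 921 / 2000 * c4) ≤
      pA4 x y z * (1 + 67 / 100 * pB4 x y z + 921 / 2000 * pC4 x y z) :=
    (mul_le_mul_of_nonneg_left (by linarith) ha4).trans (chain1 A4 hpos)
  rw [poly_id] at key
  have q0 := Qd0_le hx0 hx hy0 hy hz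
  have q1 := Qd1_le hx0 hx hy0 hy hz
  have q2 := Qd2_le hx0 hx hy0 hy hz
  have q3 := Qd3_le hx0 hx hy0 hy hz
  have q4 := Qd4_le hx0 hx hy0 hy hz
  have q5 := Qd5_le hx0 hx hy0 hy hz
  have q6 := Qd6_le hx0 hx hy0 hy hz
  have q7 := Qd7_le hx0 hx hy0 hy hz
  have q8 := Qd8_le hx0 hx hy0 hy hz
  have q9 := Qd9_le hx0 hx hy0 hy hz
  have q10 := Qd10_le hx0 hx hy0 hy hz
  have hQ : Qd0 x y z + Qd1 x y z + Qd2 x y z + Qd3 x y z + Qd4 x y z + Qd5 x y z + Qd6 x y z +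
      Qd7 x y z + Qd8 x y z + Qd9 x y z + Qd10 x y z ≤ -(1 / 200) * x := by linarith
  have h5 := mul_le_mul_of_nonneg_left hQ hx0
  have e : x * (-(1 / 200) * x) = -(1 / 200 * x ^ 2) := by ring
  rw [e] at h5
  linarith

variable (h0 : 0 ≤ 1 + (((3 : ℕ) : ℝ) - 1) * (-(1 / 2)) ∧ (-(1 / 2) : ℝ) ≤ 1)

lemma fe_s_bound {v : V 3} (hv : ∀ i, 0 ≤ v i) (h : sg v = 1) :
    |(27 * E3 v - 9 * E2 v + 2) / 2| ≤ (1 - 3 * E2 v) / 5 + 5 / 4 * (1 - 3 * E2 v) ^ 2 := by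
  have hr := (simplex_facts hv h).1
  have hdisc : ((27 * E3 v - 9 * E2 v + 2) / 2) ^ 2 ≤ (1 - 3 * E2 v) ^ 3 := by
    rw [sg3] at h
    have e : v 2 = 1 - v 0 - v 1 := by linarith
    have h1 : (1 - 3 * E2 v) ^ 3 - ((27 * E3 v - 9 * E2 v + 2) / 2) ^ 2 =
        27 / 4 * ((v 0 - v 1) * (v 1 - v 2) * (v 0 - v 2)) ^ 2 := by
      unfold E2 E3
      rw [e]
      ring
    have h2 : 0 ≤ 27 / 4 * ((v 0 - v 1) * (v 1 - v 2) * (v 0 - v 2)) ^ 2 := by positivity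
    linarith
  set r := 1 - 3 * E2 v
  have hb : 0 ≤ r / 5 + 5 / 4 * r ^ 2 := by positivity
  refine abs_le_of_sq_le_sq ?_ hb |> fun h => h
  have : (r / 5 + 5 / 4 * r ^ 2) ^ 2 - r ^ 3 = (r / 5 - 5 / 4 * r ^ 2) ^ 2 := by ring
  have h3 := sq_nonneg (r / 5 - 5 / 4 * r ^ 2)
  linarith

lemma Phi_s_bound {A : Type*} {m : A → V 3} (hm : NFam m) :
    |Phi (Fe 3) m| ≤ Phi (Fe 1) m / 5 + 5 / 4 * Phi (Fe 2) m := by
  obtain ⟨K, hK0, hK⟩ := Fe_bd
  have bG : Bdd (fun v : V 3 => 1 / 5 * Fe 1 v + 5 / 4 * Fe 2 v) (2 * K) := fun v hv => by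
    have h1 := hK 1 v hv
    have h2 := hK 2 v hv
    rw [abs_le] at h1 h2 ⊢
    have h3 := mul_nonneg hK0 (sg_nonneg hv)
    constructor <;> nlinarith
  have hs : ∀ v : V 3, (∀ i, 0 ≤ v i) → |Fe 3 v| ≤ 1 / 5 * Fe 1 v + 5 / 4 * Fe 2 v := by
    intro v hv
    rcases norm3 hv with h0 | ⟨w, hw0, hw1, hpos, hw⟩
    · rw [h0]
      have e : ∀ i, Fe i (0 : V 3) = 0 := fun i => Pf_zero _
      rw [e, e, e]
      simp
    · have e : ∀ i, Fe i v = sg v * fe i (E2 w) (E3 w) := fun i => by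
        conv_lhs => rw [hw]
        have : Fe i (fun j => sg v * w j) = sg v * Fe i w := Pf_smul _ _ _
        rw [this, Fe_one hw1]
      rw [e, e, e, abs_mul, abs_of_pos hpos, fe1, fe2, fe3]
      have := mul_le_mul_of_nonneg_left (fe_s_bound hw0 hw1) hpos.le
      linarith
  have e1 : Phi (fun v : V 3 => 1 / 5 * Fe 1 v + 5 / 4 * Fe 2 v) m =
      Phi (Fe 1) m / 5 + 5 / 4 * Phi (Fe 2) m := by
    have hsum := (((smb (hK 1) hm.nn hm.sum).hasSum.mul_left (1 / 5 : ℝ)).add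
      ((smb (hK 2) hm.nn hm.sum).hasSum.mul_left (5 / 4 : ℝ))).tsum_eq
    unfold Phi
    rw [hsum]
    ring
  rw [← e1, abs_le]
  constructor
  · have h := Phi_mono hm (Bdd.smul' (hK 3) (-1)) bG (fun v hv => by
      have := neg_le_abs (Fe 3 v)
      have := hs v hv
      linarith)
    have e2 : Phi (fun v : V 3 => -1 * Fe 3 v) m = -Phi (Fe 3) m := by
      unfold Phi
      rw [tsum_mul_left]
      ring
    rw [e2] at h
    linarith
  · exact Phi_mono hm (hK 3) bG (fun v hv => (le_abs_self _).trans (hs v hv))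

/-- **local theorem for `d = 4`, `lam = -1/2`** -/
theorem loc4 (HR : BilIneq 1 1 MR) (HG : BilIneq 1 2 MG) (HP : BilIneq 1 3 MP)
    (HM : BilIneq (-1) 3 MM) (HL : BilIneq (-1) 1 ML) (N : ℕ) (hN : et 4 h0 N 1 ≤ 1 / 10)
    (hY : ∀ n, N ≤ n → et 4 h0 n 2 ≤ 175 / 10000) :
    Tendsto (fun n => et 4 h0 n 1) atTop (𝓝 0) := by
  rw [← tendsto_add_atTop_iff_nat N]
  have hX : ∀ n, et 4 h0 (n + N) 1 ≤ 1 / 10 := fun n =>
    (et_anti h0 (show N ≤ n + N by omega)).trans hN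
  have hS : ∀ n, |et 4 h0 n 3| ≤ et 4 h0 n 1 / 5 + 5 / 4 * et 4 h0 n 2 := fun n =>
    Phi_s_bound (nf h0 n)
  refine tendsto_of_level (y := fun n => et 4 h0 (n + N) 1 *
    (1 + 67 / 100 * et 4 h0 (n + N) 2 + 921 / 2000 * et 4 h0 (n + N) 3)) (c := 1 / 200) (K := 0)
    (by norm_num) (fun n => et_nn h0 _) (fun n => ?_) (fun n => ?_)
  · have h1 := et_nn (d := 4) h0 (n + N)
    have h2 := et2_nn (d := 4) h0 (n + N)
    have h3 := (abs_le.1 (et3_le (d := 4) h0 (n + N))).1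
    have h4 := hX n
    rw [neg_zero]
    exact mul_nonneg h1 (by linarith)
  · have hm : n + 1 + N = n + N + 1 := by omega
    rw [hm]
    set M := n + N with hM
    set x := et 4 h0 M 1 with hx
    set y := et 4 h0 M 2 with hy
    set z := et 4 h0 M 3 with hz
    have e11 : ev 4 h0 M 1 1 = x / 4 := by
      rw [ev_one]; simp only [pwr, Matrix.cons_val_one, Matrix.cons_val_zero]; rw [← hx]; ring
    have e12 : ev 4 h0 M 1 2 = y / 16 := by
      rw [ev_one]; simp only [pwr, Matrix.cons_val]; rw [← hy]; ring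
    have e13 : ev 4 h0 M 1 3 = -(z / 8) := by
      rw [ev_one]; simp only [pwr, Matrix.cons_val]; rw [← hz]; ring
    have R : ∀ k, ev 4 h0 M (k + 1) 1 ≤ ev 4 h0 M k 1 * TH x y z + x / 4 +
        27 / 50 * (ev 4 h0 M k 2 * x) - 91 / 200 * (ev 4 h0 M k 3 * x) := by
      intro k
      have h := ev_succ (d := 4) h0 HR (by norm_num) (by norm_num) M k
      simp only [Fin.sum_univ_four, MR, pwr, Matrix.cons_val_zero, Matrix.cons_val_one,
        Matrix.cons_val, ev_zero, et_zero, ← hx, ← hy, ← hz] at h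
      unfold TH
      norm_num at h
      linarith
    have G' : ∀ k, ev 4 h0 M (k + 1) 2 ≤ ev 4 h0 M k 2 * GF x y + y / 16 +
        1307 / 1000 * (ev 4 h0 M k 1 * x) := by
      intro k
      have h := ev_succ (d := 4) h0 HG (by norm_num) (by norm_num) M k
      simp only [Fin.sum_univ_four, MG, pwr, Matrix.cons_val_zero, Matrix.cons_val_one,
        Matrix.cons_val, ev_zero, et_zero, ← hx, ← hy, ← hz] at h
      unfold GF
      norm_num at h
      linarith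
    have P' : ∀ k, ev 4 h0 M (k + 1) 3 ≤ ev 4 h0 M k 3 * (1 - 437 / 250 * x) - z / 8 +
        1877 / 1000 * (ev 4 h0 M k 1 * x) := by
      intro k
      have h := ev_succ (d := 4) h0 HP (by norm_num) (by norm_num) M k
      simp only [Fin.sum_univ_four, MP, pwr, Matrix.cons_val_zero, Matrix.cons_val_one,
        Matrix.cons_val, ev_zero, et_zero, ← hx, ← hy, ← hz] at h
      norm_num at h
      linarith
    have M' : ∀ k, ev 4 h0 M k 3 * (1 - 1159 / 1000 * x) - z / 8 +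
        51 / 50 * (ev 4 h0 M k 1 * x) - 351 / 250 * (ev 4 h0 M k 2 * x) ≤
        ev 4 h0 M (k + 1) 3 := by
      intro k
      have h := ev_succ (d := 4) h0 HM (by norm_num) (by norm_num) M k
      simp only [Fin.sum_univ_four, MM, pwr, Matrix.cons_val_zero, Matrix.cons_val_one,
        Matrix.cons_val, ev_zero, et_zero, ← hx, ← hy, ← hz] at h
      norm_num at h
      linarith
    have L' : ∀ k, ev 4 h0 M k 1 * (1 - 54 / 125 * x) + x / 4 ≤ ev 4 h0 M (k + 1) 1 := by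
      intro k
      have h := ev_succ (d := 4) h0 HL (by norm_num) (by norm_num) M k
      simp only [Fin.sum_univ_four, ML, pwr, Matrix.cons_val_zero, Matrix.cons_val_one,
        Matrix.cons_val, ev_zero, et_zero, ← hx, ← hy, ← hz] at h
      norm_num at h
      linarith
    have t1 : ev 4 h0 M 4 1 = et 4 h0 (M + 1) 1 := ev_top h0 M 1
    have t2 : ev 4 h0 M 4 2 = et 4 h0 (M + 1) 2 := ev_top h0 M 2
    have t3 : ev 4 h0 M 4 3 = et 4 h0 (M + 1) 3 := ev_top h0 M 3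
    have R1 := R 1
    have G1 := G' 1
    have P1 := P' 1
    have M1 := M' 1
    have L1 := L' 1
    rw [e11, e12, e13] at R1
    rw [e11, e12] at G1
    rw [e11, e13] at P1
    rw [e11, e12, e13] at M1
    rw [e11] at L1
    have R3 := R 3
    have G3 := G' 3
    have P3 := P' 3
    norm_num only at R1 G1 P1 M1 L1 R3 G3 P3
    rw [t1] at R3
    rw [t2] at G3
    rw [t3] at P3
    exact clo_step (et_nn h0 M) (hX n) (et2_nn h0 M) (hY M (by omega)) (hS M) R1 (R 2) R3 L1 G1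
      (G' 2) G3 P1 (P' 2) P3 M1 (M' 2) (et_nn h0 _) (et_anti h0 (Nat.le_succ M)) (et2_nn h0 _)
      (et3_le h0 _)

end Vale.Agent.P154N
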