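import Vale.Agent.P154.N3M4

/-! P154: closure of the local argument for `d = 4`, `lam = -1/2` -/

namespace Vale.Agent.P154N

lemma bdB {x y X Y : ℝ} (hx0 : 0 ≤ x) (hx : x ≤ X) (hy0 : 0 ≤ y) (hy : y ≤ Y) (a b : ℕ) :
    x ^ (a + 1) * y ^ b ≤ X ^ a * Y ^ b * x := by
  have h1 := pow_le_pow_left₀ hx0 hx a
  have h2 := pow_le_pow_left₀ hy0 hy b
  have h3 : x ^ a * y ^ b ≤ X ^ a * Y ^ b :=
    mul_le_mul h1 h2 (pow_nonneg hy0 _) (pow_nonneg (hx0.trans hx) _)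
  calc x ^ (a + 1) * y ^ b = x ^ a * y ^ b * x := by ring
    _ ≤ X ^ a * Y ^ b * x := mul_le_mul_of_nonneg_right h3 hx0

lemma bdC {y Y : ℝ} (hy0 : 0 ≤ y) (hy : y ≤ Y) (b : ℕ) : y ^ (b + 1) ≤ Y ^ b * y := by
  have h2 := pow_le_pow_left₀ hy0 hy b
  calc y ^ (b + 1) = y ^ b * y := by ring
    _ ≤ Y ^ b * y := mul_le_mul_of_nonneg_right h2 hy0

lemma bdD {x y z X Y : ℝ} (hx0 : 0 ≤ x) (hx : x ≤ X) (hy0 : 0 ≤ y) (hy : y ≤ Y)
    (hz : |z| ≤ x / 5 + 5 / 4 * y) (a b c : ℕ) :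
    |x ^ a * y ^ b * z ^ (c + 1)| ≤ X ^ a * Y ^ b * (X / 5 + 5 / 4 * Y) ^ c *
      (x / 5 + 5 / 4 * y) := by
  have h1 := pow_le_pow_left₀ hx0 hx a
  have h2 := pow_le_pow_left₀ hy0 hy b
  have hZ : |z| ≤ X / 5 + 5 / 4 * Y := hz.trans (by linarith)
  have h4 := pow_le_pow_left₀ (abs_nonneg z) hZ c
  have h3 : x ^ a * y ^ b ≤ X ^ a * Y ^ b :=
    mul_le_mul h1 h2 (pow_nonneg hy0 _) (pow_nonneg (hx0.trans hx) _)
  have h5 : x ^ a * y ^ b * |z| ^ c ≤ X ^ a * Y ^ b * (X / 5 + 5 / 4 * Y) ^ c :=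
    mul_le_mul h3 h4 (by positivity) (mul_nonneg (pow_nonneg (hx0.trans hx) _)
      (pow_nonneg (hy0.trans hy) _))
  calc |x ^ a * y ^ b * z ^ (c + 1)| = x ^ a * y ^ b * |z| ^ c * |z| := by
        rw [abs_mul, abs_pow, abs_of_nonneg (show 0 ≤ x ^ a * y ^ b by positivity)]
        ring
    _ ≤ X ^ a * Y ^ b * (X / 5 + 5 / 4 * Y) ^ c * (x / 5 + 5 / 4 * y) :=
        mul_le_mul h5 hz (abs_nonneg z) (mul_nonneg (mul_nonneg (pow_nonneg (hx0.trans hx) _)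
          (pow_nonneg (hy0.trans hy) _)) (pow_nonneg (by linarith [hx0.trans hx, hy0.trans hy]) _))

noncomputable def Qd0 (x y z : ℝ) : ℝ :=
    (-(207 / 2000)) * (x ^ 0 * y ^ 1 * z ^ 0) +
    (-(1293 / 4000)) * (x ^ 1 * y ^ 0 * z ^ 0) +
    (-(827979 / 16000000)) * (x ^ 0 * y ^ 0 * z ^ 2) +
    (46763 / 320000) * (x ^ 0 * y ^ 1 * z ^ 1) +
    (4397449 / 4000000) * (x ^ 0 * y ^ 2 * z ^ 0) +
    (4240353 / 16000000) * (x ^ 1 * y ^ 0 * z ^ 1) +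
    (-(3875483 / 8000000)) * (x ^ 1 * y ^ 1 * z ^ 0) +
    (2898193 / 1000000) * (x ^ 2 * y ^ 0 * z ^ 0) +
    (-(9227499 / 500000000)) * (x ^ 0 * y ^ 0 * z ^ 3) +
    (3599377 / 8000000000) * (x ^ 0 * y ^ 1 * z ^ 2)

noncomputable def Qd1 (x y z : ℝ) : ℝ :=
    (6508841207 / 16000000000) * (x ^ 0 * y ^ 2 * z ^ 1) +
    (6713865081 / 4000000000) * (x ^ 0 * y ^ 3 * z ^ 0) +
    (7716685179 / 16000000000) * (x ^ 1 * y ^ 0 * z ^ 2) +
    (-(18406563 / 320000000)) * (x ^ 1 * y ^ 1 * z ^ 1) +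
    (-(26183863831 / 16000000000)) * (x ^ 1 * y ^ 2 * z ^ 0) +
    (58747889139 / 32000000000) * (x ^ 2 * y ^ 0 * z ^ 1) +
    (7492769187 / 1600000000) * (x ^ 2 * y ^ 1 * z ^ 0) +
    (-(120444467269 / 32000000000)) * (x ^ 3 * y ^ 0 * z ^ 0) +
    (-(46050155649 / 32000000000000)) * (x ^ 0 * y ^ 0 * z ^ 4) +
    (-(11220424191 / 8000000000000)) * (x ^ 0 * y ^ 1 * z ^ 3)

noncomputable def Qd2 (x y z : ℝ) : ℝ :=
    (2091154378117 / 32000000000000) * (x ^ 0 * y ^ 2 * z ^ 2) +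
    (12815811190789 / 16000000000000) * (x ^ 0 * y ^ 3 * z ^ 1) +
    (93202487903 / 64000000000) * (x ^ 0 * y ^ 4 * z ^ 0) +
    (2292747449031 / 32000000000000) * (x ^ 1 * y ^ 0 * z ^ 3) +
    (634120655907 / 16000000000000) * (x ^ 1 * y ^ 1 * z ^ 2) +
    (-(206861731017 / 250000000000)) * (x ^ 1 * y ^ 2 * z ^ 1) +
    (-(3398119099371 / 1600000000000)) * (x ^ 1 * y ^ 3 * z ^ 0) +
    (12743691909393 / 128000000000000) * (x ^ 2 * y ^ 0 * z ^ 2) +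
    (175894832184227 / 64000000000000) * (x ^ 2 * y ^ 1 * z ^ 1) +
    (1299821922443 / 250000000000) * (x ^ 2 * y ^ 2 * z ^ 0)

noncomputable def Qd3 (x y z : ℝ) : ℝ :=
    (-(82729919646969 / 25600000000000)) * (x ^ 3 * y ^ 0 * z ^ 1) +
    (-(284026342968149 / 64000000000000)) * (x ^ 3 * y ^ 1 * z ^ 0) +
    (97066398393957 / 32000000000000) * (x ^ 4 * y ^ 0 * z ^ 0) +
    (25959237741927 / 6400000000000000) * (x ^ 0 * y ^ 2 * z ^ 3) +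
    (405799065416367 / 3200000000000000) * (x ^ 0 * y ^ 3 * z ^ 2) +
    (1043615078751861 / 1600000000000000) * (x ^ 0 * y ^ 4 * z ^ 1) +
    (1393376055935157 / 1600000000000000) * (x ^ 0 * y ^ 5 * z ^ 0) +
    (60371754055839 / 16000000000000000) * (x ^ 1 * y ^ 0 * z ^ 4) +
    (69945191993349 / 16000000000000000) * (x ^ 1 * y ^ 1 * z ^ 3) +
    (-(4102646706763719 / 32000000000000000)) * (x ^ 1 * y ^ 2 * z ^ 2)

noncomputable def Qd4 (x y z : ℝ) : ℝ :=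
    (-(4952197987240137 / 4000000000000000)) * (x ^ 1 * y ^ 3 * z ^ 1) +
    (-(8909328583654527 / 6400000000000000)) * (x ^ 1 * y ^ 4 * z ^ 0) +
    (525128745100833 / 12800000000000000) * (x ^ 2 * y ^ 0 * z ^ 3) +
    (37890252705911493 / 64000000000000000) * (x ^ 2 * y ^ 1 * z ^ 2) +
    (348586239137560669 / 128000000000000000) * (x ^ 2 * y ^ 2 * z ^ 1) +
    (123354680118404521 / 32000000000000000) * (x ^ 2 * y ^ 3 * z ^ 0) +
    (-(59206730524818729 / 128000000000000000)) * (x ^ 3 * y ^ 0 * z ^ 2) +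
    (-(37923597809777651 / 12800000000000000)) * (x ^ 3 * y ^ 1 * z ^ 1) +
    (-(484527739480182489 / 128000000000000000)) * (x ^ 3 * y ^ 2 * z ^ 0) +
    (360446922991916553 / 128000000000000000) * (x ^ 4 * y ^ 0 * z ^ 1)

noncomputable def Qd5 (x y z : ℝ) : ℝ :=
    (7046670884812377 / 2000000000000000) * (x ^ 4 * y ^ 1 * z ^ 0) +
    (-(64533916581503893 / 64000000000000000)) * (x ^ 5 * y ^ 0 * z ^ 0) +
    (22350903695799147 / 3200000000000000000) * (x ^ 0 * y ^ 3 * z ^ 3) +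
    (285821868713870979 / 3200000000000000000) * (x ^ 0 * y ^ 4 * z ^ 2) +
    (94163833815347583 / 800000000000000000) * (x ^ 0 * y ^ 5 * z ^ 1) +
    (867955265517811527 / 1600000000000000000) * (x ^ 0 * y ^ 6 * z ^ 0) +
    (-(5650460748492777 / 800000000000000000)) * (x ^ 1 * y ^ 2 * z ^ 3) +
    (-(521040499545453111 / 3200000000000000000)) * (x ^ 1 * y ^ 3 * z ^ 2) +
    (-(3141863511485821479 / 6400000000000000000)) * (x ^ 1 * y ^ 4 * z ^ 1) +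
    (-(2970507695692517379 / 3200000000000000000)) * (x ^ 1 * y ^ 5 * z ^ 0)

noncomputable def Qd6 (x y z : ℝ) : ℝ :=
    (17981158226109381 / 3200000000000000000) * (x ^ 2 * y ^ 0 * z ^ 4) +
    (236850979481287179 / 4000000000000000000) * (x ^ 2 * y ^ 1 * z ^ 3) +
    (2997858509142089553 / 8000000000000000000) * (x ^ 2 * y ^ 2 * z ^ 2) +
    (77405702398948266453 / 64000000000000000000) * (x ^ 2 * y ^ 3 * z ^ 1) +
    (84171929815533006111 / 32000000000000000000) * (x ^ 2 * y ^ 4 * z ^ 0) +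
    (-(1927050752177123601 / 32000000000000000000)) * (x ^ 3 * y ^ 0 * z ^ 3) +
    (-(15551257740491712319 / 32000000000000000000)) * (x ^ 3 * y ^ 1 * z ^ 2) +
    (-(54159484608711669029 / 32000000000000000000)) * (x ^ 3 * y ^ 2 * z ^ 1) +
    (-(7350986313577207781 / 2560000000000000000)) * (x ^ 3 * y ^ 3 * z ^ 0) +
    (2690233463485276143 / 8000000000000000000) * (x ^ 4 * y ^ 0 * z ^ 2)

noncomputable def Qd7 (x y z : ℝ) : ℝ :=
    (28413552057178708259 / 16000000000000000000) * (x ^ 4 * y ^ 1 * z ^ 1) +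
    (100109800610176796403 / 32000000000000000000) * (x ^ 4 * y ^ 2 * z ^ 0) +
    (-(75157394825113890387 / 64000000000000000000)) * (x ^ 5 * y ^ 0 * z ^ 1) +
    (-(57582590843536823841 / 32000000000000000000)) * (x ^ 5 * y ^ 1 * z ^ 0) +
    (561506714228575133 / 12800000000000000000) * (x ^ 6 * y ^ 0 * z ^ 0) +
    (57732384246249196701 / 12800000000000000000000) * (x ^ 0 * y ^ 4 * z ^ 3) +
    (49133045357995109553 / 6400000000000000000000) * (x ^ 0 * y ^ 5 * z ^ 2) +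
    (243373833894854532807 / 12800000000000000000000) * (x ^ 0 * y ^ 6 * z ^ 1) +
    (274502182755212216721 / 1600000000000000000000) * (x ^ 0 * y ^ 7 * z ^ 0) +
    (-(43785420340070528973 / 6400000000000000000000)) * (x ^ 1 * y ^ 3 * z ^ 3)

noncomputable def Qd8 (x y z : ℝ) : ℝ :=
    (-(424736227079071512759 / 12800000000000000000000)) * (x ^ 1 * y ^ 4 * z ^ 2) +
    (-(304983962757022718547 / 6400000000000000000000)) * (x ^ 1 * y ^ 5 * z ^ 1) +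
    (-(470350514560334577057 / 1280000000000000000000)) * (x ^ 1 * y ^ 6 * z ^ 0) +
    (37340348986002983049 / 128000000000000000000000) * (x ^ 2 * y ^ 0 * z ^ 5) +
    (62888438044652130681 / 25600000000000000000000) * (x ^ 2 * y ^ 1 * z ^ 4) +
    (489906064295113275739 / 25600000000000000000000) * (x ^ 2 * y ^ 2 * z ^ 3) +
    (1966837947056333398101 / 25600000000000000000000) * (x ^ 2 * y ^ 3 * z ^ 2) +
    (3138155157902665009851 / 10240000000000000000000) * (x ^ 2 * y ^ 4 * z ^ 1) +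
    (67901683766496023273389 / 64000000000000000000000) * (x ^ 2 * y ^ 5 * z ^ 0) +
    (-(641215111064399924517 / 256000000000000000000000)) * (x ^ 3 * y ^ 0 * z ^ 4)

noncomputable def Qd9 (x y z : ℝ) : ℝ :=
    (-(3126493134501863731569 / 128000000000000000000000)) * (x ^ 3 * y ^ 1 * z ^ 3) +
    (-(5618104070117628488461 / 51200000000000000000000)) * (x ^ 3 * y ^ 2 * z ^ 2) +
    (-(13291938890158912879571 / 32000000000000000000000)) * (x ^ 3 * y ^ 3 * z ^ 1) +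
    (-(318518477237570656770983 / 256000000000000000000000)) * (x ^ 3 * y ^ 4 * z ^ 0) +
    (11585000471817043652859 / 512000000000000000000000) * (x ^ 4 * y ^ 0 * z ^ 3) +
    (81675748861227936788721 / 512000000000000000000000) * (x ^ 4 * y ^ 1 * z ^ 2) +
    (22998001211731470781281 / 32000000000000000000000) * (x ^ 4 * y ^ 2 * z ^ 1) +
    (324739956495878618811 / 204800000000000000000) * (x ^ 4 * y ^ 3 * z ^ 0) +
    (-(70391235059950517599731 / 1024000000000000000000000)) * (x ^ 5 * y ^ 0 * z ^ 2) +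
    (-(117953602755775997085557 / 256000000000000000000000)) * (x ^ 5 * y ^ 1 * z ^ 1)

noncomputable def Qd10 (x y z : ℝ) : ℝ :=
    (-(217772493988994609689373 / 256000000000000000000000)) * (x ^ 5 * y ^ 2 * z ^ 0) +
    (1514532476065604999049 / 6400000000000000000000) * (x ^ 6 * y ^ 0 * z ^ 1) +
    (210727886690592398406449 / 512000000000000000000000) * (x ^ 6 * y ^ 1 * z ^ 0) +
    (145787842839190696076649 / 1024000000000000000000000) * (x ^ 7 * y ^ 0 * z ^ 0)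

theorem Qd0_le {x y z : ℝ} (hx0 : 0 ≤ x) (hx : x ≤ 1 / 10) (hy0 : 0 ≤ y)
    (hy : y ≤ 175 / 10000) (hz : |z| ≤ x / 5 + 5 / 4 * y) :
    Qd0 x y z ≤ (-(276121 / 10000000)) * x + (-(478957 / 10000000)) * y := by
  unfold Qd0
  have m2 : 0 ≤ x ^ 0 * y ^ 0 * z ^ 2 := by positivity
  have m3 := (le_abs_self _).trans (bdD hx0 hx hy0 hy hz 0 1 0)
  have m4 := bdC hy0 hy 1
  have m5 := (le_abs_self _).trans (bdD hx0 hx hy0 hy hz 1 0 0)
  have m6 : 0 ≤ x ^ 1 * y ^ 1 := by positivity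
  have m7 := bdB hx0 hx hy0 hy 1 0
  have m8 := (neg_le_abs _).trans (bdD hx0 hx hy0 hy hz 0 0 2)
  have m9 := (le_abs_self _).trans (bdD hx0 hx hy0 hy hz 0 1 1)
  linarith [m2, m3, m4, m5, m6, m7, m8, m9]

theorem Qd1_le {x y z : ℝ} (hx0 : 0 ≤ x) (hx : x ≤ 1 / 10) (hy0 : 0 ≤ y)
    (hy : y ≤ 175 / 10000) (hz : |z| ≤ x / 5 + 5 / 4 * y) :
    Qd1 x y z ≤ (123161 / 10000000) * x + (262687 / 10000000) * y := by
  unfold Qd1
  have m0 := (le_abs_self _).trans (bdD hx0 hx hy0 hy hz 0 2 0)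
  have m1 := bdC hy0 hy 2
  have m2 := (le_abs_self _).trans (bdD hx0 hx hy0 hy hz 1 0 1)
  have m3 := (neg_le_abs _).trans (bdD hx0 hx hy0 hy hz 1 1 0)
  have m4 : 0 ≤ x ^ 1 * y ^ 2 := by positivity
  have m5 := (le_abs_self _).trans (bdD hx0 hx hy0 hy hz 2 0 0)
  have m6 := bdB hx0 hx hy0 hy 1 1
  have m7 : 0 ≤ x ^ 3 * y ^ 0 := by positivity
  have m8 : 0 ≤ x ^ 0 * y ^ 0 * z ^ 4 := by positivity
  have m9 := (neg_le_abs _).trans (bdD hx0 hx hy0 hy hz 0 1 2)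
  linarith [m0, m1, m2, m3, m4, m5, m6, m7, m8, m9]

theorem Qd2_le {x y z : ℝ} (hx0 : 0 ≤ x) (hx : x ≤ 1 / 10) (hy0 : 0 ≤ y)
    (hy : y ≤ 175 / 10000) (hz : |z| ≤ x / 5 + 5 / 4 * y) :
    Qd2 x y z ≤ (2731 / 10000000) * x + (7187 / 10000000) * y := by
  unfold Qd2
  have m0 := (le_abs_self _).trans (bdD hx0 hx hy0 hy hz 0 2 1)
  have m1 := (le_abs_self _).trans (bdD hx0 hx hy0 hy hz 0 3 0)
  have m2 := bdC hy0 hy 3
  have m3 := (le_abs_self _).trans (bdD hx0 hx hy0 hy hz 1 0 2)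
  have m4 := (le_abs_self _).trans (bdD hx0 hx hy0 hy hz 1 1 1)
  have m5 := (neg_le_abs _).trans (bdD hx0 hx hy0 hy hz 1 2 0)
  have m6 : 0 ≤ x ^ 1 * y ^ 3 := by positivity
  have m7 := (le_abs_self _).trans (bdD hx0 hx hy0 hy hz 2 0 1)
  have m8 := (le_abs_self _).trans (bdD hx0 hx hy0 hy hz 2 1 0)
  have m9 := bdB hx0 hx hy0 hy 1 2
  linarith [m0, m1, m2, m3, m4, m5, m6, m7, m8, m9]

theorem Qd3_le {x y z : ℝ} (hx0 : 0 ≤ x) (hx : x ≤ 1 / 10) (hy0 : 0 ≤ y)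
    (hy : y ≤ 175 / 10000) (hz : |z| ≤ x / 5 + 5 / 4 * y) :
    Qd3 x y z ≤ (18399 / 5000000) * x + (40399 / 10000000) * y := by
  unfold Qd3
  have m0 := (neg_le_abs _).trans (bdD hx0 hx hy0 hy hz 3 0 0)
  have m1 : 0 ≤ x ^ 3 * y ^ 1 := by positivity
  have m2 := bdB hx0 hx hy0 hy 3 0
  have m3 := (le_abs_self _).trans (bdD hx0 hx hy0 hy hz 0 2 2)
  have m4 := (le_abs_self _).trans (bdD hx0 hx hy0 hy hz 0 3 1)
  have m5 := (le_abs_self _).trans (bdD hx0 hx hy0 hy hz 0 4 0)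
  have m6 := bdC hy0 hy 4
  have m7 := (le_abs_self _).trans (bdD hx0 hx hy0 hy hz 1 0 3)
  have m8 := (le_abs_self _).trans (bdD hx0 hx hy0 hy hz 1 1 2)
  have m9 : 0 ≤ x ^ 1 * y ^ 2 * z ^ 2 := by positivity
  linarith [m0, m1, m2, m3, m4, m5, m6, m7, m8, m9]

theorem Qd4_le {x y z : ℝ} (hx0 : 0 ≤ x) (hx : x ≤ 1 / 10) (hy0 : 0 ≤ y)
    (hy : y ≤ 175 / 10000) (hz : |z| ≤ x / 5 + 5 / 4 * y) :
    Qd4 x y z ≤ (717 / 10000000) * x + (869 / 2000000) * y := by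
  unfold Qd4
  have m0 := (neg_le_abs _).trans (bdD hx0 hx hy0 hy hz 1 3 0)
  have m1 : 0 ≤ x ^ 1 * y ^ 4 := by positivity
  have m2 := (le_abs_self _).trans (bdD hx0 hx hy0 hy hz 2 0 2)
  have m3 := (le_abs_self _).trans (bdD hx0 hx hy0 hy hz 2 1 1)
  have m4 := (le_abs_self _).trans (bdD hx0 hx hy0 hy hz 2 2 0)
  have m5 := bdB hx0 hx hy0 hy 1 3
  have m6 : 0 ≤ x ^ 3 * y ^ 0 * z ^ 2 := by positivity
  have m7 := (neg_le_abs _).trans (bdD hx0 hx hy0 hy hz 3 1 0)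
  have m8 : 0 ≤ x ^ 3 * y ^ 2 := by positivity
  have m9 := (le_abs_self _).trans (bdD hx0 hx hy0 hy hz 4 0 0)
  linarith [m0, m1, m2, m3, m4, m5, m6, m7, m8, m9]

theorem Qd5_le {x y z : ℝ} (hx0 : 0 ≤ x) (hx : x ≤ 1 / 10) (hy0 : 0 ≤ y)
    (hy : y ≤ 175 / 10000) (hz : |z| ≤ x / 5 + 5 / 4 * y) :
    Qd5 x y z ≤ (309 / 5000000) * x + (1 / 5000000) * y := by
  unfold Qd5
  have m0 := bdB hx0 hx hy0 hy 3 1
  have m1 : 0 ≤ x ^ 5 * y ^ 0 := by positivity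
  have m2 := (le_abs_self _).trans (bdD hx0 hx hy0 hy hz 0 3 2)
  have m3 := (le_abs_self _).trans (bdD hx0 hx hy0 hy hz 0 4 1)
  have m4 := (le_abs_self _).trans (bdD hx0 hx hy0 hy hz 0 5 0)
  have m5 := bdC hy0 hy 5
  have m6 := (neg_le_abs _).trans (bdD hx0 hx hy0 hy hz 1 2 2)
  have m7 : 0 ≤ x ^ 1 * y ^ 3 * z ^ 2 := by positivity
  have m8 := (neg_le_abs _).trans (bdD hx0 hx hy0 hy hz 1 4 0)
  have m9 : 0 ≤ x ^ 1 * y ^ 5 := by positivity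
  linarith [m0, m1, m2, m3, m4, m5, m6, m7, m8, m9]

theorem Qd6_le {x y z : ℝ} (hx0 : 0 ≤ x) (hx : x ≤ 1 / 10) (hy0 : 0 ≤ y)
    (hy : y ≤ 175 / 10000) (hz : |z| ≤ x / 5 + 5 / 4 * y) :
    Qd6 x y z ≤ (3 / 5000000) * x + (29 / 10000000) * y := by
  unfold Qd6
  have m0 := (le_abs_self _).trans (bdD hx0 hx hy0 hy hz 2 0 3)
  have m1 := (le_abs_self _).trans (bdD hx0 hx hy0 hy hz 2 1 2)
  have m2 := (le_abs_self _).trans (bdD hx0 hx hy0 hy hz 2 2 1)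
  have m3 := (le_abs_self _).trans (bdD hx0 hx hy0 hy hz 2 3 0)
  have m4 := bdB hx0 hx hy0 hy 1 4
  have m5 := (neg_le_abs _).trans (bdD hx0 hx hy0 hy hz 3 0 2)
  have m6 : 0 ≤ x ^ 3 * y ^ 1 * z ^ 2 := by positivity
  have m7 := (neg_le_abs _).trans (bdD hx0 hx hy0 hy hz 3 2 0)
  have m8 : 0 ≤ x ^ 3 * y ^ 3 := by positivity
  have m9 := (le_abs_self _).trans (bdD hx0 hx hy0 hy hz 4 0 1)
  linarith [m0, m1, m2, m3, m4, m5, m6, m7, m8, m9]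

theorem Qd7_le {x y z : ℝ} (hx0 : 0 ≤ x) (hx : x ≤ 1 / 10) (hy0 : 0 ≤ y)
    (hy : y ≤ 175 / 10000) (hz : |z| ≤ x / 5 + 5 / 4 * y) :
    Qd7 x y z ≤ (9 / 2000000) * x + (187 / 10000000) * y := by
  unfold Qd7
  have m0 := (le_abs_self _).trans (bdD hx0 hx hy0 hy hz 4 1 0)
  have m1 := bdB hx0 hx hy0 hy 3 2
  have m2 := (neg_le_abs _).trans (bdD hx0 hx hy0 hy hz 5 0 0)
  have m3 : 0 ≤ x ^ 5 * y ^ 1 := by positivity
  have m4 := bdB hx0 hx hy0 hy 5 0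
  have m5 := (le_abs_self _).trans (bdD hx0 hx hy0 hy hz 0 4 2)
  have m6 := (le_abs_self _).trans (bdD hx0 hx hy0 hy hz 0 5 1)
  have m7 := (le_abs_self _).trans (bdD hx0 hx hy0 hy hz 0 6 0)
  have m8 := bdC hy0 hy 6
  have m9 := (neg_le_abs _).trans (bdD hx0 hx hy0 hy hz 1 3 2)
  linarith [m0, m1, m2, m3, m4, m5, m6, m7, m8, m9]

theorem Qd8_le {x y z : ℝ} (hx0 : 0 ≤ x) (hx : x ≤ 1 / 10) (hy0 : 0 ≤ y)
    (hy : y ≤ 175 / 10000) (hz : |z| ≤ x / 5 + 5 / 4 * y) :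
    Qd8 x y z ≤ (1 / 5000000) * x + (1 / 5000000) * y := by
  unfold Qd8
  have m0 : 0 ≤ x ^ 1 * y ^ 4 * z ^ 2 := by positivity
  have m1 := (neg_le_abs _).trans (bdD hx0 hx hy0 hy hz 1 5 0)
  have m2 : 0 ≤ x ^ 1 * y ^ 6 := by positivity
  have m3 := (le_abs_self _).trans (bdD hx0 hx hy0 hy hz 2 0 4)
  have m4 := (le_abs_self _).trans (bdD hx0 hx hy0 hy hz 2 1 3)
  have m5 := (le_abs_self _).trans (bdD hx0 hx hy0 hy hz 2 2 2)
  have m6 := (le_abs_self _).trans (bdD hx0 hx hy0 hy hz 2 3 1)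
  have m7 := (le_abs_self _).trans (bdD hx0 hx hy0 hy hz 2 4 0)
  have m8 := bdB hx0 hx hy0 hy 1 5
  have m9 : 0 ≤ x ^ 3 * y ^ 0 * z ^ 4 := by positivity
  linarith [m0, m1, m2, m3, m4, m5, m6, m7, m8, m9]

theorem Qd9_le {x y z : ℝ} (hx0 : 0 ≤ x) (hx : x ≤ 1 / 10) (hy0 : 0 ≤ y)
    (hy : y ≤ 175 / 10000) (hz : |z| ≤ x / 5 + 5 / 4 * y) :
    Qd9 x y z ≤ (1 / 5000000) * x + (3 / 10000000) * y := by
  unfold Qd9
  have m0 := (neg_le_abs _).trans (bdD hx0 hx hy0 hy hz 3 1 2)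
  have m1 : 0 ≤ x ^ 3 * y ^ 2 * z ^ 2 := by positivity
  have m2 := (neg_le_abs _).trans (bdD hx0 hx hy0 hy hz 3 3 0)
  have m3 : 0 ≤ x ^ 3 * y ^ 4 := by positivity
  have m4 := (le_abs_self _).trans (bdD hx0 hx hy0 hy hz 4 0 2)
  have m5 := (le_abs_self _).trans (bdD hx0 hx hy0 hy hz 4 1 1)
  have m6 := (le_abs_self _).trans (bdD hx0 hx hy0 hy hz 4 2 0)
  have m7 := bdB hx0 hx hy0 hy 3 3
  have m8 : 0 ≤ x ^ 5 * y ^ 0 * z ^ 2 := by positivity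
  have m9 := (neg_le_abs _).trans (bdD hx0 hx hy0 hy hz 5 1 0)
  linarith [m0, m1, m2, m3, m4, m5, m6, m7, m8, m9]

theorem Qd10_le {x y z : ℝ} (hx0 : 0 ≤ x) (hx : x ≤ 1 / 10) (hy0 : 0 ≤ y)
    (hy : y ≤ 175 / 10000) (hz : |z| ≤ x / 5 + 5 / 4 * y) :
    Qd10 x y z ≤ (1 / 2500000) * x + (1 / 2500000) * y := by
  unfold Qd10
  have m0 : 0 ≤ x ^ 5 * y ^ 2 := by positivity
  have m1 := (le_abs_self _).trans (bdD hx0 hx hy0 hy hz 6 0 0)
  have m2 := bdB hx0 hx hy0 hy 5 1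
  have m3 := bdB hx0 hx hy0 hy 6 0
  linarith [m0, m1, m2, m3]

/-- the closure polynomials -/
noncomputable def TH (x y z : ℝ) : ℝ := 1 - 431 / 2000 * x + 131 / 1000 * y + 233 / 1000 * z
noncomputable def GF (x y : ℝ) : ℝ := 1 - 653 / 500 * x + 2583 / 1000 * y
noncomputable def pA2 (x y z : ℝ) : ℝ := x / 4 * TH x y z + x / 4 + 27 / 50 * (y / 16 * x) -
  91 / 200 * (-(z / 8) * x)
noncomputable def pL2 (x : ℝ) : ℝ := x / 4 * (1 - 54 / 125 * x) + x / 4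
noncomputable def pB2 (x y : ℝ) : ℝ := y / 16 * GF x y + y / 16 + 1307 / 1000 * (x / 4 * x)
noncomputable def pC2 (x z : ℝ) : ℝ := -(z / 8) * (1 - 437 / 250 * x) - z / 8 +
  1877 / 1000 * (x / 4 * x)
noncomputable def pD2 (x y z : ℝ) : ℝ := -(z / 8) * (1 - 1159 / 1000 * x) - z / 8 +
  51 / 50 * (x / 4 * x) - 351 / 250 * (y / 16 * x)
noncomputable def pA3 (x y z : ℝ) : ℝ := pA2 x y z * TH x y z + x / 4 +
  27 / 50 * (pB2 x y * x) - 91 / 200 * (pD2 x y z * x)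
noncomputable def pB3 (x y z : ℝ) : ℝ := pB2 x y * GF x y + y / 16 +
  1307 / 1000 * (pA2 x y z * x)
noncomputable def pC3 (x y z : ℝ) : ℝ := pC2 x z * (1 - 437 / 250 * x) - z / 8 +
  1877 / 1000 * (pA2 x y z * x)
noncomputable def pD3 (x y z : ℝ) : ℝ := pD2 x y z * (1 - 1159 / 1000 * x) - z / 8 +
  51 / 50 * (pL2 x * x) - 351 / 250 * (pB2 x y * x)
noncomputable def pA4 (x y z : ℝ) : ℝ := pA3 x y z * TH x y z + x / 4 +
  27 / 50 * (pB3 x y z * x) - 91 / 200 * (pD3 x y z * x)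
noncomputable def pB4 (x y z : ℝ) : ℝ := pB3 x y z * GF x y + y / 16 +
  1307 / 1000 * (pA3 x y z * x)
noncomputable def pC4 (x y z : ℝ) : ℝ := pC3 x y z * (1 - 437 / 250 * x) - z / 8 +
  1877 / 1000 * (pA3 x y z * x)

theorem poly_id (x y z : ℝ) : pA4 x y z * (1 + 67 / 100 * pB4 x y z + 921 / 2000 * pC4 x y z) =
    x * (1 + 67 / 100 * y + 921 / 2000 * z) + x * (Qd0 x y z + Qd1 x y z + Qd2 x y z + Qd3 x y z + Qd4 x y z + Qd5 x y z + Qd6 x y z + Qd7 x y z + Qd8 x y z + Qd9 x y z + Qd10 x y z) := by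
  simp only [pA4, pB4, pC4, pD3, pC3, pB3, pA3, pD2, pC2, pB2, pL2, pA2, GF, TH,
    Qd0, Qd1, Qd2, Qd3, Qd4, Qd5, Qd6, Qd7, Qd8, Qd9, Qd10]
  ring

end Vale.Agent.P154N
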