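import Vale.Agent.P154.N3Pos

/-! P154, three states: coefficient positivity on subcones of the sorted chamber -/

namespace Vale.Agent.P154N

open Vale.Agent.P154.G Vale.Agent.P154.Q4L

/-- cones: three integer vectors -/
abbrev Cn := (ℕ × ℕ × ℕ) × (ℕ × ℕ × ℕ) × (ℕ × ℕ × ℕ)

/-- points of a cone -/
def pt (K : Cn) (x y z : ℝ) : V 3 :=
  ![K.1.1 * x + K.2.1.1 * y + K.2.2.1 * z, K.1.2.1 * x + K.2.1.2.1 * y + K.2.2.2.1 * z,
    K.1.2.2 * x + K.2.1.2.2 * y + K.2.2.2.2 * z]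

/-- invariants of a normalised point of a cone -/
def InK (K : Cn) (a b : ℝ) : Prop :=
  ∃ x y z : ℝ, 0 ≤ x ∧ 0 ≤ y ∧ 0 ≤ z ∧ sg (pt K x y z) = 1 ∧ E2 (pt K x y z) = a ∧
    E3 (pt K x y z) = b

/-- `g M = α A + β B` -/
def Mid (A B M : ℕ × ℕ × ℕ) (g α β : ℕ) : Prop :=
  0 < g ∧ 0 < α ∧ 0 < β ∧ g * M.1 = α * A.1 + β * B.1 ∧ g * M.2.1 = α * A.2.1 + β * B.2.1 ∧
    g * M.2.2 = α * A.2.2 + β * B.2.2

instance (A B M : ℕ × ℕ × ℕ) (g α β : ℕ) : Decidable (Mid A B M g α β) := by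
  unfold Mid; infer_instance

lemma InK.of_eq {K K' : Cn} {x y z x' y' z' a b : ℝ} (hx : 0 ≤ x') (hy : 0 ≤ y') (hz : 0 ≤ z')
    (e : pt K x y z = pt K' x' y' z') (h1 : sg (pt K x y z) = 1) (h2 : E2 (pt K x y z) = a)
    (h3 : E3 (pt K x y z) = b) : InK K' a b :=
  ⟨x', y', z', hx, hy, hz, by rw [← e]; exact h1, by rw [← e]; exact h2, by rw [← e]; exact h3⟩

lemma mid_cast {A B M : ℕ × ℕ × ℕ} {g α β : ℕ} (h : Mid A B M g α β) :
    (0 : ℝ) < g ∧ (0 : ℝ) < α ∧ (0 : ℝ) < β ∧ (g : ℝ) * M.1 = α * A.1 + β * B.1 ∧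
      (g : ℝ) * M.2.1 = α * A.2.1 + β * B.2.1 ∧ (g : ℝ) * M.2.2 = α * A.2.2 + β * B.2.2 := by
  obtain ⟨h0, h1, h2, h3, h4, h5⟩ := h
  exact ⟨by exact_mod_cast h0, by exact_mod_cast h1, by exact_mod_cast h2, by exact_mod_cast h3,
    by exact_mod_cast h4, by exact_mod_cast h5⟩

/-- solve one coordinate, left half -/
lemma coordL {g α β a b m x y : ℝ} (hβ : 0 < β) (h : g * m = α * a + β * b) :
    a * x + b * y = a * (x - α * y / β) + m * (g * y / β) := by
  have e : m * (g * y / β) = (g * m) * y / β := by ring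
  rw [e, h]
  field_simp
  ring

/-- solve one coordinate, right half -/
lemma coordR {g α β a b m x y : ℝ} (hα : 0 < α) (h : g * m = α * a + β * b) :
    a * x + b * y = m * (g * x / α) + b * (y - β * x / α) := by
  have e : m * (g * x / α) = (g * m) * x / α := by ring
  rw [e, h]
  field_simp
  ring

theorem splitAB {A B C M : ℕ × ℕ × ℕ} {g α β : ℕ} (hm : Mid A B M g α β) {a b : ℝ}
    (h : InK (A, B, C) a b) : InK (A, M, C) a b ∨ InK (M, B, C) a b := by
  obtain ⟨x, y, z, hx, hy, hz, h1, h2, h3⟩ := h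
  obtain ⟨g0, a0, b0, e1, e2, e3⟩ := mid_cast hm
  rcases le_total (α * y) (x * β) with hc | hc
  · left
    refine InK.of_eq (x' := x - α * y / β) (y' := g * y / β) (z' := z) ?_ ?_ hz ?_ h1 h2 h3
    · rw [sub_nonneg, div_le_iff₀ b0]; exact hc
    · positivity
    · unfold pt
      simp only [coordL b0 e1 (x := x) (y := y), coordL b0 e2 (x := x) (y := y),
        coordL b0 e3 (x := x) (y := y)]
  · right
    refine InK.of_eq (x' := g * x / α) (y' := y - β * x / α) (z' := z) ?_ ?_ hz ?_ h1 h2 h3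
    · positivity
    · rw [sub_nonneg, div_le_iff₀ a0]; linarith
    · unfold pt
      simp only [coordR a0 e1 (x := x) (y := y), coordR a0 e2 (x := x) (y := y),
        coordR a0 e3 (x := x) (y := y)]

lemma rot {A B C : ℕ × ℕ × ℕ} {a b : ℝ} (h : InK (A, B, C) a b) : InK (B, C, A) a b := by
  obtain ⟨x, y, z, hx, hy, hz, h1, h2, h3⟩ := h
  refine InK.of_eq (x' := y) (y' := z) (z' := x) hy hz hx ?_ h1 h2 h3
  unfold pt
  funext i
  fin_cases i <;> simp <;> ring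

theorem splitBC {A B C M : ℕ × ℕ × ℕ} {g α β : ℕ} (hm : Mid B C M g α β) {a b : ℝ}
    (h : InK (A, B, C) a b) : InK (A, B, M) a b ∨ InK (A, M, C) a b := by
  rcases splitAB hm (rot h) with h | h
  · left; exact rot (rot h)
  · right; exact rot (rot h)

theorem splitAC {A B C M : ℕ × ℕ × ℕ} {g α β : ℕ} (hm : Mid A C M g α β) {a b : ℝ}
    (h : InK (A, B, C) a b) : InK (A, B, M) a b ∨ InK (M, B, C) a b := by
  have hm' : Mid C A M g β α := by
    obtain ⟨h0, h1, h2, h3, h4, h5⟩ := hm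
    exact ⟨h0, h2, h1, by omega, by omega, by omega⟩
  rcases splitAB hm' (rot (rot h)) with h | h
  · right; exact rot h
  · left; exact rot h

/-- the sorted chamber -/
def root : Cn := ((1, 0, 0), (1, 1, 0), (1, 1, 1))

theorem in_root {v : V 3} (hv : ∀ i, 0 ≤ v i) (h1 : sg v = 1) : InK root (E2 v) (E3 v) := by
  obtain ⟨x, y, z, hx, hy, hz, e1, e2, e3⟩ := sorted3 v hv
  refine ⟨x, y, z, hx, hy, hz, ?_, ?_, ?_⟩
  · rw [← h1, e1, sg3]
    simp [pt, root]
    ring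
  · rw [e2, E2, e2c]
    simp [pt, root]
  · rw [e3, E3, e3c]
    simp [pt, root]

/-- a correct table for a cone -/
structure TabC (n : ℕ) (es : List (ℕ × ℕ × ℕ)) (ks : List (ℕ × ℕ)) (tab : List (List ℕ))
    (K : Cn) : Prop where
  len : es.length = n
  val : ∀ x y z : ℝ, sg (pt K x y z) = 1 →
    (tab.map fun A => ndot A (mons es x y z)) = KV ks (E2 (pt K x y z)) (E3 (pt K x y z))

variable {n : ℕ} {es : List (ℕ × ℕ × ℕ)} {ks : List (ℕ × ℕ)} {tab tab' : List (List ℕ)}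
  {K K' : Cn}

theorem TabC.pos1 (T : TabC n es ks tab K) {cs : List ℤ} (h : chk1 n tab cs = true) {a b : ℝ}
    (hK : InK K a b) : 0 ≤ zd cs (KV ks a b) := by
  obtain ⟨x, y, z, hx, hy, hz, e1, e2, e3⟩ := hK
  rw [← e2, ← e3, ← T.val x y z e1]
  exact one_pos (mons_nonneg es hx hy hz) h

/-- test for two vectors and two tables -/
def chk3 (n : ℕ) (As Bs : List (List ℕ)) (C : List (List ℤ)) : Bool :=
  chkAll n (rowsOf n As) Bs (C.map posL) (C.map negL)

theorem three_pos {n : ℕ} {As Bs : List (List ℕ)} {C : List (List ℤ)} {M M' : List ℝ}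
    (hn : M.length = n) (hM : ∀ x ∈ M, 0 ≤ x) (hM' : ∀ x ∈ M', 0 ≤ x)
    (h : chk3 n As Bs C = true) :
    0 ≤ rdot (As.map fun A => ndot A M)
      (C.map fun c => zd c (Bs.map fun A => ndot A M')) := by
  have h1 := cert_pos (M := M) (M' := M') (As := As) (As' := Bs) (rows := rowsOf n As)
    (by rw [hn]) hM hM' h
  rw [rdot_sub _ C _ (fun c => ndot (posL c) (Bs.map fun A => ndot A M'))
    (fun c => ndot (negL c) (Bs.map fun A => ndot A M')) (fun c => zd_eq c _), sub_nonneg]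
  rw [List.map_map, List.map_map] at h1
  exact h1

theorem TabC.pos2 (T : TabC n es ks tab K) (T' : TabC n es ks tab' K') {C : List (List ℤ)}
    (h : chk3 n tab tab' C = true) {a b a' b' : ℝ} (hK : InK K a b) (hK' : InK K' a' b') :
    0 ≤ rdot (KV ks a b) (C.map fun c => zd c (KV ks a' b')) := by
  obtain ⟨x, y, z, hx, hy, hz, e1, e2, e3⟩ := hK
  obtain ⟨x', y', z', hx', hy', hz', e1', e2', e3'⟩ := hK'
  rw [← e2, ← e3, ← e2', ← e3', ← T.val x y z e1, ← T'.val x' y' z' e1']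
  refine three_pos ?_ (mons_nonneg es hx hy hz) (mons_nonneg es hx' hy' hz') h
  rw [mons, List.length_map]
  exact T.len

end Vale.Agent.P154N
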