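import Vale.Agent.P154.N3Cone

/-! P154, three states: exponents and keys of degree 14 -/

namespace Vale.Agent.P154N

/-- exponents of degree 14 -/
def ec14 : List (ℕ × ℕ × ℕ) := [
  (14, 0, 0), (13, 1, 0), (13, 0, 1), (12, 2, 0), (12, 1, 1), (12, 0, 2), (11, 3, 0), (11, 2, 1),
  (11, 1, 2), (11, 0, 3), (10, 4, 0), (10, 3, 1), (10, 2, 2), (10, 1, 3), (10, 0, 4), (9, 5, 0),
  (9, 4, 1), (9, 3, 2), (9, 2, 3), (9, 1, 4), (9, 0, 5), (8, 6, 0), (8, 5, 1), (8, 4, 2), (8, 3,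
  3), (8, 2, 4), (8, 1, 5), (8, 0, 6), (7, 7, 0), (7, 6, 1), (7, 5, 2), (7, 4, 3), (7, 3, 4), (7,
  2, 5), (7, 1, 6), (7, 0, 7), (6, 8, 0), (6, 7, 1), (6, 6, 2), (6, 5, 3), (6, 4, 4), (6, 3, 5),
  (6, 2, 6), (6, 1, 7), (6, 0, 8), (5, 9, 0), (5, 8, 1), (5, 7, 2), (5, 6, 3), (5, 5, 4), (5, 4,
  5), (5, 3, 6), (5, 2, 7), (5, 1, 8), (5, 0, 9), (4, 10, 0), (4, 9, 1), (4, 8, 2), (4, 7, 3),
  (4, 6, 4), (4, 5, 5), (4, 4, 6), (4, 3, 7), (4, 2, 8), (4, 1, 9), (4, 0, 10), (3, 11, 0), (3,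
  10, 1), (3, 9, 2), (3, 8, 3), (3, 7, 4), (3, 6, 5), (3, 5, 6), (3, 4, 7), (3, 3, 8), (3, 2, 9),
  (3, 1, 10), (3, 0, 11), (2, 12, 0), (2, 11, 1), (2, 10, 2), (2, 9, 3), (2, 8, 4), (2, 7, 5),
  (2, 6, 6), (2, 5, 7), (2, 4, 8), (2, 3, 9), (2, 2, 10), (2, 1, 11), (2, 0, 12), (1, 13, 0), (1,
  12, 1), (1, 11, 2), (1, 10, 3), (1, 9, 4), (1, 8, 5), (1, 7, 6), (1, 6, 7), (1, 5, 8), (1, 4,
  9), (1, 3, 10), (1, 2, 11), (1, 1, 12), (1, 0, 13), (0, 14, 0), (0, 13, 1), (0, 12, 2), (0, 11,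
  3), (0, 10, 4), (0, 9, 5), (0, 8, 6), (0, 7, 7), (0, 6, 8), (0, 5, 9), (0, 4, 10), (0, 3, 11),
  (0, 2, 12), (0, 1, 13), (0, 0, 14)]

/-- keys of degree 14 -/
def kc14 : List (ℕ × ℕ) := [
  (0, 0), (1, 0), (2, 0), (3, 0), (4, 0), (5, 0), (6, 0), (7, 0), (0, 1), (1, 1), (2, 1), (3, 1),
  (4, 1), (5, 1), (0, 2), (1, 2), (2, 2), (3, 2), (4, 2), (0, 3), (1, 3), (2, 3), (0, 4), (1, 4)]

end Vale.Agent.P154N
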