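import Vale.Agent.P154.N3Cone

/-! P154, three states: exponents and keys of degree 8 -/

namespace Vale.Agent.P154N

/-- exponents of degree 8 -/
def ec8 : List (ℕ × ℕ × ℕ) := [
  (8, 0, 0), (7, 1, 0), (7, 0, 1), (6, 2, 0), (6, 1, 1), (6, 0, 2), (5, 3, 0), (5, 2, 1), (5, 1,
  2), (5, 0, 3), (4, 4, 0), (4, 3, 1), (4, 2, 2), (4, 1, 3), (4, 0, 4), (3, 5, 0), (3, 4, 1), (3,
  3, 2), (3, 2, 3), (3, 1, 4), (3, 0, 5), (2, 6, 0), (2, 5, 1), (2, 4, 2), (2, 3, 3), (2, 2, 4),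
  (2, 1, 5), (2, 0, 6), (1, 7, 0), (1, 6, 1), (1, 5, 2), (1, 4, 3), (1, 3, 4), (1, 2, 5), (1, 1,
  6), (1, 0, 7), (0, 8, 0), (0, 7, 1), (0, 6, 2), (0, 5, 3), (0, 4, 4), (0, 3, 5), (0, 2, 6), (0,
  1, 7), (0, 0, 8)]

/-- keys of degree 8 -/
def kc8 : List (ℕ × ℕ) := [
  (0, 0), (1, 0), (2, 0), (3, 0), (4, 0), (0, 1), (1, 1), (2, 1), (0, 2), (1, 2)]

end Vale.Agent.P154N
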