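import Vale.Agent.P154.N3Seq

/-! P154, three states, regular trees: nonreconstruction from `LCert` and bounds for the laws of
one, two, ..., `d - 1` messages at one level -/

namespace Vale.Agent.P154N

open Vale.Agent.P154.G Filter Topology

/-- moments of the law of `k` messages from a bound for the law at one level -/
theorem mom_of_Bd {d : ℕ} {lam0 : ℝ} {h0 : 0 ≤ 1 + (((3 : ℕ) : ℝ) - 1) * lam0 ∧ lam0 ≤ 1}
    {ι : Type*} [Fintype ι] {N k : ℕ} {g : ι → V 3} {w : ι → ℝ} (hg : ∀ j, sg (g j) = 1)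
    (hB : Bd (powF (fun a => chan lam0 (fam (PMF.pure d) (potts (q := 3) lam0 h0) N a)) k) g w)
    {i : ℕ} {E : ℝ} (hE : ∑ j, w j * (1 - 3 * E2 (g j)) ^ i ≤ E) {n : ℕ} (hn : N ≤ n) :
    Phi (pw i) (powF (fun a => chan lam0 (fam (PMF.pure d) (potts (q := 3) lam0 h0) n a)) k) ≤
      E := by
  refine (Bd.Phi_pow' (by norm_num) hn hB (ssub_pw (by norm_num) i)).trans
    (le_trans (le_of_eq ?_) hE)
  exact Finset.sum_congr rfl fun j _ => by rw [pw_one3 i (hg j)]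

/-- moments of the law of one message -/
theorem mom_of_Bd_one {d : ℕ} {lam0 : ℝ} {h0 : 0 ≤ 1 + (((3 : ℕ) : ℝ) - 1) * lam0 ∧ lam0 ≤ 1}
    {ι : Type*} [Fintype ι] {N : ℕ} {g : ι → V 3} {w : ι → ℝ} (hg : ∀ j, sg (g j) = 1)
    (hB : Bd (fam (PMF.pure d) (potts (q := 3) lam0 h0) N) g w)
    {i : ℕ} {E : ℝ} (hE : (lam0 ^ 2) ^ i * ∑ j, w j * (1 - 3 * E2 (g j)) ^ i ≤ E) {n : ℕ}
    (hn : N ≤ n) :
    Phi (pw i) (powF (fun a => chan lam0 (fam (PMF.pure d) (potts (q := 3) lam0 h0) n a)) 1) ≤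
      E := by
  refine (Bd.Phi_one (by norm_num) hn hB (ssub_pw (by norm_num) i)
    (pw_bdd (by norm_num) i)).trans (le_trans (le_of_eq ?_) hE)
  rw [Finset.mul_sum]
  refine Finset.sum_congr rfl fun j _ => ?_
  have h1 : sg (chan lam0 (g j)) = 1 := by rw [sg_chan (by norm_num)]; exact hg j
  rw [pw_one3 i h1, E2_chan (hg j)]
  have e : 1 - 3 * (1 / 3 - lam0 ^ 2 * (1 / 3 - E2 (g j))) = lam0 ^ 2 * (1 - 3 * E2 (g j)) := by
    ring
  rw [e, mul_pow]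
  ring

/-- moments of the law of up to `d` messages from a bound for the law at one level -/
theorem mom_of_Bd_top {d : ℕ} {lam0 : ℝ} {h0 : 0 ≤ 1 + (((3 : ℕ) : ℝ) - 1) * lam0 ∧ lam0 ≤ 1}
    {ι : Type*} [Fintype ι] {N k : ℕ} {g : ι → V 3} {w : ι → ℝ} (hg : ∀ j, sg (g j) = 1)
    (hB : Bd (fam (PMF.pure d) (potts (q := 3) lam0 h0) N) g w) (hk : k ≤ d)
    {i : ℕ} {E : ℝ} (hE : ∑ j, w j * (1 - 3 * E2 (g j)) ^ i ≤ E) {n : ℕ} (hn : N ≤ n) :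
    Phi (pw i) (powF (fun a => chan lam0 (fam (PMF.pure d) (potts (q := 3) lam0 h0) n a)) k) ≤
      E := by
  refine (Bd.Phi_pow (by norm_num) hn hB (ssub_pw (by norm_num) i) hk).trans
    (le_trans (le_of_eq ?_) hE)
  exact Finset.sum_congr rfl fun j _ => by rw [pw_one3 i (hg j)]

/-- nonreconstruction on the regular trees with at most `d` children -/
theorem LCert.nonrecon {d : ℕ} {c t : ℝ} {φ g : ℕ → ℝ → ℝ → ℝ} {nI nJ : ℕ}
    {C : ℕ → Fin nJ → Fin nI → ℝ} {gam : Fin nJ → ℝ} (H : LCert d c t φ g C gam)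
    (hC : ∀ k j i, 0 ≤ C k j i) {lam0 : ℝ} (h0 : 0 ≤ 1 + (((3 : ℕ) : ℝ) - 1) * lam0 ∧ lam0 ≤ 1)
    (hl0 : lam0 < 0) (hl : d * lam0 ^ 2 = 1) (N : ℕ) (e : ℕ → Fin nI → ℝ)
    (he : ∀ n, N ≤ n → ∀ k, 1 ≤ k → k < d → ∀ i : Fin nI, Phi (pw ((i : ℕ) + 1))
      (powF (fun a => chan lam0 (fam (PMF.pure d) (potts (q := 3) lam0 h0) n a)) k) ≤ e k i)
    (hgam : ∀ j, ∑ k ∈ Finset.Ico 1 d, ∑ i, C k j i * e k i ≤ gam j) {d' : ℕ} (hd : d' ≤ d)
    {lam' : ℝ} (h' : 0 ≤ 1 + (((3 : ℕ) : ℝ) - 1) * lam' ∧ lam' ≤ 1) (h1 : lam0 ≤ lam')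
    (h2 : lam' ≤ 0) :
    Tendsto (fun n => an (PMF.pure d') (potts (q := 3) lam' h') n) atTop (𝓝 0) := by
  have h := H.X_tendsto hC h0 hl0 hl N e he hgam
  have e : (fun n => et d h0 n 1) = fun n => X (fam (PMF.pure d) (potts (q := 3) lam0 h0) n) :=
    funext fun n => et_X h0 n
  rw [← e] at h
  exact an_of_et_le h0 h hl0 hd h' h1 h2

end Vale.Agent.P154N
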