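import Vale.Agent.P154.N3Clo4
import Vale.Agent.P154.N3LocEnd

/-! P154, three states: nonreconstruction on the trees with at most four children from a bound for
the law at one level -/

namespace Vale.Agent.P154N

open Vale.Agent.P154.G Filter Topology

theorem loc4_of_Bd (HR : BilIneq 1 1 MR) (HG : BilIneq 1 2 MG) (HP : BilIneq 1 3 MP)
    (HM : BilIneq (-1) 3 MM) (HL : BilIneq (-1) 1 ML)
    (h0 : 0 ≤ 1 + (((3 : ℕ) : ℝ) - 1) * (-(1 / 2)) ∧ (-(1 / 2) : ℝ) ≤ 1)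
    {ι : Type*} [Fintype ι] {N : ℕ} {g : ι → V 3} {w : ι → ℝ} (hg : ∀ j, sg (g j) = 1)
    (hB : Bd (fam (PMF.pure 4) (potts (q := 3) (-(1 / 2)) h0) N) g w)
    (h1 : ∑ j, w j * (1 - 3 * E2 (g j)) ≤ 1 / 10)
    (h2 : ∑ j, w j * (1 - 3 * E2 (g j)) ^ 2 ≤ 175 / 10000) {d' : ℕ} (hd : d' ≤ 4) {lam' : ℝ}
    (h' : 0 ≤ 1 + (((3 : ℕ) : ℝ) - 1) * lam' ∧ lam' ≤ 1) (hl : lam' ≤ 0) :
    Tendsto (fun n => an (PMF.pure d') (potts (q := 3) lam' h') n) atTop (𝓝 0) := by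
  have hl' : -(1 / 2) ≤ lam' := by
    have := h'.1
    push_cast at this
    linarith
  have key := loc4 h0 HR HG HP HM HL N (by
    rw [et_X]
    refine (Bd.X_le (by norm_num) hB).trans (le_trans (le_of_eq ?_) h1)
    exact Finset.sum_congr rfl fun j _ => by rw [Rf_one3 (hg j)]) (fun n hn => by
    show Phi (Fe 2) _ ≤ _
    rw [Phi_Fe_Y (nf h0 n)]
    refine ((Bd.mono (by norm_num) hn hB) (pw 2) (ssub_pw (by norm_num) 2)).trans
      (le_trans (le_of_eq ?_) h2)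
    exact Finset.sum_congr rfl fun j _ => by rw [pw_one3 2 (hg j)])
  exact an_of_et_le h0 key (by norm_num) hd h' hl' hl

end Vale.Agent.P154N
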