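import Vale.Agent.P154.N3T9

/-! P154, three states: certificate at eigenvalue -1/2 -/

set_option linter.unusedSimpArgs false

namespace Vale.Agent.P154N

open Vale.Agent.P154.G Vale.Agent.P154.Q4L

/-- the potential -/
noncomputable def phiHalf (a b : ℝ) : ℝ :=
    1 * (a ^ 0 * b ^ 0) + (-34131 / 20000) * (a ^ 0 * b ^ 1) + (15072723 / 80000) * (a ^ 0 * b ^
    2) + (-107783 / 30000) * (a ^ 1 * b ^ 0) + (-1217241 / 40000) * (a ^ 1 * b ^ 1) + (-640791 /
    4000) * (a ^ 1 * b ^ 2) + (298107 / 80000) * (a ^ 2 * b ^ 0) + (33291 / 2000) * (a ^ 2 * b ^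
    1) + (8721 / 4000) * (a ^ 3 * b ^ 0) + (-1134 / 125) * (a ^ 4 * b ^ 0)

/-- the majorant -/
noncomputable def LHalf : List (ℝ × ℕ × ℕ × ℕ) := [
  ((448587 / 8192000), 0, 0, 0), ((-7316797 / 4096000), 1, 0, 0), ((2198966897 / 184320000), 1,
  1, 0), ((-13248671 / 576000), 0, 0, 1), ((114350673 / 8192000), 2, 0, 0), ((-2932507963 /
  23040000), 2, 1, 0), ((5464687297 / 46080000), 1, 0, 1), ((4040253773 / 23040000), 2, 2, 0),
  ((24127053 / 32000), 1, 1, 1), ((-165356553 / 80000), 0, 0, 2), ((-49682199 / 1024000), 3, 0,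
  0), ((9026923661 / 23040000), 3, 1, 0), ((-7943001 / 80000), 2, 0, 1), ((-50975921 / 80000), 3,
  2, 0), ((-13800751 / 2500), 2, 1, 1), ((409821453 / 32000), 1, 0, 2), ((578777 / 4000), 3, 3,
  0), ((52879679 / 8000), 2, 2, 1), ((-8358063 / 500), 1, 1, 2), ((28185633 / 8000), 0, 0, 3),
  ((210807 / 2000), 4, 0, 0), ((-404357 / 500), 4, 1, 0), ((8119 / 25), 3, 0, 1), ((259373 /
  250), 4, 2, 0), ((4859893 / 800), 3, 1, 1), ((-19489807 / 2000), 2, 0, 2), ((-178781 / 4000),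
  4, 3, 0), ((-10197993 / 1000), 3, 2, 1), ((51104129 / 4000), 2, 1, 2), ((-31802 / 125), 4, 4,
  0), ((408163 / 200), 3, 3, 1), ((-296557 / 2000), 5, 0, 0), ((1081037 / 1000), 5, 1, 0),
  ((-260749 / 400), 4, 0, 1), ((-1240421 / 1000), 5, 2, 0), ((-313994 / 125), 4, 1, 1), ((4882011
  / 2000), 3, 0, 2), ((238361 / 1000), 5, 3, 0), ((2488609 / 1000), 4, 2, 1), ((18346 / 125), 5,
  4, 0), ((67513 / 500), 6, 0, 0), ((-43601 / 50), 6, 1, 0), ((499657 / 1000), 5, 0, 1), ((197129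
  / 250), 6, 2, 0), ((288341 / 1000), 5, 1, 1), ((-38089 / 250), 6, 3, 0), ((-153393 / 2000), 7,
  0, 0), ((47658 / 125), 7, 1, 0), ((-260167 / 2000), 6, 0, 1), ((-96201 / 500), 7, 2, 0),
  ((49237 / 2000), 8, 0, 0), ((-34481 / 500), 8, 1, 0), ((-424 / 125), 9, 0, 0)]

/-- the majorant in the elementary symmetric functions -/
noncomputable def TEHalf (Z a b : ℝ) : ℝ :=
    (1345761 / 4096000) * (Z ^ 0 * a ^ 0 * b ^ 0) + (-945533 / 20000) * (Z ^ 0 * a ^ 0 * b ^ 1) +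
    (57218169 / 40000) * (Z ^ 0 * a ^ 0 * b ^ 2) + (-736703347 / 23040000) * (Z ^ 0 * a ^ 1 * b ^
    0) + (-147961 / 8000) * (Z ^ 0 * a ^ 1 * b ^ 1) + (-640791 / 500) * (Z ^ 0 * a ^ 1 * b ^ 2) +
    (-225133 / 20000) * (Z ^ 0 * a ^ 2 * b ^ 0) + (-366963 / 2000) * (Z ^ 0 * a ^ 2 * b ^ 1) +
    (-327251 / 2000) * (Z ^ 0 * a ^ 3 * b ^ 0) + (-9072 / 125) * (Z ^ 0 * a ^ 4 * b ^ 0) +
    (-7316797 / 2048000) * (Z ^ 1 * a ^ 0 * b ^ 0) + (-128159 / 10000) * (Z ^ 1 * a ^ 0 * b ^ 1)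
    + (-19872723 / 16000) * (Z ^ 1 * a ^ 0 * b ^ 2) + (1887294451 / 11520000) * (Z ^ 1 * a ^ 1 *
    b ^ 0) + (1395771 / 10000) * (Z ^ 1 * a ^ 1 * b ^ 1) + (4485537 / 4000) * (Z ^ 1 * a ^ 1 * b
    ^ 2) + (24492639 / 80000) * (Z ^ 1 * a ^ 2 * b ^ 0) + (500127 / 1000) * (Z ^ 1 * a ^ 2 * b ^
    1) + (12487 / 32) * (Z ^ 1 * a ^ 3 * b ^ 0) + (7938 / 125) * (Z ^ 1 * a ^ 4 * b ^ 0) +
    (114350673 / 4096000) * (Z ^ 2 * a ^ 0 * b ^ 0) + (50219 / 125) * (Z ^ 2 * a ^ 0 * b ^ 1) +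
    (-300) * (Z ^ 2 * a ^ 0 * b ^ 2) + (-10401049459 / 23040000) * (Z ^ 2 * a ^ 1 * b ^ 0) +
    (-645521 / 1000) * (Z ^ 2 * a ^ 1 * b ^ 1) + (-214047 / 250) * (Z ^ 2 * a ^ 2 * b ^ 0) +
    (-300) * (Z ^ 2 * a ^ 2 * b ^ 1) + (-272119 / 1000) * (Z ^ 2 * a ^ 3 * b ^ 0) + (-49682199 /
    512000) * (Z ^ 3 * a ^ 0 * b ^ 0) + (-886189 / 1000) * (Z ^ 3 * a ^ 0 * b ^ 1) + 300 * (Z ^ 3
    * a ^ 0 * b ^ 2) + (674071 / 1000) * (Z ^ 3 * a ^ 1 * b ^ 0) + (702843 / 1000) * (Z ^ 3 * a ^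
    1 * b ^ 1) + (972177 / 1000) * (Z ^ 3 * a ^ 2 * b ^ 0) + (23853 / 500) * (Z ^ 3 * a ^ 3 * b ^
    0) + (210807 / 1000) * (Z ^ 4 * a ^ 0 * b ^ 0) + (487683 / 500) * (Z ^ 4 * a ^ 0 * b ^ 1) +
    (-21571 / 40) * (Z ^ 4 * a ^ 1 * b ^ 0) + (-41767 / 200) * (Z ^ 4 * a ^ 1 * b ^ 1) + (-64291
    / 125) * (Z ^ 4 * a ^ 2 * b ^ 0) + (-296557 / 1000) * (Z ^ 5 * a ^ 0 * b ^ 0) + (-282543 /
    500) * (Z ^ 5 * a ^ 0 * b ^ 1) + (201731 / 1000) * (Z ^ 5 * a ^ 1 * b ^ 0) + (26791 / 250) *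
    (Z ^ 5 * a ^ 2 * b ^ 0) + (67513 / 250) * (Z ^ 6 * a ^ 0 * b ^ 0) + (132543 / 1000) * (Z ^ 6
    * a ^ 0 * b ^ 1) + (-1579 / 125) * (Z ^ 6 * a ^ 1 * b ^ 0) + (-153393 / 1000) * (Z ^ 7 * a ^
    0 * b ^ 0) + (-3953 / 500) * (Z ^ 7 * a ^ 1 * b ^ 0) + (49237 / 1000) * (Z ^ 8 * a ^ 0 * b ^
    0) + (-848 / 125) * (Z ^ 9 * a ^ 0 * b ^ 0)

theorem TSHalf (Z a b : ℝ) : TS LHalf Z a b = TEHalf Z a b := by
  simp only [TS, LHalf, TEHalf, MK, List.map_cons, List.map_nil, List.sum_cons, List.sum_nil,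
    psE0, psE1, psE2, psE3, psE4, psE5, psE6, psE7, psE8, psE9, psE10, psE11, psE12, psE13,
    psE14, psE15, psE16, psE17, psE18, Nat.reduceAdd]
  ring

/-- coefficients -/
def loHalf : List ℤ := [
  27120, -223624, 894321, 523260, -2177280, -409572, -7303446, 3994920, 0, 45218169, -38447460, 0]

lemma loHalf_eq (a b : ℝ) : (phiHalf a b - (887 / 1000) * (1 - 3 * a)) * 240000 = zd loHalf (KV ks9 a b) := by
  simp only [phiHalf, zd, loHalf, KV, ks9, List.map_cons, List.map_nil]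
  push_cast
  ring

lemma loHalf_chk : chk1 55 tab9 loHalf = true := by decide +kernel

/-- coefficients -/
def hiHalf : List ℤ := [
  81600, -102536, -894321, -523260, 2177280, 409572, 7303446, -3994920, 0, -45218169, 38447460, 0]

lemma hiHalf_eq (a b : ℝ) : ((67 / 50) * (1 - 3 * a) - phiHalf a b) * 240000 = zd hiHalf (KV ks9 a b) := by
  simp only [phiHalf, zd, hiHalf, KV, ks9, List.map_cons, List.map_nil]
  push_cast
  ring

lemma hiHalf_chk : chk1 55 tab9 hiHalf = true := by decide +kernel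

/-- coefficients -/
def rayHalf_0 : List ℤ := [
  81212, -670428, 2682963, 1569780, -6531840, -1228716, -21910338, 11984760, 0, 135654507,
  -115342380, 0]

lemma rayHalf_0_chk : chk1 55 tab9 rayHalf_0 = true := by decide +kernel

/-- coefficients -/
def rayHalf_1 : List ℤ := [
  487272, -4022568, 16097778, 9418680, -39191040, -7372296, -131462028, 71908560, 0, 813927042,
  -692054280, 0]

lemma rayHalf_1_chk : chk1 55 tab9 rayHalf_1 = true := by decide +kernel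

/-- coefficients -/
def rayHalf_2 : List ℤ := [
  812100, -7619940, 36589725, 23546700, -97977600, -18430740, -328655070, 179771400, 0,
  2034817605, -1730135700, 0]

lemma rayHalf_2_chk : chk1 55 tab9 rayHalf_2 = true := by decide +kernel

/-- coefficients -/
def rayHalf_3 : List ℤ := [
  1045360, -11503440, 53153820, 31395600, -130636800, -10460880, -480547080, 239695200, 0,
  2713090140, -2306847600, 0]

lemma rayHalf_3_chk : chk1 55 tab9 rayHalf_3 = true := by decide +kernel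

/-- coefficients -/
def rayHalf_4 : List ℤ := [
  793528, -8839512, 33895422, 39506940, -97977600, 9508536, -390871332, 179771400, 0, 1937610558,
  -1730135700, 0]

lemma rayHalf_4_chk : chk1 55 tab9 rayHalf_4 = true := by decide +kernel

/-- coefficients -/
def rayHalf_5 : List ℤ := [
  284528, -3167712, 9529812, 19702440, -39191040, 13378176, -172147032, 136818720, 0, 619512948,
  -692054280, 0]

lemma rayHalf_5_chk : chk1 55 tab9 rayHalf_5 = true := by decide +kernel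

lemma rayHalf_eq (a b τ : ℝ) : (τ ^ 2 * phiHalf a b - phiHalf (1 / 3 - τ ^ 2 * (1 / 3 - a))
    (((1 - τ) / 3) ^ 3 + ((1 - τ) / 3) ^ 2 * τ + (1 - τ) / 3 * τ ^ 2 * a + τ ^ 3 * b)) * 720000 =
    τ ^ 2 * (1 - τ) * (τ ^ 0 * (1 - τ) ^ 5 * zd rayHalf_0 (KV ks9 a b) +
      τ ^ 1 * (1 - τ) ^ 4 * zd rayHalf_1 (KV ks9 a b) +
      τ ^ 2 * (1 - τ) ^ 3 * zd rayHalf_2 (KV ks9 a b) +
      τ ^ 3 * (1 - τ) ^ 2 * zd rayHalf_3 (KV ks9 a b) +
      τ ^ 4 * (1 - τ) ^ 1 * zd rayHalf_4 (KV ks9 a b) +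
      τ ^ 5 * (1 - τ) ^ 0 * zd rayHalf_5 (KV ks9 a b)) := by
  simp only [phiHalf, zd, rayHalf_0, rayHalf_1, rayHalf_2, rayHalf_3, rayHalf_4, rayHalf_5, KV, ks9, List.map_cons, List.map_nil]
  push_cast
  ring

/-- coefficients -/
def mjHalf_0_0 : List ℤ := [
  60559245, 0, 0, 0, 0, 0, 0, 0, 0, 0, 0, 0]

lemma mjHalf_0_0_chk : chk1 55 tab9 mjHalf_0_0 = true := by decide +kernel

/-- coefficients -/
def mjHalf_0_1 : List ℤ := [
  63058095, 331109376, -343419264, -200931840, 836075520, 157275648, 2804523264, -1534049280, 0,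
  -17363776896, 14763824640, 0]

lemma mjHalf_0_1_chk : chk1 55 tab9 mjHalf_0_1 = true := by decide +kernel

/-- coefficients -/
def mjHalf_0_2 : List ℤ := [
  17053065, 844358938, -2403934848, -1406522880, 5852528640, 1100929536, 19631662848,
  -10738344960, 0, -121546438272, 103346772480, 0]

lemma mjHalf_0_2_chk : chk1 55 tab9 mjHalf_0_2 = true := by decide +kernel

/-- coefficients -/
def mjHalf_0_3 : List ℤ := [
  23931315, 1804668290, -7125949728, -4169335680, 17348567040, 2174215680, 58193857728,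
  -31831522560, 0, -360298370592, 306349361280, 0]

lemma mjHalf_0_3_chk : chk1 55 tab9 mjHalf_0_3 = true := by decide +kernel

/-- coefficients -/
def mjHalf_0_4 : List ℤ := [
  32631255, 3031835140, -11634221952, -6731216640, 28008529920, -325175040, 93951529344,
  -51390650880, 0, -581686526016, 494588125440, 0]

lemma mjHalf_0_4_chk : chk1 55 tab9 mjHalf_0_4 = true := by decide +kernel

/-- coefficients -/
def mjHalf_0_5 : List ℤ := [
  17148285, 2624278660, -9508552128, -6291678240, 26179614720, -3971998080, 87710102784,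
  -48034918080, 0, -543703264056, 462292259040, 0]

lemma mjHalf_0_5_chk : chk1 55 tab9 mjHalf_0_5 = true := by decide +kernel

/-- coefficients -/
def mjHalf_0_6 : List ℤ := [
  4023315, 1054667906, -3523078656, -3748942080, 13638481920, -3696602112, 45831172032,
  -25024178880, 0, -279126902448, 240834889440, 0]

lemma mjHalf_0_6_chk : chk1 55 tab9 mjHalf_0_6 = true := by decide +kernel

/-- coefficients -/
def mjHalf_0_7 : List ℤ := [
  360225, 159421018, -428998176, -1156039200, 3226728960, -1089478944, 10405158048, -6184684800,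
  0, -60562455192, 56979135720, 0]

lemma mjHalf_0_7_chk : chk1 55 tab9 mjHalf_0_7 = true := by decide +kernel

lemma mjHalf_0_eq (Z a b : ℝ) : (TEHalf Z (Z ^ 2 * a) (Z ^ 3 * b) - Z * phiHalf a b) * 1440000 =
    (Z - 1) ^ 2 * ((Z - 0) ^ 0 * ((1 / 2) - Z) ^ 7 * zd mjHalf_0_0 (KV ks9 a b) +
      (Z - 0) ^ 1 * ((1 / 2) - Z) ^ 6 * zd mjHalf_0_1 (KV ks9 a b) +
      (Z - 0) ^ 2 * ((1 / 2) - Z) ^ 5 * zd mjHalf_0_2 (KV ks9 a b) +
      (Z - 0) ^ 3 * ((1 / 2) - Z) ^ 4 * zd mjHalf_0_3 (KV ks9 a b) +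
      (Z - 0) ^ 4 * ((1 / 2) - Z) ^ 3 * zd mjHalf_0_4 (KV ks9 a b) +
      (Z - 0) ^ 5 * ((1 / 2) - Z) ^ 2 * zd mjHalf_0_5 (KV ks9 a b) +
      (Z - 0) ^ 6 * ((1 / 2) - Z) ^ 1 * zd mjHalf_0_6 (KV ks9 a b) +
      (Z - 0) ^ 7 * ((1 / 2) - Z) ^ 0 * zd mjHalf_0_7 (KV ks9 a b)) := by
  simp only [TEHalf, phiHalf, zd, mjHalf_0_0, mjHalf_0_1, mjHalf_0_2, mjHalf_0_3, mjHalf_0_4, mjHalf_0_5, mjHalf_0_6, mjHalf_0_7, KV, ks9, List.map_cons, List.map_nil]
  push_cast
  ring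

/-- coefficients -/
def mjHalf_1_0 : List ℤ := [
  5763600, 2550736288, -6863970816, -18496627200, 51627663360, -17431663104, 166482528768,
  -98954956800, 0, -968999283072, 911666171520, 0]

lemma mjHalf_1_0_chk : chk1 55 tab9 mjHalf_1_0 = true := by decide +kernel

/-- coefficients -/
def mjHalf_1_1 : List ℤ := [
  28331280, 18345387776, -43887064320, -164223048960, 432982609920, -153459645696, 1381417175808,
  -838833615360, 0, -7941477252672, 7645815685440, 0]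

lemma mjHalf_1_1_chk : chk1 55 tab9 mjHalf_1_1 = true := by decide +kernel

/-- coefficients -/
def mjHalf_1_2 : List ℤ := [
  51244560, 55083315016, -108695166336, -629208518400, 1562154854400, -573378721920,
  4917295509120, -3066020501760, 0, -27862892205120, 27585283600800, 0]

lemma mjHalf_1_2_chk : chk1 55 tab9 mjHalf_1_2 = true := by decide +kernel

/-- coefficients -/
def mjHalf_1_3 : List ℤ := [
  43716240, 89210078920, -121563435456, -1347987640320, 3145498997760, -1179542226240,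
  9734732286912, -6270792215040, 0, -54246501521568, 55544737882320, 0]

lemma mjHalf_1_3_chk : chk1 55 tab9 mjHalf_1_3 = true := by decide +kernel

/-- coefficients -/
def mjHalf_1_4 : List ℤ := [
  24349680, 84045642800, -37032332544, -1742588186400, 3820407897600, -1443911176800,
  11574474924960, -7758811152000, 0, -63279386970840, 67462604638200, 0]

lemma mjHalf_1_4_chk : chk1 55 tab9 mjHalf_1_4 = true := by decide +kernel

/-- coefficients -/
def mjHalf_1_5 : List ℤ := [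
  8089200, 46168872688, 45286086528, -1357844167440, 2800781141760, -1052326251504,
  8262552861936, -5813073643680, 0, -44210485078884, 49457543777820, 0]

lemma mjHalf_1_5_chk : chk1 55 tab9 mjHalf_1_5 = true := by decide +kernel

/-- coefficients -/
def mjHalf_1_6 : List ℤ := [
  0, 13801327416, 43670723616, -589700658240, 1148261546880, -422812492056, 3276936964872,
  -2443925085840, 0, -17119250840448, 20276556020910, 0]

lemma mjHalf_1_6_chk : chk1 55 tab9 mjHalf_1_6 = true := by decide +kernel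

/-- coefficients -/
def mjHalf_1_7 : List ℤ := [
  0, 1755259056, 11262956688, -109930546440, 203200643520, -72182072700, 556450012764,
  -445066222320, 0, -2832011446356, 3588214935015, 0]

lemma mjHalf_1_7_chk : chk1 55 tab9 mjHalf_1_7 = true := by decide +kernel

lemma mjHalf_1_eq (Z a b : ℝ) : (TEHalf Z (Z ^ 2 * a) (Z ^ 3 * b) - Z * phiHalf a b) * 180000 =
    (Z - 1) ^ 2 * ((Z - (1 / 2)) ^ 0 * ((3 / 4) - Z) ^ 7 * zd mjHalf_1_0 (KV ks9 a b) +
      (Z - (1 / 2)) ^ 1 * ((3 / 4) - Z) ^ 6 * zd mjHalf_1_1 (KV ks9 a b) +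
      (Z - (1 / 2)) ^ 2 * ((3 / 4) - Z) ^ 5 * zd mjHalf_1_2 (KV ks9 a b) +
      (Z - (1 / 2)) ^ 3 * ((3 / 4) - Z) ^ 4 * zd mjHalf_1_3 (KV ks9 a b) +
      (Z - (1 / 2)) ^ 4 * ((3 / 4) - Z) ^ 3 * zd mjHalf_1_4 (KV ks9 a b) +
      (Z - (1 / 2)) ^ 5 * ((3 / 4) - Z) ^ 2 * zd mjHalf_1_5 (KV ks9 a b) +
      (Z - (1 / 2)) ^ 6 * ((3 / 4) - Z) ^ 1 * zd mjHalf_1_6 (KV ks9 a b) +
      (Z - (1 / 2)) ^ 7 * ((3 / 4) - Z) ^ 0 * zd mjHalf_1_7 (KV ks9 a b)) := by
  simp only [TEHalf, phiHalf, zd, mjHalf_1_0, mjHalf_1_1, mjHalf_1_2, mjHalf_1_3, mjHalf_1_4, mjHalf_1_5, mjHalf_1_6, mjHalf_1_7, KV, ks9, List.map_cons, List.map_nil]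
  push_cast
  ring

/-- coefficients -/
def mjHalf_2_0 : List ℤ := [
  0, 1755259056, 11262956688, -109930546440, 203200643520, -72182072700, 556450012764,
  -445066222320, 0, -2832011446356, 3588214935015, 0]

lemma mjHalf_2_0_chk : chk1 55 tab9 mjHalf_2_0 = true := by decide +kernel

/-- coefficients -/
def mjHalf_2_1 : List ℤ := [
  0, 10772299368, 114010670016, -949326991920, 1696547462400, -587736525744, 4513363213824,
  -3787002026640, 0, -22528909408536, 29958453069300, 0]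

lemma mjHalf_2_1_chk : chk1 55 tab9 mjHalf_2_1 = true := by decide +kernel

/-- coefficients -/
def mjHalf_2_2 : List ℤ := [
  8089200, 27994704400, 467325764928, -3515602169520, 6090496634880, -2041870453632,
  15681110355648, -13871535288480, 0, -76668436487412, 107548926068160, 0]

lemma mjHalf_2_2_chk : chk1 55 tab9 mjHalf_2_2 = true := by decide +kernel

/-- coefficients -/
def mjHalf_2_3 : List ℤ := [
  56542320, 41035974800, 1023277653504, -7234366996800, 12187890892800, -3921582170880,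
  30240839376000, -28354962384000, 0, -144633618370800, 215219653689600, 0]

lemma mjHalf_2_3_chk : chk1 55 tab9 mjHalf_2_3 = true := by decide +kernel

/-- coefficients -/
def mjHalf_2_4 : List ℤ := [
  172486800, 38332528840, 1306078652736, -8930049534720, 14683994357760, -4493264855040,
  34943140132992, -34932319511040, 0, -163277084397888, 259297052152320, 0]

lemma mjHalf_2_4_chk : chk1 55 tab9 mjHalf_2_4 = true := by decide +kernel

/-- coefficients -/
def mjHalf_2_5 : List ℤ := [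
  273796560, 23807052136, 978710683392, -6609303475200, 10651602124800, -3067461273600,
  24177465976320, -25935637432320, 0, -110241126178560, 188091125913600, 0]

lemma mjHalf_2_5_chk : chk1 55 tab9 mjHalf_2_5 = true := by decide +kernel

/-- coefficients -/
def mjHalf_2_6 : List ℤ := [
  215894160, 9083513408, 401079601152, -2714310512640, 4307461079040, -1152964030464,
  9267762401280, -10744243937280, 0, -41191316536320, 76063224545280, 0]

lemma mjHalf_2_6_chk : chk1 55 tab9 mjHalf_2_6 = true := by decide +kernel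

/-- coefficients -/
def mjHalf_2_7 : List ℤ := [
  64910160, 1549256320, 69767258112, -476886712320, 749123665920, -183477583872, 1516756746240,
  -1915617116160, 0, -6565140910080, 13228386877440, 0]

lemma mjHalf_2_7_chk : chk1 55 tab9 mjHalf_2_7 = true := by decide +kernel

lemma mjHalf_2_eq (Z a b : ℝ) : (TEHalf Z (Z ^ 2 * a) (Z ^ 3 * b) - Z * phiHalf a b) * 180000 =
    (Z - 1) ^ 2 * ((Z - (3 / 4)) ^ 0 * (1 - Z) ^ 7 * zd mjHalf_2_0 (KV ks9 a b) +
      (Z - (3 / 4)) ^ 1 * (1 - Z) ^ 6 * zd mjHalf_2_1 (KV ks9 a b) +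
      (Z - (3 / 4)) ^ 2 * (1 - Z) ^ 5 * zd mjHalf_2_2 (KV ks9 a b) +
      (Z - (3 / 4)) ^ 3 * (1 - Z) ^ 4 * zd mjHalf_2_3 (KV ks9 a b) +
      (Z - (3 / 4)) ^ 4 * (1 - Z) ^ 3 * zd mjHalf_2_4 (KV ks9 a b) +
      (Z - (3 / 4)) ^ 5 * (1 - Z) ^ 2 * zd mjHalf_2_5 (KV ks9 a b) +
      (Z - (3 / 4)) ^ 6 * (1 - Z) ^ 1 * zd mjHalf_2_6 (KV ks9 a b) +
      (Z - (3 / 4)) ^ 7 * (1 - Z) ^ 0 * zd mjHalf_2_7 (KV ks9 a b)) := by
  simp only [TEHalf, phiHalf, zd, mjHalf_2_0, mjHalf_2_1, mjHalf_2_2, mjHalf_2_3, mjHalf_2_4, mjHalf_2_5, mjHalf_2_6, mjHalf_2_7, KV, ks9, List.map_cons, List.map_nil]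
  push_cast
  ring

/-- coefficients -/
def mjHalf_3_0 : List ℤ := [
  4056885, 96828520, 4360453632, -29805419520, 46820229120, -11467348992, 94797296640,
  -119726069760, 0, -410321306880, 826774179840, 0]

lemma mjHalf_3_0_chk : chk1 55 tab9 mjHalf_3_0 = true := by decide +kernel

/-- coefficients -/
def mjHalf_3_1 : List ℤ := [
  58207815, 897959744, 41434576128, -286624995840, 444792176640, -96693825024, 832272929280,
  -1171216972800, 0, -3467832877440, 7854354708480, 0]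

lemma mjHalf_3_1_chk : chk1 55 tab9 mjHalf_3_1 = true := by decide +kernel

/-- coefficients -/
def mjHalf_3_2 : List ℤ := [
  349438545, 3814448146, 166374304704, -1178351504640, 1820136407040, -340025209344,
  3108590156160, -4937587683840, 0, -12430546338240, 32140846241280, 0]

lemma mjHalf_3_2_chk : chk1 55 tab9 mjHalf_3_2 = true := by decide +kernel

/-- coefficients -/
def mjHalf_3_3 : List ℤ := [
  1131036075, 8328843730, 369536149152, -2681994810240, 4158221598720, -636724131840,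
  6383882147904, -11624500097280, 0, -24415849421856, 73427881847040, 0]

lemma mjHalf_3_3_chk : chk1 55 tab9 mjHalf_3_3 = true := by decide +kernel

/-- coefficients -/
def mjHalf_3_4 : List ℤ := [
  2110457295, 8071173980, 496809082368, -3645802716480, 5726699274240, -664734032640,
  7751356933248, -16499829548160, 0, -28243489804272, 101124816871680, 0]

lemma mjHalf_3_4_chk : chk1 55 tab9 mjHalf_3_4 = true := by decide +kernel

/-- coefficients -/
def mjHalf_3_5 : List ℤ := [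
  2230185285, -110556380, 411125315904, -2955892474080, 4753298350080, -357453292032,
  5528693543040, -14114576773440, 0, -19098860727240, 83936034034560, 0]

lemma mjHalf_3_5_chk : chk1 55 tab9 mjHalf_3_5 = true := by decide +kernel

/-- coefficients -/
def mjHalf_3_6 : List ℤ := [
  1192760235, -5722845366, 197477165376, -1321257718080, 2201151697920, -65558407104,
  2122561780992, -6735281855040, 0, -6905754154368, 38868997951440, 0]

lemma mjHalf_3_6_chk : chk1 55 tab9 mjHalf_3_6 = true := by decide +kernel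

/-- coefficients -/
def mjHalf_3_7 : List ℤ := [
  227514825, -2868026454, 43079281056, -250636381920, 438586928640, 9277112736, 332156824416,
  -1382563313280, 0, -1007136577224, 7744779447480, 0]

lemma mjHalf_3_7_chk : chk1 55 tab9 mjHalf_3_7 = true := by decide +kernel

lemma mjHalf_3_eq (Z a b : ℝ) : (TEHalf Z (Z ^ 2 * a) (Z ^ 3 * b) - Z * phiHalf a b) * 1440000 =
    (Z - 1) ^ 2 * ((Z - 1) ^ 0 * ((3 / 2) - Z) ^ 7 * zd mjHalf_3_0 (KV ks9 a b) +
      (Z - 1) ^ 1 * ((3 / 2) - Z) ^ 6 * zd mjHalf_3_1 (KV ks9 a b) +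
      (Z - 1) ^ 2 * ((3 / 2) - Z) ^ 5 * zd mjHalf_3_2 (KV ks9 a b) +
      (Z - 1) ^ 3 * ((3 / 2) - Z) ^ 4 * zd mjHalf_3_3 (KV ks9 a b) +
      (Z - 1) ^ 4 * ((3 / 2) - Z) ^ 3 * zd mjHalf_3_4 (KV ks9 a b) +
      (Z - 1) ^ 5 * ((3 / 2) - Z) ^ 2 * zd mjHalf_3_5 (KV ks9 a b) +
      (Z - 1) ^ 6 * ((3 / 2) - Z) ^ 1 * zd mjHalf_3_6 (KV ks9 a b) +
      (Z - 1) ^ 7 * ((3 / 2) - Z) ^ 0 * zd mjHalf_3_7 (KV ks9 a b)) := by
  simp only [TEHalf, phiHalf, zd, mjHalf_3_0, mjHalf_3_1, mjHalf_3_2, mjHalf_3_3, mjHalf_3_4, mjHalf_3_5, mjHalf_3_6, mjHalf_3_7, KV, ks9, List.map_cons, List.map_nil]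
  push_cast
  ring

/-- coefficients -/
def krHalf_0 : List ℤ := [
  6668895, 828789157, -7308465408, 21444367680, -22813306560, 1155942126, 23759215488,
  -174597716160, 288423659520, 79708572288, -221314602240, -96141219840]

/-- coefficients -/
def krHalf_1 : List ℤ := [
  1086053982, -14033493231, 89757065007, -243764419680, 271444316400, -50505754176,
  -132725997360, 1879560637920, -4061782305360, -574133689440, 2976005039760, 1353927435120]

/-- coefficients -/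
def krHalf_2 : List ℤ := [
  -14259399408, 95410253430, -292363190964, 252147453120, -129284242560, 197967629934,
  1393495286472, -9618218147520, 20321453534400, 444319318080, -13133880133920, -4653070647840]

/-- coefficients -/
def krHalf_3 : List ℤ := [
  63351052560, -326289115080, 74437256880, 3942437103000, -6043400610480, 340210507320,
  -10513090258560, 29554853023080, -41617002992400, 8785271378880, 13776786750240, 749586901680]

/-- coefficients -/
def krHalf_4 : List ℤ := [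
  -96468511680, 499296299040, 434361294720, -9545905429920, 14662968948000, -1761225392160,
  21721009312800, -40526308126080, 27110813076000, -20362813028640, 18557428432320, 7968298808160]

/-- coefficients -/
def krHalf_5 : List ℤ := [
  7317257229, 27823992534, -548686334403, 1959423054480, -2307403447920, 1177131777156,
  -6722820060768, 8858003475600, 1975340215440, 6058176507360, -16160171302080, -7767626686560]

/-- coefficients -/
def krHalf_6 : List ℤ := [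
  -35364392640, -53737272720, 2590947047304, -11930076252000, 16794026887680, -9577962674208,
  57827172759480, -82376244989280, -19461643407360, -47535673009248, 151021102986360,
  50868717643800]

/-- coefficients -/
def krHalf_7 : List ℤ := [
  -132364413360, 315254737800, 479454785280, 4389152060880, -14361526164960, 18547973506440,
  -118838952625680, 184618142969760, 44781023197440, 82103710497120, -351160635673800,
  -84585063638520]

/-- coefficients -/
def krHalf_8 : List ℤ := [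
  663106098240, -3461584649760, -3166027871040, 43691668349760, -64780314835680, 4718260743840,
  -25822297761120, 23324156595360, 10558688683680, 52180127436960, -40374919087200,
  89408613473280]

/-- coefficients -/
def krHalf_9 : List ℤ := [
  464845636944, -2642527098216, 344050914312, 19767656320560, -37665133708320, 16605115594776,
  -93488749257600, 154126130091120, 21958849236960, 87335808868008, -300118250197080,
  56159049823560]

/-- coefficients -/
def krHalf_10 : List ℤ := [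
  -2019233305440, 15889523753520, -27113009305140, -48348280559790, 156387785523120,
  -70294211253360, 432539232324120, -754482007683450, -113925460666320, -391835177653860,
  1487808053611470, -451026276119910]

/-- coefficients -/
def krHalf_11 : List ℤ := [
  2886560763840, -25082399619360, 82623929431500, -82127090555010, -105345211089600,
  67839733280160, -500115493690200, 1079433395137170, 89408613473280, 452780153651340,
  -2051600361511230, 984550971250350]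

/-- the kernel -/
def krHalf : List (List ℤ) := [
  krHalf_0, krHalf_1, krHalf_2, krHalf_3, krHalf_4, krHalf_5, krHalf_6, krHalf_7, krHalf_8,
  krHalf_9, krHalf_10, krHalf_11]

lemma krHalf_chk : chk2 55 tab9 krHalf = true := by decide +kernel

lemma krHalf_eq (a b a' b' : ℝ) : (phiHalf a b + (1 / 3) * phiHalf a' b' - 0 * ((1 - 3 * a') * (1 - 3 * a)) -
    1 / 6 * Ks LHalf (1 / 3 - (1 / 2) ^ 2 * (1 / 3 - a'))
      (((1 + (1 / 2)) / 3) ^ 3 - ((1 + (1 / 2)) / 3) ^ 2 * (1 / 2) + (1 + (1 / 2)) / 3 * (1 / 2) ^ 2 * a' - (1 / 2) ^ 3 * b') a b) * 368640000 =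
    rdot (KV ks9 a b) (krHalf.map fun c => zd c (KV ks9 a' b')) := by
  simp only [Ks, LHalf, MK, phiHalf, rdot, zd, krHalf, krHalf_0, krHalf_1, krHalf_2, krHalf_3, krHalf_4, krHalf_5, krHalf_6, krHalf_7, krHalf_8, krHalf_9, krHalf_10, krHalf_11, KV, ks9, List.map_cons, List.map_nil,
    List.sum_cons, List.sum_nil, psE0, psE1, psE2, psE3, psE4, psE5, psE6, psE7, psE8, psE9,
    psE10, psE11, psE12, psE13, psE14, psE15, psE16, psE17, psE18, Nat.reduceAdd, Nat.reduceMul]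
  push_cast
  ring

theorem certHalf : Cert (1 / 2) (1 / 3) 0 (887 / 1000) (67 / 50) phiHalf LHalf where
  c_pos := by norm_num
  c_le := by norm_num
  rho_nn := by norm_num
  t_nn := by norm_num
  a_pos := by norm_num
  K_pos := by norm_num
  lower := fun v hv h1 => by
    have h := T9.pos1 loHalf_chk hv h1
    rw [← loHalf_eq] at h
    linarith
  upper := fun v hv h1 => by
    have h := T9.pos1 hiHalf_chk hv h1
    rw [← hiHalf_eq] at h
    linarith
  ray := fun v hv h1 τ h0 hτ => by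
    have h2 : 0 ≤ 1 - τ := by linarith
    have q0 := T9.pos1 rayHalf_0_chk hv h1
    have q1 := T9.pos1 rayHalf_1_chk hv h1
    have q2 := T9.pos1 rayHalf_2_chk hv h1
    have q3 := T9.pos1 rayHalf_3_chk hv h1
    have q4 := T9.pos1 rayHalf_4_chk hv h1
    have q5 := T9.pos1 rayHalf_5_chk hv h1
    have h := rayHalf_eq (E2 v) (E3 v) τ
    have h3 : 0 ≤ τ ^ 2 * (1 - τ) * (τ ^ 0 * (1 - τ) ^ 5 * zd rayHalf_0 (KV ks9 (E2 v) (E3 v)) +
      τ ^ 1 * (1 - τ) ^ 4 * zd rayHalf_1 (KV ks9 (E2 v) (E3 v)) +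
      τ ^ 2 * (1 - τ) ^ 3 * zd rayHalf_2 (KV ks9 (E2 v) (E3 v)) +
      τ ^ 3 * (1 - τ) ^ 2 * zd rayHalf_3 (KV ks9 (E2 v) (E3 v)) +
      τ ^ 4 * (1 - τ) ^ 1 * zd rayHalf_4 (KV ks9 (E2 v) (E3 v)) +
      τ ^ 5 * (1 - τ) ^ 0 * zd rayHalf_5 (KV ks9 (E2 v) (E3 v))) := by
      positivity
    rw [← h] at h3
    linarith
  maj := fun v hv h1 Z _ hZ0 hZ1 => by
    rw [TSHalf]
    rcases le_total Z (1 / 2) with hb0 | hb0
    · have q0 := T9.pos1 mjHalf_0_0_chk hv h1
      have q1 := T9.pos1 mjHalf_0_1_chk hv h1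
      have q2 := T9.pos1 mjHalf_0_2_chk hv h1
      have q3 := T9.pos1 mjHalf_0_3_chk hv h1
      have q4 := T9.pos1 mjHalf_0_4_chk hv h1
      have q5 := T9.pos1 mjHalf_0_5_chk hv h1
      have q6 := T9.pos1 mjHalf_0_6_chk hv h1
      have q7 := T9.pos1 mjHalf_0_7_chk hv h1
      have g0 : 0 ≤ Z - 0 := by linarith
      have g1 : 0 ≤ (1 / 2) - Z := by linarith
      have h := mjHalf_0_eq Z (E2 v) (E3 v)
      have h3 : 0 ≤ (Z - 1) ^ 2 * ((Z - 0) ^ 0 * ((1 / 2) - Z) ^ 7 * zd mjHalf_0_0 (KV ks9 (E2 v) (E3 v)) +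
        (Z - 0) ^ 1 * ((1 / 2) - Z) ^ 6 * zd mjHalf_0_1 (KV ks9 (E2 v) (E3 v)) +
        (Z - 0) ^ 2 * ((1 / 2) - Z) ^ 5 * zd mjHalf_0_2 (KV ks9 (E2 v) (E3 v)) +
        (Z - 0) ^ 3 * ((1 / 2) - Z) ^ 4 * zd mjHalf_0_3 (KV ks9 (E2 v) (E3 v)) +
        (Z - 0) ^ 4 * ((1 / 2) - Z) ^ 3 * zd mjHalf_0_4 (KV ks9 (E2 v) (E3 v)) +
        (Z - 0) ^ 5 * ((1 / 2) - Z) ^ 2 * zd mjHalf_0_5 (KV ks9 (E2 v) (E3 v)) +
        (Z - 0) ^ 6 * ((1 / 2) - Z) ^ 1 * zd mjHalf_0_6 (KV ks9 (E2 v) (E3 v)) +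
        (Z - 0) ^ 7 * ((1 / 2) - Z) ^ 0 * zd mjHalf_0_7 (KV ks9 (E2 v) (E3 v))) := by
        positivity
      rw [← h] at h3
      linarith
    rcases le_total Z (3 / 4) with hb1 | hb1
    · have q0 := T9.pos1 mjHalf_1_0_chk hv h1
      have q1 := T9.pos1 mjHalf_1_1_chk hv h1
      have q2 := T9.pos1 mjHalf_1_2_chk hv h1
      have q3 := T9.pos1 mjHalf_1_3_chk hv h1
      have q4 := T9.pos1 mjHalf_1_4_chk hv h1
      have q5 := T9.pos1 mjHalf_1_5_chk hv h1
      have q6 := T9.pos1 mjHalf_1_6_chk hv h1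
      have q7 := T9.pos1 mjHalf_1_7_chk hv h1
      have g0 : 0 ≤ Z - (1 / 2) := by linarith
      have g1 : 0 ≤ (3 / 4) - Z := by linarith
      have h := mjHalf_1_eq Z (E2 v) (E3 v)
      have h3 : 0 ≤ (Z - 1) ^ 2 * ((Z - (1 / 2)) ^ 0 * ((3 / 4) - Z) ^ 7 * zd mjHalf_1_0 (KV ks9 (E2 v) (E3 v)) +
        (Z - (1 / 2)) ^ 1 * ((3 / 4) - Z) ^ 6 * zd mjHalf_1_1 (KV ks9 (E2 v) (E3 v)) +
        (Z - (1 / 2)) ^ 2 * ((3 / 4) - Z) ^ 5 * zd mjHalf_1_2 (KV ks9 (E2 v) (E3 v)) +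
        (Z - (1 / 2)) ^ 3 * ((3 / 4) - Z) ^ 4 * zd mjHalf_1_3 (KV ks9 (E2 v) (E3 v)) +
        (Z - (1 / 2)) ^ 4 * ((3 / 4) - Z) ^ 3 * zd mjHalf_1_4 (KV ks9 (E2 v) (E3 v)) +
        (Z - (1 / 2)) ^ 5 * ((3 / 4) - Z) ^ 2 * zd mjHalf_1_5 (KV ks9 (E2 v) (E3 v)) +
        (Z - (1 / 2)) ^ 6 * ((3 / 4) - Z) ^ 1 * zd mjHalf_1_6 (KV ks9 (E2 v) (E3 v)) +
        (Z - (1 / 2)) ^ 7 * ((3 / 4) - Z) ^ 0 * zd mjHalf_1_7 (KV ks9 (E2 v) (E3 v))) := by
        positivity
      rw [← h] at h3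
      linarith
    rcases le_total Z 1 with hb2 | hb2
    · have q0 := T9.pos1 mjHalf_2_0_chk hv h1
      have q1 := T9.pos1 mjHalf_2_1_chk hv h1
      have q2 := T9.pos1 mjHalf_2_2_chk hv h1
      have q3 := T9.pos1 mjHalf_2_3_chk hv h1
      have q4 := T9.pos1 mjHalf_2_4_chk hv h1
      have q5 := T9.pos1 mjHalf_2_5_chk hv h1
      have q6 := T9.pos1 mjHalf_2_6_chk hv h1
      have q7 := T9.pos1 mjHalf_2_7_chk hv h1
      have g0 : 0 ≤ Z - (3 / 4) := by linarith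
      have g1 : 0 ≤ 1 - Z := by linarith
      have h := mjHalf_2_eq Z (E2 v) (E3 v)
      have h3 : 0 ≤ (Z - 1) ^ 2 * ((Z - (3 / 4)) ^ 0 * (1 - Z) ^ 7 * zd mjHalf_2_0 (KV ks9 (E2 v) (E3 v)) +
        (Z - (3 / 4)) ^ 1 * (1 - Z) ^ 6 * zd mjHalf_2_1 (KV ks9 (E2 v) (E3 v)) +
        (Z - (3 / 4)) ^ 2 * (1 - Z) ^ 5 * zd mjHalf_2_2 (KV ks9 (E2 v) (E3 v)) +
        (Z - (3 / 4)) ^ 3 * (1 - Z) ^ 4 * zd mjHalf_2_3 (KV ks9 (E2 v) (E3 v)) +
        (Z - (3 / 4)) ^ 4 * (1 - Z) ^ 3 * zd mjHalf_2_4 (KV ks9 (E2 v) (E3 v)) +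
        (Z - (3 / 4)) ^ 5 * (1 - Z) ^ 2 * zd mjHalf_2_5 (KV ks9 (E2 v) (E3 v)) +
        (Z - (3 / 4)) ^ 6 * (1 - Z) ^ 1 * zd mjHalf_2_6 (KV ks9 (E2 v) (E3 v)) +
        (Z - (3 / 4)) ^ 7 * (1 - Z) ^ 0 * zd mjHalf_2_7 (KV ks9 (E2 v) (E3 v))) := by
        positivity
      rw [← h] at h3
      linarith
    have q0 := T9.pos1 mjHalf_3_0_chk hv h1
    have q1 := T9.pos1 mjHalf_3_1_chk hv h1
    have q2 := T9.pos1 mjHalf_3_2_chk hv h1
    have q3 := T9.pos1 mjHalf_3_3_chk hv h1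
    have q4 := T9.pos1 mjHalf_3_4_chk hv h1
    have q5 := T9.pos1 mjHalf_3_5_chk hv h1
    have q6 := T9.pos1 mjHalf_3_6_chk hv h1
    have q7 := T9.pos1 mjHalf_3_7_chk hv h1
    have g0 : 0 ≤ Z - 1 := by linarith
    have g1 : 0 ≤ (3 / 2) - Z := by linarith
    have h := mjHalf_3_eq Z (E2 v) (E3 v)
    have h3 : 0 ≤ (Z - 1) ^ 2 * ((Z - 1) ^ 0 * ((3 / 2) - Z) ^ 7 * zd mjHalf_3_0 (KV ks9 (E2 v) (E3 v)) +
      (Z - 1) ^ 1 * ((3 / 2) - Z) ^ 6 * zd mjHalf_3_1 (KV ks9 (E2 v) (E3 v)) +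
      (Z - 1) ^ 2 * ((3 / 2) - Z) ^ 5 * zd mjHalf_3_2 (KV ks9 (E2 v) (E3 v)) +
      (Z - 1) ^ 3 * ((3 / 2) - Z) ^ 4 * zd mjHalf_3_3 (KV ks9 (E2 v) (E3 v)) +
      (Z - 1) ^ 4 * ((3 / 2) - Z) ^ 3 * zd mjHalf_3_4 (KV ks9 (E2 v) (E3 v)) +
      (Z - 1) ^ 5 * ((3 / 2) - Z) ^ 2 * zd mjHalf_3_5 (KV ks9 (E2 v) (E3 v)) +
      (Z - 1) ^ 6 * ((3 / 2) - Z) ^ 1 * zd mjHalf_3_6 (KV ks9 (E2 v) (E3 v)) +
      (Z - 1) ^ 7 * ((3 / 2) - Z) ^ 0 * zd mjHalf_3_7 (KV ks9 (E2 v) (E3 v))) := by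
      positivity
    rw [← h] at h3
    linarith
  ker := fun p r hp hr hp1 hr1 => by
    have h := T9.pos2 krHalf_chk hp hr hp1 hr1
    rw [← krHalf_eq] at h
    linarith

/-- the potential at eigenvalue -1/2 -/
noncomputable def potHalf : RPot 3 (1 / 2) (1 / 3) := certHalf.rpot

lemma potHalf_t : potHalf.t = 0 := rfl

end Vale.Agent.P154N
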