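import Vale.Agent.P154.N3K1D

/-! P154, three states: kernel identity of the certificate at eigenvalue -15/32 -/

namespace Vale.Agent.P154N

lemma krcK1 : chkI 14 14 15 32 LK1 (FK1.map (1024 * ·)) (FK1.map (261 * ·)) 8847360 kc14 3317760 krK1 = true := by
  decide +kernel

end Vale.Agent.P154N
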