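import Vale.Agent.P154.N3K2D
import Vale.Agent.P154.N3K14_100_110_111
import Vale.Agent.P154.N3K14_100_310_311
import Vale.Agent.P154.N3K14_310_110_331
import Vale.Agent.P154.N3K14_310_331_111
import Vale.Agent.P154.N3K14_311_310_111

/-! P154, three states: one-vector positivity for the certificate at eigenvalue -3/8 -/

namespace Vale.Agent.P154N

theorem lopK2 {a b : ℝ} (hK : InK root a b) : 0 ≤ zd loK2 (KV kc14 a b) := by
  exact T14_100_110_111.pos1 (by decide +kernel) hK

theorem hipK2 {a b : ℝ} (hK : InK root a b) : 0 ≤ zd hiK2 (KV kc14 a b) := by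
  exact T14_100_110_111.pos1 (by decide +kernel) hK

theorem rypK2 {a b : ℝ} (hK : InK root a b) : ∀ q ∈ ryK2, 0 ≤ zd q (KV kc14 a b) := by
  rcases splitAB (M := (3, 1, 0)) (g := 1) (α := 2) (β := 1) (by decide) hK with hK | hK
  · rcases splitAC (M := (3, 1, 1)) (g := 1) (α := 2) (β := 1) (by decide) hK with hK | hK
    · exact T14_100_310_311.posAll (by decide +kernel) hK
    · exact T14_311_310_111.posAll (by decide +kernel) hK
  · rcases splitBC (M := (3, 3, 1)) (g := 1) (α := 2) (β := 1) (by decide) hK with hK | hK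
    · exact T14_310_110_331.posAll (by decide +kernel) hK
    · exact T14_310_331_111.posAll (by decide +kernel) hK

theorem mjpK2_0 {a b : ℝ} (hK : InK root a b) : ∀ q ∈ mjK2_0, 0 ≤ zd q (KV kc14 a b) := by
  exact T14_100_110_111.posAll (by decide +kernel) hK

theorem mjpK2_1 {a b : ℝ} (hK : InK root a b) : ∀ q ∈ mjK2_1, 0 ≤ zd q (KV kc14 a b) := by
  rcases splitAB (M := (3, 1, 0)) (g := 1) (α := 2) (β := 1) (by decide) hK with hK | hK
  · rcases splitAC (M := (3, 1, 1)) (g := 1) (α := 2) (β := 1) (by decide) hK with hK | hK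
    · exact T14_100_310_311.posAll (by decide +kernel) hK
    · exact T14_311_310_111.posAll (by decide +kernel) hK
  · rcases splitBC (M := (3, 3, 1)) (g := 1) (α := 2) (β := 1) (by decide) hK with hK | hK
    · exact T14_310_110_331.posAll (by decide +kernel) hK
    · exact T14_310_331_111.posAll (by decide +kernel) hK

theorem mjpK2_2 {a b : ℝ} (hK : InK root a b) : ∀ q ∈ mjK2_2, 0 ≤ zd q (KV kc14 a b) := by
  rcases splitAB (M := (3, 1, 0)) (g := 1) (α := 2) (β := 1) (by decide) hK with hK | hK
  · rcases splitAC (M := (3, 1, 1)) (g := 1) (α := 2) (β := 1) (by decide) hK with hK | hK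
    · exact T14_100_310_311.posAll (by decide +kernel) hK
    · exact T14_311_310_111.posAll (by decide +kernel) hK
  · rcases splitBC (M := (3, 3, 1)) (g := 1) (α := 2) (β := 1) (by decide) hK with hK | hK
    · exact T14_310_110_331.posAll (by decide +kernel) hK
    · exact T14_310_331_111.posAll (by decide +kernel) hK

theorem mjpK2_3 {a b : ℝ} (hK : InK root a b) : ∀ q ∈ mjK2_3, 0 ≤ zd q (KV kc14 a b) := by
  rcases splitAB (M := (3, 1, 0)) (g := 1) (α := 2) (β := 1) (by decide) hK with hK | hK
  · rcases splitAC (M := (3, 1, 1)) (g := 1) (α := 2) (β := 1) (by decide) hK with hK | hK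
    · exact T14_100_310_311.posAll (by decide +kernel) hK
    · exact T14_311_310_111.posAll (by decide +kernel) hK
  · rcases splitBC (M := (3, 3, 1)) (g := 1) (α := 2) (β := 1) (by decide) hK with hK | hK
    · exact T14_310_110_331.posAll (by decide +kernel) hK
    · exact T14_310_331_111.posAll (by decide +kernel) hK

end Vale.Agent.P154N
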