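import Vale.Agent.P154.N3K2D
import Vale.Agent.P154.N3K14_100_310_311
import Vale.Agent.P154.N3K14_310_110_331
import Vale.Agent.P154.N3K14_310_331_111
import Vale.Agent.P154.N3K14_311_310_111

/-! P154, three states: kernel positivity for the certificate at eigenvalue -3/8 -/

namespace Vale.Agent.P154N

open Vale.Agent.P154.Q4L

theorem kpK2_310_110_331__100_310_311 {a b a' b' : ℝ} (hK : InK K14_310_110_331 a b) (hW : InK K14_100_310_311 a' b') :
    0 ≤ rdot (KV kc14 a b) (krK2.map fun c => zd c (KV kc14 a' b')) :=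
  T14_310_110_331.pos2 T14_100_310_311 (C := krK2) (by decide +kernel) hK hW

theorem kpK2_310_110_331__311_310_111 {a b a' b' : ℝ} (hK : InK K14_310_110_331 a b) (hW : InK K14_311_310_111 a' b') :
    0 ≤ rdot (KV kc14 a b) (krK2.map fun c => zd c (KV kc14 a' b')) :=
  T14_310_110_331.pos2 T14_311_310_111 (C := krK2) (by decide +kernel) hK hW

theorem kpK2_310_110_331__310_110_331 {a b a' b' : ℝ} (hK : InK K14_310_110_331 a b) (hW : InK K14_310_110_331 a' b') :
    0 ≤ rdot (KV kc14 a b) (krK2.map fun c => zd c (KV kc14 a' b')) :=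
  T14_310_110_331.pos2 T14_310_110_331 (C := krK2) (by decide +kernel) hK hW

theorem kpK2_310_110_331__310_331_111 {a b a' b' : ℝ} (hK : InK K14_310_110_331 a b) (hW : InK K14_310_331_111 a' b') :
    0 ≤ rdot (KV kc14 a b) (krK2.map fun c => zd c (KV kc14 a' b')) :=
  T14_310_110_331.pos2 T14_310_331_111 (C := krK2) (by decide +kernel) hK hW

end Vale.Agent.P154N
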