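import Vale.Agent.P154.N3K2I
import Vale.Agent.P154.N3K2O
import Vale.Agent.P154.N3K2P0
import Vale.Agent.P154.N3K2P1
import Vale.Agent.P154.N3K2P2
import Vale.Agent.P154.N3K2P3

/-! P154, three states: certificate at eigenvalue -3/8 -/

namespace Vale.Agent.P154N

open Vale.Agent.P154.G Vale.Agent.P154.Q4L

theorem kposK2 {a b a' b' : ℝ} (hK : InK root a b) (hW : InK root a' b') :
    0 ≤ rdot (KV kc14 a b) (krK2.map fun c => zd c (KV kc14 a' b')) := by
  rcases splitAB (M := (3, 1, 0)) (g := 1) (α := 2) (β := 1) (by decide) hK with hK | hK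
  · rcases splitAC (M := (3, 1, 1)) (g := 1) (α := 2) (β := 1) (by decide) hK with hK | hK
    · rcases splitAB (M := (3, 1, 0)) (g := 1) (α := 2) (β := 1) (by decide) hW with hW | hW
      · rcases splitAC (M := (3, 1, 1)) (g := 1) (α := 2) (β := 1) (by decide) hW with hW | hW
        · exact kpK2_100_310_311__100_310_311 hK hW
        · exact kpK2_100_310_311__311_310_111 hK hW
      · rcases splitBC (M := (3, 3, 1)) (g := 1) (α := 2) (β := 1) (by decide) hW with hW | hW
        · exact kpK2_100_310_311__310_110_331 hK hW
        · exact kpK2_100_310_311__310_331_111 hK hW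
    · rcases splitAB (M := (3, 1, 0)) (g := 1) (α := 2) (β := 1) (by decide) hW with hW | hW
      · rcases splitAC (M := (3, 1, 1)) (g := 1) (α := 2) (β := 1) (by decide) hW with hW | hW
        · exact kpK2_311_310_111__100_310_311 hK hW
        · exact kpK2_311_310_111__311_310_111 hK hW
      · rcases splitBC (M := (3, 3, 1)) (g := 1) (α := 2) (β := 1) (by decide) hW with hW | hW
        · exact kpK2_311_310_111__310_110_331 hK hW
        · exact kpK2_311_310_111__310_331_111 hK hW
  · rcases splitBC (M := (3, 3, 1)) (g := 1) (α := 2) (β := 1) (by decide) hK with hK | hK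
    · rcases splitAB (M := (3, 1, 0)) (g := 1) (α := 2) (β := 1) (by decide) hW with hW | hW
      · rcases splitAC (M := (3, 1, 1)) (g := 1) (α := 2) (β := 1) (by decide) hW with hW | hW
        · exact kpK2_310_110_331__100_310_311 hK hW
        · exact kpK2_310_110_331__311_310_111 hK hW
      · rcases splitBC (M := (3, 3, 1)) (g := 1) (α := 2) (β := 1) (by decide) hW with hW | hW
        · exact kpK2_310_110_331__310_110_331 hK hW
        · exact kpK2_310_110_331__310_331_111 hK hW
    · rcases splitAB (M := (3, 1, 0)) (g := 1) (α := 2) (β := 1) (by decide) hW with hW | hW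
      · rcases splitAC (M := (3, 1, 1)) (g := 1) (α := 2) (β := 1) (by decide) hW with hW | hW
        · exact kpK2_310_331_111__100_310_311 hK hW
        · exact kpK2_310_331_111__311_310_111 hK hW
      · rcases splitBC (M := (3, 3, 1)) (g := 1) (α := 2) (β := 1) (by decide) hW with hW | hW
        · exact kpK2_310_331_111__310_110_331 hK hW
        · exact kpK2_310_331_111__310_331_111 hK hW

lemma gcK2 (a b : ℝ) : FR 6710886400 (FK2.map (19 * ·)) kc14 a b = (19 / 128) * phiK2 a b := by
  rw [phiK2, FR, FR, zd_map_mul, zd_map_mul]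
  push_cast
  ring

theorem certK2 : Cert (3 / 8) (19 / 128) (9 / 12800) 1 (133 / 100) phiK2 (LR 6710886400 LK2) where
  c_pos := by norm_num
  c_le := by norm_num
  rho_nn := by norm_num
  t_nn := by norm_num
  a_pos := by norm_num
  K_pos := by norm_num
  lower := fun v hv h1 => lower_of (by norm_num) (β := 6710886400) (lo := loK2) (by decide +kernel)
    (lopK2 (in_root hv h1)) (by norm_num)
  upper := fun v hv h1 => upper_of (by norm_num) (β := 8925478912) (hi := hiK2) (by decide +kernel)
    (hipK2 (in_root hv h1)) (by norm_num)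
  ray := fun v hv h1 τ h0 hτ => chkR_spec (by norm_num) (by norm_num) rycK2 h0 (by linarith)
    (rypK2 (in_root hv h1))
  maj := fun v hv h1 Z hZl hZ0 hZ1 => by
    have hK := in_root hv h1
    rcases le_total Z (5 / 8) with hb0 | hb0
    · exact chkM_spec (by norm_num) (by norm_num) mjcK2_0 (by push_cast; linarith)
        (by push_cast; linarith) (mjpK2_0 hK)
    rcases le_total Z 1 with hb1 | hb1
    · exact chkM_spec (by norm_num) (by norm_num) mjcK2_1 (by push_cast; linarith)
        (by push_cast; linarith) (mjpK2_1 hK)
    rcases le_total Z (19 / 16) with hb2 | hb2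
    · exact chkM_spec (by norm_num) (by norm_num) mjcK2_2 (by push_cast; linarith)
        (by push_cast; linarith) (mjpK2_2 hK)
    exact chkM_spec (by norm_num) (by norm_num) mjcK2_3 (by push_cast; linarith)
      (by push_cast; linarith) (mjpK2_3 hK)
  ker := fun p r hp hr hp1 hr1 => by
    have h := chkI_spec (M := 6710886400) (by norm_num) (by norm_num) (by norm_num) krcK2
      (kposK2 (in_root hp hp1) (in_root hr hr1)) (c := (3 / 8)) (by norm_num)
    rw [gcK2] at h
    refine h.trans (le_of_eq ?_)
    norm_num [phiK2]

/-- the potential at eigenvalue -3/8 -/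
noncomputable def potK2 : RPot 3 (3 / 8) (19 / 128) := certK2.rpot

lemma potK2_t : potK2.t = (9 / 12800) := rfl

end Vale.Agent.P154N
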