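import Vale.Agent.P154.N3K2D

/-! P154, three states: kernel identity of the certificate at eigenvalue -3/8 -/

namespace Vale.Agent.P154N

lemma krcK2 : chkI 14 14 3 8 LK2 (FK2.map (128 * ·)) (FK2.map (19 * ·)) 4718592 kc14 3072 krK2 = true := by
  decide +kernel

end Vale.Agent.P154N
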