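import Mathlib

/-! Reflection: nonnegativity of a difference of sums of products of two families of polynomials
with natural coefficients.  The coefficients of a polynomial are packed into one natural number,
so that the check is fast. -/

namespace Vale.Agent.P154.Q4L

/-- pairing of natural coefficients with monomial values -/
def ndot : List ℕ → List ℝ → ℝ
  | a :: l, x :: m => a * x + ndot l m
  | _, _ => 0

def addL : List ℕ → List ℕ → List ℕ
  | a :: l, b :: m => (a + b) :: addL l m
  | [], m => m
  | l, [] => l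

def smulL (c : ℕ) (l : List ℕ) : List ℕ := l.map (c * ·)

def comb : List ℕ → List (List ℕ) → List ℕ
  | c :: cs, B :: Bs => addL (smulL c B) (comb cs Bs)
  | _, _ => []

def rdot : List ℝ → List ℝ → ℝ
  | x :: l, y :: m => x * y + rdot l m
  | _, _ => 0

def lin : List ℕ → List ℕ → ℕ
  | a :: l, b :: m => a * b + lin l m
  | _, _ => 0

def hd (l : List ℕ) : ℕ := l.headD 0

def rowsOf : ℕ → List (List ℕ) → List (List ℕ)
  | 0, _ => []
  | N + 1, As => As.map hd :: rowsOf N (As.map List.tail)

/-- the base -/
def WW : ℕ := 2 ^ 256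
/-- half the base -/
def HB : ℕ := 2 ^ 255

lemma WW_eq : WW = 2 * HB := by unfold WW HB; norm_num
lemma HB_pos : 0 < HB := by unfold HB; positivity

def pack : List ℕ → ℕ
  | [] => 0
  | a :: l => a + WW * pack l

/-- all digits equal to `HB` -/
def HH : ℕ → ℕ
  | 0 => 0
  | n + 1 => HB + WW * HH n

/-- all digits at least `HB` -/
def allge : ℕ → ℕ → Bool
  | 0, _ => true
  | n + 1, X => Nat.ble HB (X % WW) && allge n (X / WW)

@[simp] lemma ndot_nil_left (M : List ℝ) : ndot [] M = 0 := by cases M <;> rfl
@[simp] lemma ndot_nil_right (l : List ℕ) : ndot l [] = 0 := by cases l <;> rfl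
@[simp] lemma addL_nil_left (m : List ℕ) : addL [] m = m := by cases m <;> rfl
@[simp] lemma addL_nil_right (l : List ℕ) : addL l [] = l := by cases l <;> rfl

lemma ndot_addL : ∀ (l m : List ℕ) (M : List ℝ), ndot (addL l m) M = ndot l M + ndot m M
  | [], m, M => by simp
  | a :: l, [], M => by simp
  | a :: l, b :: m, [] => by simp
  | a :: l, b :: m, x :: M => by
    simp only [addL, ndot, ndot_addL l m M]
    push_cast
    ring

lemma ndot_smulL (c : ℕ) : ∀ (l : List ℕ) (M : List ℝ), ndot (smulL c l) M = c * ndot l M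
  | [], M => by simp [smulL]
  | a :: l, [] => by simp
  | a :: l, x :: M => by
    have h := ndot_smulL c l M
    simp only [smulL, List.map_cons, ndot] at h ⊢
    rw [h]
    push_cast
    ring

lemma ndot_comb : ∀ (cs : List ℕ) (Bs : List (List ℕ)) (M : List ℝ),
    ndot (comb cs Bs) M = ndot cs (Bs.map fun B => ndot B M)
  | [], Bs, M => by simp [comb]
  | c :: cs, [], M => by simp [comb]
  | c :: cs, B :: Bs, M => by
    simp only [comb, List.map_cons, ndot, ndot_addL, ndot_smulL, ndot_comb cs Bs M]

lemma ndot_cons_hd (A : List ℕ) (x : ℝ) (M : List ℝ) :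
    ndot A (x :: M) = hd A * x + ndot A.tail M := by
  cases A <;> simp [ndot, hd]

lemma rdot_split : ∀ (As : List (List ℕ)) (ys : List ℝ) (x : ℝ) (M : List ℝ),
    rdot (As.map fun A => ndot A (x :: M)) ys =
      x * ndot (As.map hd) ys + rdot ((As.map List.tail).map fun A => ndot A M) ys
  | [], ys, x, M => by simp [rdot]
  | A :: As, [], x, M => by simp [rdot]
  | A :: As, y :: ys, x, M => by
    simp only [List.map_cons, rdot, ndot, rdot_split As ys x M, ndot_cons_hd A x M]
    ring

lemma rdot_zero : ∀ (As : List (List ℕ)) (ys : List ℝ), rdot (As.map fun A => ndot A []) ys = 0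
  | [], ys => by simp [rdot]
  | A :: As, [] => by simp [rdot]
  | A :: As, y :: ys => by
    have h := rdot_zero As ys
    rw [List.map_cons, rdot, h, ndot_nil_right]
    ring

lemma rdot_rows : ∀ (M : List ℝ) (As : List (List ℕ)) (ys : List ℝ),
    rdot (As.map fun A => ndot A M) ys = rdot M ((rowsOf M.length As).map fun r => ndot r ys)
  | [], As, ys => by
    rw [rdot_zero]
    simp [rdot]
  | x :: M, As, ys => by
    rw [rdot_split, rdot_rows M (As.map List.tail) ys, List.length_cons, rowsOf, List.map_cons,
      rdot]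

lemma rdot_mono : ∀ (M : List ℝ) (R : List (List ℕ)) (f g : List ℕ → ℝ), (∀ x ∈ M, 0 ≤ x) →
    (∀ r ∈ R, f r ≤ g r) → rdot M (R.map f) ≤ rdot M (R.map g)
  | [], R, f, g, _, _ => by simp [rdot]
  | x :: M, [], f, g, _, _ => by simp [rdot]
  | x :: M, r :: R, f, g, hM, hR => by
    have h1 := rdot_mono M R f g (fun z hz => hM z (List.mem_cons_of_mem _ hz))
      fun z hz => hR z (List.mem_cons_of_mem _ hz)
    have h2 : x * f r ≤ x * g r :=
      mul_le_mul_of_nonneg_left (hR r List.mem_cons_self) (hM x List.mem_cons_self)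
    simp only [List.map_cons, rdot]
    linarith

/-! packing -/

lemma pack_addL : ∀ (l m : List ℕ), pack (addL l m) = pack l + pack m
  | [], m => by simp [pack]
  | a :: l, [] => by simp [pack]
  | a :: l, b :: m => by
    simp only [addL, pack, pack_addL l m]
    ring

lemma pack_smulL (c : ℕ) : ∀ (l : List ℕ), pack (smulL c l) = c * pack l
  | [] => by simp [smulL, pack]
  | a :: l => by
    have h := pack_smulL c l
    simp only [smulL, List.map_cons, pack] at h ⊢
    rw [h]
    ring

lemma pack_comb : ∀ (cs : List ℕ) (Bs : List (List ℕ)), pack (comb cs Bs) = lin cs (Bs.map pack)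
  | [], Bs => by simp [comb, pack, lin]
  | c :: cs, [] => by simp [comb, pack, lin]
  | c :: cs, B :: Bs => by
    simp only [comb, List.map_cons, lin, pack_addL, pack_smulL, pack_comb cs Bs]

lemma sum_addL : ∀ (l m : List ℕ), (addL l m).sum = l.sum + m.sum
  | [], m => by simp
  | a :: l, [] => by simp
  | a :: l, b :: m => by
    simp only [addL, List.sum_cons, sum_addL l m]
    ring

lemma sum_smulL (c : ℕ) : ∀ (l : List ℕ), (smulL c l).sum = c * l.sum
  | [] => by simp [smulL]
  | a :: l => by
    have h := sum_smulL c l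
    simp only [smulL, List.map_cons, List.sum_cons] at h ⊢
    rw [h]
    ring

lemma sum_comb : ∀ (cs : List ℕ) (Bs : List (List ℕ)),
    (comb cs Bs).sum = lin cs (Bs.map List.sum)
  | [], Bs => by simp [comb, lin]
  | c :: cs, [] => by simp [comb, lin]
  | c :: cs, B :: Bs => by
    simp only [comb, List.map_cons, lin, sum_addL, sum_smulL, sum_comb cs Bs]

lemma length_addL : ∀ (l m : List ℕ) (n : ℕ), l.length ≤ n → m.length ≤ n →
    (addL l m).length ≤ n
  | [], m, n, _, h => by simpa using h
  | a :: l, [], n, h, _ => by simpa using h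
  | a :: l, b :: m, 0, h, _ => by simp at h
  | a :: l, b :: m, n + 1, h, h' => by
    simp only [addL, List.length_cons] at *
    have := length_addL l m n (by omega) (by omega)
    omega

lemma length_comb : ∀ (cs : List ℕ) (Bs : List (List ℕ)) (n : ℕ), (∀ B ∈ Bs, B.length ≤ n) →
    (comb cs Bs).length ≤ n
  | [], Bs, n, _ => by simp [comb]
  | c :: cs, [], n, _ => by simp [comb]
  | c :: cs, B :: Bs, n, h => by
    refine length_addL _ _ n ?_ (length_comb cs Bs n fun C hC => h C (List.mem_cons_of_mem _ hC))
    simp only [smulL, List.length_map]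
    exact h B List.mem_cons_self

lemma pack_le_HH : ∀ (l : List ℕ) (n : ℕ), l.length ≤ n → (∀ a ∈ l, a < HB) → pack l ≤ HH n
  | [], n, _, _ => by simp [pack]
  | a :: l, 0, h, _ => by simp at h
  | a :: l, n + 1, h, h' => by
    have h1 := pack_le_HH l n (by simpa using h) fun b hb => h' b (List.mem_cons_of_mem _ hb)
    have h2 := h' a List.mem_cons_self
    simp only [pack, HH]
    have h3 := Nat.mul_le_mul_left WW h1
    omega

/-- the digitwise comparison -/
lemma digits_le : ∀ (n : ℕ) (lp ln : List ℕ) (M : List ℝ), lp.length ≤ n → ln.length ≤ n →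
    (∀ a ∈ lp, a < HB) → (∀ a ∈ ln, a < HB) → (∀ x ∈ M, 0 ≤ x) →
    allge n (pack lp + HH n - pack ln) = true → ndot ln M ≤ ndot lp M
  | 0, lp, ln, M, h1, h2, _, _, _, _ => by
    have e1 : lp = [] := List.length_eq_zero_iff.mp (by omega)
    have e2 : ln = [] := List.length_eq_zero_iff.mp (by omega)
    rw [e1, e2]
  | n + 1, lp, ln, [], _, _, _, _, _, _ => by simp
  | n + 1, lp, ln, x :: M, h1, h2, h3, h4, hM, h => by
    have hp : pack lp = hd lp + WW * pack lp.tail := by cases lp <;> simp [pack, hd]
    have hn : pack ln = hd ln + WW * pack ln.tail := by cases ln <;> simp [pack, hd]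
    have hp1 : hd lp < HB := by
      cases lp with
      | nil => simpa [hd] using HB_pos
      | cons a l => exact h3 a List.mem_cons_self
    have hn1 : hd ln < HB := by
      cases ln with
      | nil => simpa [hd] using HB_pos
      | cons a l => exact h4 a List.mem_cons_self
    have tp : ∀ a ∈ lp.tail, a < HB := fun a ha => h3 a (List.mem_of_mem_tail ha)
    have tn : ∀ a ∈ ln.tail, a < HB := fun a ha => h4 a (List.mem_of_mem_tail ha)
    have lt : ln.tail.length ≤ n := by rw [List.length_tail]; omega
    have lt' : lp.tail.length ≤ n := by rw [List.length_tail]; omega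
    have hle := pack_le_HH ln.tail n lt tn
    have hX : pack lp + HH (n + 1) - pack ln =
        (hd lp + HB - hd ln) + WW * (pack lp.tail + HH n - pack ln.tail) := by
      rw [hp, hn]
      simp only [HH]
      obtain ⟨k, hk⟩ := Nat.exists_eq_add_of_le hle
      rw [hk]
      have e1 : pack lp.tail + (pack ln.tail + k) - pack ln.tail = pack lp.tail + k := by omega
      rw [e1]
      have e2 : WW * (pack lp.tail + k) = WW * pack lp.tail + WW * k := by ring
      have e3 : WW * (pack ln.tail + k) = WW * pack ln.tail + WW * k := by ring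
      rw [e2, e3]
      omega
    have hdig : hd lp + HB - hd ln < WW := by rw [WW_eq]; omega
    have hW : 0 < WW := by rw [WW_eq]; have := HB_pos; omega
    rw [allge, Bool.and_eq_true, hX] at h
    have hmod : ((hd lp + HB - hd ln) + WW * (pack lp.tail + HH n - pack ln.tail)) % WW =
        hd lp + HB - hd ln := by
      rw [Nat.add_mul_mod_self_left, Nat.mod_eq_of_lt hdig]
    have hdiv : ((hd lp + HB - hd ln) + WW * (pack lp.tail + HH n - pack ln.tail)) / WW =
        pack lp.tail + HH n - pack ln.tail := by
      rw [Nat.add_mul_div_left _ _ hW, Nat.div_eq_of_lt hdig, Nat.zero_add]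
    rw [hmod, hdiv] at h
    have h5 := Nat.le_of_ble_eq_true h.1
    have h6 : hd ln ≤ hd lp := by omega
    have h7 := digits_le n lp.tail ln.tail M lt' lt tp tn
      (fun y hy => hM y (List.mem_cons_of_mem _ hy)) h.2
    rw [ndot_cons_hd, ndot_cons_hd]
    have h8 : (hd ln : ℝ) * x ≤ (hd lp : ℝ) * x :=
      mul_le_mul_of_nonneg_right (by exact_mod_cast h6) (hM x List.mem_cons_self)
    linarith

/-- test of one row -/
def chkRow (n H : ℕ) (row PBp PBn SBp SBn : List ℕ) : Bool :=
  Nat.blt (lin row SBp) HB && (Nat.blt (lin row SBn) HB &&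
    allge n (lin row PBp + H - lin row PBn))

/-- the test; `Bp`, `Bn` are given packed -/
def chk (n : ℕ) (rows : List (List ℕ)) (PBp PBn SBp SBn : List ℕ) : Bool :=
  rows.all fun row => chkRow n (HH n) row PBp PBn SBp SBn

theorem cert_row {n : ℕ} {row : List ℕ} {Bp Bn : List (List ℕ)} {M' : List ℝ}
    (hBp : ∀ B ∈ Bp, B.length ≤ n) (hBn : ∀ B ∈ Bn, B.length ≤ n) (hM' : ∀ x ∈ M', 0 ≤ x)
    (h : chkRow n (HH n) row (Bp.map pack) (Bn.map pack) (Bp.map List.sum) (Bn.map List.sum) =
      true) :
    ndot row (Bn.map fun B => ndot B M') ≤ ndot row (Bp.map fun B => ndot B M') := by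
  rw [chkRow, Bool.and_eq_true, Bool.and_eq_true] at h
  obtain ⟨h1, h2, h3⟩ := h
  have h1' := Nat.blt_eq.mp h1
  have h2' := Nat.blt_eq.mp h2
  rw [← sum_comb] at h1' h2'
  rw [← pack_comb, ← pack_comb] at h3
  rw [← ndot_comb, ← ndot_comb]
  exact digits_le n _ _ M' (length_comb _ _ n hBp) (length_comb _ _ n hBn)
    (fun a ha => lt_of_le_of_lt (List.single_le_sum (fun _ _ => Nat.zero_le _) a ha) h1')
    (fun a ha => lt_of_le_of_lt (List.single_le_sum (fun _ _ => Nat.zero_le _) a ha) h2')
    hM' h3

/-- the full certificate test: `As'` are the tables for `q`, `Cp`, `Cn` the positive and negative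
parts of the coefficient matrix -/
def chkAll (n : ℕ) (rows As' Cp Cn : List (List ℕ)) : Bool :=
  (As'.all fun A => Nat.ble A.length n) &&
  chk n rows (Cp.map fun c => lin c (As'.map pack)) (Cn.map fun c => lin c (As'.map pack))
    (Cp.map fun c => lin c (As'.map List.sum)) (Cn.map fun c => lin c (As'.map List.sum))

theorem cert_pos {n : ℕ} {As As' Cp Cn rows : List (List ℕ)} {M M' : List ℝ}
    (hrows : rowsOf M.length As = rows) (hM : ∀ x ∈ M, 0 ≤ x) (hM' : ∀ x ∈ M', 0 ≤ x)
    (h : chkAll n rows As' Cp Cn = true) :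
    rdot (As.map fun A => ndot A M) (Cn.map fun c => ndot c (As'.map fun A => ndot A M')) ≤
      rdot (As.map fun A => ndot A M) (Cp.map fun c => ndot c (As'.map fun A => ndot A M')) := by
  rw [chkAll, Bool.and_eq_true] at h
  obtain ⟨hlen, h⟩ := h
  have hlen' : ∀ A ∈ As', A.length ≤ n := fun A hA =>
    Nat.le_of_ble_eq_true (List.all_eq_true.mp hlen A hA)
  have hB : ∀ C : List (List ℕ), (C.map fun c => ndot c (As'.map fun A => ndot A M')) =
      (C.map fun c => comb c As').map fun B => ndot B M' := by
    intro C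
    rw [List.map_map]
    refine List.map_congr_left fun c _ => ?_
    rw [Function.comp_apply, ndot_comb]
  have hP : ∀ C : List (List ℕ), (C.map fun c => lin c (As'.map pack)) =
      (C.map fun c => comb c As').map pack := by
    intro C
    rw [List.map_map]
    refine List.map_congr_left fun c _ => ?_
    rw [Function.comp_apply, pack_comb]
  have hS : ∀ C : List (List ℕ), (C.map fun c => lin c (As'.map List.sum)) =
      (C.map fun c => comb c As').map List.sum := by
    intro C
    rw [List.map_map]
    refine List.map_congr_left fun c _ => ?_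
    rw [Function.comp_apply, sum_comb]
  have hL : ∀ C : List (List ℕ), ∀ B ∈ (C.map fun c => comb c As'), B.length ≤ n := by
    intro C B hB
    obtain ⟨c, _, rfl⟩ := List.mem_map.mp hB
    exact length_comb c As' n hlen'
  rw [hB Cp, hB Cn, rdot_rows, rdot_rows, hrows]
  refine rdot_mono M rows (fun r => ndot r ((Cn.map fun c => comb c As').map fun B => ndot B M'))
    (fun r => ndot r ((Cp.map fun c => comb c As').map fun B => ndot B M')) hM ?_
  intro r hr
  refine cert_row (hL Cp) (hL Cn) hM' ?_
  rw [hP, hP, hS, hS] at h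
  exact List.all_eq_true.mp h r hr

end Vale.Agent.P154.Q4L
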