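import Vale.Agent.P154.Defs

/-! expansion of the sum over the six permutations -/

namespace Vale.Agent.P154

lemma perm_univ : (Finset.univ : Finset (Equiv.Perm (Fin 3))) =
    {1, Equiv.swap 0 1, Equiv.swap 0 2, Equiv.swap 1 2, finRotate 3, (finRotate 3) ^ 2} := by
  decide

lemma S6_eq (F : V3 → ℝ) (p q : V3) :
    S6 F p q = F ![p 0 * q 0, p 1 * q 1, p 2 * q 2] + F ![p 0 * q 1, p 1 * q 2, p 2 * q 0] +
      F ![p 0 * q 2, p 1 * q 0, p 2 * q 1] +
      (F ![p 0 * q 1, p 1 * q 0, p 2 * q 2] + F ![p 0 * q 2, p 1 * q 1, p 2 * q 0] +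
      F ![p 0 * q 0, p 1 * q 2, p 2 * q 1]) := by
  have hv : ∀ π : Equiv.Perm (Fin 3), (fun i => p i * q (π i)) =
      ![p 0 * q (π 0), p 1 * q (π 1), p 2 * q (π 2)] := by
    intro π
    funext i
    fin_cases i <;> rfl
  unfold S6
  rw [perm_univ]
  rw [Finset.sum_insert (by decide), Finset.sum_insert (by decide), Finset.sum_insert (by decide),
    Finset.sum_insert (by decide), Finset.sum_insert (by decide), Finset.sum_singleton]
  simp only [hv]
  have a0 : (1 : Equiv.Perm (Fin 3)) 0 = 0 := by decide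
  have a1 : (1 : Equiv.Perm (Fin 3)) 1 = 1 := by decide
  have a2 : (1 : Equiv.Perm (Fin 3)) 2 = 2 := by decide
  have b0 : (Equiv.swap (0 : Fin 3) 1) 0 = 1 := by decide
  have b1 : (Equiv.swap (0 : Fin 3) 1) 1 = 0 := by decide
  have b2 : (Equiv.swap (0 : Fin 3) 1) 2 = 2 := by decide
  have c0 : (Equiv.swap (0 : Fin 3) 2) 0 = 2 := by decide
  have c1 : (Equiv.swap (0 : Fin 3) 2) 1 = 1 := by decide
  have c2 : (Equiv.swap (0 : Fin 3) 2) 2 = 0 := by decide
  have d0 : (Equiv.swap (1 : Fin 3) 2) 0 = 0 := by decide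
  have d1 : (Equiv.swap (1 : Fin 3) 2) 1 = 2 := by decide
  have d2 : (Equiv.swap (1 : Fin 3) 2) 2 = 1 := by decide
  have e0 : (finRotate 3) 0 = 1 := by decide
  have e1 : (finRotate 3) 1 = 2 := by decide
  have e2 : (finRotate 3) 2 = 0 := by decide
  have f0 : ((finRotate 3) ^ 2) 0 = 2 := by decide
  have f1 : ((finRotate 3) ^ 2) 1 = 0 := by decide
  have f2 : ((finRotate 3) ^ 2) 2 = 1 := by decide
  rw [a0, a1, a2, b0, b1, b2, c0, c1, c2, d0, d1, d2, e0, e1, e2, f0, f1, f2]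
  ring

end Vale.Agent.P154
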