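import Vale.Agent.P154.GRay
import Vale.Agent.P154.GNorm
import Vale.Agent.P154.SixSum
import Vale.Agent.P154.N3Pack

/-! P154, three states, negative eigenvalues: from polynomial inequalities to a potential -/

namespace Vale.Agent.P154N

open Vale.Agent.P154.G

/-- second elementary symmetric function -/
def E2 (v : V 3) : ℝ := v 0 * v 1 + v 0 * v 2 + v 1 * v 2

/-- third elementary symmetric function -/
def E3 (v : V 3) : ℝ := v 0 * v 1 * v 2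

lemma sg3 (v : V 3) : sg v = v 0 + v 1 + v 2 := by unfold sg; rw [Fin.sum_univ_three]

/-- power sums -/
def ps (n : ℕ) (v : V 3) : ℝ := v 0 ^ n + v 1 ^ n + v 2 ^ n

/-- power sums in the elementary symmetric functions -/
def PS (Z a b : ℝ) : ℕ → ℝ
  | 0 => 3
  | 1 => Z
  | 2 => Z ^ 2 - 2 * a
  | n + 3 => Z * PS Z a b (n + 2) - a * PS Z a b (n + 1) + b * PS Z a b n

lemma psE0 (Z a b : ℝ) : PS Z a b 0 =
    (3) * Z ^ 0 * a ^ 0 * b ^ 0 := by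
  simp only [PS]; ring

lemma psE1 (Z a b : ℝ) : PS Z a b 1 =
    (1) * Z ^ 1 * a ^ 0 * b ^ 0 := by
  simp only [PS]; ring

lemma psE2 (Z a b : ℝ) : PS Z a b 2 =
    (-2) * Z ^ 0 * a ^ 1 * b ^ 0 + (1) * Z ^ 2 * a ^ 0 * b ^ 0 := by
  simp only [PS]; ring

lemma psE3 (Z a b : ℝ) : PS Z a b 3 =
    (3) * Z ^ 0 * a ^ 0 * b ^ 1 + (-3) * Z ^ 1 * a ^ 1 * b ^ 0 + (1) * Z ^ 3 * a ^ 0 * b ^ 0 := by
  rw [PS, psE2, psE1, psE0]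
  ring

lemma psE4 (Z a b : ℝ) : PS Z a b 4 =
    (2) * Z ^ 0 * a ^ 2 * b ^ 0 + (4) * Z ^ 1 * a ^ 0 * b ^ 1 + (-4) * Z ^ 2 * a ^ 1 * b ^ 0 +
    (1) * Z ^ 4 * a ^ 0 * b ^ 0 := by
  rw [PS, psE3, psE2, psE1]
  ring

lemma psE5 (Z a b : ℝ) : PS Z a b 5 =
    (-5) * Z ^ 0 * a ^ 1 * b ^ 1 + (5) * Z ^ 1 * a ^ 2 * b ^ 0 + (5) * Z ^ 2 * a ^ 0 * b ^ 1 +
    (-5) * Z ^ 3 * a ^ 1 * b ^ 0 + (1) * Z ^ 5 * a ^ 0 * b ^ 0 := by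
  rw [PS, psE4, psE3, psE2]
  ring

lemma psE6 (Z a b : ℝ) : PS Z a b 6 =
    (3) * Z ^ 0 * a ^ 0 * b ^ 2 + (-2) * Z ^ 0 * a ^ 3 * b ^ 0 + (-12) * Z ^ 1 * a ^ 1 * b ^ 1 +
    (9) * Z ^ 2 * a ^ 2 * b ^ 0 + (6) * Z ^ 3 * a ^ 0 * b ^ 1 + (-6) * Z ^ 4 * a ^ 1 * b ^ 0 +
    (1) * Z ^ 6 * a ^ 0 * b ^ 0 := by
  rw [PS, psE5, psE4, psE3]
  ring

lemma psE7 (Z a b : ℝ) : PS Z a b 7 =
    (7) * Z ^ 0 * a ^ 2 * b ^ 1 + (7) * Z ^ 1 * a ^ 0 * b ^ 2 + (-7) * Z ^ 1 * a ^ 3 * b ^ 0 +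
    (-21) * Z ^ 2 * a ^ 1 * b ^ 1 + (14) * Z ^ 3 * a ^ 2 * b ^ 0 + (7) * Z ^ 4 * a ^ 0 * b ^ 1 +
    (-7) * Z ^ 5 * a ^ 1 * b ^ 0 + (1) * Z ^ 7 * a ^ 0 * b ^ 0 := by
  rw [PS, psE6, psE5, psE4]
  ring

lemma psE8 (Z a b : ℝ) : PS Z a b 8 =
    (-8) * Z ^ 0 * a ^ 1 * b ^ 2 + (2) * Z ^ 0 * a ^ 4 * b ^ 0 + (24) * Z ^ 1 * a ^ 2 * b ^ 1 +
    (12) * Z ^ 2 * a ^ 0 * b ^ 2 + (-16) * Z ^ 2 * a ^ 3 * b ^ 0 + (-32) * Z ^ 3 * a ^ 1 * b ^ 1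
    + (20) * Z ^ 4 * a ^ 2 * b ^ 0 + (8) * Z ^ 5 * a ^ 0 * b ^ 1 + (-8) * Z ^ 6 * a ^ 1 * b ^ 0 +
    (1) * Z ^ 8 * a ^ 0 * b ^ 0 := by
  rw [PS, psE7, psE6, psE5]
  ring

lemma psE9 (Z a b : ℝ) : PS Z a b 9 =
    (3) * Z ^ 0 * a ^ 0 * b ^ 3 + (-9) * Z ^ 0 * a ^ 3 * b ^ 1 + (-27) * Z ^ 1 * a ^ 1 * b ^ 2 +
    (9) * Z ^ 1 * a ^ 4 * b ^ 0 + (54) * Z ^ 2 * a ^ 2 * b ^ 1 + (18) * Z ^ 3 * a ^ 0 * b ^ 2 +
    (-30) * Z ^ 3 * a ^ 3 * b ^ 0 + (-45) * Z ^ 4 * a ^ 1 * b ^ 1 + (27) * Z ^ 5 * a ^ 2 * b ^ 0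
    + (9) * Z ^ 6 * a ^ 0 * b ^ 1 + (-9) * Z ^ 7 * a ^ 1 * b ^ 0 + (1) * Z ^ 9 * a ^ 0 * b ^ 0 := by
  rw [PS, psE8, psE7, psE6]
  ring

lemma psE10 (Z a b : ℝ) : PS Z a b 10 =
    (15) * Z ^ 0 * a ^ 2 * b ^ 2 + (-2) * Z ^ 0 * a ^ 5 * b ^ 0 + (10) * Z ^ 1 * a ^ 0 * b ^ 3 +
    (-40) * Z ^ 1 * a ^ 3 * b ^ 1 + (-60) * Z ^ 2 * a ^ 1 * b ^ 2 + (25) * Z ^ 2 * a ^ 4 * b ^ 0
    + (100) * Z ^ 3 * a ^ 2 * b ^ 1 + (25) * Z ^ 4 * a ^ 0 * b ^ 2 + (-50) * Z ^ 4 * a ^ 3 * b ^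
    0 + (-60) * Z ^ 5 * a ^ 1 * b ^ 1 + (35) * Z ^ 6 * a ^ 2 * b ^ 0 + (10) * Z ^ 7 * a ^ 0 * b ^
    1 + (-10) * Z ^ 8 * a ^ 1 * b ^ 0 + (1) * Z ^ 10 * a ^ 0 * b ^ 0 := by
  rw [PS, psE9, psE8, psE7]
  ring

lemma psE11 (Z a b : ℝ) : PS Z a b 11 =
    (-11) * Z ^ 0 * a ^ 1 * b ^ 3 + (11) * Z ^ 0 * a ^ 4 * b ^ 1 + (66) * Z ^ 1 * a ^ 2 * b ^ 2 +
    (-11) * Z ^ 1 * a ^ 5 * b ^ 0 + (22) * Z ^ 2 * a ^ 0 * b ^ 3 + (-110) * Z ^ 2 * a ^ 3 * b ^ 1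
    + (-110) * Z ^ 3 * a ^ 1 * b ^ 2 + (55) * Z ^ 3 * a ^ 4 * b ^ 0 + (165) * Z ^ 4 * a ^ 2 * b ^
    1 + (33) * Z ^ 5 * a ^ 0 * b ^ 2 + (-77) * Z ^ 5 * a ^ 3 * b ^ 0 + (-77) * Z ^ 6 * a ^ 1 * b
    ^ 1 + (44) * Z ^ 7 * a ^ 2 * b ^ 0 + (11) * Z ^ 8 * a ^ 0 * b ^ 1 + (-11) * Z ^ 9 * a ^ 1 * b
    ^ 0 + (1) * Z ^ 11 * a ^ 0 * b ^ 0 := by
  rw [PS, psE10, psE9, psE8]
  ring

lemma psE12 (Z a b : ℝ) : PS Z a b 12 =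
    (3) * Z ^ 0 * a ^ 0 * b ^ 4 + (-24) * Z ^ 0 * a ^ 3 * b ^ 2 + (2) * Z ^ 0 * a ^ 6 * b ^ 0 +
    (-48) * Z ^ 1 * a ^ 1 * b ^ 3 + (60) * Z ^ 1 * a ^ 4 * b ^ 1 + (180) * Z ^ 2 * a ^ 2 * b ^ 2
    + (-36) * Z ^ 2 * a ^ 5 * b ^ 0 + (40) * Z ^ 3 * a ^ 0 * b ^ 3 + (-240) * Z ^ 3 * a ^ 3 * b ^
    1 + (-180) * Z ^ 4 * a ^ 1 * b ^ 2 + (105) * Z ^ 4 * a ^ 4 * b ^ 0 + (252) * Z ^ 5 * a ^ 2 *
    b ^ 1 + (42) * Z ^ 6 * a ^ 0 * b ^ 2 + (-112) * Z ^ 6 * a ^ 3 * b ^ 0 + (-96) * Z ^ 7 * a ^ 1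
    * b ^ 1 + (54) * Z ^ 8 * a ^ 2 * b ^ 0 + (12) * Z ^ 9 * a ^ 0 * b ^ 1 + (-12) * Z ^ 10 * a ^
    1 * b ^ 0 + (1) * Z ^ 12 * a ^ 0 * b ^ 0 := by
  rw [PS, psE11, psE10, psE9]
  ring

lemma psE13 (Z a b : ℝ) : PS Z a b 13 =
    (26) * Z ^ 0 * a ^ 2 * b ^ 3 + (-13) * Z ^ 0 * a ^ 5 * b ^ 1 + (13) * Z ^ 1 * a ^ 0 * b ^ 4 +
    (-130) * Z ^ 1 * a ^ 3 * b ^ 2 + (13) * Z ^ 1 * a ^ 6 * b ^ 0 + (-130) * Z ^ 2 * a ^ 1 * b ^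
    3 + (195) * Z ^ 2 * a ^ 4 * b ^ 1 + (390) * Z ^ 3 * a ^ 2 * b ^ 2 + (-91) * Z ^ 3 * a ^ 5 * b
    ^ 0 + (65) * Z ^ 4 * a ^ 0 * b ^ 3 + (-455) * Z ^ 4 * a ^ 3 * b ^ 1 + (-273) * Z ^ 5 * a ^ 1
    * b ^ 2 + (182) * Z ^ 5 * a ^ 4 * b ^ 0 + (364) * Z ^ 6 * a ^ 2 * b ^ 1 + (52) * Z ^ 7 * a ^
    0 * b ^ 2 + (-156) * Z ^ 7 * a ^ 3 * b ^ 0 + (-117) * Z ^ 8 * a ^ 1 * b ^ 1 + (65) * Z ^ 9 *
    a ^ 2 * b ^ 0 + (13) * Z ^ 10 * a ^ 0 * b ^ 1 + (-13) * Z ^ 11 * a ^ 1 * b ^ 0 + (1) * Z ^ 13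
    * a ^ 0 * b ^ 0 := by
  rw [PS, psE12, psE11, psE10]
  ring

lemma psE14 (Z a b : ℝ) : PS Z a b 14 =
    (-14) * Z ^ 0 * a ^ 1 * b ^ 4 + (35) * Z ^ 0 * a ^ 4 * b ^ 2 + (-2) * Z ^ 0 * a ^ 7 * b ^ 0 +
    (140) * Z ^ 1 * a ^ 2 * b ^ 3 + (-84) * Z ^ 1 * a ^ 5 * b ^ 1 + (35) * Z ^ 2 * a ^ 0 * b ^ 4
    + (-420) * Z ^ 2 * a ^ 3 * b ^ 2 + (49) * Z ^ 2 * a ^ 6 * b ^ 0 + (-280) * Z ^ 3 * a ^ 1 * b
    ^ 3 + (490) * Z ^ 3 * a ^ 4 * b ^ 1 + (735) * Z ^ 4 * a ^ 2 * b ^ 2 + (-196) * Z ^ 4 * a ^ 5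
    * b ^ 0 + (98) * Z ^ 5 * a ^ 0 * b ^ 3 + (-784) * Z ^ 5 * a ^ 3 * b ^ 1 + (-392) * Z ^ 6 * a
    ^ 1 * b ^ 2 + (294) * Z ^ 6 * a ^ 4 * b ^ 0 + (504) * Z ^ 7 * a ^ 2 * b ^ 1 + (63) * Z ^ 8 *
    a ^ 0 * b ^ 2 + (-210) * Z ^ 8 * a ^ 3 * b ^ 0 + (-140) * Z ^ 9 * a ^ 1 * b ^ 1 + (77) * Z ^
    10 * a ^ 2 * b ^ 0 + (14) * Z ^ 11 * a ^ 0 * b ^ 1 + (-14) * Z ^ 12 * a ^ 1 * b ^ 0 + (1) * Z
    ^ 14 * a ^ 0 * b ^ 0 := by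
  rw [PS, psE13, psE12, psE11]
  ring

lemma psE15 (Z a b : ℝ) : PS Z a b 15 =
    (3) * Z ^ 0 * a ^ 0 * b ^ 5 + (-50) * Z ^ 0 * a ^ 3 * b ^ 3 + (15) * Z ^ 0 * a ^ 6 * b ^ 1 +
    (-75) * Z ^ 1 * a ^ 1 * b ^ 4 + (225) * Z ^ 1 * a ^ 4 * b ^ 2 + (-15) * Z ^ 1 * a ^ 7 * b ^ 0
    + (450) * Z ^ 2 * a ^ 2 * b ^ 3 + (-315) * Z ^ 2 * a ^ 5 * b ^ 1 + (75) * Z ^ 3 * a ^ 0 * b ^
    4 + (-1050) * Z ^ 3 * a ^ 3 * b ^ 2 + (140) * Z ^ 3 * a ^ 6 * b ^ 0 + (-525) * Z ^ 4 * a ^ 1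
    * b ^ 3 + (1050) * Z ^ 4 * a ^ 4 * b ^ 1 + (1260) * Z ^ 5 * a ^ 2 * b ^ 2 + (-378) * Z ^ 5 *
    a ^ 5 * b ^ 0 + (140) * Z ^ 6 * a ^ 0 * b ^ 3 + (-1260) * Z ^ 6 * a ^ 3 * b ^ 1 + (-540) * Z
    ^ 7 * a ^ 1 * b ^ 2 + (450) * Z ^ 7 * a ^ 4 * b ^ 0 + (675) * Z ^ 8 * a ^ 2 * b ^ 1 + (75) *
    Z ^ 9 * a ^ 0 * b ^ 2 + (-275) * Z ^ 9 * a ^ 3 * b ^ 0 + (-165) * Z ^ 10 * a ^ 1 * b ^ 1 +
    (90) * Z ^ 11 * a ^ 2 * b ^ 0 + (15) * Z ^ 12 * a ^ 0 * b ^ 1 + (-15) * Z ^ 13 * a ^ 1 * b ^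
    0 + (1) * Z ^ 15 * a ^ 0 * b ^ 0 := by
  rw [PS, psE14, psE13, psE12]
  ring

lemma psE16 (Z a b : ℝ) : PS Z a b 16 =
    (40) * Z ^ 0 * a ^ 2 * b ^ 4 + (-48) * Z ^ 0 * a ^ 5 * b ^ 2 + (2) * Z ^ 0 * a ^ 8 * b ^ 0 +
    (16) * Z ^ 1 * a ^ 0 * b ^ 5 + (-320) * Z ^ 1 * a ^ 3 * b ^ 3 + (112) * Z ^ 1 * a ^ 6 * b ^ 1
    + (-240) * Z ^ 2 * a ^ 1 * b ^ 4 + (840) * Z ^ 2 * a ^ 4 * b ^ 2 + (-64) * Z ^ 2 * a ^ 7 * b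
    ^ 0 + (1120) * Z ^ 3 * a ^ 2 * b ^ 3 + (-896) * Z ^ 3 * a ^ 5 * b ^ 1 + (140) * Z ^ 4 * a ^ 0
    * b ^ 4 + (-2240) * Z ^ 4 * a ^ 3 * b ^ 2 + (336) * Z ^ 4 * a ^ 6 * b ^ 0 + (-896) * Z ^ 5 *
    a ^ 1 * b ^ 3 + (2016) * Z ^ 5 * a ^ 4 * b ^ 1 + (2016) * Z ^ 6 * a ^ 2 * b ^ 2 + (-672) * Z
    ^ 6 * a ^ 5 * b ^ 0 + (192) * Z ^ 7 * a ^ 0 * b ^ 3 + (-1920) * Z ^ 7 * a ^ 3 * b ^ 1 +
    (-720) * Z ^ 8 * a ^ 1 * b ^ 2 + (660) * Z ^ 8 * a ^ 4 * b ^ 0 + (880) * Z ^ 9 * a ^ 2 * b ^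
    1 + (88) * Z ^ 10 * a ^ 0 * b ^ 2 + (-352) * Z ^ 10 * a ^ 3 * b ^ 0 + (-192) * Z ^ 11 * a ^ 1
    * b ^ 1 + (104) * Z ^ 12 * a ^ 2 * b ^ 0 + (16) * Z ^ 13 * a ^ 0 * b ^ 1 + (-16) * Z ^ 14 * a
    ^ 1 * b ^ 0 + (1) * Z ^ 16 * a ^ 0 * b ^ 0 := by
  rw [PS, psE15, psE14, psE13]
  ring

lemma psE17 (Z a b : ℝ) : PS Z a b 17 =
    (-17) * Z ^ 0 * a ^ 1 * b ^ 5 + (85) * Z ^ 0 * a ^ 4 * b ^ 3 + (-17) * Z ^ 0 * a ^ 7 * b ^ 1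
    + (255) * Z ^ 1 * a ^ 2 * b ^ 4 + (-357) * Z ^ 1 * a ^ 5 * b ^ 2 + (17) * Z ^ 1 * a ^ 8 * b ^
    0 + (51) * Z ^ 2 * a ^ 0 * b ^ 5 + (-1190) * Z ^ 2 * a ^ 3 * b ^ 3 + (476) * Z ^ 2 * a ^ 6 *
    b ^ 1 + (-595) * Z ^ 3 * a ^ 1 * b ^ 4 + (2380) * Z ^ 3 * a ^ 4 * b ^ 2 + (-204) * Z ^ 3 * a
    ^ 7 * b ^ 0 + (2380) * Z ^ 4 * a ^ 2 * b ^ 3 + (-2142) * Z ^ 4 * a ^ 5 * b ^ 1 + (238) * Z ^
    5 * a ^ 0 * b ^ 4 + (-4284) * Z ^ 5 * a ^ 3 * b ^ 2 + (714) * Z ^ 5 * a ^ 6 * b ^ 0 + (-1428)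
    * Z ^ 6 * a ^ 1 * b ^ 3 + (3570) * Z ^ 6 * a ^ 4 * b ^ 1 + (3060) * Z ^ 7 * a ^ 2 * b ^ 2 +
    (-1122) * Z ^ 7 * a ^ 5 * b ^ 0 + (255) * Z ^ 8 * a ^ 0 * b ^ 3 + (-2805) * Z ^ 8 * a ^ 3 * b
    ^ 1 + (-935) * Z ^ 9 * a ^ 1 * b ^ 2 + (935) * Z ^ 9 * a ^ 4 * b ^ 0 + (1122) * Z ^ 10 * a ^
    2 * b ^ 1 + (102) * Z ^ 11 * a ^ 0 * b ^ 2 + (-442) * Z ^ 11 * a ^ 3 * b ^ 0 + (-221) * Z ^
    12 * a ^ 1 * b ^ 1 + (119) * Z ^ 13 * a ^ 2 * b ^ 0 + (17) * Z ^ 14 * a ^ 0 * b ^ 1 + (-17) *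
    Z ^ 15 * a ^ 1 * b ^ 0 + (1) * Z ^ 17 * a ^ 0 * b ^ 0 := by
  rw [PS, psE16, psE15, psE14]
  ring

lemma psE18 (Z a b : ℝ) : PS Z a b 18 =
    (3) * Z ^ 0 * a ^ 0 * b ^ 6 + (-90) * Z ^ 0 * a ^ 3 * b ^ 4 + (63) * Z ^ 0 * a ^ 6 * b ^ 2 +
    (-2) * Z ^ 0 * a ^ 9 * b ^ 0 + (-108) * Z ^ 1 * a ^ 1 * b ^ 5 + (630) * Z ^ 1 * a ^ 4 * b ^ 3
    + (-144) * Z ^ 1 * a ^ 7 * b ^ 1 + (945) * Z ^ 2 * a ^ 2 * b ^ 4 + (-1512) * Z ^ 2 * a ^ 5 *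
    b ^ 2 + (81) * Z ^ 2 * a ^ 8 * b ^ 0 + (126) * Z ^ 3 * a ^ 0 * b ^ 5 + (-3360) * Z ^ 3 * a ^
    3 * b ^ 3 + (1512) * Z ^ 3 * a ^ 6 * b ^ 1 + (-1260) * Z ^ 4 * a ^ 1 * b ^ 4 + (5670) * Z ^ 4
    * a ^ 4 * b ^ 2 + (-540) * Z ^ 4 * a ^ 7 * b ^ 0 + (4536) * Z ^ 5 * a ^ 2 * b ^ 3 + (-4536) *
    Z ^ 5 * a ^ 5 * b ^ 1 + (378) * Z ^ 6 * a ^ 0 * b ^ 4 + (-7560) * Z ^ 6 * a ^ 3 * b ^ 2 +
    (1386) * Z ^ 6 * a ^ 6 * b ^ 0 + (-2160) * Z ^ 7 * a ^ 1 * b ^ 3 + (5940) * Z ^ 7 * a ^ 4 * b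
    ^ 1 + (4455) * Z ^ 8 * a ^ 2 * b ^ 2 + (-1782) * Z ^ 8 * a ^ 5 * b ^ 0 + (330) * Z ^ 9 * a ^
    0 * b ^ 3 + (-3960) * Z ^ 9 * a ^ 3 * b ^ 1 + (-1188) * Z ^ 10 * a ^ 1 * b ^ 2 + (1287) * Z ^
    10 * a ^ 4 * b ^ 0 + (1404) * Z ^ 11 * a ^ 2 * b ^ 1 + (117) * Z ^ 12 * a ^ 0 * b ^ 2 +
    (-546) * Z ^ 12 * a ^ 3 * b ^ 0 + (-252) * Z ^ 13 * a ^ 1 * b ^ 1 + (135) * Z ^ 14 * a ^ 2 *
    b ^ 0 + (18) * Z ^ 15 * a ^ 0 * b ^ 1 + (-18) * Z ^ 16 * a ^ 1 * b ^ 0 + (1) * Z ^ 18 * a ^ 0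
    * b ^ 0 := by
  rw [PS, psE17, psE16, psE15]
  ring

theorem ps_eq (v : V 3) : ∀ n, ps n v = PS (sg v) (E2 v) (E3 v) n
  | 0 => by simp [ps, PS]; norm_num
  | 1 => by simp [ps, PS, sg3]
  | 2 => by simp only [ps, PS, sg3, E2]; ring
  | n + 3 => by
    rw [PS, ← ps_eq v (n + 2), ← ps_eq v (n + 1), ← ps_eq v n]
    simp only [ps, sg3, E2, E3]
    ring

/-- symmetric monomials -/
def mk (i j k : ℕ) (v : V 3) : ℝ := E3 v ^ k * (ps i v * ps j v - ps (i + j) v)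

/-- symmetric monomials in the elementary symmetric functions -/
def MK (i j k : ℕ) (Z a b : ℝ) : ℝ := b ^ k * (PS Z a b i * PS Z a b j - PS Z a b (i + j))

theorem mk_eq (i j k : ℕ) (v : V 3) : mk i j k v = MK i j k (sg v) (E2 v) (E3 v) := by
  unfold mk MK
  rw [ps_eq, ps_eq, ps_eq]

lemma SS_six (F : V 3 → ℝ) (p q : V 3) :
    SS F p q = F ![p 0 * q 0, p 1 * q 1, p 2 * q 2] + F ![p 0 * q 1, p 1 * q 2, p 2 * q 0] +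
      F ![p 0 * q 2, p 1 * q 0, p 2 * q 1] +
      (F ![p 0 * q 1, p 1 * q 0, p 2 * q 2] + F ![p 0 * q 2, p 1 * q 1, p 2 * q 0] +
      F ![p 0 * q 0, p 1 * q 2, p 2 * q 1]) := Vale.Agent.P154.S6_eq F p q

theorem SS_mk (i j k : ℕ) (p r : V 3) : SS (mk i j k) p r = mk i j k p * mk i j k r := by
  rw [SS_six]
  simp only [mk, ps, E3, Matrix.cons_val]
  ring

theorem mk_smul (i j k : ℕ) (s : ℝ) (v : V 3) :
    mk i j k (fun l => s * v l) = s ^ (i + j + 3 * k) * mk i j k v := by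
  simp only [mk, ps, E3]
  ring

/-- a combination of symmetric monomials -/
noncomputable def Ts (L : List (ℝ × ℕ × ℕ × ℕ)) (v : V 3) : ℝ :=
  (L.map fun e => e.1 * mk e.2.1 e.2.2.1 e.2.2.2 v).sum

/-- the same in the elementary symmetric functions -/
noncomputable def TS (L : List (ℝ × ℕ × ℕ × ℕ)) (Z a b : ℝ) : ℝ :=
  (L.map fun e => e.1 * MK e.2.1 e.2.2.1 e.2.2.2 Z a b).sum

/-- the kernel of a combination -/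
noncomputable def Ks (L : List (ℝ × ℕ × ℕ × ℕ)) (a b a' b' : ℝ) : ℝ :=
  (L.map fun e => e.1 * (3 ^ (e.2.1 + e.2.2.1 + 3 * e.2.2.2) *
    (MK e.2.1 e.2.2.1 e.2.2.2 1 a b * MK e.2.1 e.2.2.1 e.2.2.2 1 a' b'))).sum

theorem Ts_eq (L : List (ℝ × ℕ × ℕ × ℕ)) (v : V 3) : Ts L v = TS L (sg v) (E2 v) (E3 v) := by
  unfold Ts TS
  simp only [mk_eq]

theorem SS_Ts (L : List (ℝ × ℕ × ℕ × ℕ)) {p r : V 3} (hp : sg p = 1) (hr : sg r = 1) :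
    SS (fun v => Ts L (fun l => 3 * v l)) p r = Ks L (E2 p) (E3 p) (E2 r) (E3 r) := by
  unfold Ts Ks
  induction L with
  | nil => simp [SS]
  | cons e L ih =>
    simp only [List.map_cons, List.sum_cons]
    have h1 : SS (fun v : V 3 => e.1 * mk e.2.1 e.2.2.1 e.2.2.2 (fun l => 3 * v l) +
        (List.map (fun e : ℝ × ℕ × ℕ × ℕ => e.1 * mk e.2.1 e.2.2.1 e.2.2.2 (fun l => 3 * v l))
          L).sum) p r = _ := SS_add _ _ p r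
    rw [h1, ih]
    congr 1
    have h2 : (fun v : V 3 => e.1 * mk e.2.1 e.2.2.1 e.2.2.2 (fun l => 3 * v l)) =
        fun v : V 3 => (e.1 * 3 ^ (e.2.1 + e.2.2.1 + 3 * e.2.2.2)) *
          mk e.2.1 e.2.2.1 e.2.2.2 v := by
      funext v
      rw [mk_smul]
      ring
    rw [h2, SS_mul, SS_mk, mk_eq, mk_eq, hp, hr]
    ring

/-- the potential -/
noncomputable def Pf (φ : ℝ → ℝ → ℝ) (v : V 3) : ℝ :=
  sg v * φ (E2 v / sg v ^ 2) (E3 v / sg v ^ 3)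

lemma E2_smul (s : ℝ) (v : V 3) : E2 (fun i => s * v i) = s ^ 2 * E2 v := by unfold E2; ring
lemma E3_smul (s : ℝ) (v : V 3) : E3 (fun i => s * v i) = s ^ 3 * E3 v := by unfold E3; ring

lemma Pf_smul (φ : ℝ → ℝ → ℝ) (s : ℝ) (v : V 3) : Pf φ (fun i => s * v i) = s * Pf φ v := by
  unfold Pf
  rw [sg_smul, E2_smul, E3_smul]
  rcases eq_or_ne s 0 with h | h
  · rw [h]; simp
  · rcases eq_or_ne (sg v) 0 with h2 | h2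
    · rw [h2]; simp
    · have e1 : s ^ 2 * E2 v / (s * sg v) ^ 2 = E2 v / sg v ^ 2 := by field_simp
      have e2 : s ^ 3 * E3 v / (s * sg v) ^ 3 = E3 v / sg v ^ 3 := by field_simp
      rw [e1, e2]
      ring

lemma Pf_one {φ : ℝ → ℝ → ℝ} {v : V 3} (h : sg v = 1) : Pf φ v = φ (E2 v) (E3 v) := by
  unfold Pf; rw [h]; simp

lemma Rf_one3 {v : V 3} (h : sg v = 1) : Rf v = 1 - 3 * E2 v := by
  unfold Rf
  have h2 : v 0 + v 1 + v 2 = 1 := by rw [← sg3]; exact h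
  rw [Fin.sum_univ_three, Fin.sum_univ_three, h2]
  unfold E2
  have h3 : v 0 = 1 - v 1 - v 2 := by linarith
  rw [h3]
  push_cast
  ring

/-- normalisation -/
lemma norm3 {v : V 3} (hv : ∀ i, 0 ≤ v i) :
    v = 0 ∨ ∃ w : V 3, (∀ i, 0 ≤ w i) ∧ sg w = 1 ∧ 0 < sg v ∧ (v = fun i => sg v * w i) := by
  rcases (sg_nonneg hv).eq_or_lt with h | h
  · left
    exact eq_zero_of_sg hv h.symm
  · right
    refine ⟨fun i => (sg v)⁻¹ * v i, fun i => mul_nonneg (inv_nonneg.2 h.le) (hv i), ?_, h, ?_⟩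
    · rw [sg_smul]
      exact inv_mul_cancel₀ h.ne'
    · funext i
      field_simp

/-- The polynomial inequalities behind a potential at eigenvalue `-c`. -/
structure Cert (c rho t a K : ℝ) (φ : ℝ → ℝ → ℝ) (L : List (ℝ × ℕ × ℕ × ℕ)) : Prop where
  c_pos : 0 < c
  c_le : c ≤ 1 / 2
  rho_nn : 0 ≤ rho
  t_nn : 0 ≤ t
  a_pos : 0 < a
  K_pos : 0 < K
  lower : ∀ v : V 3, (∀ i, 0 ≤ v i) → sg v = 1 → a * (1 - 3 * E2 v) ≤ φ (E2 v) (E3 v)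
  upper : ∀ v : V 3, (∀ i, 0 ≤ v i) → sg v = 1 → φ (E2 v) (E3 v) ≤ K * (1 - 3 * E2 v)
  ray : ∀ v : V 3, (∀ i, 0 ≤ v i) → sg v = 1 → ∀ τ : ℝ, 0 ≤ τ → τ ≤ 1 →
    φ (1 / 3 - τ ^ 2 * (1 / 3 - E2 v))
      (((1 - τ) / 3) ^ 3 + ((1 - τ) / 3) ^ 2 * τ + (1 - τ) / 3 * τ ^ 2 * E2 v + τ ^ 3 * E3 v) ≤
      τ ^ 2 * φ (E2 v) (E3 v)
  maj : ∀ v : V 3, (∀ i, 0 ≤ v i) → sg v = 1 → ∀ Z : ℝ, 1 - 2 * c ≤ Z → 0 ≤ Z → Z ≤ 1 + c →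
    Z * φ (E2 v) (E3 v) ≤ TS L Z (Z ^ 2 * E2 v) (Z ^ 3 * E3 v)
  ker : ∀ p r : V 3, (∀ i, 0 ≤ p i) → (∀ i, 0 ≤ r i) → sg p = 1 → sg r = 1 →
    1 / 6 * Ks L (1 / 3 - c ^ 2 * (1 / 3 - E2 r))
      (((1 + c) / 3) ^ 3 - ((1 + c) / 3) ^ 2 * c + (1 + c) / 3 * c ^ 2 * E2 r - c ^ 3 * E3 r)
      (E2 p) (E3 p) ≤
      φ (E2 p) (E3 p) + rho * φ (E2 r) (E3 r) - t * ((1 - 3 * E2 r) * (1 - 3 * E2 p))

lemma E2_chan {τ : ℝ} {v : V 3} (h : sg v = 1) :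
    E2 (chan τ v) = 1 / 3 - τ ^ 2 * (1 / 3 - E2 v) := by
  have h2 : v 0 = 1 - v 1 - v 2 := by rw [sg3] at h; linarith
  unfold E2 chan
  rw [h, h2]
  push_cast
  ring

lemma E3_chan {τ : ℝ} {v : V 3} (h : sg v = 1) :
    E3 (chan τ v) = ((1 - τ) / 3) ^ 3 + ((1 - τ) / 3) ^ 2 * τ + (1 - τ) / 3 * τ ^ 2 * E2 v +
      τ ^ 3 * E3 v := by
  have h2 : v 0 = 1 - v 1 - v 2 := by rw [sg3] at h; linarith
  unfold E3 E2 chan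
  rw [h, h2]
  push_cast
  ring

lemma chan_comp (s τ : ℝ) (v : V 3) : chan s (chan τ v) = chan (s * τ) v := by
  funext i
  have h : sg (chan τ v) = sg v := sg_chan (by norm_num) τ v
  show s * chan τ v i + (1 - s) / (3 : ℕ) * sg (chan τ v) =
    s * τ * v i + (1 - s * τ) / (3 : ℕ) * sg v
  rw [h]
  unfold chan
  push_cast
  ring

lemma chan_smul3 (s τ : ℝ) (v : V 3) : chan s (fun i => τ * v i) = fun i => τ * chan s v i := by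
  funext i
  unfold chan
  rw [sg_smul]
  ring

variable {c rho t a K : ℝ} {φ : ℝ → ℝ → ℝ} {L : List (ℝ × ℕ × ℕ × ℕ)}

lemma chan_nn3 (h0 : 0 < c) (h1 : c ≤ 1 / 2) {v : V 3} (hv : ∀ i, 0 ≤ v i) (i : Fin 3) :
    0 ≤ chan (-c) v i :=
  chan_nn2 ⟨by push_cast; linarith, by linarith⟩ hv i

/-- the inequality for normalised vectors at `-c` -/
theorem Cert.pt_norm (H : Cert c rho t a K φ L) {p r : V 3} (hp : ∀ i, 0 ≤ p i)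
    (hr : ∀ i, 0 ≤ r i) (hp1 : sg p = 1) (hr1 : sg r = 1) :
    1 / 2 * SS (Pf φ) (chan (-c) r) p ≤ Pf φ p + rho * Pf φ r - t * (Rf r * Rf p) := by
  have hc0 := H.c_pos
  have hv : ∀ i, 0 ≤ chan (-c) r i := chan_nn3 H.c_pos H.c_le hr
  have hv1 : sg (chan (-c) r) = 1 := by rw [sg_chan (by norm_num)]; exact hr1
  have hmax : ∀ i, 3 * chan (-c) r i ≤ 1 + c := by
    intro i
    unfold chan
    rw [hr1]
    have := mul_nonneg hc0.le (hr i)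
    push_cast
    linarith
  have hmin : ∀ i, 1 - 2 * c ≤ 3 * chan (-c) r i := by
    intro i
    have h1 : r i ≤ 1 := by
      rw [← hr1]
      exact Finset.single_le_sum (f := r) (fun j _ => hr j) (Finset.mem_univ i)
    unfold chan
    rw [hr1]
    have := mul_le_mul_of_nonneg_left h1 hc0.le
    push_cast
    linarith
  -- termwise
  have key : SS (Pf φ) (chan (-c) r) p ≤
      1 / 3 * SS (fun v => Ts L (fun l => 3 * v l)) (chan (-c) r) p := by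
    unfold SS
    rw [Finset.mul_sum]
    refine Finset.sum_le_sum fun π _ => ?_
    set y : V 3 := fun i => chan (-c) r i * p (π i) with hy
    have hy0 : ∀ i, 0 ≤ y i := fun i => mul_nonneg (hv i) (hp _)
    have h3 : Pf φ (fun l => 3 * y l) ≤ Ts L (fun l => 3 * y l) := by
      have hz0 : ∀ i, 0 ≤ (fun l => 3 * y l) i := fun i => mul_nonneg (by norm_num) (hy0 i)
      have hzs : sg (fun l => 3 * y l) ≤ 1 + c := by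
        have e1 : sg p = ∑ i, p (π i) := (Equiv.sum_comp π p).symm
        calc sg (fun l => 3 * y l) = ∑ i, 3 * (chan (-c) r i * p (π i)) := rfl
          _ ≤ ∑ i, (1 + c) * p (π i) := by
              refine Finset.sum_le_sum fun i _ => ?_
              have := mul_le_mul_of_nonneg_right (hmax i) (hp (π i))
              linarith
          _ = (1 + c) * ∑ i, p (π i) := by rw [Finset.mul_sum]
          _ = 1 + c := by rw [← e1, hp1, mul_one]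
      have hzl : 1 - 2 * c ≤ sg (fun l => 3 * y l) := by
        have e1 : sg p = ∑ i, p (π i) := (Equiv.sum_comp π p).symm
        calc 1 - 2 * c = (1 - 2 * c) * ∑ i, p (π i) := by rw [← e1, hp1, mul_one]
          _ = ∑ i, (1 - 2 * c) * p (π i) := by rw [Finset.mul_sum]
          _ ≤ ∑ i, 3 * (chan (-c) r i * p (π i)) := by
              refine Finset.sum_le_sum fun i _ => ?_
              have := mul_le_mul_of_nonneg_right (hmin i) (hp (π i))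
              linarith
          _ = sg (fun l => 3 * y l) := rfl
      rcases norm3 hz0 with h0 | ⟨w, hw0, hw1, hpos, hw⟩
      · have hz1 : sg (fun l => 3 * y l) = 0 := by rw [h0]; simp [sg3]
        have h4 := H.maj (fun _ => 1 / 3) (fun _ => by norm_num)
          (by rw [sg3]; norm_num) 0 (by linarith) le_rfl (by linarith)
        rw [h0, Ts_eq]
        have e2 : Pf φ 0 = 0 := by unfold Pf; simp [sg3]
        have e3 : sg (0 : V 3) = 0 := by simp [sg3]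
        have e4 : E2 (0 : V 3) = 0 := by simp [E2]
        have e5 : E3 (0 : V 3) = 0 := by simp [E3]
        rw [e2, e3, e4, e5]
        have e6 : (0 : ℝ) ^ 2 * E2 (fun _ => 1 / 3) = 0 := by ring
        have e7 : (0 : ℝ) ^ 3 * E3 (fun _ => 1 / 3) = 0 := by ring
        rw [e6, e7, zero_mul] at h4
        exact h4
      · have h4 := H.maj w hw0 hw1 (sg (fun l => 3 * y l)) hzl hpos.le hzs
        rw [Ts_eq]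
        set Z := sg (fun l => 3 * y l) with hZ
        have e2 : E2 (fun l => 3 * y l) = Z ^ 2 * E2 w := by
          conv_lhs => rw [hw]
          exact E2_smul _ _
        have e3 : E3 (fun l => 3 * y l) = Z ^ 3 * E3 w := by
          conv_lhs => rw [hw]
          exact E3_smul _ _
        have e4 : Pf φ (fun l => 3 * y l) = Z * φ (E2 w) (E3 w) := by
          conv_lhs => rw [hw]
          rw [Pf_smul, Pf_one hw1]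
        rw [e2, e3, e4]
        exact h4
    rw [Pf_smul] at h3
    show Pf φ y ≤ 1 / 3 * Ts L (fun l => 3 * y l)
    linarith
  rw [SS_Ts L hv1 hp1, E2_chan hr1, E3_chan hr1] at key
  have h5 := H.ker p r hp hr hp1 hr1
  rw [Pf_one hp1, Pf_one hr1, Rf_one3 hp1, Rf_one3 hr1]
  have e8 : (1 : ℝ) / 3 - (-c) ^ 2 * (1 / 3 - E2 r) = 1 / 3 - c ^ 2 * (1 / 3 - E2 r) := by ring
  have e9 : ((1 - -c) / 3) ^ 3 + ((1 - -c) / 3) ^ 2 * -c + (1 - -c) / 3 * (-c) ^ 2 * E2 r +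
      (-c) ^ 3 * E3 r = ((1 + c) / 3) ^ 3 - ((1 + c) / 3) ^ 2 * c +
      (1 + c) / 3 * c ^ 2 * E2 r - c ^ 3 * E3 r := by ring
  rw [e8, e9] at key
  linarith

lemma Hom1_Pf (φ : ℝ → ℝ → ℝ) : Hom1 (Pf φ) := fun s _ v _ => Pf_smul φ s v

/-- the ray inequality -/
theorem Cert.ray' (H : Cert c rho t a K φ L) {v : V 3} (hv : ∀ i, 0 ≤ v i) {τ : ℝ}
    (h0 : 0 ≤ τ) (h1 : τ ≤ 1) : Pf φ (chan τ v) ≤ τ ^ 2 * Pf φ v := by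
  rcases norm3 hv with h | ⟨w, hw0, hw1, hpos, hw⟩
  · rw [h]
    have e : chan τ (0 : V 3) = 0 := by
      funext i
      simp [chan, sg3]
    rw [e]
    have e2 : Pf φ 0 = 0 := by unfold Pf; simp [sg3]
    rw [e2, mul_zero]
  · rw [hw, chan_smul3, Pf_smul, Pf_smul]
    have h2 := H.ray w hw0 hw1 τ h0 h1
    rw [← E2_chan hw1, ← E3_chan hw1] at h2
    have e3 : sg (chan τ w) = 1 := by rw [sg_chan (by norm_num)]; exact hw1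
    rw [Pf_one e3, Pf_one hw1]
    have := mul_le_mul_of_nonneg_left h2 hpos.le
    linarith

lemma SS_zero_left (F : V 3 → ℝ) (hF : F 0 = 0) (p : V 3) : SS F 0 p = 0 := by
  unfold SS
  refine Finset.sum_eq_zero fun π _ => ?_
  have : (fun i => (0 : V 3) i * p (π i)) = 0 := by funext i; simp
  rw [this, hF]

lemma SS_zero_right (F : V 3 → ℝ) (hF : F 0 = 0) (p : V 3) : SS F p 0 = 0 := by
  unfold SS
  refine Finset.sum_eq_zero fun π _ => ?_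
  have : (fun i => p i * (0 : V 3) (π i)) = 0 := by funext i; simp
  rw [this, hF]

lemma Pf_zero (φ : ℝ → ℝ → ℝ) : Pf φ 0 = 0 := by unfold Pf; simp [sg3]

lemma Rf_zero3 : Rf (0 : V 3) = 0 := by unfold Rf; simp

theorem Cert.pt_all (H : Cert c rho t a K φ L) {p r : V 3} (hp : ∀ i, 0 ≤ p i)
    (hr : ∀ i, 0 ≤ r i) :
    1 / 2 * SS (Pf φ) (chan (-c) r) p ≤
      sg r * Pf φ p + rho * (Pf φ r * sg p) - t * (Rf r * Rf p) := by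
  rcases norm3 hp with h | ⟨P, hP0, hP1, hPp, hP⟩
  · rw [h, SS_zero_right _ (Pf_zero φ), Pf_zero, Rf_zero3]
    have : sg (0 : V 3) = 0 := by simp [sg3]
    rw [this]
    simp
  rcases norm3 hr with h | ⟨R, hR0, hR1, hRp, hR⟩
  · rw [h]
    have e : chan (-c) (0 : V 3) = 0 := by
      funext i
      simp [chan, sg3]
    rw [e, SS_zero_left _ (Pf_zero φ), Pf_zero, Rf_zero3]
    have : sg (0 : V 3) = 0 := by simp [sg3]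
    rw [this]
    simp
  have h1 := H.pt_norm hP0 hR0 hP1 hR1
  have hv : ∀ i, 0 ≤ chan (-c) R i := chan_nn3 H.c_pos H.c_le hR0
  have e1 : SS (Pf φ) (chan (-c) r) p = sg r * sg p * SS (Pf φ) (chan (-c) R) P := by
    conv_lhs => rw [hR, hP, chan_smul3]
    exact SS_smul (Hom1_Pf φ) hRp.le hPp.le hv hP0
  have e2 : Pf φ p = sg p * Pf φ P := by
    conv_lhs => rw [hP]
    exact Pf_smul φ _ _
  have e3 : Pf φ r = sg r * Pf φ R := by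
    conv_lhs => rw [hR]
    exact Pf_smul φ _ _
  have e4 : Rf p = sg p * Rf P := by
    conv_lhs => rw [hP]
    exact Rf_smul _ hPp.le _ hP0
  have e5 : Rf r = sg r * Rf R := by
    conv_lhs => rw [hR]
    exact Rf_smul _ hRp.le _ hR0
  rw [e1, e2, e3, e4, e5]
  have h2 := mul_le_mul_of_nonneg_left h1 (mul_nonneg hRp.le hPp.le)
  calc _ = sg r * sg p * (1 / 2 * SS (Pf φ) (chan (-c) R) P) := by ring
    _ ≤ _ := h2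
    _ = _ := by ring

/-- The potential at every eigenvalue in `[-c, 0)`. -/
noncomputable def Cert.pot (H : Cert c rho t a K φ L) {lam : ℝ} (h0 : lam < 0) (h1 : -c ≤ lam) :
    Pot 3 lam (rho * (lam / c) ^ 2) where
  P := Pf φ
  K := K
  a := a
  t := t * (lam / c) ^ 2
  hq := by norm_num
  a_pos := H.a_pos
  K_pos := H.K_pos
  t_nn := mul_nonneg H.t_nn (sq_nonneg _)
  lower := fun v hv => by
    rcases norm3 hv with h | ⟨w, hw0, hw1, hpos, hw⟩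
    · rw [h, Pf_zero, Rf_zero3, mul_zero]
    · have e1 : Rf v = sg v * Rf w := by
        conv_lhs => rw [hw]
        exact Rf_smul _ hpos.le _ hw0
      have e2 : Pf φ v = sg v * Pf φ w := by
        conv_lhs => rw [hw]
        exact Pf_smul φ _ _
      rw [e1, e2, Pf_one hw1, Rf_one3 hw1]
      have := mul_le_mul_of_nonneg_left (H.lower w hw0 hw1) hpos.le
      linarith
  upper := fun v hv => by
    rcases norm3 hv with h | ⟨w, hw0, hw1, hpos, hw⟩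
    · rw [h, Pf_zero, Rf_zero3, mul_zero]
    · have e1 : Rf v = sg v * Rf w := by
        conv_lhs => rw [hw]
        exact Rf_smul _ hpos.le _ hw0
      have e2 : Pf φ v = sg v * Pf φ w := by
        conv_lhs => rw [hw]
        exact Pf_smul φ _ _
      rw [e1, e2, Pf_one hw1, Rf_one3 hw1]
      have := mul_le_mul_of_nonneg_left (H.upper w hw0 hw1) hpos.le
      linarith
  smul := fun s _ v _ => Pf_smul φ s v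
  pt := fun p r hp hr => by
    have hc := H.c_pos
    have e0 : (1 : ℝ) / ((3 - 1).factorial : ℝ) = 1 / 2 := by norm_num [Nat.factorial]
    rw [e0]
    have hτ0 : 0 ≤ -lam / c := div_nonneg (by linarith) hc.le
    have hτ1 : -lam / c ≤ 1 := by rw [div_le_one hc]; linarith
    have e1 : chan lam r = chan (-c) (chan (-lam / c) r) := by
      rw [chan_comp]
      congr 1
      field_simp
    have hr' : ∀ i, 0 ≤ chan (-lam / c) r i :=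
      chan_nn2 ⟨by push_cast; linarith, by linarith⟩ hr
    have h1 := H.pt_all hp hr'
    rw [← e1, sg_chan (by norm_num), Rf_chan (by norm_num)] at h1
    have h2 := H.ray' hr hτ0 hτ1
    have h3 := mul_le_mul_of_nonneg_left (mul_le_mul_of_nonneg_right h2 (sg_nonneg hp)) H.rho_nn
    have e2 : (-lam / c) ^ 2 = (lam / c) ^ 2 := by ring
    rw [e2] at h1 h3
    calc _ ≤ _ := h1
      _ ≤ sg r * Pf φ p + rho * ((lam / c) ^ 2 * Pf φ r * sg p) -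
          t * ((lam / c) ^ 2 * Rf r * Rf p) := by linarith
      _ = _ := by ring

/-- the potential at eigenvalue `-c` with its ray inequality -/
noncomputable def Cert.rpot (H : Cert c rho t a K φ L) : RPot 3 c rho where
  P := Pf φ
  K := K
  a := a
  t := t
  hq := by norm_num
  a_pos := H.a_pos
  K_pos := H.K_pos
  t_nn := H.t_nn
  lower := fun v hv => by
    rcases norm3 hv with h | ⟨w, hw0, hw1, hpos, hw⟩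
    · rw [h, Pf_zero, Rf_zero3, mul_zero]
    · have e1 : Rf v = sg v * Rf w := by
        conv_lhs => rw [hw]
        exact Rf_smul _ hpos.le _ hw0
      have e2 : Pf φ v = sg v * Pf φ w := by
        conv_lhs => rw [hw]
        exact Pf_smul φ _ _
      rw [e1, e2, Pf_one hw1, Rf_one3 hw1]
      have := mul_le_mul_of_nonneg_left (H.lower w hw0 hw1) hpos.le
      linarith
  upper := fun v hv => by
    rcases norm3 hv with h | ⟨w, hw0, hw1, hpos, hw⟩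
    · rw [h, Pf_zero, Rf_zero3, mul_zero]
    · have e1 : Rf v = sg v * Rf w := by
        conv_lhs => rw [hw]
        exact Rf_smul _ hpos.le _ hw0
      have e2 : Pf φ v = sg v * Pf φ w := by
        conv_lhs => rw [hw]
        exact Pf_smul φ _ _
      rw [e1, e2, Pf_one hw1, Rf_one3 hw1]
      have := mul_le_mul_of_nonneg_left (H.upper w hw0 hw1) hpos.le
      linarith
  smul := fun s _ v _ => Pf_smul φ s v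
  pt := fun p r hp hr => by
    have e0 : (1 : ℝ) / ((3 - 1).factorial : ℝ) = 1 / 2 := by norm_num [Nat.factorial]
    rw [e0]
    exact H.pt_all hp hr
  ray := fun _ h0 h1 _ hr => H.ray' hr h0 h1

end Vale.Agent.P154N
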