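import Vale.Agent.P154.GStage
import Vale.Agent.P154.N3Lib

/-! P154, three states, negative eigenvalues, regular trees: from polynomial inequalities to the
stage-dependent potentials -/

namespace Vale.Agent.P154N

open Vale.Agent.P154.G Filter Topology

/-- majorant of `Z φ` on a range of masses -/
def Maj (z0 z1 : ℝ) (φ : ℝ → ℝ → ℝ) (L : List (ℝ × ℕ × ℕ × ℕ)) : Prop :=
  ∀ v : V 3, (∀ i, 0 ≤ v i) → sg v = 1 → ∀ Z : ℝ, z0 ≤ Z → Z ≤ z1 →
    Z * φ (E2 v) (E3 v) ≤ TS L Z (Z ^ 2 * E2 v) (Z ^ 3 * E3 v)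

theorem SS_le_Ks {φ : ℝ → ℝ → ℝ} {L : List (ℝ × ℕ × ℕ × ℕ)} {z0 z1 : ℝ} (hz0 : 0 < z0)
    (hmaj : Maj z0 z1 φ L) {v p : V 3} (hv : ∀ i, 0 ≤ v i) (hp : ∀ i, 0 ≤ p i)
    (hv1 : sg v = 1) (hp1 : sg p = 1)
    (hZ : ∀ π : Equiv.Perm (Fin 3), z0 ≤ 3 * ∑ i, v i * p (π i) ∧ 3 * ∑ i, v i * p (π i) ≤ z1) :
    SS (Pf φ) v p ≤ 1 / 3 * Ks L (E2 v) (E3 v) (E2 p) (E3 p) := by
  have key : SS (Pf φ) v p ≤ 1 / 3 * SS (fun v => Ts L (fun l => 3 * v l)) v p := by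
    unfold SS
    rw [Finset.mul_sum]
    refine Finset.sum_le_sum fun π _ => ?_
    set y : V 3 := fun i => v i * p (π i) with hy
    have hy0 : ∀ i, 0 ≤ y i := fun i => mul_nonneg (hv i) (hp _)
    have h3 : Pf φ (fun l => 3 * y l) ≤ Ts L (fun l => 3 * y l) := by
      have hz0' : ∀ i, 0 ≤ (fun l => 3 * y l) i := fun i => mul_nonneg (by norm_num) (hy0 i)
      have hsg : sg (fun l => 3 * y l) = 3 * ∑ i, v i * p (π i) := by
        unfold sg; rw [← Finset.mul_sum]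
      obtain ⟨b1, b2⟩ := hZ π
      rw [← hsg] at b1 b2
      rcases norm3 hz0' with h0 | ⟨w, hw0, hw1, hpos, hw⟩
      · rw [h0] at b1
        have e3 : sg (0 : V 3) = 0 := by simp [sg3]
        rw [e3] at b1
        linarith
      · have h4 := hmaj w hw0 hw1 (sg (fun l => 3 * y l)) b1 b2
        rw [Ts_eq]
        set Z := sg (fun l => 3 * y l) with hZ
        have e2 : E2 (fun l => 3 * y l) = Z ^ 2 * E2 w := by
          conv_lhs => rw [hw]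
          exact E2_smul _ _
        have e3 : E3 (fun l => 3 * y l) = Z ^ 3 * E3 w := by
          conv_lhs => rw [hw]
          exact E3_smul _ _
        have e4 : Pf φ (fun l => 3 * y l) = Z * φ (E2 w) (E3 w) := by
          conv_lhs => rw [hw]
          rw [Pf_smul, Pf_one hw1]
        rw [e2, e3, e4]
        exact h4
    rw [Pf_smul] at h3
    show Pf φ y ≤ 1 / 3 * Ts L (fun l => 3 * y l)
    linarith
  rwa [SS_Ts L hv1 hp1] at key

lemma zb {c : ℝ} (hc0 : 0 ≤ c) {r p : V 3} (hr : ∀ i, 0 ≤ r i) (hp : ∀ i, 0 ≤ p i)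
    (hr1 : sg r = 1) (hp1 : sg p = 1) (π : Equiv.Perm (Fin 3)) :
    1 - 2 * c ≤ 3 * ∑ i, chan (-c) r i * p (π i) ∧
      3 * ∑ i, chan (-c) r i * p (π i) ≤ 1 + c := by
  have e1 : ∑ i, p (π i) = 1 := by rw [Equiv.sum_comp π p]; exact hp1
  have hle : ∀ i, r i ≤ 1 := fun i => by
    rw [← hr1]
    exact Finset.single_le_sum (f := r) (fun j _ => hr j) (Finset.mem_univ i)
  have hv : ∀ i, 3 * chan (-c) r i = 1 + c - 3 * c * r i := by
    intro i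
    unfold chan
    rw [hr1]
    push_cast
    ring
  have e2 : 3 * ∑ i, chan (-c) r i * p (π i) = ∑ i, (3 * chan (-c) r i) * p (π i) := by
    rw [Finset.mul_sum]
    exact Finset.sum_congr rfl fun i _ => by ring
  rw [e2]
  constructor
  · calc 1 - 2 * c = (1 - 2 * c) * ∑ i, p (π i) := by rw [e1, mul_one]
      _ = ∑ i, (1 - 2 * c) * p (π i) := by rw [Finset.mul_sum]
      _ ≤ _ := Finset.sum_le_sum fun i _ => by
        refine mul_le_mul_of_nonneg_right ?_ (hp _)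
        rw [hv]
        nlinarith [hle i]
  · calc ∑ i, (3 * chan (-c) r i) * p (π i) ≤ ∑ i, (1 + c) * p (π i) :=
        Finset.sum_le_sum fun i _ => by
          refine mul_le_mul_of_nonneg_right ?_ (hp _)
          rw [hv]
          nlinarith [hr i]
      _ = (1 + c) * ∑ i, p (π i) := by rw [Finset.mul_sum]
      _ = 1 + c := by rw [e1, mul_one]

lemma zb1 {c : ℝ} {r p : V 3} (hr : ∀ i, 0 ≤ r i) (hp : ∀ i, 0 ≤ p i)
    (hr1 : sg r = 1) (hp1 : sg p = 1) (π : Equiv.Perm (Fin 3)) :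
    1 - c ^ 2 ≤ 3 * ∑ i, chan (-c) r i * chan (-c) p (π i) ∧
      3 * ∑ i, chan (-c) r i * chan (-c) p (π i) ≤ 1 + 2 * c ^ 2 := by
  have e1 : ∑ i, p (π i) = 1 := by rw [Equiv.sum_comp π p]; exact hp1
  have e2 : ∑ i, r i = 1 := hr1
  have hle : ∀ i, p (π i) ≤ 1 := fun i => by
    rw [← e1]
    exact Finset.single_le_sum (f := fun i => p (π i)) (fun j _ => hp _) (Finset.mem_univ i)
  have e3 : 3 * ∑ i, chan (-c) r i * chan (-c) p (π i) =
      1 + c ^ 2 * (3 * ∑ i, r i * p (π i) - 1) := by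
    have hv : ∀ i, chan (-c) r i = (1 + c) / 3 - c * r i := by
      intro i; unfold chan; rw [hr1]; push_cast; ring
    have hw : ∀ i, chan (-c) p (π i) = (1 + c) / 3 - c * p (π i) := by
      intro i; unfold chan; rw [hp1]; push_cast; ring
    simp only [hv, hw]
    rw [Fin.sum_univ_three] at e1 e2
    rw [Fin.sum_univ_three, Fin.sum_univ_three]
    have h1 : p (π 0) = 1 - p (π 1) - p (π 2) := by linarith
    have h2 : r 0 = 1 - r 1 - r 2 := by linarith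
    rw [h1, h2]
    ring
  have h0 : 0 ≤ ∑ i, r i * p (π i) := Finset.sum_nonneg fun i _ => mul_nonneg (hr i) (hp _)
  have h1 : ∑ i, r i * p (π i) ≤ 1 := by
    rw [← e2]
    exact Finset.sum_le_sum fun i _ => by nlinarith [hr i, hle i]
  rw [e3]
  constructor <;> nlinarith [sq_nonneg c]

/-- the inequality of the `k`-th stage, `k ≥ 2` -/
theorem step_of_maj {c t : ℝ} (hc0 : 0 < c) (hc1 : c < 1 / 2) {φ ψ g : ℝ → ℝ → ℝ}
    {L : List (ℝ × ℕ × ℕ × ℕ)} (hmaj : Maj (1 - 2 * c) (1 + c) φ L)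
    (hker : ∀ p r : V 3, (∀ i, 0 ≤ p i) → (∀ i, 0 ≤ r i) → sg p = 1 → sg r = 1 →
      1 / 6 * Ks L (1 / 3 - c ^ 2 * (1 / 3 - E2 r))
        (((1 + c) / 3) ^ 3 - ((1 + c) / 3) ^ 2 * c + (1 + c) / 3 * c ^ 2 * E2 r - c ^ 3 * E3 r)
        (E2 p) (E3 p) ≤
        ψ (E2 p) (E3 p) + g (E2 r) (E3 r) - t * ((1 - 3 * E2 r) * (1 - 3 * E2 p)))
    {p r : V 3} (hp : ∀ i, 0 ≤ p i) (hr : ∀ i, 0 ≤ r i) (hp1 : sg p = 1) (hr1 : sg r = 1) :
    1 / 2 * SS (Pf φ) (chan (-c) r) p ≤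
      ψ (E2 p) (E3 p) + g (E2 r) (E3 r) - t * ((1 - 3 * E2 r) * (1 - 3 * E2 p)) := by
  have hv : ∀ i, 0 ≤ chan (-c) r i := chan_nn3 hc0 hc1.le hr
  have hv1 : sg (chan (-c) r) = 1 := by rw [sg_chan (by norm_num)]; exact hr1
  have key := SS_le_Ks (by linarith) hmaj hv hp hv1 hp1 (zb hc0.le hr hp hr1 hp1)
  rw [E2_chan hr1, E3_chan hr1] at key
  have h5 := hker p r hp hr hp1 hr1
  have e8 : (1 : ℝ) / 3 - (-c) ^ 2 * (1 / 3 - E2 r) = 1 / 3 - c ^ 2 * (1 / 3 - E2 r) := by ring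
  have e9 : ((1 - -c) / 3) ^ 3 + ((1 - -c) / 3) ^ 2 * -c + (1 - -c) / 3 * (-c) ^ 2 * E2 r +
      (-c) ^ 3 * E3 r = ((1 + c) / 3) ^ 3 - ((1 + c) / 3) ^ 2 * c +
      (1 + c) / 3 * c ^ 2 * E2 r - c ^ 3 * E3 r := by ring
  rw [e8, e9] at key
  linarith

/-- the inequality of the first stage -/
theorem step1_of_maj {c t : ℝ} (hc0 : 0 < c) (hc1 : c < 1 / 2) {φ ψ g : ℝ → ℝ → ℝ}
    {L : List (ℝ × ℕ × ℕ × ℕ)} (hmaj : Maj (1 - c ^ 2) (1 + 2 * c ^ 2) φ L)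
    (hker : ∀ p r : V 3, (∀ i, 0 ≤ p i) → (∀ i, 0 ≤ r i) → sg p = 1 → sg r = 1 →
      1 / 6 * Ks L (1 / 3 - c ^ 2 * (1 / 3 - E2 r))
        (((1 + c) / 3) ^ 3 - ((1 + c) / 3) ^ 2 * c + (1 + c) / 3 * c ^ 2 * E2 r - c ^ 3 * E3 r)
        (1 / 3 - c ^ 2 * (1 / 3 - E2 p))
        (((1 + c) / 3) ^ 3 - ((1 + c) / 3) ^ 2 * c + (1 + c) / 3 * c ^ 2 * E2 p - c ^ 3 * E3 p) ≤
        ψ (1 / 3 - c ^ 2 * (1 / 3 - E2 p))
          (((1 + c) / 3) ^ 3 - ((1 + c) / 3) ^ 2 * c + (1 + c) / 3 * c ^ 2 * E2 p - c ^ 3 * E3 p) +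
          g (E2 r) (E3 r) - t * ((1 - 3 * E2 r) * (c ^ 2 * (1 - 3 * E2 p))))
    {p r : V 3} (hp : ∀ i, 0 ≤ p i) (hr : ∀ i, 0 ≤ r i) (hp1 : sg p = 1) (hr1 : sg r = 1) :
    1 / 2 * SS (Pf φ) (chan (-c) r) (chan (-c) p) ≤
      ψ (E2 (chan (-c) p)) (E3 (chan (-c) p)) + g (E2 r) (E3 r) -
        t * ((1 - 3 * E2 r) * (1 - 3 * E2 (chan (-c) p))) := by
  have hv : ∀ i, 0 ≤ chan (-c) r i := chan_nn3 hc0 hc1.le hr
  have hv1 : sg (chan (-c) r) = 1 := by rw [sg_chan (by norm_num)]; exact hr1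
  have hw : ∀ i, 0 ≤ chan (-c) p i := chan_nn3 hc0 hc1.le hp
  have hw1 : sg (chan (-c) p) = 1 := by rw [sg_chan (by norm_num)]; exact hp1
  have key := SS_le_Ks (by nlinarith) hmaj hv hw hv1 hw1 (zb1 hr hp hr1 hp1)
  rw [E2_chan hr1, E3_chan hr1, E2_chan hp1, E3_chan hp1] at key
  rw [E2_chan hp1, E3_chan hp1]
  have h5 := hker p r hp hr hp1 hr1
  have e8 : ∀ x : ℝ, (1 : ℝ) / 3 - (-c) ^ 2 * (1 / 3 - x) = 1 / 3 - c ^ 2 * (1 / 3 - x) := by
    intro x; ring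
  have e9 : ∀ x y : ℝ, ((1 - -c) / 3) ^ 3 + ((1 - -c) / 3) ^ 2 * -c +
      (1 - -c) / 3 * (-c) ^ 2 * x + (-c) ^ 3 * y = ((1 + c) / 3) ^ 3 - ((1 + c) / 3) ^ 2 * c +
      (1 + c) / 3 * c ^ 2 * x - c ^ 3 * y := by intro x y; ring
  rw [e8, e8, e9, e9] at key
  rw [e8, e9]
  have e10 : 1 - 3 * (1 / 3 - c ^ 2 * (1 / 3 - E2 p)) = c ^ 2 * (1 - 3 * E2 p) := by ring
  rw [e10]
  linarith

/-- The polynomial inequalities for the `d`-ary tree at eigenvalue `-c`, `c ≥ 1 / √d`. -/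
structure SCert (d : ℕ) (c t : ℝ) (φ g : ℕ → ℝ → ℝ → ℝ) : Prop where
  hd : 2 ≤ d
  c_pos : 0 < c
  c_lt : c < 1 / 2
  hR : 1 ≤ d * c ^ 2
  t_pos : 0 < t
  fin : ∃ Φ : List (ℝ → ℝ → ℝ), (∀ f ∈ Φ, Continuous fun x : ℝ × ℝ => f x.1 x.2) ∧
    ∀ k, φ k ∈ Φ ∧ g k ∈ Φ
  step1 : ∀ p r : V 3, (∀ i, 0 ≤ p i) → (∀ i, 0 ≤ r i) → sg p = 1 → sg r = 1 →
    1 / 2 * SS (Pf (φ 2)) (chan (-c) r) (chan (-c) p) ≤
      φ 1 (E2 (chan (-c) p)) (E3 (chan (-c) p)) + g 1 (E2 r) (E3 r) -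
        t * ((1 - 3 * E2 r) * (1 - 3 * E2 (chan (-c) p)))
  step : ∀ k, 2 ≤ k → k < d → ∀ p r : V 3, (∀ i, 0 ≤ p i) → (∀ i, 0 ≤ r i) → sg p = 1 →
    sg r = 1 → 1 / 2 * SS (Pf (φ (k + 1))) (chan (-c) r) p ≤
      φ k (E2 p) (E3 p) + g k (E2 r) (E3 r)
  sum : ∀ r : V 3, (∀ i, 0 ≤ r i) → sg r = 1 →
    φ 1 (E2 (chan (-c) r)) (E3 (chan (-c) r)) + ∑ k ∈ Finset.Ico 1 d, g k (E2 r) (E3 r) ≤
      d * c ^ 2 * φ d (E2 r) (E3 r)
  ray : ∀ v : V 3, (∀ i, 0 ≤ v i) → sg v = 1 → ∀ τ : ℝ, 0 ≤ τ → τ ≤ 1 →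
    φ d (1 / 3 - τ ^ 2 * (1 / 3 - E2 v))
      (((1 - τ) / 3) ^ 3 + ((1 - τ) / 3) ^ 2 * τ + (1 - τ) / 3 * τ ^ 2 * E2 v + τ ^ 3 * E3 v) ≤
      τ ^ 2 * φ d (E2 v) (E3 v)

lemma unit_bd (f : ℝ → ℝ → ℝ) (hf : Continuous fun x : ℝ × ℝ => f x.1 x.2) :
    ∃ K, 0 ≤ K ∧ ∀ v : V 3, (∀ i, 0 ≤ v i) → sg v = 1 → |f (E2 v) (E3 v)| ≤ K := by
  obtain ⟨K, hK⟩ := (isCompact_Icc (a := ((0 : ℝ), (0 : ℝ))) (b := (3, 1))).exists_bound_of_continuousOn
    hf.continuousOn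
  refine ⟨|K|, abs_nonneg K, fun v hv hv1 => ?_⟩
  have hle : ∀ i, v i ≤ 1 := fun i => by
    rw [← hv1]
    exact Finset.single_le_sum (f := v) (fun j _ => hv j) (Finset.mem_univ i)
  have h := hK (E2 v, E3 v) ⟨⟨?_, ?_⟩, ⟨?_, ?_⟩⟩
  · rw [Real.norm_eq_abs] at h
    exact h.trans (le_abs_self K)
  · show 0 ≤ E2 v
    unfold E2
    have := mul_nonneg (hv 0) (hv 1)
    have := mul_nonneg (hv 0) (hv 2)
    have := mul_nonneg (hv 1) (hv 2)
    linarith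
  · show 0 ≤ E3 v
    unfold E3
    exact mul_nonneg (mul_nonneg (hv 0) (hv 1)) (hv 2)
  · show E2 v ≤ 3
    unfold E2
    have h1 := mul_le_one₀ (hle 0) (hv 1) (hle 1)
    have h2 := mul_le_one₀ (hle 0) (hv 2) (hle 2)
    have h3 := mul_le_one₀ (hle 1) (hv 2) (hle 2)
    linarith
  · show E3 v ≤ 1
    unfold E3
    exact mul_le_one₀ (mul_le_one₀ (hle 0) (hv 1) (hle 1)) (hv 2) (hle 2)

lemma list_bd (Φ : List (ℝ → ℝ → ℝ)) (h : ∀ f ∈ Φ, Continuous fun x : ℝ × ℝ => f x.1 x.2) :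
    ∃ K, 0 ≤ K ∧ ∀ f ∈ Φ, ∀ v : V 3, (∀ i, 0 ≤ v i) → sg v = 1 → |f (E2 v) (E3 v)| ≤ K := by
  induction Φ with
  | nil => exact ⟨0, le_rfl, fun f hf => by simp at hf⟩
  | cons f Φ ih =>
    obtain ⟨K1, h1, hK1⟩ := unit_bd f (h f (by simp))
    obtain ⟨K2, h2, hK2⟩ := ih fun f hf => h f (by simp [hf])
    refine ⟨max K1 K2, le_max_of_le_left h1, fun f' hf' v hv hv1 => ?_⟩
    rcases List.mem_cons.1 hf' with e | e
    · rw [e]
      exact (hK1 v hv hv1).trans (le_max_left _ _)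
    · exact (hK2 f' e v hv hv1).trans (le_max_right _ _)

lemma Pf_bd {f : ℝ → ℝ → ℝ} {K : ℝ}
    (h : ∀ v : V 3, (∀ i, 0 ≤ v i) → sg v = 1 → |f (E2 v) (E3 v)| ≤ K) (v : V 3)
    (hv : ∀ i, 0 ≤ v i) : |Pf f v| ≤ K * sg v := by
  rcases norm3 hv with h0 | ⟨w, hw0, hw1, hpos, hw⟩
  · rw [h0, Pf_zero]
    have : sg (0 : V 3) = 0 := by simp [sg3]
    rw [this]; simp
  · have e2 : Pf f v = sg v * Pf f w := by
      conv_lhs => rw [hw]
      exact Pf_smul f _ _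
    rw [e2, abs_mul, abs_of_pos hpos, Pf_one hw1, mul_comm]
    exact mul_le_mul_of_nonneg_right (h w hw0 hw1) hpos.le

/-- homogeneous form of a stage inequality -/
lemma step_hom {c t : ℝ} (hc0 : 0 < c) (hc1 : c < 1 / 2) {φ ψ g : ℝ → ℝ → ℝ} {S : V 3 → Prop}
    (hS : ∀ s : ℝ, 0 < s → ∀ p, S (fun i => s * p i) → S p)
    (h : ∀ p r : V 3, (∀ i, 0 ≤ p i) → (∀ i, 0 ≤ r i) → sg p = 1 → sg r = 1 → S p →
      1 / 2 * SS (Pf φ) (chan (-c) r) p ≤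
        ψ (E2 p) (E3 p) + g (E2 r) (E3 r) - t * ((1 - 3 * E2 r) * (1 - 3 * E2 p)))
    {p r : V 3} (hp : ∀ i, 0 ≤ p i) (hr : ∀ i, 0 ≤ r i) (hSp : S p) :
    1 / 2 * SS (Pf φ) (chan (-c) r) p ≤
      sg r * Pf ψ p + Pf g r * sg p - t * (Rf r * Rf p) := by
  have z0 : sg (0 : V 3) = 0 := by simp [sg3]
  rcases norm3 hp with h0 | ⟨P, hP0, hP1, hPp, hP⟩
  · rw [h0, SS_zero_right _ (Pf_zero φ), Pf_zero, Rf_zero3, z0]
    simp
  rcases norm3 hr with h0 | ⟨R, hR0, hR1, hRp, hR⟩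
  · rw [h0]
    have e : chan (-c) (0 : V 3) = 0 := by
      funext i
      simp [chan, sg3]
    rw [e, SS_zero_left _ (Pf_zero φ), Pf_zero, Rf_zero3, z0]
    simp
  have h1 := h P R hP0 hR0 hP1 hR1 (hS (sg p) hPp P (by rw [← hP]; exact hSp))
  have hv : ∀ i, 0 ≤ chan (-c) R i := chan_nn3 hc0 hc1.le hR0
  have e1 : SS (Pf φ) (chan (-c) r) p = sg r * sg p * SS (Pf φ) (chan (-c) R) P := by
    conv_lhs => rw [hR, hP, chan_smul3]
    exact SS_smul (Hom1_Pf φ) hRp.le hPp.le hv hP0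
  have e2 : Pf ψ p = sg p * Pf ψ P := by
    conv_lhs => rw [hP]
    exact Pf_smul ψ _ _
  have e3 : Pf g r = sg r * Pf g R := by
    conv_lhs => rw [hR]
    exact Pf_smul g _ _
  have e4 : Rf p = sg p * Rf P := by
    conv_lhs => rw [hP]
    exact Rf_smul _ hPp.le _ hP0
  have e5 : Rf r = sg r * Rf R := by
    conv_lhs => rw [hR]
    exact Rf_smul _ hRp.le _ hR0
  rw [e1, e2, e3, e4, e5, Pf_one hP1, Pf_one hR1, Rf_one3 hP1, Rf_one3 hR1]
  have h2 := mul_le_mul_of_nonneg_left h1 (mul_nonneg hRp.le hPp.le)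
  calc _ = sg r * sg p * (1 / 2 * SS (Pf φ) (chan (-c) R) P) := by ring
    _ ≤ _ := h2
    _ = _ := by ring

/-- nonreconstruction on the `d`-ary tree up to and including the Kesten-Stigum bound -/
theorem SCert.nonrecon {d : ℕ} {c t : ℝ} {φ g : ℕ → ℝ → ℝ → ℝ} (H : SCert d c t φ g)
    {lam : ℝ} (h : 0 ≤ 1 + (((3 : ℕ) : ℝ) - 1) * lam ∧ lam ≤ 1) (hneg : lam < 0)
    (hle : d * lam ^ 2 ≤ 1) :
    Tendsto (fun n => an (PMF.pure d) (potts (q := 3) lam h) n) atTop (𝓝 0) := by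
  obtain ⟨Φ, hΦ, hmem⟩ := H.fin
  obtain ⟨K, hK0, hK⟩ := list_bd Φ hΦ
  have hc0 := H.c_pos
  have hc1 := H.c_lt
  have hR := H.hR
  have hR0 : 0 < (d : ℝ) * c ^ 2 := by linarith
  have hs := Real.sqrt_pos.2 hR0
  have hs2 := Real.sq_sqrt hR0.le
  have hs1 : 1 ≤ √((d : ℝ) * c ^ 2) := by
    rw [show (1 : ℝ) = √1 by simp]
    exact Real.sqrt_le_sqrt hR
  have hfact : (1 : ℝ) / ((3 - 1).factorial : ℕ) = 1 / 2 := by
    norm_num [Nat.factorial]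
  let st : Stage 3 d (-c) (1 / √((d : ℝ) * c ^ 2)) :=
    { P := fun k => Pf (φ k)
      Gf := fun k => Pf (g k)
      K := K
      t := fun k => if k = 1 then t else 0
      R := d * c ^ 2
      hq := by norm_num
      hR := hR0.le
      τ_pos := by positivity
      τ_le := by rw [div_le_one hs]; exact hs1
      Rτ := by rw [div_pow, hs2, one_pow, mul_one_div, div_self hR0.ne']
      hd := H.hd
      t_pos := by simpa using H.t_pos
      t_nn := fun k => by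
        show 0 ≤ if k = 1 then t else 0
        split_ifs
        · exact H.t_pos.le
        · exact le_rfl
      P_bd := fun k v hv => Pf_bd (hK _ (hmem k).1) v hv
      G_bd := fun k v hv => Pf_bd (hK _ (hmem k).2) v hv
      step := by
        intro k hk hkd p r hp hr hk1
        rw [hfact]
        by_cases h1 : k = 1
        · subst h1
          simp only [if_true]
          obtain ⟨p', hp', e⟩ := hk1 rfl
          refine step_hom hc0 hc1 (S := fun p => ∃ p' : V 3, (∀ i, 0 ≤ p' i) ∧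
            p = chan (-c) p') ?_ ?_ hp hr ⟨p', hp', e⟩
          · rintro s hs p ⟨p', hp', e⟩
            refine ⟨fun i => s⁻¹ * p' i, fun i => mul_nonneg (inv_nonneg.2 hs.le) (hp' i), ?_⟩
            rw [chan_smul3, ← e]
            funext i
            field_simp
          · rintro p r hp hr hp1 hr1 ⟨p', hp', e⟩
            have hp'1 : sg p' = 1 := by
              rw [e, sg_chan (by norm_num)] at hp1
              exact hp1
            rw [e]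
            exact H.step1 p' r hp' hr hp'1 hr1
        · rw [if_neg h1]
          refine step_hom hc0 hc1 (S := fun _ => True) (fun _ _ _ _ => trivial) ?_ hp hr trivial
          intro p r hp hr hp1 hr1 _
          have := H.step k (by omega) hkd p r hp hr hp1 hr1
          linarith
      sum := by
        intro r hr
        rcases norm3 hr with h0 | ⟨R, hR0', hR1, hRp, hRe⟩
        · have e : chan (-c) (0 : V 3) = 0 := by
            funext i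
            simp [chan, sg3]
          rw [h0, e]
          simp [Pf_zero]
        · have e1 : ∀ f : ℝ → ℝ → ℝ, Pf f r = sg r * f (E2 R) (E3 R) := by
            intro f
            conv_lhs => rw [hRe]
            rw [Pf_smul, Pf_one hR1]
          have e2 : Pf (φ 1) (chan (-c) r) =
              sg r * φ 1 (E2 (chan (-c) R)) (E3 (chan (-c) R)) := by
            conv_lhs => rw [hRe]
            rw [chan_smul3, Pf_smul, Pf_one (by rw [sg_chan (by norm_num)]; exact hR1)]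
          have h1 := mul_le_mul_of_nonneg_left (H.sum R hR0' hR1) hRp.le
          simp only [e1, e2]
          rw [← Finset.mul_sum]
          linarith
      ray := by
        intro v hv
        have hτ0 : 0 ≤ 1 / √((d : ℝ) * c ^ 2) := by positivity
        have hτ1 : 1 / √((d : ℝ) * c ^ 2) ≤ 1 := by rw [div_le_one hs]; exact hs1
        rcases norm3 hv with h0 | ⟨w, hw0, hw1, hpos, hw⟩
        · rw [h0]
          have e : ∀ τ : ℝ, chan τ (0 : V 3) = 0 := fun τ => by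
            funext i
            simp [chan, sg3]
          rw [e, Pf_zero, mul_zero]
        · rw [hw, chan_smul3, Pf_smul, Pf_smul]
          have h2 := H.ray w hw0 hw1 _ hτ0 hτ1
          rw [← E2_chan hw1, ← E3_chan hw1] at h2
          have e3 : sg (chan (1 / √((d : ℝ) * c ^ 2)) w) = 1 := by
            rw [sg_chan (by norm_num)]; exact hw1
          rw [Pf_one e3, Pf_one hw1]
          have := mul_le_mul_of_nonneg_left h2 hpos.le
          linarith }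
  have hc' : 0 ≤ 1 + (((3 : ℕ) : ℝ) - 1) * (-c) ∧ -c ≤ 1 := by
    push_cast
    exact ⟨by linarith, by linarith⟩
  refine st.nonrecon hc' (by linarith) le_rfl h ?_ hneg.le
  -- `-c / √(d c²) ≤ lam`
  have h1 : c * (1 / √((d : ℝ) * c ^ 2)) = 1 / √(d : ℝ) := by
    rw [Real.sqrt_mul (by positivity), Real.sqrt_sq hc0.le]
    field_simp
  have hd0 : (0 : ℝ) < d := by
    have := H.hd
    have : 0 < d := by omega
    exact_mod_cast this
  have h2 : -lam ≤ 1 / √(d : ℝ) := by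
    rw [le_div_iff₀ (Real.sqrt_pos.2 hd0)]
    have h3 : (-lam * √(d : ℝ)) ^ 2 ≤ 1 := by
      rw [mul_pow, Real.sq_sqrt hd0.le]
      linarith
    have h4 : 0 ≤ -lam * √(d : ℝ) := mul_nonneg (by linarith) (Real.sqrt_nonneg _)
    nlinarith
  have h5 : -c * (1 / √((d : ℝ) * c ^ 2)) = -(1 / √(d : ℝ)) := by rw [neg_mul, h1]
  rw [h5]
  linarith

end Vale.Agent.P154N
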