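import Vale.Agent.P154.GLoc
import Vale.Agent.P154.N3Stage

/-! P154, three states, negative eigenvalues, regular trees: from polynomial inequalities to the
local argument (stage potentials with penalties) -/

namespace Vale.Agent.P154.G

open Filter Topology

/-- `sg c` times the `i`-th power of the squared distance of the normalised vector from uniform -/
noncomputable def pw {q : ℕ} (i : ℕ) (c : V q) : ℝ := sg c * (Rf c / sg c) ^ i

lemma pw_nn {q : ℕ} (hq : 2 ≤ q) (i : ℕ) {c : V q} (hc : ∀ j, 0 ≤ c j) : 0 ≤ pw i c :=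
  mul_nonneg (sg_nonneg hc) (pow_nonneg (div_nonneg (Rf_nonneg hq hc) (sg_nonneg hc)) _)

lemma pw_le {q : ℕ} (hq : 2 ≤ q) (i : ℕ) {c : V q} (hc : ∀ j, 0 ≤ c j) : pw i c ≤ 1 * sg c := by
  have h0 := sg_nonneg hc
  have h1 : (Rf c / sg c) ^ i ≤ 1 := by
    refine pow_le_one₀ (div_nonneg (Rf_nonneg hq hc) h0) ?_
    refine div_le_one_of_le₀ ?_ h0
    have := Rf_le hq hc
    linarith
  have := mul_le_mul_of_nonneg_left h1 h0
  unfold pw
  linarith

lemma pw_smul {q : ℕ} (i : ℕ) (s : ℝ) (hs : 0 ≤ s) (c : V q) (hc : ∀ j, 0 ≤ c j) :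
    pw i (fun j => s * c j) = s * pw i c := by
  unfold pw
  rw [Rf_smul s hs c hc, sg_smul]
  rcases hs.eq_or_lt with h | h
  · rw [← h]; simp
  · rw [mul_div_mul_left _ _ h.ne', mul_assoc]

lemma ssub_pw {q : ℕ} (hq : 2 ≤ q) (i : ℕ) : SSub (pw (q := q) i) where
  add := fun c d hc hd => by
    have h1 := (sub_Rf hq).add c d hc hd
    have n1 := Rf_nonneg hq hc
    have n2 := Rf_nonneg hq hd
    have n3 : 0 ≤ Rf (fun i => c i + d i) := Rf_nonneg hq (fun i => add_nonneg (hc i) (hd i))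
    have e : sg (fun i => c i + d i) = sg c + sg d := by
      unfold sg; rw [Finset.sum_add_distrib]
    rcases (sg_nonneg hc).eq_or_lt with h0 | h0
    · have hc0 := eq_zero_of_sg hc h0.symm
      have e : (fun i => c i + d i) = d := by
        funext i; rw [hc0]; simp
      rw [e]
      have := pw_nn hq i hc
      linarith
    rcases (sg_nonneg hd).eq_or_lt with h2 | h2
    · have hd0 := eq_zero_of_sg hd h2.symm
      have e : (fun i => c i + d i) = c := by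
        funext i; rw [hd0]; simp
      rw [e]
      have := pw_nn hq i hd
      linarith
    unfold pw
    rw [e]
    have hs : 0 < sg c + sg d := add_pos h0 h2
    have h3 : (Rf (fun i => c i + d i) / (sg c + sg d)) ^ i ≤
        ((sg c / (sg c + sg d)) • (Rf c / sg c) + (sg d / (sg c + sg d)) • (Rf d / sg d)) ^ i := by
      refine pow_le_pow_left₀ (div_nonneg n3 hs.le) ?_ _
      have e5 : (sg c / (sg c + sg d)) • (Rf c / sg c) + (sg d / (sg c + sg d)) • (Rf d / sg d) =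
          (Rf c + Rf d) / (sg c + sg d) := by
        simp only [smul_eq_mul]
        field_simp
      rw [e5]
      exact div_le_div_of_nonneg_right h1 hs.le
    have h4 := (convexOn_pow (𝕜 := ℝ) i).2 (show Rf c / sg c ∈ Set.Ici (0 : ℝ) from
      div_nonneg n1 h0.le) (show Rf d / sg d ∈ Set.Ici (0 : ℝ) from div_nonneg n2 h2.le)
      (show 0 ≤ sg c / (sg c + sg d) by positivity) (show 0 ≤ sg d / (sg c + sg d) by positivity)
      (by field_simp)
    have h5 := mul_le_mul_of_nonneg_left (h3.trans h4) hs.le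
    refine h5.trans (le_of_eq ?_)
    simp only [smul_eq_mul]
    field_simp
  smul := fun s hs c hc => pw_smul i s hs c hc
  bdd := ⟨1, zero_le_one, fun c hc => by
    rw [abs_of_nonneg (pw_nn hq i hc)]
    exact pw_le hq i hc⟩
  symm := fun π c hc => by
    unfold pw
    rw [(ssub_Rf hq).symm π c hc]
    have : sg (fun i => c (π i)) = sg c := Equiv.sum_comp π c
    rw [this]

lemma pw_bdd {q : ℕ} (hq : 2 ≤ q) (i : ℕ) : Bdd (pw (q := q) i) 1 := fun c hc => by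
  rw [abs_of_nonneg (pw_nn hq i hc)]
  exact pw_le hq i hc

end Vale.Agent.P154.G

namespace Vale.Agent.P154N

open Vale.Agent.P154.G Filter Topology

lemma pw_one3 (i : ℕ) {v : V 3} (h : sg v = 1) : pw i v = (1 - 3 * E2 v) ^ i := by
  unfold pw
  rw [h, Rf_one3 h, div_one, one_mul]

theorem SS_le_Ks' {φ : ℝ → ℝ → ℝ} {L : List (ℝ × ℕ × ℕ × ℕ)} {z0 z1 : ℝ}
    (hmaj : Maj z0 z1 φ L) {v p : V 3} (hv : ∀ i, 0 ≤ v i) (hp : ∀ i, 0 ≤ p i)
    (hv1 : sg v = 1) (hp1 : sg p = 1)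
    (hZ : ∀ π : Equiv.Perm (Fin 3), z0 ≤ 3 * ∑ i, v i * p (π i) ∧ 3 * ∑ i, v i * p (π i) ≤ z1) :
    SS (Pf φ) v p ≤ 1 / 3 * Ks L (E2 v) (E3 v) (E2 p) (E3 p) := by
  have key : SS (Pf φ) v p ≤ 1 / 3 * SS (fun v => Ts L (fun l => 3 * v l)) v p := by
    unfold SS
    rw [Finset.mul_sum]
    refine Finset.sum_le_sum fun π _ => ?_
    set y : V 3 := fun i => v i * p (π i) with hy
    have hy0 : ∀ i, 0 ≤ y i := fun i => mul_nonneg (hv i) (hp _)
    have h3 : Pf φ (fun l => 3 * y l) ≤ Ts L (fun l => 3 * y l) := by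
      have hz0' : ∀ i, 0 ≤ (fun l => 3 * y l) i := fun i => mul_nonneg (by norm_num) (hy0 i)
      have hsg : sg (fun l => 3 * y l) = 3 * ∑ i, v i * p (π i) := by
        unfold sg; rw [← Finset.mul_sum]
      obtain ⟨b1, b2⟩ := hZ π
      rw [← hsg] at b1 b2
      rcases norm3 hz0' with h0 | ⟨w, hw0, hw1, hpos, hw⟩
      · rw [h0] at b1 b2 ⊢
        have e3 : sg (0 : V 3) = 0 := by simp [sg3]
        have e2 : E2 (0 : V 3) = 0 := by simp [E2]
        have e4 : E3 (0 : V 3) = 0 := by simp [E3]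
        rw [e3] at b1 b2
        have h4 := hmaj v hv hv1 0 b1 b2
        rw [Pf_zero, Ts_eq, e3, e2, e4]
        simpa using h4
      · have h4 := hmaj w hw0 hw1 (sg (fun l => 3 * y l)) b1 b2
        rw [Ts_eq]
        set Z := sg (fun l => 3 * y l) with hZ
        have e2 : E2 (fun l => 3 * y l) = Z ^ 2 * E2 w := by
          conv_lhs => rw [hw]
          exact E2_smul _ _
        have e3 : E3 (fun l => 3 * y l) = Z ^ 3 * E3 w := by
          conv_lhs => rw [hw]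
          exact E3_smul _ _
        have e4 : Pf φ (fun l => 3 * y l) = Z * φ (E2 w) (E3 w) := by
          conv_lhs => rw [hw]
          rw [Pf_smul, Pf_one hw1]
        rw [e2, e3, e4]
        exact h4
    rw [Pf_smul] at h3
    show Pf φ y ≤ 1 / 3 * Ts L (fun l => 3 * y l)
    linarith
  rwa [SS_Ts L hv1 hp1] at key

/-- the kernel bound for the `k`-th stage, `k ≥ 2` -/
theorem step_le {c : ℝ} (hc0 : 0 < c) (hc1 : c ≤ 1 / 2) {φ : ℝ → ℝ → ℝ}
    {L : List (ℝ × ℕ × ℕ × ℕ)} (hmaj : Maj (1 - 2 * c) (1 + c) φ L)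
    {p r : V 3} (hp : ∀ i, 0 ≤ p i) (hr : ∀ i, 0 ≤ r i) (hp1 : sg p = 1) (hr1 : sg r = 1) :
    1 / 2 * SS (Pf φ) (chan (-c) r) p ≤
      1 / 6 * Ks L (1 / 3 - c ^ 2 * (1 / 3 - E2 r))
        (((1 + c) / 3) ^ 3 - ((1 + c) / 3) ^ 2 * c + (1 + c) / 3 * c ^ 2 * E2 r - c ^ 3 * E3 r)
        (E2 p) (E3 p) := by
  have hv : ∀ i, 0 ≤ chan (-c) r i := chan_nn3 hc0 hc1 hr
  have hv1 : sg (chan (-c) r) = 1 := by rw [sg_chan (by norm_num)]; exact hr1
  have key := SS_le_Ks' hmaj hv hp hv1 hp1 (zb hc0.le hr hp hr1 hp1)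
  rw [E2_chan hr1, E3_chan hr1] at key
  have e8 : (1 : ℝ) / 3 - (-c) ^ 2 * (1 / 3 - E2 r) = 1 / 3 - c ^ 2 * (1 / 3 - E2 r) := by ring
  have e9 : ((1 - -c) / 3) ^ 3 + ((1 - -c) / 3) ^ 2 * -c + (1 - -c) / 3 * (-c) ^ 2 * E2 r +
      (-c) ^ 3 * E3 r = ((1 + c) / 3) ^ 3 - ((1 + c) / 3) ^ 2 * c +
      (1 + c) / 3 * c ^ 2 * E2 r - c ^ 3 * E3 r := by ring
  rw [e8, e9] at key
  linarith

/-- the kernel bound for the first stage -/
theorem step1_le {c : ℝ} (hc0 : 0 < c) (hc1 : c ≤ 1 / 2) {φ : ℝ → ℝ → ℝ}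
    {L : List (ℝ × ℕ × ℕ × ℕ)} (hmaj : Maj (1 - c ^ 2) (1 + 2 * c ^ 2) φ L)
    {p r : V 3} (hp : ∀ i, 0 ≤ p i) (hr : ∀ i, 0 ≤ r i) (hp1 : sg p = 1) (hr1 : sg r = 1) :
    1 / 2 * SS (Pf φ) (chan (-c) r) (chan (-c) p) ≤
      1 / 6 * Ks L (1 / 3 - c ^ 2 * (1 / 3 - E2 r))
        (((1 + c) / 3) ^ 3 - ((1 + c) / 3) ^ 2 * c + (1 + c) / 3 * c ^ 2 * E2 r - c ^ 3 * E3 r)
        (1 / 3 - c ^ 2 * (1 / 3 - E2 p))
        (((1 + c) / 3) ^ 3 - ((1 + c) / 3) ^ 2 * c + (1 + c) / 3 * c ^ 2 * E2 p -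
          c ^ 3 * E3 p) := by
  have hv : ∀ i, 0 ≤ chan (-c) r i := chan_nn3 hc0 hc1 hr
  have hv1 : sg (chan (-c) r) = 1 := by rw [sg_chan (by norm_num)]; exact hr1
  have hw : ∀ i, 0 ≤ chan (-c) p i := chan_nn3 hc0 hc1 hp
  have hw1 : sg (chan (-c) p) = 1 := by rw [sg_chan (by norm_num)]; exact hp1
  have key := SS_le_Ks' hmaj hv hw hv1 hw1 (zb1 hr hp hr1 hp1)
  rw [E2_chan hr1, E3_chan hr1, E2_chan hp1, E3_chan hp1] at key
  have e8 : ∀ x : ℝ, (1 : ℝ) / 3 - (-c) ^ 2 * (1 / 3 - x) = 1 / 3 - c ^ 2 * (1 / 3 - x) := by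
    intro x; ring
  have e9 : ∀ x y : ℝ, ((1 - -c) / 3) ^ 3 + ((1 - -c) / 3) ^ 2 * -c +
      (1 - -c) / 3 * (-c) ^ 2 * x + (-c) ^ 3 * y = ((1 + c) / 3) ^ 3 - ((1 + c) / 3) ^ 2 * c +
      (1 + c) / 3 * c ^ 2 * x - c ^ 3 * y := by intro x y; ring
  rw [e8, e8, e9, e9] at key
  linarith

/-- the normalised penalty of one stage -/
def pen {nI nJ : ℕ} (C : Fin nJ → Fin nI → ℝ) (x y : ℝ) : ℝ :=
  ∑ j : Fin nJ, x ^ ((j : ℕ) + 2) * ∑ i : Fin nI, C j i * y ^ ((i : ℕ) + 1)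

/-- The polynomial inequalities for the `d`-ary tree at eigenvalue `-c`, `c ≥ 1 / √d`. -/
structure LCert (d : ℕ) (c t : ℝ) (φ g : ℕ → ℝ → ℝ → ℝ) {nI nJ : ℕ}
    (C : ℕ → Fin nJ → Fin nI → ℝ) (gam : Fin nJ → ℝ) : Prop where
  hd : 2 ≤ d
  c_pos : 0 < c
  c_le : c ≤ 1 / 2
  hR : 1 ≤ d * c ^ 2
  t_pos : 0 < t
  fin : ∃ Φ : List (ℝ → ℝ → ℝ), (∀ f ∈ Φ, Continuous fun x : ℝ × ℝ => f x.1 x.2) ∧
    ∀ k, φ k ∈ Φ ∧ g k ∈ Φ
  step1 : ∀ p r : V 3, (∀ i, 0 ≤ p i) → (∀ i, 0 ≤ r i) → sg p = 1 → sg r = 1 →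
    1 / 2 * SS (Pf (φ 2)) (chan (-c) r) (chan (-c) p) ≤
      φ 1 (E2 (chan (-c) p)) (E3 (chan (-c) p)) + g 1 (E2 r) (E3 r) -
        t * ((1 - 3 * E2 r) * (1 - 3 * E2 (chan (-c) p))) +
        pen (C 1) (1 - 3 * E2 r) (1 - 3 * E2 (chan (-c) p))
  step : ∀ k, 2 ≤ k → k < d → ∀ p r : V 3, (∀ i, 0 ≤ p i) → (∀ i, 0 ≤ r i) → sg p = 1 →
    sg r = 1 → 1 / 2 * SS (Pf (φ (k + 1))) (chan (-c) r) p ≤
      φ k (E2 p) (E3 p) + g k (E2 r) (E3 r) + pen (C k) (1 - 3 * E2 r) (1 - 3 * E2 p)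
  sum : ∀ r : V 3, (∀ i, 0 ≤ r i) → sg r = 1 →
    φ 1 (E2 (chan (-c) r)) (E3 (chan (-c) r)) + ∑ k ∈ Finset.Ico 1 d, g k (E2 r) (E3 r) ≤
      d * c ^ 2 * φ d (E2 r) (E3 r) - ∑ j : Fin nJ, gam j * (1 - 3 * E2 r) ^ ((j : ℕ) + 2)
  ray : ∀ v : V 3, (∀ i, 0 ≤ v i) → sg v = 1 → ∀ τ : ℝ, 0 ≤ τ → τ ≤ 1 →
    d * c ^ 2 * τ ^ 2 = 1 →
    φ d (1 / 3 - τ ^ 2 * (1 / 3 - E2 v))
      (((1 - τ) / 3) ^ 3 + ((1 - τ) / 3) ^ 2 * τ + (1 - τ) / 3 * τ ^ 2 * E2 v + τ ^ 3 * E3 v) ≤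
      τ ^ 2 * φ d (E2 v) (E3 v)

/-- homogeneous penalty -/
noncomputable def penH {nI nJ : ℕ} (C : Fin nJ → Fin nI → ℝ) (r p : V 3) : ℝ :=
  ∑ j : Fin nJ, pw ((j : ℕ) + 2) r * ∑ i : Fin nI, C j i * pw ((i : ℕ) + 1) p

lemma penH_zero_left {nI nJ : ℕ} (C : Fin nJ → Fin nI → ℝ) (p : V 3) : penH C 0 p = 0 := by
  unfold penH
  refine Finset.sum_eq_zero fun j _ => ?_
  have : pw ((j : ℕ) + 2) (0 : V 3) = 0 := by unfold pw; simp [sg3]
  rw [this, zero_mul]

lemma penH_zero_right {nI nJ : ℕ} (C : Fin nJ → Fin nI → ℝ) (r : V 3) : penH C r 0 = 0 := by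
  unfold penH
  refine Finset.sum_eq_zero fun j _ => ?_
  have : ∀ i : Fin nI, pw ((i : ℕ) + 1) (0 : V 3) = 0 := fun i => by unfold pw; simp [sg3]
  simp [this]

lemma penH_smul {nI nJ : ℕ} (C : Fin nJ → Fin nI → ℝ) {s u : ℝ} (hs : 0 ≤ s) (hu : 0 ≤ u)
    {r p : V 3} (hr : ∀ i, 0 ≤ r i) (hp : ∀ i, 0 ≤ p i) :
    penH C (fun i => s * r i) (fun i => u * p i) = s * u * penH C r p := by
  unfold penH
  rw [Finset.mul_sum]
  refine Finset.sum_congr rfl fun j _ => ?_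
  rw [pw_smul _ s hs r hr, Finset.mul_sum, Finset.mul_sum, Finset.mul_sum]
  refine Finset.sum_congr rfl fun i _ => ?_
  rw [pw_smul _ u hu p hp]
  ring

lemma penH_one {nI nJ : ℕ} (C : Fin nJ → Fin nI → ℝ) {r p : V 3} (hr : sg r = 1)
    (hp : sg p = 1) : penH C r p = pen C (1 - 3 * E2 r) (1 - 3 * E2 p) := by
  unfold penH pen
  simp only [pw_one3 _ hr, pw_one3 _ hp]

/-- homogeneous form of a stage inequality -/
lemma step_homP {c t : ℝ} (hc0 : 0 < c) (hc1 : c ≤ 1 / 2) {φ ψ g : ℝ → ℝ → ℝ} {nI nJ : ℕ}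
    (C : Fin nJ → Fin nI → ℝ) {S : V 3 → Prop}
    (hS : ∀ s : ℝ, 0 < s → ∀ p, S (fun i => s * p i) → S p)
    (h : ∀ p r : V 3, (∀ i, 0 ≤ p i) → (∀ i, 0 ≤ r i) → sg p = 1 → sg r = 1 → S p →
      1 / 2 * SS (Pf φ) (chan (-c) r) p ≤
        ψ (E2 p) (E3 p) + g (E2 r) (E3 r) - t * ((1 - 3 * E2 r) * (1 - 3 * E2 p)) +
          pen C (1 - 3 * E2 r) (1 - 3 * E2 p))
    {p r : V 3} (hp : ∀ i, 0 ≤ p i) (hr : ∀ i, 0 ≤ r i) (hSp : S p) :
    1 / 2 * SS (Pf φ) (chan (-c) r) p ≤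
      sg r * Pf ψ p + Pf g r * sg p - t * (Rf r * Rf p) + penH C r p := by
  have z0 : sg (0 : V 3) = 0 := by simp [sg3]
  rcases norm3 hp with h0 | ⟨P, hP0, hP1, hPp, hP⟩
  · rw [h0, SS_zero_right _ (Pf_zero φ), Pf_zero, Rf_zero3, z0, penH_zero_right]
    simp
  rcases norm3 hr with h0 | ⟨R, hR0, hR1, hRp, hR⟩
  · rw [h0]
    have e : chan (-c) (0 : V 3) = 0 := by
      funext i
      simp [chan, sg3]
    rw [e, SS_zero_left _ (Pf_zero φ), Pf_zero, Rf_zero3, z0, penH_zero_left]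
    simp
  have h1 := h P R hP0 hR0 hP1 hR1 (hS (sg p) hPp P (by rw [← hP]; exact hSp))
  have hv : ∀ i, 0 ≤ chan (-c) R i := chan_nn3 hc0 hc1 hR0
  have e1 : SS (Pf φ) (chan (-c) r) p = sg r * sg p * SS (Pf φ) (chan (-c) R) P := by
    conv_lhs => rw [hR, hP, chan_smul3]
    exact SS_smul (Hom1_Pf φ) hRp.le hPp.le hv hP0
  have e2 : Pf ψ p = sg p * Pf ψ P := by
    conv_lhs => rw [hP]
    exact Pf_smul ψ _ _
  have e3 : Pf g r = sg r * Pf g R := by
    conv_lhs => rw [hR]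
    exact Pf_smul g _ _
  have e4 : Rf p = sg p * Rf P := by
    conv_lhs => rw [hP]
    exact Rf_smul _ hPp.le _ hP0
  have e5 : Rf r = sg r * Rf R := by
    conv_lhs => rw [hR]
    exact Rf_smul _ hRp.le _ hR0
  have e6 : penH C r p = sg r * sg p * penH C R P := by
    conv_lhs => rw [hR, hP]
    exact penH_smul C hRp.le hPp.le hR0 hP0
  rw [e1, e2, e3, e4, e5, e6, Pf_one hP1, Pf_one hR1, Rf_one3 hP1, Rf_one3 hR1, penH_one C hR1 hP1]
  have h2 := mul_le_mul_of_nonneg_left h1 (mul_nonneg hRp.le hPp.le)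
  calc _ = sg r * sg p * (1 / 2 * SS (Pf φ) (chan (-c) R) P) := by ring
    _ ≤ _ := h2
    _ = _ := by ring

/-- the value of `X` tends to zero on the critical `d`-ary tree, from bounds for the moments
`E r^(i+1)` of the laws of `k` messages -/
theorem LCert.X_tendsto {d : ℕ} {c t : ℝ} {φ g : ℕ → ℝ → ℝ → ℝ} {nI nJ : ℕ}
    {C : ℕ → Fin nJ → Fin nI → ℝ} {gam : Fin nJ → ℝ} (H : LCert d c t φ g C gam)
    (hC : ∀ k j i, 0 ≤ C k j i) {lam0 : ℝ} (h0 : 0 ≤ 1 + (((3 : ℕ) : ℝ) - 1) * lam0 ∧ lam0 ≤ 1)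
    (hl0 : lam0 < 0) (hl : d * lam0 ^ 2 = 1) (N : ℕ) (e : ℕ → Fin nI → ℝ)
    (he : ∀ n, N ≤ n → ∀ k, 1 ≤ k → k < d → ∀ i : Fin nI, Phi (pw ((i : ℕ) + 1))
      (powF (fun a => chan lam0 (fam (PMF.pure d) (potts (q := 3) lam0 h0) n a)) k) ≤ e k i)
    (hgam : ∀ j, ∑ k ∈ Finset.Ico 1 d, ∑ i, C k j i * e k i ≤ gam j) :
    Tendsto (fun n => X (fam (PMF.pure d) (potts (q := 3) lam0 h0) n)) atTop (𝓝 0) := by
  obtain ⟨Φ, hΦ, hmem⟩ := H.fin
  obtain ⟨K, hK0, hK⟩ := list_bd Φ hΦ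
  have hc0 := H.c_pos
  have hc1 := H.c_le
  have hR := H.hR
  have hR0 : 0 < (d : ℝ) * c ^ 2 := by linarith
  have hd2 := H.hd
  have hτ0 : 0 < -lam0 / c := div_pos (by linarith) hc0
  have hτe : (d : ℝ) * c ^ 2 * (-lam0 / c) ^ 2 = 1 := by
    rw [div_pow]
    field_simp
    linarith
  have hτ1 : -lam0 / c ≤ 1 := by
    by_contra hcon
    push Not at hcon
    have h1 : 1 < (-lam0 / c) ^ 2 := by nlinarith
    nlinarith
  have hfact : (1 : ℝ) / ((3 - 1).factorial : ℕ) = 1 / 2 := by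
    norm_num [Nat.factorial]
  set K2 : ℝ := ∑ k ∈ Finset.range d, ∑ j, ∑ i, C k j i with hK2
  have hK2n : 0 ≤ K2 := Finset.sum_nonneg fun k _ => Finset.sum_nonneg fun j _ =>
    Finset.sum_nonneg fun i _ => hC k j i
  let st : Loc 3 d (-c) (-lam0 / c) (Fin nJ) :=
    { P := fun k => Pf (φ k)
      Gf := fun k => Pf (g k)
      Q := fun k j v => if k < d then ∑ i, C k j i * pw ((i : ℕ) + 1) v else 0
      R := fun j => pw ((j : ℕ) + 2)
      gam := gam
      K := K + K2 + 1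
      t := fun k => if k = 1 then t else 0
      G0 := d * c ^ 2
      hq := by norm_num
      hG0 := hR0.le
      τ_pos := hτ0
      τ_le := hτ1
      Gτ := hτe
      hd := hd2
      t_pos := by simpa using H.t_pos
      t_nn := fun k => by
        show 0 ≤ if k = 1 then t else 0
        split_ifs
        · exact H.t_pos.le
        · exact le_rfl
      P_bd := fun k v hv => (Pf_bd (hK _ (hmem k).1) v hv).trans
        (mul_le_mul_of_nonneg_right (by linarith) (sg_nonneg hv))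
      G_bd := fun k v hv => (Pf_bd (hK _ (hmem k).2) v hv).trans
        (mul_le_mul_of_nonneg_right (by linarith) (sg_nonneg hv))
      Q_bd := fun k j v hv => by
        have hs := sg_nonneg hv
        show |if k < d then ∑ i, C k j i * pw ((i : ℕ) + 1) v else 0| ≤ (K + K2 + 1) * sg v
        split_ifs with hk
        · rw [abs_of_nonneg (Finset.sum_nonneg fun i _ =>
            mul_nonneg (hC k j i) (pw_nn (by norm_num) _ hv))]
          have h1 : ∑ i, C k j i * pw ((i : ℕ) + 1) v ≤ ∑ i, C k j i * sg v :=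
            Finset.sum_le_sum fun i _ => mul_le_mul_of_nonneg_left
              (by have := pw_le (q := 3) (by norm_num) ((i : ℕ) + 1) hv; linarith) (hC k j i)
          rw [← Finset.sum_mul] at h1
          have h2 : ∑ i, C k j i ≤ ∑ j, ∑ i, C k j i :=
            Finset.single_le_sum (f := fun j => ∑ i, C k j i)
              (fun j _ => Finset.sum_nonneg fun i _ => hC k j i) (Finset.mem_univ j)
          have h3 : ∑ j, ∑ i, C k j i ≤ K2 :=
            Finset.single_le_sum (f := fun k => ∑ j, ∑ i, C k j i)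
              (fun k _ => Finset.sum_nonneg fun j _ => Finset.sum_nonneg fun i _ => hC k j i)
              (Finset.mem_range.2 hk)
          refine h1.trans (mul_le_mul_of_nonneg_right (by linarith) hs)
        · rw [abs_zero]
          positivity
      R_bd := fun j v hv => by
        have hs := sg_nonneg hv
        rw [abs_of_nonneg (pw_nn (by norm_num) _ hv)]
        exact (pw_le (by norm_num) _ hv).trans (mul_le_mul_of_nonneg_right (by linarith) hs)
      R_nn := fun j v hv => pw_nn (by norm_num) _ hv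
      step := by
        intro k hk hkd p r hp hr hk1
        rw [hfact]
        have epen : ∑ j : Fin nJ, pw ((j : ℕ) + 2) r * (if k < d then ∑ i : Fin nI, C k j i * pw ((i : ℕ) + 1) p
            else 0) = penH (C k) r p := by
          unfold penH
          refine Finset.sum_congr rfl fun j _ => ?_
          rw [if_pos hkd]
        show 1 / 2 * SS (Pf (φ (k + 1))) (chan (-c) r) p ≤ sg r * Pf (φ k) p +
          Pf (g k) r * sg p - (if k = 1 then t else 0) * (Rf r * Rf p) + ∑ j : Fin nJ,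
            pw ((j : ℕ) + 2) r * (if k < d then ∑ i : Fin nI, C k j i * pw ((i : ℕ) + 1) p else 0)
        rw [epen]
        by_cases h1 : k = 1
        · subst h1
          rw [if_pos rfl]
          obtain ⟨p', hp', e⟩ := hk1 rfl
          refine step_homP hc0 hc1 (C 1) (S := fun p => ∃ p' : V 3, (∀ i, 0 ≤ p' i) ∧
            p = chan (-c) p') ?_ ?_ hp hr ⟨p', hp', e⟩
          · rintro s hs p ⟨p', hp', e⟩
            refine ⟨fun i => s⁻¹ * p' i, fun i => mul_nonneg (inv_nonneg.2 hs.le) (hp' i), ?_⟩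
            rw [chan_smul3, ← e]
            funext i
            field_simp
          · rintro p r hp hr hp1 hr1 ⟨p', hp', e⟩
            have hp'1 : sg p' = 1 := by
              rw [e, sg_chan (by norm_num)] at hp1
              exact hp1
            rw [e]
            exact H.step1 p' r hp' hr hp'1 hr1
        · rw [if_neg h1]
          refine step_homP hc0 hc1 (C k) (S := fun _ => True) (fun _ _ _ _ => trivial) ?_ hp hr
            trivial
          intro p r hp hr hp1 hr1 _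
          have := H.step k (by omega) hkd p r hp hr hp1 hr1
          linarith
      sum := by
        intro r hr
        rcases norm3 hr with h0 | ⟨R, hR0', hR1, hRp, hRe⟩
        · have e : chan (-c) (0 : V 3) = 0 := by
            funext i
            simp [chan, sg3]
          have e2 : ∀ i, pw i (0 : V 3) = 0 := fun i => by unfold pw; simp [sg3]
          rw [h0, e]
          simp [Pf_zero, e2]
        · have e1 : ∀ f : ℝ → ℝ → ℝ, Pf f r = sg r * f (E2 R) (E3 R) := by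
            intro f
            conv_lhs => rw [hRe]
            rw [Pf_smul, Pf_one hR1]
          have e2 : Pf (φ 1) (chan (-c) r) =
              sg r * φ 1 (E2 (chan (-c) R)) (E3 (chan (-c) R)) := by
            conv_lhs => rw [hRe]
            rw [chan_smul3, Pf_smul, Pf_one (by rw [sg_chan (by norm_num)]; exact hR1)]
          have e3 : ∀ i, pw i r = sg r * (1 - 3 * E2 R) ^ i := by
            intro i
            conv_lhs => rw [hRe]
            rw [pw_smul i _ hRp.le R hR0', pw_one3 i hR1]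
          have h1 := mul_le_mul_of_nonneg_left (H.sum R hR0' hR1) hRp.le
          simp only [e1, e2, e3]
          rw [← Finset.mul_sum]
          have e4 : ∑ j : Fin nJ, gam j * (sg r * (1 - 3 * E2 R) ^ ((j : ℕ) + 2)) =
              sg r * ∑ j : Fin nJ, gam j * (1 - 3 * E2 R) ^ ((j : ℕ) + 2) := by
            rw [Finset.mul_sum]
            exact Finset.sum_congr rfl fun j _ => by ring
          rw [e4]
          linarith
      ray := by
        intro v hv
        rcases norm3 hv with h0 | ⟨w, hw0, hw1, hpos, hw⟩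
        · rw [h0]
          have e : ∀ τ : ℝ, chan τ (0 : V 3) = 0 := fun τ => by
            funext i
            simp [chan, sg3]
          rw [e, Pf_zero, mul_zero]
        · rw [hw, chan_smul3, Pf_smul, Pf_smul]
          have h2 := H.ray w hw0 hw1 _ hτ0.le hτ1 hτe
          rw [← E2_chan hw1, ← E3_chan hw1] at h2
          have e3 : sg (chan (-lam0 / c) w) = 1 := by
            rw [sg_chan (by norm_num)]; exact hw1
          rw [Pf_one e3, Pf_one hw1]
          have := mul_le_mul_of_nonneg_left h2 hpos.le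
          linarith }
  have hc' : 0 ≤ 1 + (((3 : ℕ) : ℝ) - 1) * (-c) ∧ -c ≤ 1 := by
    push_cast
    exact ⟨by linarith, by linarith⟩
  refine st.X_tendsto hc' (by linarith [hc0] : (-c : ℝ) ≠ 0) h0 (by field_simp) N ?_
  intro n hn j
  refine le_trans (Finset.sum_le_sum fun k hk => ?_) (hgam j)
  obtain ⟨hk1, hk2⟩ := Finset.mem_Ico.1 hk
  have hc := (NFam.fam (PMF.pure d) h0 n).chan (by norm_num) h0
  have e7 : Phi (fun v : V 3 => if k < d then ∑ i, C k j i * pw ((i : ℕ) + 1) v else 0)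
      (powF (fun a => chan lam0 (fam (PMF.pure d) (potts (q := 3) lam0 h0) n a)) k) =
      ∑ i, C k j i * Phi (pw ((i : ℕ) + 1))
        (powF (fun a => chan lam0 (fam (PMF.pure d) (potts (q := 3) lam0 h0) n a)) k) := by
    unfold Phi
    simp only [if_pos hk2]
    have hs := hasSum_sum (s := (Finset.univ : Finset (Fin nI))) fun i _ =>
      ((smb (pw_bdd (q := 3) (by norm_num) ((i : ℕ) + 1)) (hc.pow k).nn
        (hc.pow k).sum).hasSum.mul_left (C k j i))
    rw [hs.tsum_eq, Finset.mul_sum]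
    exact Finset.sum_congr rfl fun i _ => by ring
  show Phi (fun v : V 3 => if k < d then ∑ i, C k j i * pw ((i : ℕ) + 1) v else 0) _ ≤ _
  rw [e7]
  exact Finset.sum_le_sum fun i _ => mul_le_mul_of_nonneg_left (he n hn k hk1 hk2 i) (hC k j i)

end Vale.Agent.P154N
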