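import Vale.Agent.P154.N3Seq

/-! P154: the five bilinear inequalities of the local argument for `d = 4`, `lam = -1/2`
(rows: factor of the law so far, columns: factor of the new message; `1, r, r², s`) -/

namespace Vale.Agent.P154N

/-- upper bound for `E r` -/
noncomputable def MR : Fin 4 → Fin 4 → ℝ :=
  ![![0, 1, 0, 0], ![1, -(431 / 500), 262 / 125, -(233 / 125)], ![0, 54 / 25, 0, 0],
    ![0, -(91 / 50), 0, 0]]

/-- upper bound for `E r²` -/
noncomputable def MG : Fin 4 → Fin 4 → ℝ :=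
  ![![0, 0, 1, 0], ![0, 1307 / 250, 0, 0], ![1, -(653 / 125), 5166 / 125, 0], ![0, 0, 0, 0]]

/-- upper bound for `E s` -/
noncomputable def MP : Fin 4 → Fin 4 → ℝ :=
  ![![0, 0, 0, 1], ![0, 1877 / 250, 0, 0], ![0, 0, 0, 0], ![1, -(874 / 125), 0, 0]]

/-- lower bound for `E s` -/
noncomputable def MM : Fin 4 → Fin 4 → ℝ :=
  ![![0, 0, 0, -1], ![0, -(102 / 25), 0, 0], ![0, 702 / 125, 0, 0], ![-1, 1159 / 250, 0, 0]]

/-- lower bound for `E r` -/
noncomputable def ML : Fin 4 → Fin 4 → ℝ :=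
  ![![0, -1, 0, 0], ![-1, 216 / 125, 0, 0], ![0, 0, 0, 0], ![0, 0, 0, 0]]

end Vale.Agent.P154N
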