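import Vale.Agent.P154.N3Lib

/-! P154, three states: coefficient positivity on the sorted chamber -/

namespace Vale.Agent.P154N

open Vale.Agent.P154.G Vale.Agent.P154.Q4L

/-- positive parts -/
def posL (l : List ℤ) : List ℕ := l.map Int.toNat

/-- negative parts -/
def negL (l : List ℤ) : List ℕ := l.map fun z => (-z).toNat

/-- pairing of integer coefficients with values -/
def zd : List ℤ → List ℝ → ℝ
  | a :: l, x :: m => a * x + zd l m
  | _, _ => 0

lemma posL_cons (a : ℤ) (l : List ℤ) : posL (a :: l) = a.toNat :: posL l := rfl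
lemma negL_cons (a : ℤ) (l : List ℤ) : negL (a :: l) = (-a).toNat :: negL l := rfl

lemma int_split (a : ℤ) : (a : ℝ) = ((a.toNat : ℕ) : ℝ) - (((-a).toNat : ℕ) : ℝ) := by
  have h3 : a = ((a.toNat : ℕ) : ℤ) - (((-a).toNat : ℕ) : ℤ) := by omega
  have h4 : (a : ℝ) = ((((a.toNat : ℕ) : ℤ) - (((-a).toNat : ℕ) : ℤ) : ℤ) : ℝ) :=
    congrArg (fun z : ℤ => (z : ℝ)) h3
  rw [h4, Int.cast_sub, Int.cast_natCast, Int.cast_natCast]

lemma zd_eq : ∀ (l : List ℤ) (m : List ℝ), zd l m = ndot (posL l) m - ndot (negL l) m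
  | [], m => by simp [zd, posL, negL]
  | a :: l, [] => by simp [zd]
  | a :: l, x :: m => by
    rw [posL_cons, negL_cons, zd, ndot, ndot, zd_eq l m, int_split a]
    ring

/-- test for one vector -/
def chk1 (n : ℕ) (As : List (List ℕ)) (cs : List ℤ) : Bool :=
  (As.all fun A => Nat.ble A.length n) &&
  (Nat.blt (lin (posL cs) (As.map List.sum)) HB && (Nat.blt (lin (negL cs) (As.map List.sum)) HB &&
    allge n (lin (posL cs) (As.map pack) + HH n - lin (negL cs) (As.map pack))))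

theorem one_pos {n : ℕ} {As : List (List ℕ)} {cs : List ℤ} {M : List ℝ} (hM : ∀ x ∈ M, 0 ≤ x)
    (h : chk1 n As cs = true) : 0 ≤ zd cs (As.map fun A => ndot A M) := by
  rw [chk1, Bool.and_eq_true, Bool.and_eq_true, Bool.and_eq_true] at h
  obtain ⟨h0, h1, h2, h3⟩ := h
  have hlen : ∀ A ∈ As, A.length ≤ n := fun A hA =>
    Nat.le_of_ble_eq_true (List.all_eq_true.mp h0 A hA)
  have h1' := Nat.blt_eq.mp h1
  have h2' := Nat.blt_eq.mp h2
  rw [← sum_comb] at h1' h2'
  rw [← pack_comb, ← pack_comb] at h3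
  rw [zd_eq, sub_nonneg, ← ndot_comb, ← ndot_comb]
  exact digits_le n _ _ M (length_comb _ _ n hlen) (length_comb _ _ n hlen)
    (fun a ha => lt_of_le_of_lt (List.single_le_sum (fun _ _ => Nat.zero_le _) a ha) h1')
    (fun a ha => lt_of_le_of_lt (List.single_le_sum (fun _ _ => Nat.zero_le _) a ha) h2')
    hM h3

/-- test for two vectors -/
def chk2 (n : ℕ) (As : List (List ℕ)) (C : List (List ℤ)) : Bool :=
  chkAll n (rowsOf n As) As (C.map posL) (C.map negL)

lemma rdot_sub : ∀ (m : List ℝ) (C : List (List ℤ)) (f : List ℤ → ℝ) (g h : List ℤ → ℝ),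
    (∀ c, f c = g c - h c) → rdot m (C.map f) = rdot m (C.map g) - rdot m (C.map h)
  | [], C, f, g, h, _ => by simp [rdot]
  | x :: m, [], f, g, h, _ => by simp [rdot]
  | x :: m, c :: C, f, g, h, e => by
    simp only [List.map_cons, rdot, rdot_sub m C f g h e, e c]
    ring

theorem two_pos {n : ℕ} {As : List (List ℕ)} {C : List (List ℤ)} {M M' : List ℝ}
    (hn : M.length = n) (hM : ∀ x ∈ M, 0 ≤ x) (hM' : ∀ x ∈ M', 0 ≤ x)
    (h : chk2 n As C = true) :
    0 ≤ rdot (As.map fun A => ndot A M)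
      (C.map fun c => zd c (As.map fun A => ndot A M')) := by
  have h1 := cert_pos (M := M) (M' := M') (As := As) (As' := As) (rows := rowsOf n As)
    (by rw [hn]) hM hM' h
  rw [rdot_sub _ C _ (fun c => ndot (posL c) (As.map fun A => ndot A M'))
    (fun c => ndot (negL c) (As.map fun A => ndot A M')) (fun c => zd_eq c _), sub_nonneg]
  rw [List.map_map, List.map_map] at h1
  exact h1

/-! the sorted chamber -/

/-- second elementary symmetric function, sorted -/
def e2c (x y z : ℝ) : ℝ := (x + y + z) * (y + z) + (x + y + z) * z + (y + z) * z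

/-- third elementary symmetric function, sorted -/
def e3c (x y z : ℝ) : ℝ := (x + y + z) * (y + z) * z

lemma sorted3 (v : V 3) (hv : ∀ i, 0 ≤ v i) : ∃ x y z : ℝ, 0 ≤ x ∧ 0 ≤ y ∧ 0 ≤ z ∧
    sg v = x + 2 * y + 3 * z ∧ E2 v = e2c x y z ∧ E3 v = e3c x y z := by
  have h0 := hv 0
  have h1 := hv 1
  have h2 := hv 2
  have key : ∀ a b c : ℝ, 0 ≤ c → c ≤ b → b ≤ a → sg v = a + b + c → E2 v = a * b + a * c + b * c →
      E3 v = a * b * c → ∃ x y z : ℝ, 0 ≤ x ∧ 0 ≤ y ∧ 0 ≤ z ∧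
        sg v = x + 2 * y + 3 * z ∧ E2 v = e2c x y z ∧ E3 v = e3c x y z := by
    intro a b c hc hcb hba e1 e2 e3
    refine ⟨a - b, b - c, c, by linarith, by linarith, hc, ?_, ?_, ?_⟩
    · rw [e1]; ring
    · rw [e2, e2c]; ring
    · rw [e3, e3c]; ring
  rcases le_total (v 0) (v 1) with h | h <;> rcases le_total (v 1) (v 2) with h' | h' <;>
    rcases le_total (v 0) (v 2) with h'' | h''
  · exact key (v 2) (v 1) (v 0) h0 h h' (by rw [sg3]; ring) (by unfold E2; ring) (by unfold E3; ring)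
  · exact key (v 2) (v 1) (v 0) h0 h h' (by rw [sg3]; ring) (by unfold E2; ring) (by unfold E3; ring)
  · exact key (v 1) (v 2) (v 0) h0 h'' h' (by rw [sg3]; ring) (by unfold E2; ring)
      (by unfold E3; ring)
  · exact key (v 1) (v 0) (v 2) h2 h'' h (by rw [sg3]; ring) (by unfold E2; ring)
      (by unfold E3; ring)
  · exact key (v 2) (v 0) (v 1) h1 h h'' (by rw [sg3]; ring) (by unfold E2; ring)
      (by unfold E3; ring)
  · exact key (v 0) (v 2) (v 1) h1 h' h'' (by rw [sg3]; ring) (by unfold E2; ring)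
      (by unfold E3; ring)
  · exact key (v 0) (v 1) (v 2) h2 h' h (sg3 v) rfl rfl
  · exact key (v 0) (v 1) (v 2) h2 h' h (sg3 v) rfl rfl

/-- values of the keys -/
def KV (ks : List (ℕ × ℕ)) (a b : ℝ) : List ℝ := ks.map fun e => a ^ e.1 * b ^ e.2

/-- monomial values -/
def mons (es : List (ℕ × ℕ × ℕ)) (x y z : ℝ) : List ℝ :=
  es.map fun e => x ^ e.1 * y ^ e.2.1 * z ^ e.2.2

/-- a correct table -/
structure Tab (n : ℕ) (es : List (ℕ × ℕ × ℕ)) (ks : List (ℕ × ℕ)) (tab : List (List ℕ)) :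
    Prop where
  len : es.length = n
  val : ∀ x y z : ℝ, x + 2 * y + 3 * z = 1 →
    (tab.map fun A => ndot A (mons es x y z)) = KV ks (e2c x y z) (e3c x y z)

lemma mons_nonneg (es : List (ℕ × ℕ × ℕ)) {x y z : ℝ} (hx : 0 ≤ x) (hy : 0 ≤ y) (hz : 0 ≤ z) :
    ∀ m ∈ mons es x y z, 0 ≤ m := by
  intro m hm
  obtain ⟨e, _, rfl⟩ := List.mem_map.mp hm
  positivity

variable {n : ℕ} {es : List (ℕ × ℕ × ℕ)} {ks : List (ℕ × ℕ)} {tab : List (List ℕ)}

theorem Tab.pos1 (T : Tab n es ks tab) {cs : List ℤ} (h : chk1 n tab cs = true) {v : V 3}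
    (hv : ∀ i, 0 ≤ v i) (h1 : sg v = 1) : 0 ≤ zd cs (KV ks (E2 v) (E3 v)) := by
  obtain ⟨x, y, z, hx, hy, hz, e1, e2, e3⟩ := sorted3 v hv
  rw [e2, e3, ← T.val x y z (by rw [← e1]; exact h1)]
  exact one_pos (mons_nonneg es hx hy hz) h

theorem Tab.pos2 (T : Tab n es ks tab) {C : List (List ℤ)} (h : chk2 n tab C = true) {p r : V 3}
    (hp : ∀ i, 0 ≤ p i) (hr : ∀ i, 0 ≤ r i) (hp1 : sg p = 1) (hr1 : sg r = 1) :
    0 ≤ rdot (KV ks (E2 p) (E3 p)) (C.map fun c => zd c (KV ks (E2 r) (E3 r))) := by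
  obtain ⟨x, y, z, hx, hy, hz, e1, e2, e3⟩ := sorted3 p hp
  obtain ⟨x', y', z', hx', hy', hz', e1', e2', e3'⟩ := sorted3 r hr
  rw [e2, e3, e2', e3', ← T.val x y z (by rw [← e1]; exact hp1),
    ← T.val x' y' z' (by rw [← e1']; exact hr1)]
  refine two_pos ?_ (mons_nonneg es hx hy hz) (mons_nonneg es hx' hy' hz') h
  rw [mons, List.length_map]
  exact T.len

end Vale.Agent.P154N
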