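import Mathlib

/-! P154: dense polynomials in several variables with integer coefficients, evaluated by the kernel;
used to prove that an explicit polynomial has nonnegative coefficients. -/

namespace Vale.Agent.P154.Q4

/-- dense polynomials in `n` variables -/
def PP : ℕ → Type
  | 0 => ℤ
  | n + 1 => List (PP n)

namespace PP

def zero : (n : ℕ) → PP n
  | 0 => (0 : ℤ)
  | _ + 1 => ([] : List _)

/-- lists: addition, given the addition of coefficients -/
def ladd {α : Type} (f : α → α → α) : List α → List α → List α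
  | [], m => m
  | a :: l, [] => a :: l
  | a :: l, b :: m => f a b :: ladd f l m

def add : (n : ℕ) → PP n → PP n → PP n
  | 0 => fun (a b : ℤ) => (a + b : ℤ)
  | n + 1 => fun (a b : List (PP n)) => (ladd (add n) a b : List (PP n))

/-- lists: multiplication, given the operations on coefficients -/
def lmul {α : Type} (f g : α → α → α) (z : α) : List α → List α → List α
  | [], _ => []
  | a :: l, m => ladd f (m.map (g a)) (z :: lmul f g z l m)

def mul : (n : ℕ) → PP n → PP n → PP n
  | 0 => fun (a b : ℤ) => (a * b : ℤ)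
  | n + 1 => fun (a b : List (PP n)) => (lmul (add n) (mul n) (zero n) a b : List (PP n))

/-- constants -/
def const : (n : ℕ) → ℤ → PP n
  | 0 => fun c => c
  | n + 1 => fun c => ([const n c] : List (PP n))

/-- powers -/
def pow (n : ℕ) (a : PP n) : ℕ → PP n
  | 0 => const n 1
  | k + 1 => mul n a (pow n a k)

/-- evaluation of a list -/
def lev {α : Type} (f : α → ℝ) (x : ℝ) : List α → ℝ
  | [] => 0
  | a :: l => f a + x * lev f x l

/-- evaluation; the outermost variable of `PP (n+1)` is `x n` -/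
def ev (x : ℕ → ℝ) : (n : ℕ) → PP n → ℝ
  | 0 => fun (a : ℤ) => (a : ℝ)
  | n + 1 => fun (a : List (PP n)) => lev (ev x n) (x n) a

/-- all coefficients nonnegative -/
def nn : (n : ℕ) → PP n → Bool
  | 0 => fun (a : ℤ) => decide (0 ≤ a)
  | n + 1 => fun (a : List (PP n)) => a.all (nn n)

theorem lev_ladd {α : Type} (f : α → ℝ) (x : ℝ) (g : α → α → α)
    (h : ∀ a b, f (g a b) = f a + f b) :
    ∀ l m : List α, lev f x (ladd g l m) = lev f x l + lev f x m
  | [], m => by simp [ladd, lev]
  | a :: l, [] => by simp [ladd, lev]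
  | a :: l, b :: m => by
    simp only [ladd, lev, lev_ladd f x g h l m, h]
    ring

theorem ev_zero (x : ℕ → ℝ) : ∀ n, ev x n (zero n) = 0
  | 0 => by simp [ev, zero]
  | n + 1 => rfl

theorem ev_add (x : ℕ → ℝ) : ∀ n (a b : PP n), ev x n (add n a b) = ev x n a + ev x n b
  | 0, a, b => @Int.cast_add ℝ _ a b
  | n + 1, a, b => lev_ladd (ev x n) (x n) (add n) (ev_add x n) a b

theorem lev_map_mul {α : Type} (f : α → ℝ) (x : ℝ) (g : α → α → α)
    (h : ∀ a b, f (g a b) = f a * f b) (a : α) :
    ∀ m : List α, lev f x (m.map (g a)) = f a * lev f x m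
  | [] => by simp [lev]
  | b :: m => by
    simp only [List.map_cons, lev, lev_map_mul f x g h a m, h]
    ring

theorem lev_lmul {α : Type} (f : α → ℝ) (x : ℝ) (g p : α → α → α) (z : α) (hz : f z = 0)
    (h : ∀ a b, f (g a b) = f a + f b) (h' : ∀ a b, f (p a b) = f a * f b) :
    ∀ l m : List α, lev f x (lmul g p z l m) = lev f x l * lev f x m
  | [], m => by simp [lmul, lev]
  | a :: l, m => by
    simp only [lmul, lev, lev_ladd f x g h, lev_map_mul f x p h', lev_lmul f x g p z hz h h' l m, hz]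
    ring

theorem ev_mul (x : ℕ → ℝ) : ∀ n (a b : PP n), ev x n (mul n a b) = ev x n a * ev x n b
  | 0, a, b => @Int.cast_mul ℝ _ a b
  | n + 1, a, b => lev_lmul (ev x n) (x n) (add n) (mul n) (zero n) (ev_zero x n) (ev_add x n)
      (ev_mul x n) a b

theorem ev_const (x : ℕ → ℝ) : ∀ n (c : ℤ), ev x n (const n c) = c
  | 0, c => rfl
  | n + 1, c => by
    change ev x n (const n c) + x n * 0 = c
    rw [ev_const x n c]
    ring

theorem ev_pow (x : ℕ → ℝ) (n : ℕ) (a : PP n) : ∀ k, ev x n (pow n a k) = ev x n a ^ k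
  | 0 => by rw [pow, ev_const]; simp
  | k + 1 => by rw [pow, ev_mul, ev_pow x n a k, pow_succ]; ring

theorem lev_nn {α : Type} (f : α → ℝ) (x : ℝ) (hx : 0 ≤ x) :
    ∀ l : List α, (∀ a ∈ l, 0 ≤ f a) → 0 ≤ lev f x l
  | [], _ => le_refl _
  | a :: l, h => by
    have h1 := lev_nn f x hx l fun b hb => h b (List.mem_cons_of_mem _ hb)
    have h2 := h a List.mem_cons_self
    simp only [lev]
    positivity

theorem ev_nn (x : ℕ → ℝ) (hx : ∀ i, 0 ≤ x i) : ∀ n (a : PP n), nn n a = true → 0 ≤ ev x n a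
  | 0, a, h => by
    let b : ℤ := a
    have h1 : (0 : ℤ) ≤ b := @of_decide_eq_true ((0 : ℤ) ≤ b) _ h
    have h2 : (0 : ℝ) ≤ (b : ℝ) := by exact_mod_cast h1
    exact h2
  | n + 1, a, h => by
    refine lev_nn (ev x n) (x n) (hx n) a fun b hb => ev_nn x hx n b ?_
    exact List.all_eq_true.mp h b hb

/-- product of two evaluations, sums, powers: the polynomial
`∑ c R^i T^j W^k S^(N-2i-3j-4k)` given by a list of `(c, i, j, k)` -/
def comb4 (n N : ℕ) (R T W S : PP n) : List (ℤ × ℕ × ℕ × ℕ) → PP n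
  | [] => zero n
  | x :: L => add n (mul n (const n x.1) (mul n (mul n (pow n R x.2.1) (pow n T x.2.2.1))
      (mul n (pow n W x.2.2.2) (pow n S (N - 2 * x.2.1 - 3 * x.2.2.1 - 4 * x.2.2.2)))))
      (comb4 n N R T W S L)

end PP

end Vale.Agent.P154.Q4
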