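import Vale.Agent.P154.N3Cone
import Vale.Agent.P154.Q4Poly

/-! P154, three states: polynomial identities checked by the kernel -/

namespace Vale.Agent.P154N

open Vale.Agent.P154.G Vale.Agent.P154.Q4L
open Vale.Agent.P154.Q4 (PP)
open Vale.Agent.P154.Q4.PP

/-- all coefficients zero -/
def isz : (n : ℕ) → PP n → Bool
  | 0 => fun (a : ℤ) => decide (a = 0)
  | n + 1 => fun (a : List (PP n)) => a.all (isz n)

theorem ev_isz (x : ℕ → ℝ) : ∀ n (a : PP n), isz n a = true → ev x n a = 0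
  | 0, a, h => by
    let b : ℤ := a
    have h1 : b = 0 := @of_decide_eq_true (b = 0) _ h
    have h2 : ((b : ℤ) : ℝ) = 0 := by rw [h1]; simp
    exact h2
  | n + 1, a, h => by
    have key : ∀ l : List (PP n), l.all (isz n) = true → lev (ev x n) (x n) l = 0 := by
      intro l
      induction l with
      | nil => intro _; rfl
      | cons c l ih =>
        intro hc
        rw [List.all_cons, Bool.and_eq_true] at hc
        rw [lev, ev_isz x n c hc.1, ih hc.2]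
        ring
    exact key a h

variable (n : ℕ)

/-- difference -/
def sb (a b : PP n) : PP n := add n a (mul n (const n (-1)) b)

lemma ev_sb (x : ℕ → ℝ) (a b : PP n) : ev x n (sb n a b) = ev x n a - ev x n b := by
  rw [sb, ev_add, ev_mul, ev_const]
  push_cast
  ring

theorem eq_of_isz (x : ℕ → ℝ) {a b : PP n} (h : isz n (sb n a b) = true) :
    ev x n a = ev x n b := by
  have := ev_isz x n _ h
  rw [ev_sb] at this
  linarith

/-- next power sum -/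
def nxt (z a b p0 p1 p2 : PP n) : PP n :=
  add n (mul n z p2) (add n (mul n b p0) (mul n (const n (-1)) (mul n a p1)))

/-- list of power sums -/
def psG (z a b : PP n) : ℕ → PP n → PP n → PP n → List (PP n)
  | 0, p0, _, _ => [p0]
  | m + 1, p0, p1, p2 => p0 :: psG z a b m p1 p2 (nxt n z a b p0 p1 p2)

/-- the list of power sums up to `m` -/
def psl (z a b : PP n) (m : ℕ) : List (PP n) :=
  psG n z a b m (const n 3) z (add n (mul n z z) (mul n (const n (-2)) a))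

/-- entry -/
def gt (l : List (PP n)) (i : ℕ) : PP n := l.getD i (zero n)

lemma psG_spec (x : ℕ → ℝ) (z a b : PP n) : ∀ (m k : ℕ) (p0 p1 p2 : PP n),
    ev x n p0 = PS (ev x n z) (ev x n a) (ev x n b) k →
    ev x n p1 = PS (ev x n z) (ev x n a) (ev x n b) (k + 1) →
    ev x n p2 = PS (ev x n z) (ev x n a) (ev x n b) (k + 2) → ∀ i ≤ m,
    ev x n (gt n (psG n z a b m p0 p1 p2) i) = PS (ev x n z) (ev x n a) (ev x n b) (k + i)
  | 0, k, p0, p1, p2, h0, h1, h2, i, hi => by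
    have : i = 0 := by omega
    subst this
    exact h0
  | m + 1, k, p0, p1, p2, h0, h1, h2, i, hi => by
    cases i with
    | zero => exact h0
    | succ i =>
      have h := psG_spec x z a b m (k + 1) p1 p2 (nxt n z a b p0 p1 p2) h1
        (by rw [h2]) (by
          rw [nxt, ev_add, ev_add, ev_mul, ev_mul, ev_mul, ev_mul, ev_const, h0, h1, h2]
          have e : k + 1 + 2 = k + 3 := by omega
          rw [e, PS]
          push_cast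
          ring) i (by omega)
      have e2 : k + (i + 1) = k + 1 + i := by omega
      rw [e2, ← h]
      rfl

lemma psl_spec (x : ℕ → ℝ) (z a b : PP n) {m i : ℕ} (hi : i ≤ m) :
    ev x n (gt n (psl n z a b m) i) = PS (ev x n z) (ev x n a) (ev x n b) i := by
  have h := psG_spec n x z a b m 0 (const n 3) z (add n (mul n z z) (mul n (const n (-2)) a))
    (by rw [ev_const, PS]; norm_num) (by rw [PS]) (by
      rw [ev_add, ev_mul, ev_mul, ev_const, PS]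
      push_cast
      ring) i hi
  rw [Nat.zero_add] at h
  exact h

/-- symmetric monomials from the list -/
def mkP (l : List (PP n)) (b : PP n) (i j k : ℕ) : PP n :=
  mul n (pow n b k) (sb n (mul n (gt n l i) (gt n l j)) (gt n l (i + j)))

lemma mkP_spec (x : ℕ → ℝ) (z a b : PP n) {m i j k : ℕ} (h : i + j ≤ m) :
    ev x n (mkP n (psl n z a b m) b i j k) = MK i j k (ev x n z) (ev x n a) (ev x n b) := by
  rw [mkP, ev_mul, ev_pow, ev_sb, ev_mul, psl_spec n x z a b (i := i) (by omega),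
    psl_spec n x z a b (i := j) (by omega), psl_spec n x z a b h, MK]

/-- integer combinations of keys -/
def zdP : List ℤ → List (ℕ × ℕ) → PP n → PP n → PP n
  | f :: F, e :: ks, A, B => add n (mul n (const n f) (mul n (pow n A e.1) (pow n B e.2)))
      (zdP F ks A B)
  | _, _, _, _ => zero n

lemma zdP_spec (x : ℕ → ℝ) (A B : PP n) : ∀ (F : List ℤ) (ks : List (ℕ × ℕ)),
    ev x n (zdP n F ks A B) = zd F (KV ks (ev x n A) (ev x n B))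
  | [], ks => by simp [zdP, zd, ev_zero]
  | f :: F, [] => by simp [zdP, zd, KV, ev_zero]
  | f :: F, e :: ks => by
    rw [zdP, ev_add, zdP_spec x A B F ks, ev_mul, ev_mul, ev_const, ev_pow, ev_pow]
    simp [KV, zd]

/-- real form of an integer list -/
noncomputable def LR (M : ℕ) (LI : List (ℤ × ℕ × ℕ × ℕ)) : List (ℝ × ℕ × ℕ × ℕ) :=
  LI.map fun e => ((e.1 : ℝ) / M, e.2)

/-- the potential from integer coefficients -/
noncomputable def FR (M : ℕ) (F : List ℤ) (ks : List (ℕ × ℕ)) (a b : ℝ) : ℝ :=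
  zd F (KV ks a b) / M

/-- all indices at most `m` -/
def okL (m : ℕ) (LI : List (ℤ × ℕ × ℕ × ℕ)) : Bool := LI.all fun e => Nat.ble (e.2.1 + e.2.2.1) m

/-- Bernstein sum -/
def bs (U W : ℝ) (kv : List ℝ) : List (List ℤ) → ℝ
  | [] => 0
  | q :: qs => W ^ qs.length * zd q kv + U * bs U W kv qs

lemma bs_nonneg {U W : ℝ} (hU : 0 ≤ U) (hW : 0 ≤ W) {kv : List ℝ} : ∀ qs : List (List ℤ),
    (∀ q ∈ qs, 0 ≤ zd q kv) → 0 ≤ bs U W kv qs
  | [], _ => le_rfl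
  | q :: qs, h => by
    have h1 := bs_nonneg hU hW qs fun r hr => h r (List.mem_cons_of_mem _ hr)
    have h2 := h q List.mem_cons_self
    rw [bs]
    positivity

/-- the Bernstein sum as a polynomial -/
def bsP (U W : PP n) (ks : List (ℕ × ℕ)) (A B : PP n) : List (List ℤ) → PP n
  | [] => zero n
  | q :: qs => add n (mul n (pow n W qs.length) (zdP n q ks A B)) (mul n U (bsP U W ks A B qs))

lemma bsP_spec (x : ℕ → ℝ) (U W : PP n) (ks : List (ℕ × ℕ)) (A B : PP n) :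
    ∀ qs : List (List ℤ), ev x n (bsP n U W ks A B qs) =
      bs (ev x n U) (ev x n W) (KV ks (ev x n A) (ev x n B)) qs
  | [] => by rw [bsP, ev_zero, bs]
  | q :: qs => by
    rw [bsP, ev_add, ev_mul, ev_mul, ev_pow, zdP_spec, bsP_spec x U W ks A B qs, bs]

lemma TabC.posAll {m : ℕ} {es : List (ℕ × ℕ × ℕ)} {ks : List (ℕ × ℕ)} {tab : List (List ℕ)}
    {K : Cn} (T : TabC m es ks tab K) {qs : List (List ℤ)}
    (h : (qs.all fun q => chk1 m tab q) = true) {a b : ℝ} (hK : InK K a b) :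
    ∀ q ∈ qs, 0 ≤ zd q (KV ks a b) := fun q hq =>
  T.pos1 (List.all_eq_true.mp h q hq) hK

/-! homogeneity -/

lemma PS_hom (r Z a b : ℝ) : ∀ m, PS (r * Z) (r ^ 2 * a) (r ^ 3 * b) m = r ^ m * PS Z a b m
  | 0 => by simp [PS]
  | 1 => by simp [PS]
  | 2 => by simp only [PS]; ring
  | m + 3 => by
    rw [PS, PS, PS_hom r Z a b (m + 2), PS_hom r Z a b (m + 1), PS_hom r Z a b m]
    ring

lemma MK_hom (r Z a b : ℝ) (i j k : ℕ) :
    MK i j k (r * Z) (r ^ 2 * a) (r ^ 3 * b) = r ^ (i + j + 3 * k) * MK i j k Z a b := by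
  rw [MK, MK, PS_hom, PS_hom, PS_hom]
  ring

/-! the majorant -/

/-- the scaled majorant: `M * T(Z, Z^2 a, Z^3 b)`; variables `Z = x 0`, `a = x 1`, `b = x 2` -/
def tsP (l : List (PP 3)) : List (ℤ × ℕ × ℕ × ℕ) → PP 3
  | [] => zero 3
  | e :: L => add 3 (mul 3 (mul 3 (const 3 e.1) (pow 3 ([[[0, 1]]] : List (List (List ℤ)))
      (e.2.1 + e.2.2.1 + 3 * e.2.2.2)))
      (mkP 3 l ([[], [[1]]] : List (List (List ℤ))) e.2.1 e.2.2.1 e.2.2.2)) (tsP l L)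

/-- first variable -/
def X0 : PP 3 := ([[[0, 1]]] : List (List (List ℤ)))
/-- second variable -/
def X1 : PP 3 := ([[[], [1]]] : List (List (List ℤ)))
/-- third variable -/
def X2 : PP 3 := ([[], [[1]]] : List (List (List ℤ)))

lemma ev_X0 (x : ℕ → ℝ) : ev x 3 X0 = x 0 := by simp [X0, ev, lev]
lemma ev_X1 (x : ℕ → ℝ) : ev x 3 X1 = x 1 := by simp [X1, ev, lev]
lemma ev_X2 (x : ℕ → ℝ) : ev x 3 X2 = x 2 := by simp [X2, ev, lev]

lemma tsP_spec (x : ℕ → ℝ) {m : ℕ} (M : ℕ) (hM : 0 < M) : ∀ LI : List (ℤ × ℕ × ℕ × ℕ),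
    okL m LI = true → ev x 3 (tsP (psl 3 (const 3 1) X1 X2 m) LI) =
      M * TS (LR M LI) (x 0) (x 0 ^ 2 * x 1) (x 0 ^ 3 * x 2)
  | [], _ => by
    have e : tsP (psl 3 (const 3 1) X1 X2 m) [] = zero 3 := rfl
    rw [e, ev_zero]
    simp [TS, LR]
  | e :: L, h => by
    rw [okL, List.all_cons, Bool.and_eq_true] at h
    have h1 : e.2.1 + e.2.2.1 ≤ m := Nat.le_of_ble_eq_true h.1
    have h2 := tsP_spec x (m := m) M hM L h.2
    have hM' : (M : ℝ) ≠ 0 := by exact_mod_cast hM.ne'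
    have e1 : tsP (psl 3 (const 3 1) X1 X2 m) (e :: L) = add 3 (mul 3 (mul 3 (const 3 e.1)
        (pow 3 X0 (e.2.1 + e.2.2.1 + 3 * e.2.2.2)))
        (mkP 3 (psl 3 (const 3 1) X1 X2 m) X2 e.2.1 e.2.2.1 e.2.2.2))
        (tsP (psl 3 (const 3 1) X1 X2 m) L) := rfl
    rw [e1, ev_add, h2, ev_mul, ev_mul, ev_const, ev_pow, mkP_spec 3 x _ _ _ h1, ev_X0, ev_X1,
      ev_X2, ev_const]
    have e2 : TS (LR M (e :: L)) (x 0) (x 0 ^ 2 * x 1) (x 0 ^ 3 * x 2) =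
        (e.1 : ℝ) / M * MK e.2.1 e.2.2.1 e.2.2.2 (x 0) (x 0 ^ 2 * x 1) (x 0 ^ 3 * x 2) +
        TS (LR M L) (x 0) (x 0 ^ 2 * x 1) (x 0 ^ 3 * x 2) := by
      simp [TS, LR]
    have e3 := MK_hom (x 0) 1 (x 1) (x 2) e.2.1 e.2.2.1 e.2.2.2
    rw [mul_one] at e3
    rw [e2, e3]
    push_cast
    field_simp

/-- test of the majorant identity on one interval, `U = u0 Z - w0`, `W = w1 - u1 Z`:
`S * (M T(Z,..) - Z F) = (Z-1)^2 * bs U W qs` -/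
def chkM (m : ℕ) (S : ℤ) (LI : List (ℤ × ℕ × ℕ × ℕ)) (F : List ℤ) (ks : List (ℕ × ℕ))
    (u0 w0 u1 w1 : ℤ) (qs : List (List ℤ)) : Bool :=
  okL m LI &&
  isz 3 (sb 3 (mul 3 (const 3 S) (sb 3 (tsP (psl 3 (const 3 1) X1 X2 m) LI)
      (mul 3 X0 (zdP 3 F ks X1 X2))))
    (mul 3 (pow 3 (sb 3 X0 (const 3 1)) 2)
      (bsP 3 (sb 3 (mul 3 (const 3 u0) X0) (const 3 w0)) (sb 3 (const 3 w1) (mul 3 (const 3 u1) X0))
        ks X1 X2 qs)))

theorem chkM_spec {m M : ℕ} {S : ℤ} (hS : 0 < S) (hM : 0 < M) {LI : List (ℤ × ℕ × ℕ × ℕ)}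
    {F : List ℤ} {ks : List (ℕ × ℕ)} {u0 w0 u1 w1 : ℤ} {qs : List (List ℤ)}
    (h : chkM m S LI F ks u0 w0 u1 w1 qs = true) {Z a b : ℝ}
    (hU : 0 ≤ u0 * Z - w0) (hW : 0 ≤ w1 - u1 * Z) (hq : ∀ q ∈ qs, 0 ≤ zd q (KV ks a b)) :
    Z * FR M F ks a b ≤ TS (LR M LI) Z (Z ^ 2 * a) (Z ^ 3 * b) := by
  rw [chkM, Bool.and_eq_true] at h
  set x : ℕ → ℝ := fun i => if i = 0 then Z else if i = 1 then a else b with hx
  have x0 : x 0 = Z := rfl
  have x1 : x 1 = a := rfl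
  have x2 : x 2 = b := rfl
  have h1 := eq_of_isz 3 x h.2
  rw [ev_mul, ev_sb, tsP_spec x M hM LI h.1, ev_mul, zdP_spec, ev_mul, ev_pow, ev_sb, bsP_spec,
    ev_sb, ev_sb, ev_mul, ev_mul, ev_X0, ev_X1, ev_X2, ev_const, ev_const, ev_const, ev_const,
    ev_const, ev_const, x0, x1, x2] at h1
  have h2 := bs_nonneg hU hW qs hq
  have h3 : 0 ≤ (Z - ((1 : ℤ) : ℝ)) ^ 2 * bs (u0 * Z - w0) (w1 - u1 * Z) (KV ks a b) qs :=
    mul_nonneg (sq_nonneg _) h2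
  rw [← h1] at h3
  have hS' : (0 : ℝ) < S := by exact_mod_cast hS
  have h4 := (mul_nonneg_iff_of_pos_left hS').1 h3
  have hM' : (0 : ℝ) < M := by exact_mod_cast hM
  rw [FR, mul_div_assoc', div_le_iff₀ hM']
  linarith

/-! the ray inequality -/

/-- scaling of coefficients -/
def scl (r : ℤ) (Dm : ℕ) : List (ℕ × ℕ) → List ℤ → List ℤ
  | e :: ks, f :: F => f * r ^ (Dm - (e.1 + 3 * e.2)) :: scl r Dm ks F
  | _, _ => []

/-- indices small enough for the scaling -/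
def okS (Dm : ℕ) (ks : List (ℕ × ℕ)) : Bool := ks.all fun e => Nat.ble (e.1 + 3 * e.2) Dm

lemma scl_spec {r : ℤ} (hr : r ≠ 0) {Dm : ℕ} (A B : ℝ) : ∀ (ks : List (ℕ × ℕ)) (F : List ℤ),
    okS Dm ks = true →
    zd (scl r Dm ks F) (KV ks A B) = (r : ℝ) ^ Dm * zd F (KV ks (A / r) (B / r ^ 3))
  | [], F, _ => by simp [scl, zd, KV]
  | e :: ks, [], _ => by simp [scl, zd]
  | e :: ks, f :: F, h => by
    rw [okS, List.all_cons, Bool.and_eq_true] at h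
    have h1 : e.1 + 3 * e.2 ≤ Dm := Nat.le_of_ble_eq_true h.1
    have h2 := scl_spec hr A B ks F h.2
    have hr' : (r : ℝ) ≠ 0 := by exact_mod_cast hr
    have e1 : zd (scl r Dm (e :: ks) (f :: F)) (KV (e :: ks) A B) =
        ((f * r ^ (Dm - (e.1 + 3 * e.2)) : ℤ) : ℝ) * (A ^ e.1 * B ^ e.2) +
        zd (scl r Dm ks F) (KV ks A B) := by simp [scl, zd, KV]
    have e2 : zd (f :: F) (KV (e :: ks) (A / r) (B / r ^ 3)) =
        (f : ℝ) * ((A / r) ^ e.1 * (B / r ^ 3) ^ e.2) +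
        zd F (KV ks (A / r) (B / r ^ 3)) := by simp [zd, KV]
    rw [e1, e2, h2]
    have e3 : (r : ℝ) ^ Dm = (r : ℝ) ^ (Dm - (e.1 + 3 * e.2)) * ((r : ℝ) ^ e.1 * (r ^ 3) ^ e.2) := by
      rw [← pow_mul, ← pow_add, ← pow_add]
      congr 1
      omega
    have e4 : ((f * r ^ (Dm - (e.1 + 3 * e.2)) : ℤ) : ℝ) * (A ^ e.1 * B ^ e.2) =
        (r : ℝ) ^ Dm * ((f : ℝ) * ((A / r) ^ e.1 * (B / r ^ 3) ^ e.2)) := by
      rw [e3, div_pow, div_pow]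
      push_cast
      field_simp
    rw [e4]
    ring

/-- `3 a_τ` -/
def rayA : PP 3 := sb 3 (const 3 1) (mul 3 (mul 3 X0 X0) (sb 3 (const 3 1) (mul 3 (const 3 3) X1)))

/-- `27 b_τ` -/
def rayB : PP 3 :=
  add 3 (pow 3 (sb 3 (const 3 1) X0) 3)
    (add 3 (mul 3 (const 3 3) (mul 3 (pow 3 (sb 3 (const 3 1) X0) 2) X0))
      (add 3 (mul 3 (const 3 9) (mul 3 (sb 3 (const 3 1) X0) (mul 3 (pow 3 X0 2) X1)))
        (mul 3 (const 3 27) (mul 3 (pow 3 X0 3) X2))))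

/-- test of the ray identity -/
def chkR (Dm : ℕ) (S : ℤ) (F : List ℤ) (ks : List (ℕ × ℕ)) (qs : List (List ℤ)) : Bool :=
  okS Dm ks &&
  isz 3 (sb 3 (mul 3 (const 3 S) (sb 3 (mul 3 (const 3 (3 ^ Dm)) (mul 3 (pow 3 X0 2)
      (zdP 3 F ks X1 X2))) (zdP 3 (scl 3 Dm ks F) ks rayA rayB)))
    (mul 3 (mul 3 (pow 3 X0 2) (sb 3 (const 3 1) X0))
      (bsP 3 X0 (sb 3 (const 3 1) X0) ks X1 X2 qs)))

theorem chkR_spec {Dm M : ℕ} {S : ℤ} (hS : 0 < S) (hM : 0 < M) {F : List ℤ}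
    {ks : List (ℕ × ℕ)} {qs : List (List ℤ)} (h : chkR Dm S F ks qs = true) {τ a b : ℝ}
    (h0 : 0 ≤ τ) (h1 : 0 ≤ 1 - τ) (hq : ∀ q ∈ qs, 0 ≤ zd q (KV ks a b)) :
    FR M F ks (1 / 3 - τ ^ 2 * (1 / 3 - a))
      (((1 - τ) / 3) ^ 3 + ((1 - τ) / 3) ^ 2 * τ + (1 - τ) / 3 * τ ^ 2 * a + τ ^ 3 * b) ≤
      τ ^ 2 * FR M F ks a b := by
  rw [chkR, Bool.and_eq_true] at h
  set x : ℕ → ℝ := fun i => if i = 0 then τ else if i = 1 then a else b with hx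
  have x0 : x 0 = τ := rfl
  have x1 : x 1 = a := rfl
  have x2 : x 2 = b := rfl
  have eA : ev x 3 rayA = 1 - τ * τ * (1 - 3 * a) := by
    rw [rayA, ev_sb, ev_mul, ev_mul, ev_sb, ev_mul, ev_X0, ev_X1, ev_const, ev_const, x0, x1]
    push_cast
    ring
  have eB : ev x 3 rayB = (1 - τ) ^ 3 + 3 * ((1 - τ) ^ 2 * τ) + 9 * ((1 - τ) * (τ ^ 2 * a)) +
      27 * (τ ^ 3 * b) := by
    rw [rayB, ev_add, ev_add, ev_add, ev_pow, ev_sb, ev_mul, ev_mul, ev_pow, ev_sb, ev_mul,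
      ev_mul, ev_sb, ev_mul, ev_pow, ev_mul, ev_mul, ev_pow, ev_X0, ev_X1, ev_X2, ev_const,
      ev_const, ev_const, ev_const, x0, x1, x2]
    push_cast
    ring
  have h2 := eq_of_isz 3 x h.2
  rw [ev_mul, ev_sb, ev_mul, ev_mul, zdP_spec, zdP_spec, ev_mul, ev_mul, bsP_spec, eA, eB,
    scl_spec (by norm_num) _ _ ks F h.1, ev_sb, ev_pow, ev_X0, ev_X1, ev_X2, ev_const, ev_const,
    ev_const, x0, x1, x2] at h2
  have e1 : (1 - τ * τ * (1 - 3 * a)) / ((3 : ℤ) : ℝ) = 1 / 3 - τ ^ 2 * (1 / 3 - a) := by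
    push_cast; ring
  have e2 : ((1 - τ) ^ 3 + 3 * ((1 - τ) ^ 2 * τ) + 9 * ((1 - τ) * (τ ^ 2 * a)) +
      27 * (τ ^ 3 * b)) / ((3 : ℤ) : ℝ) ^ 3 =
      ((1 - τ) / 3) ^ 3 + ((1 - τ) / 3) ^ 2 * τ + (1 - τ) / 3 * τ ^ 2 * a + τ ^ 3 * b := by
    push_cast; ring
  rw [e1, e2] at h2
  have h1' : 0 ≤ ((1 : ℤ) : ℝ) - τ := by push_cast; exact h1
  have h3 := bs_nonneg h0 h1' qs hq
  have h4 : 0 ≤ τ ^ 2 * (((1 : ℤ) : ℝ) - τ) * bs τ (((1 : ℤ) : ℝ) - τ) (KV ks a b) qs :=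
    mul_nonneg (mul_nonneg (sq_nonneg _) h1') h3
  rw [← h2] at h4
  have hS' : (0 : ℝ) < S := by exact_mod_cast hS
  have h5 := (mul_nonneg_iff_of_pos_left hS').1 h4
  have hM' : (0 : ℝ) < M := by exact_mod_cast hM
  push_cast at h5
  rw [FR, FR, mul_div_assoc']
  refine div_le_div_of_nonneg_right ?_ hM'.le
  have h6 : (0 : ℝ) < 3 ^ Dm := by positivity
  have h7 : 3 ^ Dm * zd F (KV ks (1 / 3 - τ ^ 2 * (1 / 3 - a))
      (((1 - τ) / 3) ^ 3 + ((1 - τ) / 3) ^ 2 * τ + (1 - τ) / 3 * τ ^ 2 * a + τ ^ 3 * b)) ≤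
      3 ^ Dm * (τ ^ 2 * zd F (KV ks a b)) := by linarith
  exact le_of_mul_le_mul_left h7 h6

/-! the kernel -/

/-- variables -/
def Y0 : PP 4 := ([[[[0, 1]]]] : List (List (List (List ℤ))))
/-- variables -/
def Y1 : PP 4 := ([[[[], [1]]]] : List (List (List (List ℤ))))
/-- variables -/
def Y2 : PP 4 := ([[[], [[1]]]] : List (List (List (List ℤ))))
/-- variables -/
def Y3 : PP 4 := ([[], [[[1]]]] : List (List (List (List ℤ))))

lemma ev_Y0 (x : ℕ → ℝ) : ev x 4 Y0 = x 0 := by simp [Y0, ev, lev]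
lemma ev_Y1 (x : ℕ → ℝ) : ev x 4 Y1 = x 1 := by simp [Y1, ev, lev]
lemma ev_Y2 (x : ℕ → ℝ) : ev x 4 Y2 = x 2 := by simp [Y2, ev, lev]
lemma ev_Y3 (x : ℕ → ℝ) : ev x 4 Y3 = x 3 := by simp [Y3, ev, lev]

/-- `3 A'`, `A' = 3 q^2 e2(v)`, for `c = p / q` -/
def vA (p q : ℤ) : PP 4 := add 4 (const 4 (3 * (q ^ 2 - p ^ 2))) (mul 4 (const 4 (9 * p ^ 2)) Y0)

/-- `27 q^3 e3(v)` -/
def vB (p q : ℤ) : PP 4 :=
  add 4 (const 4 ((q + p) ^ 3 - 3 * (q + p) ^ 2 * p))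
    (add 4 (mul 4 (const 4 (9 * (q + p) * p ^ 2)) Y0) (mul 4 (const 4 (-27 * p ^ 3)) Y1))

/-- the scaled kernel sum -/
def ksP (q : ℤ) (Dm : ℕ) (l1 l2 : List (PP 4)) (b1 b2 : PP 4) : List (ℤ × ℕ × ℕ × ℕ) → PP 4
  | [] => zero 4
  | e :: L => add 4 (mul 4 (const 4 (e.1 * q ^ (Dm - (e.2.1 + e.2.2.1 + 3 * e.2.2.2))))
      (mul 4 (mkP 4 l2 b2 e.2.1 e.2.2.1 e.2.2.2) (mkP 4 l1 b1 e.2.1 e.2.2.1 e.2.2.2)))
      (ksP q Dm l1 l2 b1 b2 L)

/-- degrees at most `Dm` -/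
def okD (Dm : ℕ) (LI : List (ℤ × ℕ × ℕ × ℕ)) : Bool :=
  LI.all fun e => Nat.ble (e.2.1 + e.2.2.1 + 3 * e.2.2.2) Dm

lemma ksP_spec (x : ℕ → ℝ) {p q : ℤ} (hq : 0 < q) {m Dm : ℕ} (M : ℕ) (hM : 0 < M) :
    ∀ LI : List (ℤ × ℕ × ℕ × ℕ), okL m LI = true → okD Dm LI = true →
    ev x 4 (ksP q Dm (psl 4 (const 4 (3 * q)) (vA p q) (vB p q) m) (psl 4 (const 4 1) Y2 Y3 m)
      (vB p q) Y3 LI) =
      M * q ^ Dm * Ks (LR M LI) (1 / 3 - ((p : ℝ) / q) ^ 2 * (1 / 3 - x 0))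
        (((1 + (p : ℝ) / q) / 3) ^ 3 - ((1 + (p : ℝ) / q) / 3) ^ 2 * ((p : ℝ) / q) +
          (1 + (p : ℝ) / q) / 3 * ((p : ℝ) / q) ^ 2 * x 0 - ((p : ℝ) / q) ^ 3 * x 1) (x 2) (x 3)
  | [], _, _ => by
    have e : ksP q Dm (psl 4 (const 4 (3 * q)) (vA p q) (vB p q) m) (psl 4 (const 4 1) Y2 Y3 m)
      (vB p q) Y3 [] = zero 4 := rfl
    rw [e, ev_zero]
    simp [Ks, LR]
  | e :: L, h, h' => by
    rw [okL, List.all_cons, Bool.and_eq_true] at h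
    rw [okD, List.all_cons, Bool.and_eq_true] at h'
    have h1 : e.2.1 + e.2.2.1 ≤ m := Nat.le_of_ble_eq_true h.1
    have h1' : e.2.1 + e.2.2.1 + 3 * e.2.2.2 ≤ Dm := Nat.le_of_ble_eq_true h'.1
    have h2 := ksP_spec x (p := p) hq (m := m) (Dm := Dm) M hM L h.2 h'.2
    have hM' : (M : ℝ) ≠ 0 := by exact_mod_cast hM.ne'
    have hq' : (q : ℝ) ≠ 0 := by exact_mod_cast hq.ne'
    set av : ℝ := 1 / 3 - ((p : ℝ) / q) ^ 2 * (1 / 3 - x 0) with hav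
    set bv : ℝ := ((1 + (p : ℝ) / q) / 3) ^ 3 - ((1 + (p : ℝ) / q) / 3) ^ 2 * ((p : ℝ) / q) +
          (1 + (p : ℝ) / q) / 3 * ((p : ℝ) / q) ^ 2 * x 0 - ((p : ℝ) / q) ^ 3 * x 1 with hbv
    have eA : ev x 4 (vA p q) = (3 * (q : ℝ)) ^ 2 * av := by
      rw [vA, ev_add, ev_mul, ev_const, ev_const, ev_Y0, hav]
      push_cast
      field_simp
      ring
    have eB : ev x 4 (vB p q) = (3 * (q : ℝ)) ^ 3 * bv := by
      rw [vB, ev_add, ev_add, ev_mul, ev_mul, ev_const, ev_const, ev_const, ev_Y0, ev_Y1, hbv]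
      push_cast
      field_simp
      ring
    have e0 : ksP q Dm (psl 4 (const 4 (3 * q)) (vA p q) (vB p q) m) (psl 4 (const 4 1) Y2 Y3 m)
        (vB p q) Y3 (e :: L) =
        add 4 (mul 4 (const 4 (e.1 * q ^ (Dm - (e.2.1 + e.2.2.1 + 3 * e.2.2.2))))
        (mul 4 (mkP 4 (psl 4 (const 4 1) Y2 Y3 m) Y3 e.2.1 e.2.2.1 e.2.2.2)
          (mkP 4 (psl 4 (const 4 (3 * q)) (vA p q) (vB p q) m) (vB p q) e.2.1 e.2.2.1 e.2.2.2)))
        (ksP q Dm (psl 4 (const 4 (3 * q)) (vA p q) (vB p q) m) (psl 4 (const 4 1) Y2 Y3 m)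
          (vB p q) Y3 L) := rfl
    rw [e0, ev_add, h2, ev_mul, ev_mul, mkP_spec 4 x _ _ _ h1, mkP_spec 4 x _ _ _ h1, eA, eB,
      ev_Y2, ev_Y3, ev_const, ev_const, ev_const]
    have e3 := MK_hom (3 * (q : ℝ)) 1 av bv e.2.1 e.2.2.1 e.2.2.2
    rw [mul_one] at e3
    have e4 : ((3 * q : ℤ) : ℝ) = 3 * (q : ℝ) := by push_cast; ring
    rw [e4, e3]
    have e5 : Ks (LR M (e :: L)) av bv (x 2) (x 3) =
        (e.1 : ℝ) / M * (3 ^ (e.2.1 + e.2.2.1 + 3 * e.2.2.2) *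
          (MK e.2.1 e.2.2.1 e.2.2.2 1 av bv * MK e.2.1 e.2.2.1 e.2.2.2 1 (x 2) (x 3))) +
        Ks (LR M L) av bv (x 2) (x 3) := by simp [Ks, LR]
    rw [e5]
    have e6 : (q : ℝ) ^ Dm = (q : ℝ) ^ (Dm - (e.2.1 + e.2.2.1 + 3 * e.2.2.2)) *
        (q : ℝ) ^ (e.2.1 + e.2.2.1 + 3 * e.2.2.2) := by
      rw [← pow_add]; congr 1; omega
    rw [mul_pow]
    push_cast
    rw [e6]
    field_simp

/-- the coefficient matrix as a polynomial -/
def rdP (ks : List (ℕ × ℕ)) : List (ℕ × ℕ) → List (List ℤ) → PP 4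
  | e :: es, c :: C => add 4 (mul 4 (mul 4 (pow 4 Y2 e.1) (pow 4 Y3 e.2)) (zdP 4 c ks Y0 Y1))
      (rdP ks es C)
  | _, _ => zero 4

lemma rdP_spec (x : ℕ → ℝ) (ks : List (ℕ × ℕ)) : ∀ (es : List (ℕ × ℕ)) (C : List (List ℤ)),
    ev x 4 (rdP ks es C) =
      rdot (KV es (x 2) (x 3)) (C.map fun c => zd c (KV ks (x 0) (x 1)))
  | [], C => by simp [rdP, ev_zero, KV, rdot]
  | e :: es, [] => by simp [rdP, ev_zero, KV, rdot]
  | e :: es, c :: C => by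
    rw [rdP, ev_add, rdP_spec x ks es C, ev_mul, ev_mul, ev_pow, ev_pow, zdP_spec, ev_Y0, ev_Y1,
      ev_Y2, ev_Y3]
    simp [KV, rdot]

/-- test of the kernel identity -/
def chkI (m Dm : ℕ) (p q : ℤ) (LI : List (ℤ × ℕ × ℕ × ℕ)) (F Gc : List ℤ) (tN : ℤ)
    (ks : List (ℕ × ℕ)) (g : ℤ) (C : List (List ℤ)) : Bool :=
  okL m LI && (okD Dm LI &&
  isz 4 (sb 4 (sb 4 (mul 4 (const 4 (6 * q ^ Dm)) (sb 4 (add 4 (zdP 4 F ks Y2 Y3)
      (zdP 4 Gc ks Y0 Y1)) (mul 4 (const 4 tN) (mul 4 (sb 4 (const 4 1) (mul 4 (const 4 3) Y0))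
        (sb 4 (const 4 1) (mul 4 (const 4 3) Y2))))))
      (ksP q Dm (psl 4 (const 4 (3 * q)) (vA p q) (vB p q) m) (psl 4 (const 4 1) Y2 Y3 m)
        (vB p q) Y3 LI)) (mul 4 (const 4 g) (rdP ks ks C))))

theorem chkI_spec {m Dm M : ℕ} {p q : ℤ} (hq : 0 < q) (hM : 0 < M) {g : ℤ} (hg : 0 < g)
    {LI : List (ℤ × ℕ × ℕ × ℕ)} {F Gc : List ℤ} {tN : ℤ} {ks : List (ℕ × ℕ)}
    {C : List (List ℤ)} (h : chkI m Dm p q LI F Gc tN ks g C = true) {a b a' b' : ℝ}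
    (hC : 0 ≤ rdot (KV ks a b) (C.map fun c => zd c (KV ks a' b'))) {c : ℝ}
    (hc : c = (p : ℝ) / q) :
    1 / 6 * Ks (LR M LI) (1 / 3 - c ^ 2 * (1 / 3 - a'))
      (((1 + c) / 3) ^ 3 - ((1 + c) / 3) ^ 2 * c + (1 + c) / 3 * c ^ 2 * a' - c ^ 3 * b') a b ≤
      FR M F ks a b + FR M Gc ks a' b' - (tN : ℝ) / M * ((1 - 3 * a') * (1 - 3 * a)) := by
  rw [chkI, Bool.and_eq_true, Bool.and_eq_true] at h
  obtain ⟨hL, hD, h⟩ := h
  set x : ℕ → ℝ := fun i => if i = 0 then a' else if i = 1 then b' else if i = 2 then a else b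
    with hx
  have x0 : x 0 = a' := rfl
  have x1 : x 1 = b' := rfl
  have x2 : x 2 = a := rfl
  have x3 : x 3 = b := rfl
  have h1 := eq_of_isz 4 x h
  rw [ev_sb, ev_mul, ev_sb, ev_add, zdP_spec, zdP_spec, ev_mul, ev_mul, ev_sb, ev_sb, ev_mul,
    ev_mul, ksP_spec x hq M hM LI hL hD, ev_mul, rdP_spec, ev_Y0, ev_Y1, ev_Y2, ev_Y3, ev_const,
    ev_const, ev_const, ev_const, ev_const, x0, x1, x2, x3] at h1
  subst hc
  have hg' : (0 : ℝ) < g := by exact_mod_cast hg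
  have h2 := mul_nonneg hg'.le hC
  rw [← h1] at h2
  have hM' : (0 : ℝ) < M := by exact_mod_cast hM
  have hq' : (0 : ℝ) < q := by exact_mod_cast hq
  have hqD : (0 : ℝ) < (q : ℝ) ^ Dm := by positivity
  rw [FR, FR]
  set KK := Ks (LR M LI) (1 / 3 - ((p : ℝ) / q) ^ 2 * (1 / 3 - a'))
      (((1 + (p : ℝ) / q) / 3) ^ 3 - ((1 + (p : ℝ) / q) / 3) ^ 2 * ((p : ℝ) / q) +
        (1 + (p : ℝ) / q) / 3 * ((p : ℝ) / q) ^ 2 * a' - ((p : ℝ) / q) ^ 3 * b') a b with hKK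
  push_cast at h2
  have h3 : 0 ≤ (q : ℝ) ^ Dm * (6 * (zd F (KV ks a b) + zd Gc (KV ks a' b') -
      tN * ((1 - 3 * a') * (1 - 3 * a))) - M * KK) := by linarith
  have h4 := (mul_nonneg_iff_of_pos_left hqD).1 h3
  rw [← sub_nonneg]
  have e1 : zd F (KV ks a b) / M + zd Gc (KV ks a' b') / M - (tN : ℝ) / M *
      ((1 - 3 * a') * (1 - 3 * a)) - 1 / 6 * KK =
      (6 * (zd F (KV ks a b) + zd Gc (KV ks a' b') -
      tN * ((1 - 3 * a') * (1 - 3 * a))) - M * KK) / (6 * M) := by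
    field_simp
  rw [e1]
  exact div_nonneg h4 (by positivity)

/-! bounds -/

/-- `zd` of a multiple -/
lemma zd_map_mul (r : ℤ) : ∀ (F : List ℤ) (kv : List ℝ), zd (F.map (r * ·)) kv = r * zd F kv
  | [], kv => by simp [zd]
  | f :: F, [] => by simp [zd]
  | f :: F, v :: kv => by
    rw [List.map_cons, zd, zd, zd_map_mul r F kv]
    push_cast
    ring

/-- test: `S F - β (1 - 3 a) = lo` -/
def chkB (S : ℤ) (F : List ℤ) (ks : List (ℕ × ℕ)) (β : ℤ) (lo : List ℤ) : Bool :=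
  isz 3 (sb 3 (sb 3 (mul 3 (const 3 S) (zdP 3 F ks X1 X2))
    (mul 3 (const 3 β) (sb 3 (const 3 1) (mul 3 (const 3 3) X1)))) (zdP 3 lo ks X1 X2))

theorem chkB_spec {S : ℤ} {F : List ℤ} {ks : List (ℕ × ℕ)} {β : ℤ} {lo : List ℤ}
    (h : chkB S F ks β lo = true) (a b : ℝ) :
    S * zd F (KV ks a b) - β * (1 - 3 * a) = zd lo (KV ks a b) := by
  set x : ℕ → ℝ := fun i => if i = 0 then 0 else if i = 1 then a else b with hx
  have x1 : x 1 = a := rfl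
  have x2 : x 2 = b := rfl
  have h1 := eq_of_isz 3 x h
  rw [ev_sb, ev_mul, zdP_spec, zdP_spec, ev_mul, ev_sb, ev_mul, ev_X1, ev_X2, ev_const, ev_const,
    ev_const, ev_const, x1, x2] at h1
  push_cast at h1
  exact h1

theorem lower_of {M : ℕ} (hM : 0 < M) {F : List ℤ} {ks : List (ℕ × ℕ)} {β : ℤ} {lo : List ℤ}
    (h : chkB 1 F ks β lo = true) {a b : ℝ} (h0 : 0 ≤ zd lo (KV ks a b)) {al : ℝ}
    (hal : al = (β : ℝ) / M) : al * (1 - 3 * a) ≤ FR M F ks a b := by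
  have h1 := chkB_spec h a b
  rw [← h1] at h0
  have hM' : (0 : ℝ) < M := by exact_mod_cast hM
  rw [FR, hal, div_mul_eq_mul_div]
  refine div_le_div_of_nonneg_right ?_ hM'.le
  push_cast at h0
  linarith

theorem upper_of {M : ℕ} (hM : 0 < M) {F : List ℤ} {ks : List (ℕ × ℕ)} {β : ℤ} {hi : List ℤ}
    (h : chkB (-1) F ks (-β) hi = true) {a b : ℝ} (h0 : 0 ≤ zd hi (KV ks a b)) {al : ℝ}
    (hal : al = (β : ℝ) / M) : FR M F ks a b ≤ al * (1 - 3 * a) := by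
  have h1 := chkB_spec h a b
  rw [← h1] at h0
  have hM' : (0 : ℝ) < M := by exact_mod_cast hM
  rw [FR, hal, div_mul_eq_mul_div]
  refine div_le_div_of_nonneg_right ?_ hM'.le
  push_cast at h0
  linarith

end Vale.Agent.P154N
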