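import Vale.Agent.P154.N3Refl

/-! P154, three states: kernel identities with a general bilinear right-hand side -/

namespace Vale.Agent.P154N

open Vale.Agent.P154.G Vale.Agent.P154.Q4L
open Vale.Agent.P154.Q4 (PP)
open Vale.Agent.P154.Q4.PP

/-- test of the kernel identity with a general right-hand side -/
def chkJ (m Dm : ℕ) (p q : ℤ) (LI : List (ℤ × ℕ × ℕ × ℕ)) (ks : List (ℕ × ℕ))
    (B : List (List ℤ)) (g : ℤ) (C : List (List ℤ)) : Bool :=
  okL m LI && (okD Dm LI &&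
  isz 4 (sb 4 (sb 4 (mul 4 (const 4 (6 * q ^ Dm)) (rdP ks ks B))
      (ksP q Dm (psl 4 (const 4 (3 * q)) (vA p q) (vB p q) m) (psl 4 (const 4 1) Y2 Y3 m)
        (vB p q) Y3 LI)) (mul 4 (const 4 g) (rdP ks ks C))))

theorem chkJ_spec {m Dm M : ℕ} {p q : ℤ} (hq : 0 < q) (hM : 0 < M) {g : ℤ} (hg : 0 < g)
    {LI : List (ℤ × ℕ × ℕ × ℕ)} {ks : List (ℕ × ℕ)} {B : List (List ℤ)}
    {C : List (List ℤ)} (h : chkJ m Dm p q LI ks B g C = true) {a b a' b' : ℝ}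
    (hC : 0 ≤ rdot (KV ks a b) (C.map fun c => zd c (KV ks a' b'))) {c : ℝ}
    (hc : c = (p : ℝ) / q) :
    1 / 6 * Ks (LR M LI) (1 / 3 - c ^ 2 * (1 / 3 - a'))
      (((1 + c) / 3) ^ 3 - ((1 + c) / 3) ^ 2 * c + (1 + c) / 3 * c ^ 2 * a' - c ^ 3 * b') a b ≤
      rdot (KV ks a b) (B.map fun c => zd c (KV ks a' b')) / M := by
  rw [chkJ, Bool.and_eq_true, Bool.and_eq_true] at h
  obtain ⟨hL, hD, h⟩ := h
  set x : ℕ → ℝ := fun i => if i = 0 then a' else if i = 1 then b' else if i = 2 then a else b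
    with hx
  have x0 : x 0 = a' := rfl
  have x1 : x 1 = b' := rfl
  have x2 : x 2 = a := rfl
  have x3 : x 3 = b := rfl
  have h1 := eq_of_isz 4 x h
  rw [ev_sb, ev_mul, ksP_spec x hq M hM LI hL hD, ev_mul, rdP_spec, rdP_spec,
    ev_const, ev_const, x0, x1, x2, x3] at h1
  subst hc
  have hg' : (0 : ℝ) < g := by exact_mod_cast hg
  have h2 := mul_nonneg hg'.le hC
  rw [← h1] at h2
  have hM' : (0 : ℝ) < M := by exact_mod_cast hM
  have hq' : (0 : ℝ) < q := by exact_mod_cast hq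
  have hqD : (0 : ℝ) < (q : ℝ) ^ Dm := by positivity
  set KK := Ks (LR M LI) (1 / 3 - ((p : ℝ) / q) ^ 2 * (1 / 3 - a'))
      (((1 + (p : ℝ) / q) / 3) ^ 3 - ((1 + (p : ℝ) / q) / 3) ^ 2 * ((p : ℝ) / q) +
        (1 + (p : ℝ) / q) / 3 * ((p : ℝ) / q) ^ 2 * a' - ((p : ℝ) / q) ^ 3 * b') a b with hKK
  set RR := rdot (KV ks a b) (B.map fun c => zd c (KV ks a' b')) with hRR
  push_cast at h2
  have h3 : 0 ≤ (q : ℝ) ^ Dm * (6 * RR - M * KK) := by linarith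
  have h4 := (mul_nonneg_iff_of_pos_left hqD).1 h3
  rw [← sub_nonneg]
  have e1 : RR / M - 1 / 6 * KK = (6 * RR - M * KK) / (6 * M) := by
    field_simp
  rw [e1]
  exact div_nonneg h4 (by positivity)

end Vale.Agent.P154N
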