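import Vale.Agent.P154.N3Bil

/-! P154, three states, regular trees: the sequences of `E r`, `E r²`, `E s` and their recursion -/

namespace Vale.Agent.P154N

open Vale.Agent.P154.G Filter Topology

/-- expectations at level `n` -/
noncomputable def et (d : ℕ) {lam0 : ℝ} (h0 : 0 ≤ 1 + (((3 : ℕ) : ℝ) - 1) * lam0 ∧ lam0 ≤ 1)
    (n : ℕ) (i : Fin 4) : ℝ := Phi (Fe i) (fam (PMF.pure d) (potts (q := 3) lam0 h0) n)

/-- expectations for the law of `k` messages at level `n` -/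
noncomputable def ev (d : ℕ) {lam0 : ℝ} (h0 : 0 ≤ 1 + (((3 : ℕ) : ℝ) - 1) * lam0 ∧ lam0 ≤ 1)
    (n k : ℕ) (i : Fin 4) : ℝ :=
  Phi (Fe i) (powF (fun a => chan lam0 (fam (PMF.pure d) (potts (q := 3) lam0 h0) n a)) k)

variable {d : ℕ} {lam0 : ℝ} (h0 : 0 ≤ 1 + (((3 : ℕ) : ℝ) - 1) * lam0 ∧ lam0 ≤ 1)

lemma nf (n : ℕ) : NFam (fam (PMF.pure d) (potts (q := 3) lam0 h0) n) := NFam.fam _ h0 n

lemma nfc (n : ℕ) :
    NFam (fun a => chan lam0 (fam (PMF.pure d) (potts (q := 3) lam0 h0) n a)) :=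
  (nf h0 n).chan (by norm_num) h0

lemma et_X (n : ℕ) : et d h0 n 1 = X (fam (PMF.pure d) (potts (q := 3) lam0 h0) n) :=
  Phi_Fe_X (nf h0 n)

lemma et_zero (n : ℕ) : et d h0 n 0 = 1 := by
  unfold et
  rw [Fe_zero]
  exact Phi_sg (by norm_num) (nf h0 n)

lemma ev_zero (n k : ℕ) : ev d h0 n k 0 = 1 := by
  unfold ev
  rw [Fe_zero]
  exact Phi_sg (by norm_num) ((nfc h0 n).pow k)

lemma ev_one (n : ℕ) (i : Fin 4) : ev d h0 n 1 i = lam0 ^ (pwr i) * et d h0 n i := by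
  obtain ⟨K, hK0, hK⟩ := Fe_bd
  unfold ev et
  rw [(nfc h0 n).Phi_powF_one (hK i), Phi_chan (nf h0 n)]

lemma ev_top (n : ℕ) (i : Fin 4) : ev d h0 n d i = et d h0 (n + 1) i := by
  unfold ev et
  rw [fam_succ, ← mix_pure]
  rfl

lemma ev_succ {σ : ℝ} {i : Fin 4} {M : Fin 4 → Fin 4 → ℝ} (H : BilIneq σ i M)
    (h1 : -(1 / 2) ≤ lam0) (h2 : lam0 ≤ 0) (n k : ℕ) :
    σ * ev d h0 n (k + 1) i ≤
      ∑ j, ∑ l, M j l * ev d h0 n k j * (lam0 ^ (pwr l) * et d h0 n l) := by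
  obtain ⟨K, hK0, hK⟩ := Fe_bd
  have key := H.prod h1 h2 (nf (d := d) h0 n) ((nfc (d := d) h0 n).pow k)
  rw [← (nfc (d := d) h0 n).Phi_powF_succ (hK i) k] at key
  refine key.trans (le_of_eq ?_)
  refine Finset.sum_congr rfl fun j _ => Finset.sum_congr rfl fun l _ => ?_
  rw [Phi_chan (nf h0 n)]
  rfl

/-! pointwise comparisons -/

lemma Phi_mono {A : Type*} {m : A → V 3} (hm : NFam m) {F G : V 3 → ℝ} {K K' : ℝ}
    (hF : Bdd F K) (hG : Bdd G K') (h : ∀ v : V 3, (∀ i, 0 ≤ v i) → F v ≤ G v) :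
    Phi F m ≤ Phi G m := by
  unfold Phi
  refine mul_le_mul_of_nonneg_left ?_ (by positivity)
  exact (smb hF hm.nn hm.sum).tsum_le_tsum (fun a => h _ (hm.nn a)) (smb hG hm.nn hm.sum)

lemma Fe_mono {s : ℝ} {i j : Fin 4}
    (h : ∀ v : V 3, (∀ i, 0 ≤ v i) → sg v = 1 → s * fe i (E2 v) (E3 v) ≤ fe j (E2 v) (E3 v))
    (v : V 3) (hv : ∀ i, 0 ≤ v i) : s * Fe i v ≤ Fe j v := by
  rcases norm3 hv with h0 | ⟨w, hw0, hw1, hpos, hw⟩
  · rw [h0]
    have e : ∀ i, Fe i (0 : V 3) = 0 := fun i => Pf_zero _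
    rw [e, e, mul_zero]
  · have e : ∀ i, Fe i v = sg v * fe i (E2 w) (E3 w) := fun i => by
      conv_lhs => rw [hw]
      have : Fe i (fun j => sg v * w j) = sg v * Fe i w := Pf_smul _ _ _
      rw [this, Fe_one hw1]
    rw [e, e]
    have := mul_le_mul_of_nonneg_left (h w hw0 hw1) hpos.le
    linarith

lemma Phi_Fe_mono {A : Type*} {m : A → V 3} (hm : NFam m) {s : ℝ} {i j : Fin 4}
    (h : ∀ v : V 3, (∀ i, 0 ≤ v i) → sg v = 1 → s * fe i (E2 v) (E3 v) ≤ fe j (E2 v) (E3 v)) :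
    s * Phi (Fe i) m ≤ Phi (Fe j) m := by
  obtain ⟨K, hK0, hK⟩ := Fe_bd
  have h1 := Phi_mono hm (Bdd.smul' (hK i) s) (hK j) (fun v hv => Fe_mono h v hv)
  refine le_trans (le_of_eq ?_) h1
  unfold Phi
  rw [tsum_mul_left]
  ring

lemma simplex_facts {v : V 3} (hv : ∀ i, 0 ≤ v i) (h : sg v = 1) :
    0 ≤ 1 - 3 * E2 v ∧ 1 - 3 * E2 v ≤ 1 ∧ (27 * E3 v - 9 * E2 v + 2) / 2 ≤ 1 - 3 * E2 v ∧
      -((27 * E3 v - 9 * E2 v + 2) / 2) ≤ 1 - 3 * E2 v := by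
  have a := hv 0
  have b := hv 1
  have c := hv 2
  rw [sg3] at h
  have ab := mul_nonneg a b
  have ac := mul_nonneg a c
  have bc := mul_nonneg b c
  have e : v 2 = 1 - v 0 - v 1 := by linarith
  unfold E2 E3
  refine ⟨?_, ?_, ?_, ?_⟩
  · rw [e]
    nlinarith [sq_nonneg (v 0 - v 1), sq_nonneg (v 0 + v 1 - 2 * (1 - v 0 - v 1))]
  · linarith
  · -- `9 e₃ ≤ e₁ e₂`
    have h9 : 9 * (v 0 * v 1 * v 2) ≤ (v 0 + v 1 + v 2) * (v 0 * v 1 + v 0 * v 2 + v 1 * v 2) := by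
      nlinarith [mul_nonneg a (sq_nonneg (v 1 - v 2)), mul_nonneg b (sq_nonneg (v 0 - v 2)),
        mul_nonneg c (sq_nonneg (v 0 - v 1))]
    rw [h, one_mul] at h9
    linarith
  · -- Schur
    have hschur : 0 ≤ (v 0 + v 1 + v 2) ^ 3 -
        4 * (v 0 + v 1 + v 2) * (v 0 * v 1 + v 0 * v 2 + v 1 * v 2) + 9 * (v 0 * v 1 * v 2) := by
      have hs : ∀ x y z : ℝ, 0 ≤ z → z ≤ y → y ≤ x → 0 ≤ (x + y + z) ^ 3 -
          4 * (x + y + z) * (x * y + x * z + y * z) + 9 * (x * y * z) := by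
        intro x y z hz hzy hyx
        have e1 : (x + y + z) ^ 3 - 4 * (x + y + z) * (x * y + x * z + y * z) + 9 * (x * y * z) =
            (x - y) * (x * (x - z) - y * (y - z)) + z * ((x - z) * (y - z)) := by ring
        rw [e1]
        have h1 : 0 ≤ x * (x - z) - y * (y - z) := by nlinarith
        have h2 := mul_nonneg (sub_nonneg.2 hyx) h1
        have h3 := mul_nonneg hz (mul_nonneg (sub_nonneg.2 (hzy.trans hyx)) (sub_nonneg.2 hzy))
        linarith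
      rcases le_total (v 0) (v 1) with h01 | h01 <;> rcases le_total (v 1) (v 2) with h12 | h12 <;>
        rcases le_total (v 0) (v 2) with h02 | h02
      · have := hs (v 2) (v 1) (v 0) a h01 h12; linarith
      · have := hs (v 2) (v 1) (v 0) a h01 h12; linarith
      · have := hs (v 1) (v 2) (v 0) a h02 h12; linarith
      · have := hs (v 1) (v 0) (v 2) c h02 h01; linarith
      · have := hs (v 2) (v 0) (v 1) b h01 h02; linarith
      · have := hs (v 0) (v 2) (v 1) b h12 h02; linarith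
      · have := hs (v 0) (v 1) (v 2) c h12 h01; linarith
      · have := hs (v 0) (v 1) (v 2) c h12 h01; linarith
    rw [h] at hschur
    have h3 : 0 ≤ 1 - 3 * (v 0 * v 1 + v 0 * v 2 + v 1 * v 2) := by
      rw [e]
      nlinarith [sq_nonneg (v 0 - v 1), sq_nonneg (v 0 + v 1 - 2 * (1 - v 0 - v 1))]
    linarith

lemma fe1 (a b : ℝ) : fe 1 a b = 1 - 3 * a := rfl
lemma fe2 (a b : ℝ) : fe 2 a b = (1 - 3 * a) ^ 2 := rfl
lemma fe3 (a b : ℝ) : fe 3 a b = (27 * b - 9 * a + 2) / 2 := rfl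

lemma Phi1_nn {A : Type*} {m : A → V 3} (hm : NFam m) : 0 ≤ Phi (Fe 1) m := by
  have := Phi_Fe_mono hm (s := 0) (i := 1) (j := 1) fun v hv h => by
    rw [fe1, zero_mul]; exact (simplex_facts hv h).1
  linarith

lemma Phi2_nn {A : Type*} {m : A → V 3} (hm : NFam m) : 0 ≤ Phi (Fe 2) m := by
  have := Phi_Fe_mono hm (s := 0) (i := 1) (j := 2) fun v hv h => by
    rw [fe2, zero_mul]; exact sq_nonneg _
  linarith

lemma Phi2_le {A : Type*} {m : A → V 3} (hm : NFam m) : Phi (Fe 2) m ≤ Phi (Fe 1) m := by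
  have := Phi_Fe_mono hm (s := 1) (i := 2) (j := 1) fun v hv h => by
    rw [fe1, fe2, one_mul]
    obtain ⟨h1, h2, _⟩ := simplex_facts hv h
    nlinarith
  linarith

lemma Phi3_le {A : Type*} {m : A → V 3} (hm : NFam m) : |Phi (Fe 3) m| ≤ Phi (Fe 1) m := by
  have h1 := Phi_Fe_mono hm (s := 1) (i := 3) (j := 1) fun v hv h => by
    rw [fe1, fe3, one_mul]; exact (simplex_facts hv h).2.2.1
  have h2 := Phi_Fe_mono hm (s := -1) (i := 3) (j := 1) fun v hv h => by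
    rw [fe1, fe3]
    have := (simplex_facts hv h).2.2.2
    linarith
  rw [abs_le]
  constructor <;> linarith

lemma et_nn (n : ℕ) : 0 ≤ et d h0 n 1 := Phi1_nn (nf h0 n)
lemma et2_nn (n : ℕ) : 0 ≤ et d h0 n 2 := Phi2_nn (nf h0 n)
lemma et2_le (n : ℕ) : et d h0 n 2 ≤ et d h0 n 1 := Phi2_le (nf h0 n)
lemma et3_le (n : ℕ) : |et d h0 n 3| ≤ et d h0 n 1 := Phi3_le (nf h0 n)
lemma ev_nn (n k : ℕ) : 0 ≤ ev d h0 n k 1 := Phi1_nn ((nfc h0 n).pow k)
lemma ev2_nn (n k : ℕ) : 0 ≤ ev d h0 n k 2 := Phi2_nn ((nfc h0 n).pow k)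
lemma ev2_le (n k : ℕ) : ev d h0 n k 2 ≤ ev d h0 n k 1 := Phi2_le ((nfc h0 n).pow k)
lemma ev3_le (n k : ℕ) : |ev d h0 n k 3| ≤ ev d h0 n k 1 := Phi3_le ((nfc h0 n).pow k)

lemma et_anti : Antitone fun n => et d h0 n 1 := antitone_nat_of_succ_le fun n => by
  rw [et_X, et_X]
  exact Dom.X_le (by norm_num) (fam_anti (by norm_num) d h0 n)

/-- if `E r → 0` then nonreconstruction -/
lemma an_of_et (h : Tendsto (fun n => et d h0 n 1) atTop (𝓝 0)) :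
    Tendsto (fun n => an (PMF.pure d) (potts (q := 3) lam0 h0) n) atTop (𝓝 0) := by
  apply an_tendsto_of_X (by norm_num)
  have : (fun n => et d h0 n 1) = fun n => X (fam (PMF.pure d) (potts (q := 3) lam0 h0) n) :=
    funext fun n => et_X h0 n
  rwa [this] at h

/-- weaker channels, fewer children -/
lemma an_of_et_le (h : Tendsto (fun n => et d h0 n 1) atTop (𝓝 0)) (hl : lam0 < 0) {d' : ℕ}
    (hd : d' ≤ d) {lam' : ℝ} (h' : 0 ≤ 1 + (((3 : ℕ) : ℝ) - 1) * lam' ∧ lam' ≤ 1)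
    (h1 : lam0 ≤ lam') (h2 : lam' ≤ 0) :
    Tendsto (fun n => an (PMF.pure d') (potts (q := 3) lam' h') n) atTop (𝓝 0) := by
  have e : (fun n => et d h0 n 1) = fun n => X (fam (PMF.pure d) (potts (q := 3) lam0 h0) n) :=
    funext fun n => et_X h0 n
  rw [e] at h
  apply an_tendsto_of_X (by norm_num)
  refine squeeze_zero (fun n => X_nonneg (by norm_num) (NFam.fam _ h' n).nn) (fun n => ?_) h
  refine X_fam_le (by norm_num) hd h0 h' (τ := lam' / lam0) (div_nonneg_of_nonpos h2 hl.le) ?_ ?_ n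
  · rw [div_le_one_of_neg hl]
    exact h1
  · rw [mul_div_cancel₀]
    exact hl.ne

end Vale.Agent.P154N
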