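import Vale.Agent.P154.N3TbD

/-! P154, three states: kernel identity of the certificate at eigenvalue -1/4 -/

namespace Vale.Agent.P154N

lemma krcTb : chkI 14 14 1 4 LTb (FTb.map (16 * ·)) (FTb.map (1 * ·)) 67108864 kc14 1536 krTb = true := by
  decide +kernel

end Vale.Agent.P154N
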