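import Vale.Agent.P154.Reflect

/-! a faster test: rows of the table are packed into one integer -/

namespace Vale.Agent.P154

/-- base of the packing -/
def bs : ℕ := 340282366920938463463374607431768211456

/-- half of the base -/
def hb : ℕ := 170141183460469231731687303715884105728

lemma bs_eq : bs = 2 * hb := by decide +kernel

/-- packed value of a list -/
def pk : List ℤ → ℤ
  | [] => 0
  | a :: l => a + bs * pk l

def zdot : List ℤ → List ℤ → ℤ
  | a :: l, b :: m => a * b + zdot l m
  | _, _ => 0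

lemma pk_addL : ∀ l m : List ℤ, pk (addL l m) = pk l + pk m
  | [], m => by simp [addL, pk]
  | a :: l, [] => by simp [addL, pk]
  | a :: l, b :: m => by
    simp only [addL, pk, pk_addL l m]
    ring

lemma pk_smulL (c : ℤ) : ∀ l : List ℤ, pk (smulL c l) = c * pk l
  | [] => by simp [smulL, pk]
  | a :: l => by
    have h := pk_smulL c l
    simp only [smulL, List.map_cons, pk] at h ⊢
    rw [h]
    ring

lemma pk_comb : ∀ (cs : List ℤ) (Bs : List (List ℤ)), pk (comb cs Bs) = zdot cs (Bs.map pk)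
  | [], Bs => by simp [comb, pk, zdot]
  | c :: cs, [] => by simp [comb, pk, zdot]
  | c :: cs, B :: Bs => by
    simp only [comb, List.map_cons, zdot, pk_addL, pk_smulL, pk_comb cs Bs]

/-- all the first `n` digits are below half of the base -/
def dig : ℕ → ℕ → Bool
  | 0, _ => true
  | n + 1, v => Nat.blt (v % bs) hb && dig n (v / bs)

lemma dig_sound : ∀ (n : ℕ) (l : List ℤ) (v : ℕ), l.length ≤ n → (∀ a ∈ l, |a| < hb) →
    pk l = (v : ℤ) → dig n v = true → ∀ a ∈ l, 0 ≤ a
  | _, [], _, _, _, _, _ => by simp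
  | 0, a :: l, _, hl, _, _, _ => by simp at hl
  | n + 1, a :: l, v, hl, hb', hv, hd => by
    simp only [dig, Bool.and_eq_true, Nat.blt_eq] at hd
    have h1 : |a| < hb := hb' a List.mem_cons_self
    have h2 : (v : ℤ) = ((v % bs : ℕ) : ℤ) + bs * ((v / bs : ℕ) : ℤ) := by
      exact_mod_cast (Nat.mod_add_div v bs).symm
    have h3 : ((v % bs : ℕ) : ℤ) < hb := by exact_mod_cast hd.1
    have h4 : (0 : ℤ) ≤ ((v % bs : ℕ) : ℤ) := Int.natCast_nonneg _
    have h5 : (bs : ℤ) = 2 * hb := by exact_mod_cast bs_eq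
    rw [pk, h2] at hv
    rw [abs_lt] at h1
    have h6 : (bs : ℤ) * (pk l - ((v / bs : ℕ) : ℤ)) = ((v % bs : ℕ) : ℤ) - a := by linarith
    have h7 : pk l - ((v / bs : ℕ) : ℤ) = 0 := by
      have hpos : (0 : ℤ) < bs := by rw [h5]; linarith
      by_contra hne
      rcases lt_or_gt_of_ne hne with hlt | hgt
      · have : (bs : ℤ) * (pk l - ((v / bs : ℕ) : ℤ)) ≤ bs * (-1) :=
          mul_le_mul_of_nonneg_left (by omega) hpos.le
        linarith
      · have : (bs : ℤ) * 1 ≤ bs * (pk l - ((v / bs : ℕ) : ℤ)) :=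
          mul_le_mul_of_nonneg_left (by omega) hpos.le
        linarith
    rw [h7, mul_zero] at h6
    intro x hx
    rcases List.mem_cons.1 hx with rfl | hx
    · linarith
    · exact dig_sound n l (v / bs) (by simpa using hl) (fun y hy => hb' y (List.mem_cons_of_mem _ hy))
        (by linarith) hd.2 x hx

def digI (n : ℕ) : ℤ → Bool
  | Int.ofNat v => dig n v
  | Int.negSucc _ => false

lemma digI_sound {n : ℕ} {l : List ℤ} (hl : l.length ≤ n) (hb' : ∀ a ∈ l, |a| < hb)
    (h : digI n (pk l) = true) : ∀ a ∈ l, 0 ≤ a := by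
  cases hv : pk l with
  | ofNat v =>
    rw [hv] at h
    exact dig_sound n l v hl hb' hv h
  | negSucc v =>
    rw [hv] at h
    exact absurd h (by simp [digI])

/-- entries bounded -/
def bdL (b : ℤ) (l : List ℤ) : Prop := ∀ a ∈ l, |a| ≤ b

lemma bdL_addL {b c : ℤ} (hb0 : 0 ≤ b) (hc0 : 0 ≤ c) : ∀ {l m : List ℤ}, bdL b l → bdL c m →
    bdL (b + c) (addL l m)
  | [], m, _, hm => fun x hx => by
    have := hm x (by simpa [addL] using hx)
    linarith
  | a :: l, [], hl, _ => fun x hx => by
    have := hl x (by simpa [addL] using hx)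
    linarith
  | a :: l, b' :: m, hl, hm => fun x hx => by
    simp only [addL, List.mem_cons] at hx
    rcases hx with rfl | hx
    · have h1 := hl a List.mem_cons_self
      have h2 := hm b' List.mem_cons_self
      exact (abs_add_le _ _).trans (add_le_add h1 h2)
    · exact bdL_addL hb0 hc0 (fun y hy => hl y (List.mem_cons_of_mem _ hy))
        (fun y hy => hm y (List.mem_cons_of_mem _ hy)) x hx

lemma bdL_comb {b c : ℤ} (hb0 : 0 ≤ b) (hc0 : 0 ≤ c) : ∀ {cs : List ℤ} {Bs : List (List ℤ)},
    bdL c cs → (∀ B ∈ Bs, bdL b B) → bdL (cs.length * (c * b)) (comb cs Bs)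
  | [], Bs, _, _ => by simp [comb, bdL]
  | c' :: cs, [], _, _ => by simp [comb, bdL]
  | c' :: cs, B :: Bs, hc, hB => by
    have h1 : bdL (c * b) (smulL c' B) := by
      intro x hx
      simp only [smulL, List.mem_map] at hx
      obtain ⟨y, hy, rfl⟩ := hx
      rw [abs_mul]
      exact mul_le_mul (hc c' List.mem_cons_self) (hB B List.mem_cons_self y hy) (abs_nonneg _) hc0
    have h2 := bdL_comb hb0 hc0 (cs := cs) (Bs := Bs)
      (fun y hy => hc y (List.mem_cons_of_mem _ hy)) (fun y hy => hB y (List.mem_cons_of_mem _ hy))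
    have h3 := bdL_addL (mul_nonneg hc0 hb0) (mul_nonneg (Int.natCast_nonneg _)
      (mul_nonneg hc0 hb0)) h1 h2
    have e : c * b + (cs.length : ℤ) * (c * b) = ((c' :: cs).length : ℤ) * (c * b) := by
      rw [List.length_cons]
      push_cast
      ring
    rw [← e]
    exact h3

lemma len_addL : ∀ {n : ℕ} {l m : List ℤ}, l.length ≤ n → m.length ≤ n → (addL l m).length ≤ n
  | n, [], m, _, hm => by simpa [addL] using hm
  | n, a :: l, [], hl, _ => by simpa [addL] using hl
  | 0, a :: l, b :: m, hl, _ => by simp at hl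
  | n + 1, a :: l, b :: m, hl, hm => by
    simp only [addL, List.length_cons] at hl hm ⊢
    exact Nat.succ_le_succ (len_addL (Nat.le_of_succ_le_succ hl) (Nat.le_of_succ_le_succ hm))

lemma len_comb {n : ℕ} : ∀ {cs : List ℤ} {Bs : List (List ℤ)}, (∀ B ∈ Bs, B.length ≤ n) →
    (comb cs Bs).length ≤ n
  | [], Bs, _ => by simp [comb]
  | c :: cs, [], _ => by simp [comb]
  | c :: cs, B :: Bs, h => by
    simp only [comb]
    refine len_addL ?_ (len_comb fun y hy => h y (List.mem_cons_of_mem _ hy))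
    simpa [smulL] using h B List.mem_cons_self

/-- test of the rows -/
def rows (n : ℕ) : ℕ → List (List ℤ) → List ℤ → Bool
  | 0, _, _ => true
  | N + 1, As, D => digI n (zdot (As.map hd) D) && rows n N (As.map List.tail) D

lemma hd_mem_bd {b : ℤ} (hb0 : 0 ≤ b) {A : List ℤ} (h : bdL b A) : |hd A| ≤ b := by
  cases A with
  | nil => simpa [hd] using hb0
  | cons a l => exact h a (by simp)

lemma tail_bd {b : ℤ} {A : List ℤ} (h : bdL b A) : bdL b A.tail :=
  fun x hx => h x (List.mem_of_mem_tail hx)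

lemma rows_sound {n : ℕ} {a b : ℤ} (ha : 0 ≤ a) (hb0 : 0 ≤ b) {K : ℕ}
    (hab : K * (a * b) < hb) {Bs : List (List ℤ)} (hBs : ∀ B ∈ Bs, bdL b B)
    (hlen : ∀ B ∈ Bs, B.length ≤ n) :
    ∀ (N : ℕ) (As : List (List ℤ)), As.length ≤ K → (∀ A ∈ As, bdL a A) →
      rows n N As (Bs.map pk) = true →
      ((table N As Bs).all fun row => row.all fun a => decide (0 ≤ a)) = true
  | 0, As, _, _, _ => by simp [table]
  | N + 1, As, hK, hAs, h => by
    simp only [rows, Bool.and_eq_true] at h
    simp only [table, List.all_cons, Bool.and_eq_true]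
    have hcs : bdL a (As.map hd) := by
      intro x hx
      obtain ⟨A, hA, rfl⟩ := List.mem_map.1 hx
      exact hd_mem_bd ha (hAs A hA)
    refine ⟨?_, rows_sound ha hb0 hab hBs hlen N (As.map List.tail) (by simpa using hK) ?_ h.2⟩
    · rw [List.all_eq_true]
      intro x hx
      rw [decide_eq_true_eq]
      refine digI_sound (len_comb hlen) ?_ (by rw [pk_comb]; exact h.1) x hx
      intro y hy
      have h1 := bdL_comb hb0 ha hcs hBs y hy
      refine lt_of_le_of_lt (h1.trans ?_) hab
      refine mul_le_mul_of_nonneg_right ?_ (mul_nonneg ha hb0)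
      rw [List.length_map]
      exact_mod_cast hK
    · intro A hA
      obtain ⟨A', hA', rfl⟩ := List.mem_map.1 hA
      exact tail_bd (hAs A' hA')

/-- boolean bound test -/
def bdB (b : ℕ) (l : List ℤ) : Bool := l.all fun a => Nat.ble a.natAbs b

lemma bdB_sound {b : ℕ} {l : List ℤ} (h : bdB b l = true) : bdL b l := by
  intro x hx
  have h1 := List.all_eq_true.1 h x hx
  rw [Nat.ble_eq] at h1
  rw [Int.abs_eq_natAbs]
  exact_mod_cast h1

/-- the fast test -/
def fchk (N a a' c : ℕ) (As As' Cs : List (List ℤ)) : Bool :=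
  (((As.all (bdB a) && As'.all (bdB a')) && Cs.all (bdB c)) &&
    ((Nat.ble As.length 14 && Cs.all fun c => Nat.ble c.length 14) &&
      (As'.all (fun A => Nat.ble A.length N) && Nat.blt (14 * (a * (14 * (c * a')))) hb))) &&
  rows N N As (Cs.map fun c => zdot c (As'.map pk))

theorem fchk_sound {N a a' c : ℕ} {As As' Cs : List (List ℤ)}
    (h : fchk N a a' c As As' Cs = true) : chk N As As' Cs = true := by
  simp only [fchk, Bool.and_eq_true, Nat.ble_eq, Nat.blt_eq] at h
  obtain ⟨⟨⟨⟨h1, h2⟩, h3⟩, ⟨⟨h4, h5⟩, ⟨h6, h7⟩⟩⟩, h8⟩ := h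
  have e : (Cs.map fun c => zdot c (As'.map pk)) = (Cs.map fun c => comb c As').map pk := by
    rw [List.map_map]
    refine List.map_congr_left fun c _ => ?_
    rw [Function.comp_apply, pk_comb]
  rw [e] at h8
  unfold chk
  refine rows_sound (n := N) (a := a) (b := 14 * ((c : ℤ) * a')) (Int.natCast_nonneg _)
    (by positivity) (K := 14) (by exact_mod_cast h7) ?_ ?_ N As h4 ?_ h8
  · intro B hB
    obtain ⟨cs, hcs, rfl⟩ := List.mem_map.1 hB
    have h9 := bdL_comb (b := a') (c := c) (Int.natCast_nonneg _) (Int.natCast_nonneg _)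
      (bdB_sound (List.all_eq_true.1 h3 cs hcs))
      (fun B hB => bdB_sound (List.all_eq_true.1 h2 B hB))
    intro x hx
    refine (h9 x hx).trans ?_
    refine mul_le_mul_of_nonneg_right ?_ (by positivity)
    have := List.all_eq_true.1 h5 cs hcs
    rw [Nat.ble_eq] at this
    exact_mod_cast this
  · intro B hB
    obtain ⟨cs, hcs, rfl⟩ := List.mem_map.1 hB
    refine len_comb fun A hA => ?_
    have := List.all_eq_true.1 h6 A hA
    rwa [Nat.ble_eq] at this
  · intro A hA
    exact bdB_sound (List.all_eq_true.1 h1 A hA)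

end Vale.Agent.P154
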