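import Vale.Agent.P154.SixSum

/-! the exact formula for the average of `Rf` over the six products -/

namespace Vale.Agent.P154

/-- `27/4` times the product of the two Vandermonde determinants -/
noncomputable def vv (p q : V3) : ℝ :=
  27 / 4 * ((p 0 - p 1) * (p 1 - p 2) * (p 2 - p 0)) * ((q 0 - q 1) * (q 1 - q 2) * (q 2 - q 0))

lemma vv_sq (p q : V3) : vv p q ^ 2 = ww (rr p) (ss p) (rr q) (ss q) := by
  unfold vv ww rr ss
  ring

lemma prodA {p q : V3} (hp1 : sg p = 1) (hq1 : sg q = 1) :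
    27 * ((p 0 * q 0 + p 1 * q 1 + p 2 * q 2) * (p 0 * q 1 + p 1 * q 2 + p 2 * q 0) *
      (p 0 * q 2 + p 1 * q 0 + p 2 * q 1)) =
      kk (rr p) (ss p) (rr q) (ss q) + 2 * vv p q := by
  have h2 : p 2 = 1 - p 0 - p 1 := by unfold sg at hp1; linarith
  have h3 : q 2 = 1 - q 0 - q 1 := by unfold sg at hq1; linarith
  unfold kk vv rr ss
  rw [h2, h3]
  ring

lemma prodB {p q : V3} (hp1 : sg p = 1) (hq1 : sg q = 1) :
    27 * ((p 0 * q 1 + p 1 * q 0 + p 2 * q 2) * (p 0 * q 2 + p 1 * q 1 + p 2 * q 0) *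
      (p 0 * q 0 + p 1 * q 2 + p 2 * q 1)) =
      kk (rr p) (ss p) (rr q) (ss q) - 2 * vv p q := by
  have h2 : p 2 = 1 - p 0 - p 1 := by unfold sg at hp1; linarith
  have h3 : q 2 = 1 - q 0 - q 1 := by unfold sg at hq1; linarith
  unfold kk vv rr ss
  rw [h2, h3]
  ring

lemma numA {p q : V3} (hp1 : sg p = 1) (hq1 : sg q = 1) :
    27 * (rr ![p 0 * q 0, p 1 * q 1, p 2 * q 2] *
        ((p 0 * q 1 + p 1 * q 2 + p 2 * q 0) * (p 0 * q 2 + p 1 * q 0 + p 2 * q 1)) +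
      rr ![p 0 * q 1, p 1 * q 2, p 2 * q 0] *
        ((p 0 * q 0 + p 1 * q 1 + p 2 * q 2) * (p 0 * q 2 + p 1 * q 0 + p 2 * q 1)) +
      rr ![p 0 * q 2, p 1 * q 0, p 2 * q 1] *
        ((p 0 * q 0 + p 1 * q 1 + p 2 * q 2) * (p 0 * q 1 + p 1 * q 2 + p 2 * q 0))) =
      (rr p + rr q + rr p * rr q) * (kk (rr p) (ss p) (rr q) (ss q) + 2 * vv p q) -
        2 * (aa (rr p) (ss p) (rr q) (ss q) - bb (rr p) (rr q) * vv p q) := by
  have h2 : p 2 = 1 - p 0 - p 1 := by unfold sg at hp1; linarith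
  have h3 : q 2 = 1 - q 0 - q 1 := by unfold sg at hq1; linarith
  unfold kk vv aa bb rr ss
  simp only [Matrix.cons_val_zero, Matrix.cons_val_one, Matrix.cons_val]
  rw [h2, h3]
  ring

lemma numB {p q : V3} (hp1 : sg p = 1) (hq1 : sg q = 1) :
    27 * (rr ![p 0 * q 1, p 1 * q 0, p 2 * q 2] *
        ((p 0 * q 2 + p 1 * q 1 + p 2 * q 0) * (p 0 * q 0 + p 1 * q 2 + p 2 * q 1)) +
      rr ![p 0 * q 2, p 1 * q 1, p 2 * q 0] *
        ((p 0 * q 1 + p 1 * q 0 + p 2 * q 2) * (p 0 * q 0 + p 1 * q 2 + p 2 * q 1)) +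
      rr ![p 0 * q 0, p 1 * q 2, p 2 * q 1] *
        ((p 0 * q 1 + p 1 * q 0 + p 2 * q 2) * (p 0 * q 2 + p 1 * q 1 + p 2 * q 0))) =
      (rr p + rr q + rr p * rr q) * (kk (rr p) (ss p) (rr q) (ss q) - 2 * vv p q) -
        2 * (aa (rr p) (ss p) (rr q) (ss q) + bb (rr p) (rr q) * vv p q) := by
  have h2 : p 2 = 1 - p 0 - p 1 := by unfold sg at hp1; linarith
  have h3 : q 2 = 1 - q 0 - q 1 := by unfold sg at hq1; linarith
  unfold kk vv aa bb rr ss
  simp only [Matrix.cons_val_zero, Matrix.cons_val_one, Matrix.cons_val]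
  rw [h2, h3]
  ring

lemma Rf_vec (x y z : ℝ) : Rf ![x, y, z] = rr ![x, y, z] / (x + y + z) := by
  unfold Rf rr sg
  simp only [Matrix.cons_val_zero, Matrix.cons_val_one, Matrix.cons_val]

lemma three_frac {A B C x y z D N : ℝ} (hx : 0 < x) (hy : 0 < y) (hz : 0 < z)
    (hD : 27 * (x * y * z) = D) (hN : 27 * (A * (y * z) + B * (x * z) + C * (x * y)) = N) :
    A / x + B / y + C / z = N / D := by
  have hxyz : 0 < x * y * z := by positivity
  rw [← hD, ← hN]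
  field_simp

/-- the denominator is the product of the six masses -/
lemma denom_pos {p q : V3} (hp : Pos p) (hq : Pos q) (hp1 : sg p = 1) (hq1 : sg q = 1) :
    0 < kk (rr p) (ss p) (rr q) (ss q) + 2 * vv p q ∧
      0 < kk (rr p) (ss p) (rr q) (ss q) - 2 * vv p q := by
  have p0 := hp 0
  have p1 := hp 1
  have p2 := hp 2
  have q0 := hq 0
  have q1 := hq 1
  have q2 := hq 2
  rw [← prodA hp1 hq1, ← prodB hp1 hq1]
  constructor <;> positivity

/-- exact formula for the average of `Rf` over the six products (normalised, positive vectors) -/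
theorem R_formula {p q : V3} (hp : Pos p) (hq : Pos q) (hp1 : sg p = 1) (hq1 : sg q = 1) :
    1 / 2 * S6 Rf p q = rr p + rr q + rr p * rr q -
      (2 * aa (rr p) (ss p) (rr q) (ss q) * kk (rr p) (ss p) (rr q) (ss q) +
        4 * bb (rr p) (rr q) * ww (rr p) (ss p) (rr q) (ss q)) /
      (kk (rr p) (ss p) (rr q) (ss q) ^ 2 - 4 * ww (rr p) (ss p) (rr q) (ss q)) := by
  obtain ⟨hA, hB⟩ := denom_pos hp hq hp1 hq1
  have p0 := hp 0
  have p1 := hp 1
  have p2 := hp 2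
  have q0 := hq 0
  have q1 := hq 1
  have q2 := hq 2
  have eA := three_frac (x := p 0 * q 0 + p 1 * q 1 + p 2 * q 2)
    (y := p 0 * q 1 + p 1 * q 2 + p 2 * q 0) (z := p 0 * q 2 + p 1 * q 0 + p 2 * q 1)
    (by positivity) (by positivity) (by positivity) (prodA hp1 hq1) (numA hp1 hq1)
  have eB := three_frac (x := p 0 * q 1 + p 1 * q 0 + p 2 * q 2)
    (y := p 0 * q 2 + p 1 * q 1 + p 2 * q 0) (z := p 0 * q 0 + p 1 * q 2 + p 2 * q 1)
    (by positivity) (by positivity) (by positivity) (prodB hp1 hq1) (numB hp1 hq1)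
  rw [S6_eq, Rf_vec, Rf_vec, Rf_vec, Rf_vec, Rf_vec, Rf_vec, eA, eB, ← vv_sq]
  have hA' := hA.ne'
  have hB' := hB.ne'
  have hAB : kk (rr p) (ss p) (rr q) (ss q) ^ 2 - 4 * vv p q ^ 2 =
      (kk (rr p) (ss p) (rr q) (ss q) + 2 * vv p q) *
        (kk (rr p) (ss p) (rr q) (ss q) - 2 * vv p q) := by ring
  rw [hAB]
  generalize kk (rr p) (ss p) (rr q) (ss q) = k at *
  generalize aa (rr p) (ss p) (rr q) (ss q) = a at *
  generalize bb (rr p) (rr q) = b at *
  generalize vv p q = v at *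
  field_simp
  ring

end Vale.Agent.P154
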