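import Vale.Agent.P154.Cert
import Vale.Agent.P154.PointR
import Vale.Agent.P154.Chan

/-! the pointwise upper bound for products -/

namespace Vale.Agent.P154

namespace PA

/-! scaling -/

/-- scaled vector -/
def scl (t : ℝ) (c : V3) : V3 := fun i => t * c i

lemma sg_scl (t : ℝ) (c : V3) : sg (scl t c) = t * sg c := by
  unfold sg scl; ring

lemma Rf_scl {t : ℝ} (ht : 0 < t) (c : V3) : Rf (scl t c) = t * Rf c := by
  unfold Rf
  rw [sg_scl]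
  have h : (scl t c 0 ^ 2 + scl t c 1 ^ 2 + scl t c 2 ^ 2 - scl t c 0 * scl t c 1
      - scl t c 1 * scl t c 2 - scl t c 2 * scl t c 0)
      = t ^ 2 * (c 0 ^ 2 + c 1 ^ 2 + c 2 ^ 2 - c 0 * c 1 - c 1 * c 2 - c 2 * c 0) := by
    unfold scl; ring
  rw [h, pow_two, mul_assoc, mul_div_mul_left _ _ ht.ne', mul_div_assoc]

lemma Sf_scl {t : ℝ} (ht : 0 < t) (c : V3) : Sf (scl t c) = t * Sf c := by
  unfold Sf
  rw [sg_scl]
  have h : (2 * scl t c 0 - scl t c 1 - scl t c 2) * (2 * scl t c 1 - scl t c 0 - scl t c 2)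
      * (2 * scl t c 2 - scl t c 0 - scl t c 1)
      = t ^ 2 * (t * ((2 * c 0 - c 1 - c 2) * (2 * c 1 - c 0 - c 2) * (2 * c 2 - c 0 - c 1))) := by
    unfold scl; ring
  have h2 : 2 * (t * sg c) ^ 2 = t ^ 2 * (2 * sg c ^ 2) := by ring
  rw [h, h2, mul_div_mul_left _ _ (pow_ne_zero 2 ht.ne'), mul_div_assoc]

lemma gm_scl {t : ℝ} (ht : 0 < t) {c : V3} (hc : ∀ i, 0 ≤ c i) : gm (scl t c) = t * gm c := by
  have hc' : ∀ i, 0 ≤ scl t c i := fun i => mul_nonneg ht.le (hc i)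
  have h1 : gm (scl t c) ^ 3 = (t * gm c) ^ 3 := by
    rw [gm_cube hc', mul_pow, gm_cube hc]
    unfold scl; ring
  exact (pow_left_inj₀ (gm_nonneg hc') (mul_nonneg ht.le (gm_nonneg hc)) (by norm_num)).1 h1

lemma Ff_scl {t : ℝ} (ht : 0 < t) {c : V3} (hc : ∀ i, 0 ≤ c i) : Ff (scl t c) = t * Ff c := by
  unfold Ff
  rw [Sf_scl ht, sg_scl, gm_scl ht hc, mul_sub]
  congr 1
  have h : (t * sg c - t * gm c) ^ 2 = t * (t * (sg c - gm c) ^ 2) := by ring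
  have h2 : 4 * (t * sg c) = t * (4 * sg c) := by ring
  rw [h, h2, mul_div_mul_left _ _ ht.ne', mul_div_assoc]

lemma Bf_scl {t : ℝ} (ht : 0 < t) (c : V3) : Bf (scl t c) = t * Bf c := by
  unfold Bf
  rw [Rf_scl ht, Sf_scl ht, sg_scl]
  have h : (t * Rf c) ^ 2 = t * (t * Rf c ^ 2) := by ring
  rw [h, mul_div_mul_left _ _ ht.ne']
  ring

lemma S6_scl {F : V3 → ℝ} (hF : ∀ (t : ℝ), 0 < t → ∀ c : V3, (∀ i, 0 ≤ c i) → F (scl t c) = t * F c)
    {s t : ℝ} (hs : 0 < s) (ht : 0 < t) {p q : V3} (hp : ∀ i, 0 ≤ p i) (hq : ∀ i, 0 ≤ q i) :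
    S6 F (scl s p) (scl t q) = s * t * S6 F p q := by
  unfold S6
  rw [Finset.mul_sum]
  refine Finset.sum_congr rfl fun π _ => ?_
  have h : (fun i => scl s p i * scl t q (π i)) = scl (s * t) (fun i => p i * q (π i)) := by
    funext i; unfold scl; ring
  rw [h, hF (s * t) (mul_pos hs ht) _ (fun i => mul_nonneg (hp i) (hq _))]

lemma norm_exists {p : V3} (hp : Pos p) : ∃ P : V3, Pos P ∧ sg P = 1 ∧ 0 < sg p ∧ p = scl (sg p) P := by
  have h0 := hp 0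
  have h1 := hp 1
  have h2 := hp 2
  have hS : 0 < sg p := by unfold sg; linarith
  refine ⟨scl (sg p)⁻¹ p, fun i => mul_pos (inv_pos.2 hS) (hp i), ?_, hS, ?_⟩
  · rw [sg_scl, inv_mul_cancel₀ hS.ne']
  · funext i
    unfold scl
    rw [← mul_assoc, mul_inv_cancel₀ hS.ne', one_mul]

/-- the normalised invariants of a positive vector with sum one -/
lemma norm_facts {P : V3} (hP : Pos P) (h1 : sg P = 1) :
    Rf P = rr P ∧ Sf P = ss P ∧ 0 ≤ rr P ∧ rr P ≤ 1 ∧ ss P ^ 2 ≤ rr P ^ 3 ∧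
      0 ≤ gm P ∧ gm P ≤ 1 ∧ gm P ^ 3 = 1 - uu (rr P) (ss P) ∧ Nrm P := by
  have hP0 : ∀ i, 0 ≤ P i := fun i => (hP i).le
  obtain ⟨a1, a2, a3, a4, a5⟩ := invs hP0 (by rw [h1]; norm_num)
  have e1 : Rf P = rr P := by unfold Rf rr; rw [h1, div_one]
  have e2 : Sf P = ss P := by unfold Sf ss; rw [h1]; norm_num
  rw [h1, div_one, e1] at a1 a2
  rw [h1, div_one, div_one, e1, e2] at a3
  rw [h1, div_one, div_one, div_one, e1, e2] at a4
  rw [h1, div_one] at a5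
  have hx1 := x_le_one a1 a2 a3 a4
  refine ⟨e1, e2, a1, a2, a3, a5, hx1, ?_, hP0, h1⟩
  rw [a4]; unfold uu; ring

/-- comparison of `f` with its rational upper bound -/
lemma f_le_fh {s u x : ℝ} (hx0 : 0 ≤ x) (hx1 : x ≤ 1) (hx : x ^ 3 = 1 - u) :
    s - (1 - x) ^ 2 / 4 ≤ s - u ^ 2 / (4 * (9 - 6 * u)) ∧ 0 < 9 - 6 * u := by
  have hu : u = 1 - x ^ 3 := by linarith
  have hx3 : 0 ≤ x ^ 3 := by positivity
  have h9 : 0 < 9 - 6 * u := by rw [hu]; linarith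
  refine ⟨?_, h9⟩
  have h1 : u ^ 2 ≤ (1 - x) ^ 2 * (9 - 6 * u) := by
    have e : (1 - x) ^ 2 * (9 - 6 * u) - u ^ 2 = (1 - x) ^ 4 * (2 + 2 * x - x ^ 2) := by
      rw [hu]; ring
    have : 0 ≤ (1 - x) ^ 4 * (2 + 2 * x - x ^ 2) := mul_nonneg (by positivity) (by nlinarith)
    linarith
  have h2 : u ^ 2 / (4 * (9 - 6 * u)) ≤ (1 - x) ^ 2 / 4 := by
    rw [div_le_div_iff₀ (by positivity) (by norm_num)]
    nlinarith
  linarith

lemma be_nonneg {r s : ℝ} (hr0 : 0 ≤ r) (hr1 : r ≤ 1) (hs : s ^ 2 ≤ r ^ 3) : 0 ≤ be r s := by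
  have h := le_trans (le_abs_self _) (abs_s_le hr0 hr1 hs)
  unfold be
  nlinarith [sq_nonneg r]

/-- pure algebra behind `pt_upper` -/
lemma alg_upper {r s r' s' K A B W v u u' β β' : ℝ}
    (hW : v ^ 2 = W) (hk1 : 0 < K + 2 * v) (hk2 : 0 < K - 2 * v)
    (h9 : 0 < 9 - 6 * u) (h9' : 0 < 9 - 6 * u')
    (L1 : 0 ≤ B * K + 2 * A)
    (L2 : K * (101 / 100 * (r * r') * (9 - 6 * u) * (9 - 6 * u') +
        β' * (9 - 6 * u') * (s * (9 - 6 * u) - 1 / 4 * u ^ 2) +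
        β * (9 - 6 * u) * (s' * (9 - 6 * u') - 1 / 4 * u' ^ 2)) ≤
      2 * A * (9 - 6 * u) * (9 - 6 * u')) :
    r + r' + r * r' - (2 * A * K + 4 * B * W) / (K ^ 2 - 4 * W) ≤
      r + r' - (β' * (s - u ^ 2 / (4 * (9 - 6 * u))) + β * (s' - u' ^ 2 / (4 * (9 - 6 * u')))) -
        r * r' / 100 := by
  have hK : 0 < K := by linarith
  have hD : 0 < K ^ 2 - 4 * W := by
    rw [← hW]
    have := mul_pos hk1 hk2
    nlinarith
  have hW0 : 0 ≤ W := by rw [← hW]; positivity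
  have h1 : 2 * A / K ≤ (2 * A * K + 4 * B * W) / (K ^ 2 - 4 * W) := by
    rw [div_le_div_iff₀ hK hD]
    have := mul_nonneg hW0 L1
    nlinarith
  have h2 : 101 / 100 * (r * r') + β' * (s - u ^ 2 / (4 * (9 - 6 * u))) +
      β * (s' - u' ^ 2 / (4 * (9 - 6 * u'))) ≤ 2 * A / K := by
    rw [le_div_iff₀ hK]
    have hpp : 0 < (9 - 6 * u) * (9 - 6 * u') := mul_pos h9 h9'
    have e : (101 / 100 * (r * r') + β' * (s - u ^ 2 / (4 * (9 - 6 * u))) +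
        β * (s' - u' ^ 2 / (4 * (9 - 6 * u')))) * K * ((9 - 6 * u) * (9 - 6 * u'))
        = K * (101 / 100 * (r * r') * (9 - 6 * u) * (9 - 6 * u') +
        β' * (9 - 6 * u') * (s * (9 - 6 * u) - 1 / 4 * u ^ 2) +
        β * (9 - 6 * u) * (s' * (9 - 6 * u') - 1 / 4 * u' ^ 2)) := by
      have t1 : u ^ 2 / (4 * (9 - 6 * u)) * (9 - 6 * u) = 1 / 4 * u ^ 2 := by
        rw [div_mul_eq_mul_div, div_eq_iff (mul_pos (by norm_num) h9).ne']
        ring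
      have t2 : u' ^ 2 / (4 * (9 - 6 * u')) * (9 - 6 * u') = 1 / 4 * u' ^ 2 := by
        rw [div_mul_eq_mul_div, div_eq_iff (mul_pos (by norm_num) h9').ne']
        ring
      generalize u ^ 2 / (4 * (9 - 6 * u)) = t at *
      generalize u' ^ 2 / (4 * (9 - 6 * u')) = t' at *
      linear_combination (-(β' * K * (9 - 6 * u'))) * t1 - (β * K * (9 - 6 * u)) * t2
    have h3 : (101 / 100 * (r * r') + β' * (s - u ^ 2 / (4 * (9 - 6 * u))) +
        β * (s' - u' ^ 2 / (4 * (9 - 6 * u')))) * K * ((9 - 6 * u) * (9 - 6 * u'))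
        ≤ 2 * A * ((9 - 6 * u) * (9 - 6 * u')) := by
      rw [e]; linarith [L2]
    exact le_of_mul_le_mul_right h3 hpp
  linarith

lemma pt_upper_norm {P Q : V3} (hP : Pos P) (hQ : Pos Q) (hP1 : sg P = 1) (hQ1 : sg Q = 1) :
    1 / 2 * S6 Rf P Q ≤ rr P + rr Q - (be (rr Q) (ss Q) * Ff P + be (rr P) (ss P) * Ff Q) -
      rr P * rr Q / 100 := by
  obtain ⟨a1, a2, a3, a4, a5, a6, a7, a8, a9⟩ := norm_facts hP hP1
  obtain ⟨b1, b2, b3, b4, b5, b6, b7, b8, b9⟩ := norm_facts hQ hQ1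
  obtain ⟨k1, k2⟩ := denom_pos hP hQ hP1 hQ1
  have hv := vv_sq P Q
  rw [R_formula hP hQ hP1 hQ1]
  obtain ⟨f1, f2⟩ := f_le_fh (s := ss P) a6 a7 a8
  obtain ⟨g1, g2⟩ := f_le_fh (s := ss Q) b6 b7 b8
  have hF : Ff P = ss P - (1 - gm P) ^ 2 / 4 := by
    unfold Ff; rw [a2, hP1]; norm_num
  have hG : Ff Q = ss Q - (1 - gm Q) ^ 2 / 4 := by
    unfold Ff; rw [b2, hQ1]; norm_num
  have hbP := be_nonneg a3 a4 a5
  have hbQ := be_nonneg b3 b4 b5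
  have hup := alg_upper hv k1 k2 f2 g2 (certL1 a9 b9) (certL2 a9 b9)
  refine hup.trans ?_
  rw [hF, hG]
  have h1 := mul_le_mul_of_nonneg_left f1 hbQ
  have h2 := mul_le_mul_of_nonneg_left g1 hbP
  linarith

end PA

open PA in
/-- upper bound for the product step -/
theorem pt_upper {p q : V3} (hp : Pos p) (hq : Pos q) :
    1 / 2 * S6 Rf p q ≤ Rf p * sg q + sg p * Rf q - (Bf q * Ff p + Bf p * Ff q) -
      Rf p * Rf q / 100 := by
  obtain ⟨P, hP, hP1, hs, hpP⟩ := norm_exists hp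
  obtain ⟨Q, hQ, hQ1, ht, hqQ⟩ := norm_exists hq
  have hP0 : ∀ i, 0 ≤ P i := fun i => (hP i).le
  have hQ0 : ∀ i, 0 ≤ Q i := fun i => (hQ i).le
  obtain ⟨a1, a2, a3, a4, a5, a6, a7, a8, a9⟩ := norm_facts hP hP1
  obtain ⟨b1, b2, b3, b4, b5, b6, b7, b8, b9⟩ := norm_facts hQ hQ1
  have hn := pt_upper_norm hP hQ hP1 hQ1
  have hBP : Bf P = be (rr P) (ss P) := by unfold Bf be; rw [a1, a2, hP1, div_one]
  have hBQ : Bf Q = be (rr Q) (ss Q) := by unfold Bf be; rw [b1, b2, hQ1, div_one]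
  generalize sg p = S at *
  generalize sg q = T at *
  rw [hpP, hqQ, S6_scl (fun t ht c _ => Rf_scl ht c) hs ht hP0 hQ0, Rf_scl hs, Rf_scl ht, Bf_scl hs,
    Bf_scl ht, Ff_scl hs hP0, Ff_scl ht hQ0, a1, b1, hBP, hBQ]
  have hST : 0 < S * T := mul_pos hs ht
  have h := mul_le_mul_of_nonneg_left hn hST.le
  calc 1 / 2 * (S * T * S6 Rf P Q) = S * T * (1 / 2 * S6 Rf P Q) := by ring
    _ ≤ _ := h
    _ = _ := by ring

end Vale.Agent.P154
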