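import Vale.Agent.P154.PointR
import Vale.Agent.P154.Cert
import Vale.Agent.P154.Chan

/-! the functional `Ff` is preserved by products -/

namespace Vale.Agent.P154

namespace PB

/-- the scalar core of the product step -/
lemma core {r s r' s' x y R e1 e2 : ℝ} (hx0 : 0 < x) (hy0 : 0 < y)
    (hD : x ^ 3 = 1 - 3 * r + 2 * s) (hD' : y ^ 3 = 1 - 3 * r' + 2 * s')
    (hr0 : 0 ≤ r) (hr'0 : 0 ≤ r') (hx : x ^ 2 ≤ 1 - r) (hy : y ^ 2 ≤ 1 - r')
    (hR : r + r' - 3 / 2 * (r * r') - r * s' - s * r' + 2 * (s * s') ≤ R)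
    (h1 : 1 ≤ e1) (h2 : e1 ^ 2 ≤ e2) (h3 : x * y * (e1 - 1) ≤ 2 * (r * r')) :
    y ^ 3 * (s - (1 - x) ^ 2 / 4) + x ^ 3 * (s' - (1 - y) ^ 2 / 4) ≤
      x ^ 3 * y ^ 3 * e2 / 2 - 3 / 4 + 3 / 2 * R + x * y / 2 - x ^ 2 * y ^ 2 * e1 / 4 := by
  have hx1 : x ≤ 1 := by nlinarith
  have hy1 : y ≤ 1 := by nlinarith
  have hxy : 0 < x * y := mul_pos hx0 hy0
  have hE : 0 ≤ e1 - 1 := by linarith
  have he2 : 2 * (e1 - 1) ≤ e2 - 1 := by nlinarith
  -- the key estimate
  have key : 0 ≤ (1 - x) * (1 - y) * (2 + 2 * x + 2 * y + x * y) -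
      x * y * (e1 - 1) * (1 - 4 * (x * y)) := by
    have hnn : 0 ≤ (1 - x) * (1 - y) := mul_nonneg (by linarith) (by linarith)
    rcases le_or_gt (1 - 4 * (x * y)) 0 with h | h
    · have h4 : 0 ≤ (1 - x) * (1 - y) * (2 + 2 * x + 2 * y + x * y) := by positivity
      have h5 : 0 ≤ x * y * (e1 - 1) := mul_nonneg hxy.le hE
      nlinarith [mul_nonneg h5 (neg_nonneg.mpr h)]
    · have h4 : r * r' ≤ (1 - x ^ 2) * (1 - y ^ 2) :=
        mul_le_mul (by linarith) (by linarith) hr'0 (by nlinarith)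
      have h5 : x * y * (e1 - 1) * (1 - 4 * (x * y)) ≤
          2 * ((1 - x ^ 2) * (1 - y ^ 2)) * (1 - 4 * (x * y)) :=
        mul_le_mul_of_nonneg_right (by linarith) h.le
      have h6 : (1 - x) * (1 - y) * (2 + 2 * x + 2 * y + x * y) -
          2 * ((1 - x ^ 2) * (1 - y ^ 2)) * (1 - 4 * (x * y)) =
          (1 - x) * (1 - y) * (x * y * (7 + 8 * x + 8 * y + 8 * (x * y))) := by ring
      have h7 : 0 ≤ (1 - x) * (1 - y) * (x * y * (7 + 8 * x + 8 * y + 8 * (x * y))) := by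
        positivity
      linarith
  have hT : 0 ≤ x * y * ((1 - x) * (1 - y) * (2 + 2 * x + 2 * y + x * y)) +
      2 * (x ^ 3 * y ^ 3) * (e2 - 1) - x ^ 2 * y ^ 2 * (e1 - 1) := by
    have h4 : 0 ≤ x ^ 3 * y ^ 3 := by positivity
    have h5 : 2 * (x ^ 3 * y ^ 3) * (2 * (e1 - 1)) ≤ 2 * (x ^ 3 * y ^ 3) * (e2 - 1) :=
      mul_le_mul_of_nonneg_left he2 (by positivity)
    have h6 := mul_nonneg hxy.le key
    have h7 : x * y * ((1 - x) * (1 - y) * (2 + 2 * x + 2 * y + x * y) -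
        x * y * (e1 - 1) * (1 - 4 * (x * y))) =
        x * y * ((1 - x) * (1 - y) * (2 + 2 * x + 2 * y + x * y)) +
          2 * (x ^ 3 * y ^ 3) * (2 * (e1 - 1)) - x ^ 2 * y ^ 2 * (e1 - 1) := by ring
    linarith
  -- the lower bound of `R`
  have hs : s = (x ^ 3 - 1 + 3 * r) / 2 := by linarith
  have hs' : s' = (y ^ 3 - 1 + 3 * r') / 2 := by linarith
  have hR2 : (1 - x ^ 3) * (1 - y ^ 3) ≤ 2 * (R - y ^ 3 * r - x ^ 3 * r') := by
    rw [hs, hs'] at hR
    nlinarith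
  rw [hs, hs']
  nlinarith

lemma rr_nonneg (c : V3) : 0 ≤ rr c := by
  unfold rr
  nlinarith [sq_nonneg (c 0 - c 1), sq_nonneg (c 1 - c 2), sq_nonneg (c 2 - c 0)]

lemma amgm {x y z : ℝ} (hx : 0 ≤ x) (hy : 0 ≤ y) (hz : 0 ≤ z) :
    27 * (x * y * z) ≤ (x + y + z) ^ 3 := by
  nlinarith [mul_nonneg hx (sq_nonneg (y - z)), mul_nonneg hy (sq_nonneg (z - x)),
    mul_nonneg hz (sq_nonneg (x - y)), mul_nonneg hx (sq_nonneg (x - y)),
    mul_nonneg hx (sq_nonneg (x - z)), mul_nonneg hy (sq_nonneg (y - x)),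
    mul_nonneg hy (sq_nonneg (y - z)), mul_nonneg hz (sq_nonneg (z - x)),
    mul_nonneg hz (sq_nonneg (z - y))]

lemma le_of_cube_le {x y : ℝ} (hy : 0 ≤ y) (h : x ^ 3 ≤ y ^ 3) : x ≤ y := by
  by_contra hc
  push Not at hc
  have := pow_lt_pow_left₀ hc hy (n := 3) (by norm_num)
  linarith

lemma gm_le_sg {c : V3} (hc : ∀ i, 0 ≤ c i) : gm c ≤ sg c := by
  apply le_of_cube_le
  · unfold sg
    linarith [hc 0, hc 1, hc 2]
  · rw [gm_cube hc]
    exact amgm (hc 0) (hc 1) (hc 2)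

lemma gm_pos {c : V3} (hc : Pos c) : 0 < gm c := by
  unfold gm
  have := hc 0
  have := hc 1
  have := hc 2
  positivity

lemma gm_sq_le {c : V3} (hc : Pos c) (h1 : sg c = 1) : gm c ^ 2 ≤ 1 - rr c := by
  have h0 := hc 0
  have h1' := hc 1
  have h2 := hc 2
  have e : 1 - rr c = 3 * (c 0 * c 1 + c 1 * c 2 + c 2 * c 0) := by
    have : (1 : ℝ) = sg c ^ 2 := by rw [h1]; norm_num
    rw [this]
    unfold rr sg
    ring
  rw [e]
  apply le_of_cube_le (by positivity)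
  have h3 : (gm c ^ 2) ^ 3 = (gm c ^ 3) ^ 2 := by ring
  rw [h3, gm_cube (fun i => (hc i).le)]
  have := amgm (x := c 0 * c 1) (y := c 1 * c 2) (z := c 2 * c 0) (by positivity) (by positivity)
    (by positivity)
  nlinarith

lemma Df_one {c : V3} (hc : Pos c) (h1 : sg c = 1) : Df c = gm c ^ 3 := by
  rw [gm_cube (fun i => (hc i).le)]
  unfold Df
  rw [h1]
  ring

lemma Ff_one {c : V3} (h1 : sg c = 1) : Ff c = ss c - (1 - gm c) ^ 2 / 4 := by
  unfold Ff Sf ss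
  rw [h1]
  ring

lemma cube_eq {c : V3} (hc : Pos c) (h1 : sg c = 1) : gm c ^ 3 = 1 - 3 * rr c + 2 * ss c := by
  rw [gm_cube (fun i => (hc i).le)]
  have h2 : c 2 = 1 - c 0 - c 1 := by unfold sg at h1; linarith
  unfold rr ss
  rw [h2]
  ring

/-- `Ff` of a positive vector -/
lemma Ff_vec {x y z m g : ℝ} (hx : 0 < x) (hy : 0 < y) (hz : 0 < z) (hm : x * y * z = m)
    (hg : gm ![x, y, z] = g) :
    Ff ![x, y, z] = 27 / 2 * m * (1 / (x + y + z)) ^ 2 - 3 / 4 * (x + y + z) +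
      3 / 2 * Rf ![x, y, z] + g / 2 - g ^ 2 / 4 * (1 / (x + y + z)) := by
  have hs : 0 < x + y + z := by positivity
  unfold Ff Sf Rf
  rw [hg, ← hm]
  unfold sg
  simp only [Matrix.cons_val_zero, Matrix.cons_val_one, Matrix.cons_val]
  field_simp
  ring

lemma gm_vec {p q : V3} (hp : Pos p) (hq : Pos q) {x y z : ℝ}
    (h : x * y * z = p 0 * p 1 * p 2 * (q 0 * q 1 * q 2)) :
    gm ![x, y, z] = gm p * gm q / 3 := by
  have h0 := hp 0
  have h1 := hp 1
  have h2 := hp 2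
  have k0 := hq 0
  have k1 := hq 1
  have k2 := hq 2
  unfold gm
  simp only [Matrix.cons_val_zero, Matrix.cons_val_one, Matrix.cons_val]
  rw [h, Real.mul_rpow (by positivity) (by positivity)]
  ring

/-- six reciprocals: Cauchy-Schwarz in the two forms needed -/
lemma six_cs {a b c d e f : ℝ} (ha : 0 < a) (hb : 0 < b) (hc : 0 < c) (hd : 0 < d) (he : 0 < e)
    (hf : 0 < f) (hs : a + b + c + d + e + f = 2) :
    18 ≤ 1 / a + 1 / b + 1 / c + 1 / d + 1 / e + 1 / f := by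
  have key : ∀ t : ℝ, 0 < t → 6 - 9 * t ≤ 1 / t := by
    intro t ht
    rw [le_div_iff₀ ht]
    nlinarith [sq_nonneg (3 * t - 1)]
  linarith [key a ha, key b hb, key c hc, key d hd, key e he, key f hf]

lemma six_sq (a b c d e f : ℝ) :
    (a + b + c + d + e + f) ^ 2 ≤ 6 * (a ^ 2 + b ^ 2 + c ^ 2 + d ^ 2 + e ^ 2 + f ^ 2) := by
  nlinarith [sq_nonneg (a - b), sq_nonneg (a - c), sq_nonneg (a - d), sq_nonneg (a - e),
    sq_nonneg (a - f), sq_nonneg (b - c), sq_nonneg (b - d), sq_nonneg (b - e), sq_nonneg (b - f),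
    sq_nonneg (c - d), sq_nonneg (c - e), sq_nonneg (c - f), sq_nonneg (d - e), sq_nonneg (d - f),
    sq_nonneg (e - f)]

/-- one term of `w (1/Z - 2 + Z) ≤ (Z - 1)²` for `w ≤ Z`, `Z = 3 s` -/
lemma term_le {w t : ℝ} (ht : 0 < t) (hw : w ≤ 3 * t) :
    w * (1 / 3 * (1 / t) - 2 + 3 * t) ≤ (3 * t - 1) ^ 2 := by
  have h : 1 / 3 * (1 / t) - 2 + 3 * t = (3 * t - 1) ^ 2 / (3 * t) := by
    field_simp
    ring
  rw [h]
  calc w * ((3 * t - 1) ^ 2 / (3 * t)) ≤ 3 * t * ((3 * t - 1) ^ 2 / (3 * t)) :=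
        mul_le_mul_of_nonneg_right hw (by positivity)
    _ = (3 * t - 1) ^ 2 := by field_simp

end PB

open PB

/-- normalised version -/
theorem pt_prod_one {p q : V3} (hp : Pos p) (hq : Pos q) (hp1 : sg p = 1) (hq1 : sg q = 1) :
    Df q * Ff p + Df p * Ff q ≤ 1 / 2 * S6 Ff p q := by
  have p0 := hp 0
  have p1 := hp 1
  have p2 := hp 2
  have q0 := hq 0
  have q1 := hq 1
  have q2 := hq 2
  have hRf := R_formula hp hq hp1 hq1
  obtain ⟨hA, hB⟩ := denom_pos hp hq hp1 hq1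
  -- lower bound of `R`
  have hR : rr p + rr q - 3 / 2 * (rr p * rr q) - rr p * ss q - ss p * rr q + 2 * (ss p * ss q) ≤
      1 / 2 * S6 Rf p q := by
    have hc := certL3 (p := p) (q := q) ⟨fun i => (hp i).le, hp1⟩ ⟨fun i => (hq i).le, hq1⟩
    rw [hRf]
    have hD : 0 < kk (rr p) (ss p) (rr q) (ss q) ^ 2 - 4 * ww (rr p) (ss p) (rr q) (ss q) := by
      rw [← vv_sq]
      have := mul_pos hA hB
      nlinarith
    have hle : (2 * aa (rr p) (ss p) (rr q) (ss q) * kk (rr p) (ss p) (rr q) (ss q) +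
        4 * bb (rr p) (rr q) * ww (rr p) (ss p) (rr q) (ss q)) /
        (kk (rr p) (ss p) (rr q) (ss q) ^ 2 - 4 * ww (rr p) (ss p) (rr q) (ss q)) ≤
        YY (rr p) (ss p) (rr q) (ss q) := by
      rw [div_le_iff₀ hD]
      nlinarith
    have hY : YY (rr p) (ss p) (rr q) (ss q) =
        5 / 2 * (rr p * rr q) + rr p * ss q + ss p * rr q - 2 * (ss p * ss q) := rfl
    rw [hY] at hle
    linarith
  -- the six masses
  obtain ⟨t1, ht1⟩ : ∃ t, t = p 0 * q 0 + p 1 * q 1 + p 2 * q 2 := ⟨_, rfl⟩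
  obtain ⟨t2, ht2⟩ : ∃ t, t = p 0 * q 1 + p 1 * q 2 + p 2 * q 0 := ⟨_, rfl⟩
  obtain ⟨t3, ht3⟩ : ∃ t, t = p 0 * q 2 + p 1 * q 0 + p 2 * q 1 := ⟨_, rfl⟩
  obtain ⟨t4, ht4⟩ : ∃ t, t = p 0 * q 1 + p 1 * q 0 + p 2 * q 2 := ⟨_, rfl⟩
  obtain ⟨t5, ht5⟩ : ∃ t, t = p 0 * q 2 + p 1 * q 1 + p 2 * q 0 := ⟨_, rfl⟩
  obtain ⟨t6, ht6⟩ : ∃ t, t = p 0 * q 0 + p 1 * q 2 + p 2 * q 1 := ⟨_, rfl⟩
  have u1 : 0 < t1 := by rw [ht1]; positivity
  have u2 : 0 < t2 := by rw [ht2]; positivity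
  have u3 : 0 < t3 := by rw [ht3]; positivity
  have u4 : 0 < t4 := by rw [ht4]; positivity
  have u5 : 0 < t5 := by rw [ht5]; positivity
  have u6 : 0 < t6 := by rw [ht6]; positivity
  have hpq : (p 0 + p 1 + p 2) * (q 0 + q 1 + q 2) = 1 := by
    unfold sg at hp1 hq1
    rw [hp1, hq1, one_mul]
  have hsum : t1 + t2 + t3 + t4 + t5 + t6 = 2 := by
    rw [ht1, ht2, ht3, ht4, ht5, ht6]
    linarith
  set m := p 0 * p 1 * p 2 * (q 0 * q 1 * q 2) with hm
  set g := gm p * gm q / 3 with hg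
  -- expand `S6 Ff`
  have hS : 1 / 2 * S6 Ff p q = 27 / 4 * m * ((1 / t1) ^ 2 + (1 / t2) ^ 2 + (1 / t3) ^ 2 +
      (1 / t4) ^ 2 + (1 / t5) ^ 2 + (1 / t6) ^ 2) - 3 / 4 + 3 / 2 * (1 / 2 * S6 Rf p q) +
      3 / 2 * g - g ^ 2 / 8 * (1 / t1 + 1 / t2 + 1 / t3 + 1 / t4 + 1 / t5 + 1 / t6) := by
    rw [S6_eq Ff, S6_eq Rf]
    rw [Ff_vec (m := m) (g := g) (by positivity) (by positivity) (by positivity) (by rw [hm]; ring)
        (gm_vec hp hq (by ring)),
      Ff_vec (x := p 0 * q 1) (y := p 1 * q 2) (z := p 2 * q 0) (m := m) (g := g) (by positivity)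
        (by positivity) (by positivity) (by rw [hm]; ring) (gm_vec hp hq (by ring)),
      Ff_vec (x := p 0 * q 2) (y := p 1 * q 0) (z := p 2 * q 1) (m := m) (g := g) (by positivity)
        (by positivity) (by positivity) (by rw [hm]; ring) (gm_vec hp hq (by ring)),
      Ff_vec (x := p 0 * q 1) (y := p 1 * q 0) (z := p 2 * q 2) (m := m) (g := g) (by positivity)
        (by positivity) (by positivity) (by rw [hm]; ring) (gm_vec hp hq (by ring)),
      Ff_vec (x := p 0 * q 2) (y := p 1 * q 1) (z := p 2 * q 0) (m := m) (g := g) (by positivity)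
        (by positivity) (by positivity) (by rw [hm]; ring) (gm_vec hp hq (by ring)),
      Ff_vec (x := p 0 * q 0) (y := p 1 * q 2) (z := p 2 * q 1) (m := m) (g := g) (by positivity)
        (by positivity) (by positivity) (by rw [hm]; ring) (gm_vec hp hq (by ring)),
      ← ht1, ← ht2, ← ht3, ← ht4, ← ht5, ← ht6]
    linear_combination (-3 / 8 : ℝ) * hsum
  -- the two moments
  set e1 := 1 / 18 * (1 / t1 + 1 / t2 + 1 / t3 + 1 / t4 + 1 / t5 + 1 / t6) with he1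
  set e2 := 1 / 54 * ((1 / t1) ^ 2 + (1 / t2) ^ 2 + (1 / t3) ^ 2 +
      (1 / t4) ^ 2 + (1 / t5) ^ 2 + (1 / t6) ^ 2) with he2
  have h1 : 1 ≤ e1 := by
    have := six_cs u1 u2 u3 u4 u5 u6 hsum
    rw [he1]
    linarith
  have h2 : e1 ^ 2 ≤ e2 := by
    have := six_sq (1 / t1) (1 / t2) (1 / t3) (1 / t4) (1 / t5) (1 / t6)
    rw [he1, he2, mul_pow]
    linarith
  have h3 : gm p * gm q * (e1 - 1) ≤ 2 * (rr p * rr q) := by
    have hw : ∀ {x y z t : ℝ}, t = x + y + z → 0 < x → 0 < y → 0 < z →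
        x * y * z = p 0 * p 1 * p 2 * (q 0 * q 1 * q 2) → gm p * gm q ≤ 3 * t := by
      intro x y z t ht hx hy hz hxyz
      have h4 := gm_le_sg (c := ![x, y, z]) (by
        intro i
        fin_cases i
        · exact hx.le
        · exact hy.le
        · exact hz.le)
      rw [gm_vec hp hq hxyz] at h4
      have h5 : sg ![x, y, z] = t := by
        rw [ht]
        unfold sg
        simp only [Matrix.cons_val_zero, Matrix.cons_val_one, Matrix.cons_val]
      rw [h5] at h4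
      linarith
    have a1 := term_le u1 (hw ht1 (by positivity) (by positivity) (by positivity) (by ring))
    have a2 := term_le u2 (hw ht2 (by positivity) (by positivity) (by positivity) (by ring))
    have a3 := term_le u3 (hw ht3 (by positivity) (by positivity) (by positivity) (by ring))
    have a4 := term_le u4 (hw ht4 (by positivity) (by positivity) (by positivity) (by ring))
    have a5 := term_le u5 (hw ht5 (by positivity) (by positivity) (by positivity) (by ring))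
    have a6 := term_le u6 (hw ht6 (by positivity) (by positivity) (by positivity) (by ring))
    have hvar : (3 * t1 - 1) ^ 2 + (3 * t2 - 1) ^ 2 + (3 * t3 - 1) ^ 2 + (3 * t4 - 1) ^ 2 +
        (3 * t5 - 1) ^ 2 + (3 * t6 - 1) ^ 2 = 12 * (rr p * rr q) := by
      have hq2 : q 2 = 1 - q 0 - q 1 := by unfold sg at hq1; linarith
      have hp2 : p 2 = 1 - p 0 - p 1 := by unfold sg at hp1; linarith
      rw [ht1, ht2, ht3, ht4, ht5, ht6]
      unfold rr
      rw [hq2, hp2]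
      ring
    have hlin : gm p * gm q * (1 / 3 * (1 / t1) - 2 + 3 * t1) +
        gm p * gm q * (1 / 3 * (1 / t2) - 2 + 3 * t2) +
        gm p * gm q * (1 / 3 * (1 / t3) - 2 + 3 * t3) +
        gm p * gm q * (1 / 3 * (1 / t4) - 2 + 3 * t4) +
        gm p * gm q * (1 / 3 * (1 / t5) - 2 + 3 * t5) +
        gm p * gm q * (1 / 3 * (1 / t6) - 2 + 3 * t6) = 6 * (gm p * gm q * (e1 - 1)) := by
      rw [he1]
      linear_combination 3 * gm p * gm q * hsum
    linarith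
  have hcore := core (gm_pos hp) (gm_pos hq) (cube_eq hp hp1) (cube_eq hq hq1) (rr_nonneg p)
    (rr_nonneg q) (gm_sq_le hp hp1) (gm_sq_le hq hq1) hR h1 h2 h3
  rw [Df_one hp hp1, Df_one hq hq1, Ff_one hp1, Ff_one hq1, hS]
  refine hcore.trans (le_of_eq ?_)
  have hmg : m = gm p ^ 3 * gm q ^ 3 / 729 := by
    rw [gm_cube (fun i => (hp i).le), gm_cube (fun i => (hq i).le), hm]
    ring
  rw [hmg, hg, he1, he2]
  ring

namespace PB

lemma Pos.smul {c : V3} (hc : Pos c) {t : ℝ} (ht : 0 < t) : Pos (fun i => t * c i) :=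
  fun i => mul_pos ht (hc i)

lemma Ff_smul {c : V3} (hc : Pos c) {t : ℝ} (ht : 0 < t) : Ff (fun i => t * c i) = t * Ff c := by
  have h0 := hc 0
  have h1 := hc 1
  have h2 := hc 2
  have hg : gm (fun i => t * c i) = t * gm c := by
    unfold gm
    have : t * c 0 * (t * c 1) * (t * c 2) = t ^ 3 * (c 0 * c 1 * c 2) := by ring
    simp only
    rw [this, Real.mul_rpow (by positivity) (by positivity)]
    have h3 : (t ^ 3) ^ ((1 / 3 : ℝ)) = t := by
      rw [← Real.rpow_natCast, ← Real.rpow_mul ht.le]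
      norm_num
    rw [h3]
    ring
  have hs : sg (fun i => t * c i) = t * sg c := by
    unfold sg
    ring
  have hsp : 0 < sg c := by
    unfold sg
    positivity
  unfold Ff Sf
  rw [hg, hs]
  field_simp

lemma Df_smul {c : V3} (hc : Pos c) {t : ℝ} (ht : 0 < t) : Df (fun i => t * c i) = t * Df c := by
  have h0 := hc 0
  have h1 := hc 1
  have h2 := hc 2
  have hs : sg (fun i => t * c i) = t * sg c := by
    unfold sg
    ring
  have hsp : 0 < sg c := by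
    unfold sg
    positivity
  unfold Df
  rw [hs]
  field_simp

lemma S6_smul {F : V3 → ℝ} (hF : ∀ c : V3, Pos c → ∀ t : ℝ, 0 < t → F (fun i => t * c i) = t * F c)
    {p q : V3} (hp : Pos p) (hq : Pos q) {t u : ℝ} (ht : 0 < t) (hu : 0 < u) :
    S6 F (fun i => t * p i) (fun i => u * q i) = t * u * S6 F p q := by
  unfold S6
  rw [Finset.mul_sum]
  refine Finset.sum_congr rfl fun π _ => ?_
  rw [← hF (fun i => p i * q (π i)) (fun i => mul_pos (hp i) (hq (π i))) (t * u) (mul_pos ht hu)]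
  congr 1
  funext i
  ring

end PB

/-- the functional `Ff` is preserved by the product step -/
theorem pt_prod {p q : V3} (hp : Pos p) (hq : Pos q) :
    Df q * Ff p + Df p * Ff q ≤ 1 / 2 * S6 Ff p q := by
  have hsp : 0 < sg p := by
    unfold sg
    have := hp 0
    have := hp 1
    have := hp 2
    positivity
  have hsq : 0 < sg q := by
    unfold sg
    have := hq 0
    have := hq 1
    have := hq 2
    positivity
  obtain ⟨P, hP, hP1, hpP⟩ : ∃ P : V3, Pos P ∧ sg P = 1 ∧ p = fun i => sg p * P i := by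
    refine ⟨fun i => (sg p)⁻¹ * p i, fun i => mul_pos (inv_pos.mpr hsp) (hp i), ?_, ?_⟩
    · have : sg (fun i => (sg p)⁻¹ * p i) = (sg p)⁻¹ * sg p := by
        simp only [sg]
        ring
      rw [this, inv_mul_cancel₀ hsp.ne']
    · funext i
      rw [← mul_assoc, mul_inv_cancel₀ hsp.ne', one_mul]
  obtain ⟨Q, hQ, hQ1, hqQ⟩ : ∃ Q : V3, Pos Q ∧ sg Q = 1 ∧ q = fun i => sg q * Q i := by
    refine ⟨fun i => (sg q)⁻¹ * q i, fun i => mul_pos (inv_pos.mpr hsq) (hq i), ?_, ?_⟩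
    · have : sg (fun i => (sg q)⁻¹ * q i) = (sg q)⁻¹ * sg q := by
        simp only [sg]
        ring
      rw [this, inv_mul_cancel₀ hsq.ne']
    · funext i
      rw [← mul_assoc, mul_inv_cancel₀ hsq.ne', one_mul]
  generalize sg p = t at *
  generalize sg q = u at *
  subst hpP hqQ
  have h := pt_prod_one hP hQ hP1 hQ1
  rw [Df_smul hQ hsq, Ff_smul hP hsp, Df_smul hP hsp, Ff_smul hQ hsq,
    S6_smul (fun c hc t ht => Ff_smul hc ht) hP hQ hsp hsq]
  have htu : 0 ≤ t * u := (mul_pos hsp hsq).le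
  calc u * Df Q * (t * Ff P) + t * Df P * (u * Ff Q) = t * u * (Df Q * Ff P + Df P * Ff Q) := by ring
    _ ≤ t * u * (1 / 2 * S6 Ff P Q) := mul_le_mul_of_nonneg_left h htu
    _ = 1 / 2 * (t * u * S6 Ff P Q) := by ring

end Vale.Agent.P154
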