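import Vale.Agent.P154.GDefs

/-! P154, four states: the functional `f = s - a r² + b w + g r s` in Klein-four coordinates, its
channel step, its value at a vertex and its size. -/

namespace Vale.Agent.P154.Q4

open Vale.Agent.P154.G

theorem sgE (c : V 4) : sg c = c 0 + c 1 + c 2 + c 3 := by
  simp [sg, Fin.sum_univ_four]

theorem sg_nn {c : V 4} (hc : ∀ i, 0 ≤ c i) : 0 ≤ sg c := Finset.sum_nonneg fun i _ => hc i

/-- first Klein-four coordinate -/
noncomputable def al (c : V 4) : ℝ := (c 0 + c 1 - c 2 - c 3) / sg c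
/-- second Klein-four coordinate -/
noncomputable def be (c : V 4) : ℝ := (c 0 - c 1 + c 2 - c 3) / sg c
/-- third Klein-four coordinate -/
noncomputable def ga (c : V 4) : ℝ := (c 0 - c 1 - c 2 + c 3) / sg c

/-- `r`: squared distance from uniform, `1` at a vertex -/
noncomputable def rr (c : V 4) : ℝ := (al c ^ 2 + be c ^ 2 + ga c ^ 2) / 3
/-- `s`: cubic invariant, `1` at a vertex -/
noncomputable def ss (c : V 4) : ℝ := al c * be c * ga c
/-- `w = ∏ (4 p_i - 1)`: quartic invariant, `-3` at a vertex -/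
noncomputable def ww (c : V 4) : ℝ :=
  9 * rr c ^ 2 - 4 * (al c ^ 2 * be c ^ 2 + be c ^ 2 * ga c ^ 2 + ga c ^ 2 * al c ^ 2)

/-- the functional `f = s - a r² + b w + g r s` (made homogeneous) -/
noncomputable def FQ (a b g : ℝ) (c : V 4) : ℝ :=
  sg c * (ss c - a * rr c ^ 2 + b * ww c + g * (rr c * ss c))

theorem sg0 {c : V 4} (hc : ∀ i, 0 ≤ c i) (h : sg c = 0) : ∀ i, c i = 0 := fun i =>
  (Finset.sum_eq_zero_iff_of_nonneg fun i _ => hc i).1 h i (Finset.mem_univ i)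

theorem coord (c : V 4) (h : sg c ≠ 0) :
    4 * c 0 = sg c * (1 + al c + be c + ga c) ∧ 4 * c 1 = sg c * (1 + al c - be c - ga c) ∧
    4 * c 2 = sg c * (1 - al c + be c - ga c) ∧ 4 * c 3 = sg c * (1 - al c - be c + ga c) := by
  unfold al be ga
  refine ⟨?_, ?_, ?_, ?_⟩ <;> · field_simp; rw [sgE]; ring

theorem faces {c : V 4} (hc : ∀ i, 0 ≤ c i) :
    0 ≤ 1 + al c + be c + ga c ∧ 0 ≤ 1 + al c - be c - ga c ∧
    0 ≤ 1 - al c + be c - ga c ∧ 0 ≤ 1 - al c - be c + ga c := by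
  by_cases h : sg c = 0
  · simp [al, be, ga, h]
  have hs : 0 < sg c := lt_of_le_of_ne (sg_nn hc) (Ne.symm h)
  obtain ⟨h0, h1, h2, h3⟩ := coord c h
  refine ⟨?_, ?_, ?_, ?_⟩
  · refine nonneg_of_mul_nonneg_right (a := sg c) ?_ hs
    rw [← h0]; linarith [hc 0]
  · refine nonneg_of_mul_nonneg_right (a := sg c) ?_ hs
    rw [← h1]; linarith [hc 1]
  · refine nonneg_of_mul_nonneg_right (a := sg c) ?_ hs
    rw [← h2]; linarith [hc 2]
  · refine nonneg_of_mul_nonneg_right (a := sg c) ?_ hs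
    rw [← h3]; linarith [hc 3]

theorem abs_al {c : V 4} (hc : ∀ i, 0 ≤ c i) : al c ^ 2 ≤ 1 ∧ be c ^ 2 ≤ 1 ∧ ga c ^ 2 ≤ 1 := by
  obtain ⟨h0, h1, h2, h3⟩ := faces hc
  refine ⟨?_, ?_, ?_⟩ <;> nlinarith

theorem rr_nn (c : V 4) : 0 ≤ rr c := by unfold rr; positivity

theorem rr_le {c : V 4} (hc : ∀ i, 0 ≤ c i) : rr c ≤ 1 := by
  obtain ⟨h0, h1, h2⟩ := abs_al hc
  unfold rr
  linarith

theorem Rf_rr (c : V 4) : Rf c = sg c * rr c := by
  by_cases h : sg c = 0
  · have : (∑ i, c i) = 0 := h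
    simp [Rf, this, h]
  have h' : (∑ i, c i) ≠ 0 := h
  have he : Rf c = (4 * (c 0 ^ 2 + c 1 ^ 2 + c 2 ^ 2 + c 3 ^ 2) - sg c ^ 2) / (3 * sg c) := by
    unfold Rf
    simp only [Fin.sum_univ_four, sgE]
    norm_num
  rw [he]
  unfold rr al be ga
  field_simp
  rw [sgE]
  ring

theorem sg_chan' (lam : ℝ) (c : V 4) : sg (chan lam c) = sg c := by
  simp only [sgE, chan]
  push_cast
  ring

theorem al_chan (lam : ℝ) (c : V 4) : al (chan lam c) = lam * al c := by
  unfold al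
  rw [sg_chan']
  simp only [chan]
  ring

theorem be_chan (lam : ℝ) (c : V 4) : be (chan lam c) = lam * be c := by
  unfold be
  rw [sg_chan']
  simp only [chan]
  ring

theorem ga_chan (lam : ℝ) (c : V 4) : ga (chan lam c) = lam * ga c := by
  unfold ga
  rw [sg_chan']
  simp only [chan]
  ring

theorem rr_chan (lam : ℝ) (c : V 4) : rr (chan lam c) = lam ^ 2 * rr c := by
  unfold rr; rw [al_chan, be_chan, ga_chan]; ring

theorem ss_chan (lam : ℝ) (c : V 4) : ss (chan lam c) = lam ^ 3 * ss c := by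
  unfold ss; rw [al_chan, be_chan, ga_chan]; ring

theorem ww_chan (lam : ℝ) (c : V 4) : ww (chan lam c) = lam ^ 4 * ww c := by
  unfold ww; rw [rr_chan, al_chan, be_chan, ga_chan]; ring

theorem sg_smul (t : ℝ) (c : V 4) : sg (fun i => t * c i) = t * sg c := by
  simp only [sgE]; ring

theorem al_smul {t : ℝ} (ht : t ≠ 0) (c : V 4) : al (fun i => t * c i) = al c := by
  unfold al
  rw [sg_smul, ← mul_div_mul_left _ (sg c) ht]
  ring_nf

theorem be_smul {t : ℝ} (ht : t ≠ 0) (c : V 4) : be (fun i => t * c i) = be c := by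
  unfold be
  rw [sg_smul, ← mul_div_mul_left _ (sg c) ht]
  ring_nf

theorem ga_smul {t : ℝ} (ht : t ≠ 0) (c : V 4) : ga (fun i => t * c i) = ga c := by
  unfold ga
  rw [sg_smul, ← mul_div_mul_left _ (sg c) ht]
  ring_nf

theorem FQ_smul (a b g t : ℝ) (c : V 4) : FQ a b g (fun i => t * c i) = t * FQ a b g c := by
  by_cases ht : t = 0
  · subst ht
    unfold FQ
    rw [sg_smul]
    simp
  · unfold FQ ww rr ss
    rw [al_smul ht, be_smul ht, ga_smul ht, sg_smul]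
    ring

theorem FQ_one (a b g : ℝ) : FQ a b g (fun _ => 1) = 0 := by
  have h1 : al (fun _ => 1) = 0 := by unfold al; norm_num
  have h2 : be (fun _ => 1) = 0 := by unfold be; norm_num
  have h3 : ga (fun _ => 1) = 0 := by unfold ga; norm_num
  unfold FQ ww rr ss
  rw [h1, h2, h3]
  ring

theorem FQ_leaf (a b g : ℝ) (i : Fin 4) :
    FQ a b g (fun j => if i = j then 1 else 0) = 1 - a - 3 * b + g := by
  have hs : sg (fun j : Fin 4 => if i = j then (1 : ℝ) else 0) = 1 := by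
    rw [sgE]; fin_cases i <;> simp
  unfold FQ ww ss
  unfold rr al be ga
  rw [hs]
  fin_cases i <;> simp <;> ring

theorem ss_abs {c : V 4} (hc : ∀ i, 0 ≤ c i) : |ss c| ≤ rr c := by
  obtain ⟨h0, h1, h2⟩ := abs_al hc
  have k : ss c ^ 2 ≤ rr c ^ 3 := by
    unfold ss rr
    have hx := sq_nonneg (al c); have hy := sq_nonneg (be c); have hz := sq_nonneg (ga c)
    set x := al c ^ 2 with hxd
    set y := be c ^ 2 with hyd
    set z := ga c ^ 2 with hzd
    have e1 : (al c * be c * ga c) ^ 2 = x * y * z := by rw [hxd, hyd, hzd]; ring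
    rw [e1]
    nlinarith [mul_nonneg hx (sq_nonneg (y - z)), mul_nonneg hy (sq_nonneg (x - z)),
      mul_nonneg hz (sq_nonneg (x - y)), mul_nonneg hx (sq_nonneg (x - y)),
      mul_nonneg hx (sq_nonneg (x - z)), mul_nonneg hy (sq_nonneg (x - y)),
      mul_nonneg hy (sq_nonneg (y - z)), mul_nonneg hz (sq_nonneg (x - z)),
      mul_nonneg hz (sq_nonneg (y - z))]
  have hr0 := rr_nn c
  have hr1 := rr_le hc
  refine abs_le_of_sq_le_sq ?_ hr0
  have : rr c ^ 3 ≤ rr c ^ 2 := pow_le_pow_of_le_one hr0 hr1 (by norm_num)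
  linarith

/-- `e = x²y² + y²z² + z²x²` dominates `3 r s` -/
theorem e_ge {c : V 4} (hc : ∀ i, 0 ≤ c i) :
    3 * (rr c * ss c) ≤
      al c ^ 2 * be c ^ 2 + be c ^ 2 * ga c ^ 2 + ga c ^ 2 * al c ^ 2 := by
  have hr0 := rr_nn c
  have hr1 := rr_le hc
  have he : 0 ≤ al c ^ 2 * be c ^ 2 + be c ^ 2 * ga c ^ 2 + ga c ^ 2 * al c ^ 2 := by positivity
  refine le_of_sq_le_sq ?_ he
  have h1 : (3 * (rr c * ss c)) ^ 2 ≤ 9 * rr c * ss c ^ 2 := by
    have : rr c ^ 2 ≤ rr c := by nlinarith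
    nlinarith [sq_nonneg (ss c), mul_le_mul_of_nonneg_right this (sq_nonneg (ss c))]
  refine h1.trans ?_
  unfold rr ss
  nlinarith [sq_nonneg (al c ^ 2 * be c ^ 2 - be c ^ 2 * ga c ^ 2),
    sq_nonneg (be c ^ 2 * ga c ^ 2 - ga c ^ 2 * al c ^ 2),
    sq_nonneg (ga c ^ 2 * al c ^ 2 - al c ^ 2 * be c ^ 2)]

theorem ww_bd {c : V 4} (hc : ∀ i, 0 ≤ c i) : |ww c| ≤ 12 := by
  obtain ⟨h0, h1, h2⟩ := abs_al hc
  have hr0 := rr_nn c
  have hr1 := rr_le hc
  have k1 : al c ^ 2 * be c ^ 2 ≤ 1 := by nlinarith [sq_nonneg (al c), sq_nonneg (be c)]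
  have k2 : be c ^ 2 * ga c ^ 2 ≤ 1 := by nlinarith [sq_nonneg (be c), sq_nonneg (ga c)]
  have k3 : ga c ^ 2 * al c ^ 2 ≤ 1 := by nlinarith [sq_nonneg (ga c), sq_nonneg (al c)]
  have k4 : 0 ≤ al c ^ 2 * be c ^ 2 := by positivity
  have k5 : 0 ≤ be c ^ 2 * ga c ^ 2 := by positivity
  have k6 : 0 ≤ ga c ^ 2 * al c ^ 2 := by positivity
  have k7 : rr c ^ 2 ≤ 1 := by nlinarith
  have k8 : 0 ≤ rr c ^ 2 := by positivity
  unfold ww
  rw [abs_le]
  constructor <;> linarith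

theorem FQ_bd {a b g : ℝ} (ha : 0 ≤ a) (hb : 0 ≤ b) (hg : 0 ≤ g) {c : V 4}
    (hc : ∀ i, 0 ≤ c i) : |FQ a b g c| ≤ (1 + a + 12 * b + g) * sg c := by
  have hs := sg_nn hc
  have hr0 := rr_nn c
  have hr1 := rr_le hc
  have h1 := abs_le.1 (ss_abs hc)
  have h2 := abs_le.1 (ww_bd hc)
  have h3 : rr c ^ 2 ≤ 1 := by nlinarith
  have h3' : 0 ≤ rr c ^ 2 := by positivity
  have h4 : |rr c * ss c| ≤ 1 := by
    rw [abs_mul, abs_of_nonneg hr0]
    have := ss_abs hc
    nlinarith [abs_nonneg (ss c)]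
  have h4' := abs_le.1 h4
  have h5 : a * rr c ^ 2 ≤ a := by nlinarith
  have h5' : 0 ≤ a * rr c ^ 2 := mul_nonneg ha h3'
  have h6 : b * ww c ≤ 12 * b := by nlinarith [h2.2]
  have h6' : -(12 * b) ≤ b * ww c := by nlinarith [h2.1]
  have h7 : g * (rr c * ss c) ≤ g := by nlinarith [h4'.2]
  have h7' : -g ≤ g * (rr c * ss c) := by nlinarith [h4'.1]
  unfold FQ
  rw [abs_mul, abs_of_nonneg hs, mul_comm]
  refine mul_le_mul_of_nonneg_right ?_ hs
  rw [abs_le]
  constructor <;> linarith [h1.1, h1.2]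

/-- the channel step -/
theorem FQ_chan {a b g : ℝ} (hb : 0 ≤ b) (hg : 0 ≤ g) (hab : 9 * b ≤ a)
    (hag : 2 * g ≤ a + 3 * b) {lam : ℝ} (h0 : 0 ≤ lam) (h1 : lam ≤ 1)
    {c : V 4} (hc : ∀ i, 0 ≤ c i) : lam ^ 3 * FQ a b g c ≤ FQ a b g (chan lam c) := by
  have hs := sg_nn hc
  unfold FQ
  rw [sg_chan', ss_chan, rr_chan, ww_chan]
  have hr0 := rr_nn c
  have hr1 := rr_le hc
  have he := e_ge hc
  have hs2 := abs_le.1 (ss_abs hc)
  set e := al c ^ 2 * be c ^ 2 + be c ^ 2 * ga c ^ 2 + ga c ^ 2 * al c ^ 2 with hed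
  have hw : ww c = 9 * rr c ^ 2 - 4 * e := rfl
  have he0 : 0 ≤ e := by rw [hed]; positivity
  -- the key inequality
  have key : 0 ≤ a * rr c ^ 2 - b * ww c - (1 + lam) * g * (rr c * ss c) := by
    rw [hw]
    rcases le_total (ss c) 0 with hneg | hpos
    · have k1 : 0 ≤ (a - 9 * b) * rr c ^ 2 := mul_nonneg (by linarith) (by positivity)
      have k2 : 0 ≤ 4 * b * e := by positivity
      have k3 : 0 ≤ (1 + lam) * g * (rr c * (-ss c)) := by
        have : 0 ≤ -ss c := by linarith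
        positivity
      nlinarith
    · have k0 : (1 + lam) * g * (rr c * ss c) ≤ 2 * g * (rr c * ss c) := by
        have : 0 ≤ g * (rr c * ss c) := by positivity
        nlinarith
      have k2 : 4 * b * (3 * (rr c * ss c)) ≤ 4 * b * e :=
        mul_le_mul_of_nonneg_left he (by positivity)
      have k3 : rr c * ss c ≤ rr c ^ 2 := by nlinarith [hs2.2]
      have k4 : 0 ≤ rr c * ss c := by positivity
      have k5 : (2 * g - 12 * b) * (rr c * ss c) ≤ (a - 9 * b) * rr c ^ 2 := by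
        calc (2 * g - 12 * b) * (rr c * ss c) ≤ (a - 9 * b) * (rr c * ss c) :=
              mul_le_mul_of_nonneg_right (by linarith) k4
          _ ≤ (a - 9 * b) * rr c ^ 2 := mul_le_mul_of_nonneg_left k3 (by linarith)
      linarith
  have hfin : 0 ≤ lam ^ 3 * (1 - lam) * sg c *
      (a * rr c ^ 2 - b * ww c - (1 + lam) * g * (rr c * ss c)) := by
    have : 0 ≤ 1 - lam := by linarith
    positivity
  nlinarith [hfin]

end Vale.Agent.P154.Q4
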