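import Vale.Agent.P154.Q4G

/-! P154, four states: the frozen functional `f` and the one-vector inequalities for it -/

namespace Vale.Agent.P154.Q4

open Vale.Agent.P154.G

/-- `f = s - (33/25) r² + (21/500) w + (24/25) r s - (17/200) r³ - (1/20) s² + (13/250) r w`,
homogeneous -/
noncomputable def F4 : V 4 → ℝ :=
  FG (33 / 25) (21 / 500) (24 / 25) (-17 / 200) (-1 / 20) (13 / 250)

theorem F4_K1 (v : V 4) (hv : ∀ i, 0 ≤ v i) : 0 ≤ (33 / 25) * rr v ^ 2 - (21 / 500) * ww v - 2 * (24 / 25) * (rr v * ss v) -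
      3 * ((-17 / 200) * rr v ^ 3 + (-1 / 20) * ss v ^ 2 + (13 / 250) * (rr v * ww v)) := by
  refine inv_ineq (Q := fun r s w => (33 / 25) * r ^ 2 - (21 / 500) * w - 2 * (24 / 25) * (r * s) -
      3 * ((-17 / 200) * r ^ 3 + (-1 / 20) * s ^ 2 + (13 / 250) * (r * w))) (by norm_num) ?_ v hv
  intro a b c d ha hb hc hd hS
  have key : (fun r s w => (33 / 25) * r ^ 2 - (21 / 500) * w - 2 * (24 / 25) * (r * s) -
      3 * ((-17 / 200) * r ^ 3 + (-1 / 20) * s ^ 2 + (13 / 250) * (r * w)) : ℝ → ℝ → ℝ → ℝ) (((a + 2 * b + c) ^ 2 + (a + c) ^ 2 + (a - c) ^ 2) / 3 /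
          (a + 2 * b + 3 * c + 4 * d) ^ 2)
        ((a + 2 * b + c) * (a + c) * (a - c) / (a + 2 * b + 3 * c + 4 * d) ^ 3)
        ((3 * a + 2 * b + c) * (2 * b + c - a) * (c - a - 2 * b) * (-(a + 2 * b + 3 * c)) /
          (a + 2 * b + 3 * c + 4 * d) ^ 4) =
      (3591 * a ^ 6 + 26028 * a ^ 5 * b + 30510 * a ^ 5 * c + 34992 * a ^ 5 * d +
        92508 * a ^ 4 * b ^ 2 + 220236 * a ^ 4 * b * c + 255456 * a ^ 4 * b * d +
        143961 * a ^ 4 * c ^ 2 + 335952 * a ^ 4 * c * d + 208224 * a ^ 4 * d ^ 2 +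
        168736 * a ^ 3 * b ^ 3 + 591600 * a ^ 3 * b ^ 2 * c + 676992 * a ^ 3 * b ^ 2 * d +
        731256 * a ^ 3 * b * c ^ 2 + 1232256 * a ^ 3 * b * c * d +
        555264 * a ^ 3 * b * d ^ 2 + 295556 * a ^ 3 * c ^ 3 + 560352 * a ^ 3 * c ^ 2 * d +
        277632 * a ^ 3 * c * d ^ 2 + 173808 * a ^ 2 * b ^ 4 + 774240 * a ^ 2 * b ^ 3 * c +
        853248 * a ^ 2 * b ^ 3 * d + 1451112 * a ^ 2 * b ^ 2 * c ^ 2 +
        2076288 * a ^ 2 * b ^ 2 * c * d + 796416 * a ^ 2 * b ^ 2 * d ^ 2 +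
        1225560 * a ^ 2 * b * c ^ 3 + 1972800 * a ^ 2 * b * c ^ 2 * d +
        796416 * a ^ 2 * b * c * d ^ 2 + 391113 * a ^ 2 * c ^ 4 +
        754848 * a ^ 2 * c ^ 3 * d + 379968 * a ^ 2 * c ^ 2 * d ^ 2 + 107328 * a * b ^ 5 +
        569760 * a * b ^ 4 * c + 602880 * a * b ^ 4 * d + 1439712 * a * b ^ 3 * c ^ 2 +
        1688064 * a * b ^ 3 * c * d + 482304 * a * b ^ 3 * d ^ 2 +
        1903344 * a * b ^ 2 * c ^ 3 + 2556288 * a * b ^ 2 * c ^ 2 * d +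
        723456 * a * b ^ 2 * c * d ^ 2 + 1275228 * a * b * c ^ 4 +
        2026368 * a * b * c ^ 3 * d + 796416 * a * b * c ^ 2 * d ^ 2 +
        353646 * a * c ^ 5 + 635760 * a * c ^ 4 * d + 277632 * a * c ^ 3 * d ^ 2 +
        35776 * b ^ 6 + 227904 * b ^ 5 * c + 241152 * b ^ 5 * d + 719856 * b ^ 4 * c ^ 2 +
        844032 * b ^ 4 * c * d + 241152 * b ^ 4 * d ^ 2 + 1268896 * b ^ 3 * c ^ 3 +
        1704192 * b ^ 3 * c ^ 2 * d + 482304 * b ^ 3 * c * d ^ 2 +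
        1275228 * b ^ 2 * c ^ 4 + 2026368 * b ^ 2 * c ^ 3 * d +
        796416 * b ^ 2 * c ^ 2 * d ^ 2 + 707292 * b * c ^ 5 + 1271520 * b * c ^ 4 * d +
        555264 * b * c ^ 3 * d ^ 2 + 176823 * c ^ 6 + 381456 * c ^ 5 * d +
        208224 * c ^ 4 * d ^ 2) /
        (9000 * (a + 2 * b + 3 * c + 4 * d) ^ 6) := by
    have hne : a + 2 * b + 3 * c + 4 * d ≠ 0 := hS.ne'
    beta_reduce
    field_simp
    ring
  refine le_of_le_of_eq ?_ key.symm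
  positivity

theorem F4_K0 (v : V 4) (hv : ∀ i, 0 ≤ v i) : 0 ≤ (33 / 25) * rr v ^ 2 - (21 / 500) * ww v - (24 / 25) * (rr v * ss v) -
      ((-17 / 200) * rr v ^ 3 + (-1 / 20) * ss v ^ 2 + (13 / 250) * (rr v * ww v)) := by
  refine inv_ineq (Q := fun r s w => (33 / 25) * r ^ 2 - (21 / 500) * w - (24 / 25) * (r * s) -
      ((-17 / 200) * r ^ 3 + (-1 / 20) * s ^ 2 + (13 / 250) * (r * w))) (by norm_num) ?_ v hv
  intro a b c d ha hb hc hd hS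
  have key : (fun r s w => (33 / 25) * r ^ 2 - (21 / 500) * w - (24 / 25) * (r * s) -
      ((-17 / 200) * r ^ 3 + (-1 / 20) * s ^ 2 + (13 / 250) * (r * w)) : ℝ → ℝ → ℝ → ℝ) (((a + 2 * b + c) ^ 2 + (a + c) ^ 2 + (a - c) ^ 2) / 3 /
          (a + 2 * b + 3 * c + 4 * d) ^ 2)
        ((a + 2 * b + c) * (a + c) * (a - c) / (a + 2 * b + 3 * c + 4 * d) ^ 3)
        ((3 * a + 2 * b + c) * (2 * b + c - a) * (c - a - 2 * b) * (-(a + 2 * b + 3 * c)) /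
          (a + 2 * b + 3 * c + 4 * d) ^ 4) =
      (20979 * a ^ 6 + 153468 * a ^ 5 * b + 181062 * a ^ 5 * c + 208656 * a ^ 5 * d +
        481644 * a ^ 4 * b ^ 2 + 1037628 * a ^ 4 * b * c + 1111968 * a ^ 4 * b * d +
        584973 * a ^ 4 * c ^ 2 + 1180656 * a ^ 4 * c * d + 624672 * a ^ 4 * d ^ 2 +
        812704 * a ^ 3 * b ^ 3 + 2441904 * a ^ 3 * b ^ 2 * c +
        2445696 * a ^ 3 * b ^ 2 * d + 2544024 * a ^ 3 * b * c ^ 2 +
        4111488 * a ^ 3 * b * c * d + 1665792 * a ^ 3 * b * d ^ 2 +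
        916052 * a ^ 3 * c ^ 3 + 1750176 * a ^ 3 * c ^ 2 * d +
        832896 * a ^ 3 * c * d ^ 2 + 797232 * a ^ 2 * b ^ 4 +
        3012576 * a ^ 2 * b ^ 3 * c + 2836224 * a ^ 2 * b ^ 3 * d +
        4702920 * a ^ 2 * b ^ 2 * c ^ 2 + 6643584 * a ^ 2 * b ^ 2 * c * d +
        2389248 * a ^ 2 * b ^ 2 * d ^ 2 + 3543096 * a ^ 2 * b * c ^ 3 +
        5918400 * a ^ 2 * b * c ^ 2 * d + 2389248 * a ^ 2 * b * c * d ^ 2 +
        1084509 * a ^ 2 * c ^ 4 + 2195424 * a ^ 2 * c ^ 3 * d +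
        1139904 * a ^ 2 * c ^ 2 * d ^ 2 + 469056 * a * b ^ 5 + 2076960 * a * b ^ 4 * c +
        1808640 * a * b ^ 4 * d + 4317792 * a * b ^ 3 * c ^ 2 +
        5064192 * a * b ^ 3 * c * d + 1446912 * a * b ^ 3 * d ^ 2 +
        5132976 * a * b ^ 2 * c ^ 3 + 7254144 * a * b ^ 2 * c ^ 2 * d +
        2170368 * a * b ^ 2 * c * d ^ 2 + 3269484 * a * b * c ^ 4 +
        5664384 * a * b * c ^ 3 * d + 2389248 * a * b * c ^ 2 * d ^ 2 +
        873990 * a * c ^ 5 + 1734480 * a * c ^ 4 * d + 832896 * a * c ^ 3 * d ^ 2 +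
        156352 * b ^ 6 + 830784 * b ^ 5 * c + 723456 * b ^ 5 * d +
        2158896 * b ^ 4 * c ^ 2 + 2532096 * b ^ 4 * c * d + 723456 * b ^ 4 * d ^ 2 +
        3421984 * b ^ 3 * c ^ 3 + 4836096 * b ^ 3 * c ^ 2 * d +
        1446912 * b ^ 3 * c * d ^ 2 + 3269484 * b ^ 2 * c ^ 4 +
        5664384 * b ^ 2 * c ^ 3 * d + 2389248 * b ^ 2 * c ^ 2 * d ^ 2 +
        1747980 * b * c ^ 5 + 3468960 * b * c ^ 4 * d + 1665792 * b * c ^ 3 * d ^ 2 +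
        436995 * c ^ 6 + 1040688 * c ^ 5 * d + 624672 * c ^ 4 * d ^ 2) /
        (27000 * (a + 2 * b + 3 * c + 4 * d) ^ 6) := by
    have hne : a + 2 * b + 3 * c + 4 * d ≠ 0 := hS.ne'
    beta_reduce
    field_simp
    ring
  refine le_of_le_of_eq ?_ key.symm
  positivity

theorem F4_K00 (v : V 4) (hv : ∀ i, 0 ≤ v i) : 0 ≤ (33 / 25) * rr v ^ 2 - (21 / 500) * ww v - (24 / 25) * (rr v * ss v) := by
  refine inv_ineq (Q := fun r s w => (33 / 25) * r ^ 2 - (21 / 500) * w - (24 / 25) * (r * s)) (by norm_num) ?_ v hv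
  intro a b c d ha hb hc hd hS
  have key : (fun r s w => (33 / 25) * r ^ 2 - (21 / 500) * w - (24 / 25) * (r * s) : ℝ → ℝ → ℝ → ℝ) (((a + 2 * b + c) ^ 2 + (a + c) ^ 2 + (a - c) ^ 2) / 3 /
          (a + 2 * b + 3 * c + 4 * d) ^ 2)
        ((a + 2 * b + c) * (a + c) * (a - c) / (a + 2 * b + 3 * c + 4 * d) ^ 3)
        ((3 * a + 2 * b + c) * (2 * b + c - a) * (c - a - 2 * b) * (-(a + 2 * b + 3 * c)) /
          (a + 2 * b + 3 * c + 4 * d) ^ 4) =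
      (729 * a ^ 5 + 5322 * a ^ 4 * b + 6999 * a ^ 4 * c + 8676 * a ^ 4 * d +
        14104 * a ^ 3 * b ^ 2 + 25672 * a ^ 3 * b * c + 23136 * a ^ 3 * b * d +
        11674 * a ^ 3 * c ^ 2 + 11568 * a ^ 3 * c * d + 17776 * a ^ 2 * b ^ 3 +
        43256 * a ^ 2 * b ^ 2 * c + 33184 * a ^ 2 * b ^ 2 * d +
        41100 * a ^ 2 * b * c ^ 2 + 33184 * a ^ 2 * b * c * d + 15726 * a ^ 2 * c ^ 3 +
        15832 * a ^ 2 * c ^ 2 * d + 12560 * a * b ^ 4 + 35168 * a * b ^ 3 * c +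
        20096 * a * b ^ 3 * d + 53256 * a * b ^ 2 * c ^ 2 + 30144 * a * b ^ 2 * c * d +
        42216 * a * b * c ^ 3 + 33184 * a * b * c ^ 2 * d + 13245 * a * c ^ 4 +
        11568 * a * c ^ 3 * d + 5024 * b ^ 5 + 17584 * b ^ 4 * c + 10048 * b ^ 4 * d +
        35504 * b ^ 3 * c ^ 2 + 20096 * b ^ 3 * c * d + 42216 * b ^ 2 * c ^ 3 +
        33184 * b ^ 2 * c ^ 2 * d + 26490 * b * c ^ 4 + 23136 * b * c ^ 3 * d +
        7947 * c ^ 5 + 8676 * c ^ 4 * d) /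
        (1500 * (a + 2 * b + 3 * c + 4 * d) ^ 5) := by
    have hne : a + 2 * b + 3 * c + 4 * d ≠ 0 := hS.ne'
    beta_reduce
    field_simp
    ring
  refine le_of_le_of_eq ?_ key.symm
  positivity

/-- (A), the channel step -/
theorem F4_chan {lam : ℝ} (h0 : 0 ≤ lam) (h1 : lam ≤ 1) {v : V 4} (hv : ∀ i, 0 ≤ v i) :
    lam ^ 3 * F4 v ≤ F4 (chan lam v) :=
  FG_chan F4_K1 F4_K0 F4_K00 h0 h1 hv

theorem F4_leaf (i : Fin 4) : 0 ≤ F4 (fun j => if i = j then 1 else 0) := by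
  unfold F4
  rw [FG_leaf]
  norm_num

theorem F4_one : F4 (fun _ => 1) = 0 := FG_one _ _ _ _ _ _

theorem F4_smul (t : ℝ) (v : V 4) : F4 (fun i => t * v i) = t * F4 v := FG_smul _ _ _ _ _ _ t v

theorem F4_bd {v : V 4} (hv : ∀ i, 0 ≤ v i) : |F4 v| ≤ 5 * sg v := by
  refine (FG_bd _ _ _ _ _ _ hv).trans ?_
  have := sg_nn hv
  refine mul_le_mul_of_nonneg_right ?_ this
  norm_num [abs_of_pos, abs_of_neg]

theorem F4_eq (v : V 4) : F4 v = sg v * (ss v - 33 / 25 * rr v ^ 2 + 21 / 500 * ww v +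
    24 / 25 * (rr v * ss v) - 17 / 200 * rr v ^ 3 - 1 / 20 * ss v ^ 2 +
    13 / 250 * (rr v * ww v)) := by
  unfold F4 FG
  ring

end Vale.Agent.P154.Q4
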