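import Vale.Agent.P154.Q4Part
import Vale.Agent.P154.Q4One

/-! P154, four states: the invariants `r, s, w` and the functional `f` in terms of the elementary
symmetric functions -/

namespace Vale.Agent.P154.Q4

open Vale.Agent.P154.G

theorem rr_E (v : V 4) (h : sg v ≠ 0) : rr v = 1 - 8 / 3 * (E2 v / sg v ^ 2) := by
  unfold rr al be ga E2
  field_simp
  simp only [sgE]
  ring

theorem ss_E (v : V 4) (h : sg v ≠ 0) :
    ss v = 1 - 4 * (E2 v / sg v ^ 2) + 8 * (E3 v / sg v ^ 3) := by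
  unfold ss al be ga E2 E3
  field_simp
  simp only [sgE]
  ring

theorem ww_E (v : V 4) (h : sg v ≠ 0) :
    ww v = -3 + 16 * (E2 v / sg v ^ 2) - 64 * (E3 v / sg v ^ 3) + 256 * (E4 v / sg v ^ 4) := by
  rw [ww_prod v h]
  unfold E2 E3 E4
  simp only [Fin.prod_univ_four]
  field_simp
  simp only [sgE]
  ring

/-- `f` in terms of `e₂, e₃, e₄` (normalised vectors) -/
noncomputable def PF (x y z : ℝ) : ℝ :=
  223 / 1000 - 9 / 25 * x + 1108 / 125 * y + 3008 / 125 * z - 1492 / 375 * x ^ 2 -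
    3152 / 375 * (x * y) + 1088 / 675 * x ^ 3 - 16 / 5 * y ^ 2 - 13312 / 375 * (x * z)

theorem F4_E (v : V 4) (h : sg v ≠ 0) :
    F4 v = sg v * PF (E2 v / sg v ^ 2) (E3 v / sg v ^ 3) (E4 v / sg v ^ 4) := by
  rw [F4_eq, rr_E v h, ss_E v h, ww_E v h]
  unfold PF
  ring

theorem rr_E1 {v : V 4} (h : sg v = 1) : rr v = 1 - 8 / 3 * E2 v := by
  rw [rr_E v (by rw [h]; norm_num), h]; ring

theorem ss_E1 {v : V 4} (h : sg v = 1) : ss v = 1 - 4 * E2 v + 8 * E3 v := by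
  rw [ss_E v (by rw [h]; norm_num), h]; ring

theorem ww_E1 {v : V 4} (h : sg v = 1) : ww v = -3 + 16 * E2 v - 64 * E3 v + 256 * E4 v := by
  rw [ww_E v (by rw [h]; norm_num), h]; ring

theorem F4_E1 {v : V 4} (h : sg v = 1) : F4 v = PF (E2 v) (E3 v) (E4 v) := by
  rw [F4_E v (by rw [h]; norm_num), h]
  simp

/-- `f` as a rational function of `Z = sg v, e₂, e₃, e₄` -/
theorem F4_rat (v : V 4) (h : sg v ≠ 0) : F4 v = 223 / 1000 * sg v - 9 / 25 * (E2 v / sg v) +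
    1108 / 125 * (E3 v / sg v ^ 2) + 3008 / 125 * (E4 v / sg v ^ 3) -
    1492 / 375 * (E2 v ^ 2 / sg v ^ 3) - 3152 / 375 * (E2 v * E3 v / sg v ^ 4) +
    1088 / 675 * (E2 v ^ 3 / sg v ^ 5) - 16 / 5 * (E3 v ^ 2 / sg v ^ 5) -
    13312 / 375 * (E2 v * E4 v / sg v ^ 5) := by
  rw [F4_E v h]
  unfold PF
  field_simp

end Vale.Agent.P154.Q4
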