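import Vale.Agent.P154.Q4Glue

/-! P154, four states: the invariants of a normalised vector in terms of the elementary symmetric
functions -/

namespace Vale.Agent.P154.Q4

open Vale.Agent.P154.G

theorem Rf_E {c : V 4} (h : sg c = 1) : Rf c = 1 - 8 / 3 * E2 c := by
  have hc : c 3 = 1 - c 0 - c 1 - c 2 := by rw [sgE4] at h; linarith
  have h' : ∑ i, c i = 1 := h
  unfold Rf E2
  rw [h', Fin.sum_univ_four, hc]
  push_cast
  ring

theorem Tsum_append (L L' : List ((Fin 4 → ℕ) × ℝ)) (v : V 4) :
    Tsum (L ++ L') v = Tsum L v + Tsum L' v := by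
  unfold Tsum
  rw [List.map_append, List.sum_append]

theorem Ksum_append (L L' : List ((Fin 4 → ℕ) × ℝ)) (p r : V 4) :
    Ksum (L ++ L') p r = Ksum L p r + Ksum L' p r := by
  unfold Ksum
  rw [List.map_append, List.sum_append]

lemma mo_0_0_0_0 (v : V 4) : mono ![0, 0, 0, 0] v = 24 := by
  rw [mono_eq]; norm_num

end Vale.Agent.P154.Q4
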