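import Vale.Agent.P154.Q4Part

/-! P154, four states: the elementary symmetric functions are symmetric and nonnegative -/

namespace Vale.Agent.P154.Q4

open Vale.Agent.P154.G

lemma E2_newton (v : V 4) : E2 v = ((∑ i, v i) ^ 2 - ∑ i, v i ^ 2) / 2 := by
  unfold E2
  simp only [Fin.sum_univ_four]
  ring

lemma E3_newton (v : V 4) :
    E3 v = ((∑ i, v i) ^ 3 - 3 * (∑ i, v i) * (∑ i, v i ^ 2) + 2 * ∑ i, v i ^ 3) / 6 := by
  unfold E3
  simp only [Fin.sum_univ_four]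
  ring

lemma E4_prod (v : V 4) : E4 v = ∏ i, v i := by
  unfold E4
  rw [Fin.prod_univ_four]

lemma E2_perm (σ : Equiv.Perm (Fin 4)) (v : V 4) : E2 (fun i => v (σ i)) = E2 v := by
  rw [E2_newton, E2_newton, Equiv.sum_comp σ (fun i => v i), Equiv.sum_comp σ (fun i => v i ^ 2)]

lemma E3_perm (σ : Equiv.Perm (Fin 4)) (v : V 4) : E3 (fun i => v (σ i)) = E3 v := by
  rw [E3_newton, E3_newton, Equiv.sum_comp σ (fun i => v i), Equiv.sum_comp σ (fun i => v i ^ 2),
    Equiv.sum_comp σ (fun i => v i ^ 3)]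

lemma E4_perm (σ : Equiv.Perm (Fin 4)) (v : V 4) : E4 (fun i => v (σ i)) = E4 v := by
  rw [E4_prod, E4_prod, Equiv.prod_comp σ (fun i => v i)]

end Vale.Agent.P154.Q4
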