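import Vale.Agent.P154.Q4Sort

/-! P154, four states: the functional
`f = s - a r² + b w + c r s + d r³ + e s² + g r w`: channel step, vertex value, size. -/

namespace Vale.Agent.P154.Q4

open Vale.Agent.P154.G

/-- the functional `f = s - a r² + b w + c r s + d r³ + e s² + g r w` (made homogeneous) -/
noncomputable def FG (a b c d e g : ℝ) (v : V 4) : ℝ :=
  sg v * (ss v - a * rr v ^ 2 + b * ww v + c * (rr v * ss v) + d * rr v ^ 3 + e * ss v ^ 2 +
    g * (rr v * ww v))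

theorem inv_smul {t : ℝ} (ht : t ≠ 0) (v : V 4) :
    rr (fun i => t * v i) = rr v ∧ ss (fun i => t * v i) = ss v ∧
      ww (fun i => t * v i) = ww v := by
  unfold ww ss rr
  rw [al_smul ht, be_smul ht, ga_smul ht]
  exact ⟨rfl, rfl, rfl⟩

/-- every functional of the form `sg * Q(r, s, w)` is homogeneous -/
theorem hom_inv (Q : ℝ → ℝ → ℝ → ℝ) (t : ℝ) (v : V 4) :
    sg (fun i => t * v i) * Q (rr (fun i => t * v i)) (ss (fun i => t * v i))
      (ww (fun i => t * v i)) = t * (sg v * Q (rr v) (ss v) (ww v)) := by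
  by_cases ht : t = 0
  · subst ht
    rw [sg_smul]
    simp
  · obtain ⟨h1, h2, h3⟩ := inv_smul ht v
    rw [h1, h2, h3, sg_smul]
    ring

theorem FG_smul (a b c d e g t : ℝ) (v : V 4) :
    FG a b c d e g (fun i => t * v i) = t * FG a b c d e g v :=
  hom_inv (fun r s w => s - a * r ^ 2 + b * w + c * (r * s) + d * r ^ 3 + e * s ^ 2 +
    g * (r * w)) t v

theorem inv_one : rr (fun _ => 1) = 0 ∧ ss (fun _ => 1) = 0 ∧ ww (fun _ => 1) = 0 := by
  have h1 : al (fun _ => 1) = 0 := by unfold al; norm_num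
  have h2 : be (fun _ => 1) = 0 := by unfold be; norm_num
  have h3 : ga (fun _ => 1) = 0 := by unfold ga; norm_num
  unfold ww ss rr
  rw [h1, h2, h3]
  norm_num

theorem inv_leaf (i : Fin 4) : sg (fun j => if i = j then (1 : ℝ) else 0) = 1 ∧
    rr (fun j => if i = j then 1 else 0) = 1 ∧ ss (fun j => if i = j then 1 else 0) = 1 ∧
      ww (fun j => if i = j then 1 else 0) = -3 := by
  have hs : sg (fun j : Fin 4 => if i = j then (1 : ℝ) else 0) = 1 := by
    rw [sgE]; fin_cases i <;> simp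
  refine ⟨hs, ?_, ?_, ?_⟩
  · unfold rr al be ga
    rw [hs]
    fin_cases i <;> simp <;> norm_num
  · unfold ss al be ga
    rw [hs]
    fin_cases i <;> simp
  · unfold ww rr al be ga
    rw [hs]
    fin_cases i <;> simp <;> norm_num

theorem FG_one (a b c d e g : ℝ) : FG a b c d e g (fun _ => 1) = 0 := by
  obtain ⟨h1, h2, h3⟩ := inv_one
  unfold FG
  rw [h1, h2, h3]
  ring

theorem FG_leaf (a b c d e g : ℝ) (i : Fin 4) :
    FG a b c d e g (fun j => if i = j then 1 else 0) =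
      1 - a - 3 * b + c + d + e - 3 * g := by
  obtain ⟨h0, h1, h2, h3⟩ := inv_leaf i
  unfold FG
  rw [h0, h1, h2, h3]
  ring

/-- size bound for functionals of the form `sg * Q(r, s, w)` -/
theorem bd_inv {Q : ℝ → ℝ → ℝ → ℝ} {K : ℝ}
    (hQ : ∀ r s w : ℝ, 0 ≤ r → r ≤ 1 → |s| ≤ 1 → |w| ≤ 12 → |Q r s w| ≤ K)
    {v : V 4} (hv : ∀ i, 0 ≤ v i) : |sg v * Q (rr v) (ss v) (ww v)| ≤ K * sg v := by
  have hs := sg_nn hv
  rw [abs_mul, abs_of_nonneg hs, mul_comm]
  refine mul_le_mul_of_nonneg_right ?_ hs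
  exact hQ _ _ _ (rr_nn v) (rr_le hv) ((ss_abs hv).trans (rr_le hv)) (ww_bd hv)

theorem FG_bd (a b c d e g : ℝ) {v : V 4} (hv : ∀ i, 0 ≤ v i) :
    |FG a b c d e g v| ≤ (1 + |a| + 12 * |b| + |c| + |d| + |e| + 12 * |g|) * sg v := by
  refine bd_inv (Q := fun r s w => s - a * r ^ 2 + b * w + c * (r * s) + d * r ^ 3 + e * s ^ 2 +
    g * (r * w)) ?_ hv
  intro r s w h0 h1 h2 h3
  have hr : |r| ≤ 1 := by rw [abs_of_nonneg h0]; exact h1
  have k1 : |a * r ^ 2| ≤ |a| := by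
    rw [abs_mul, abs_pow]
    exact mul_le_of_le_one_right (abs_nonneg _) (pow_le_one₀ (abs_nonneg _) hr)
  have k2 : |b * w| ≤ 12 * |b| := by
    rw [abs_mul, mul_comm]
    exact mul_le_mul_of_nonneg_right h3 (abs_nonneg _)
  have k3 : |c * (r * s)| ≤ |c| := by
    rw [abs_mul, abs_mul]
    exact mul_le_of_le_one_right (abs_nonneg _) (mul_le_one₀ hr (abs_nonneg _) h2)
  have k4 : |d * r ^ 3| ≤ |d| := by
    rw [abs_mul, abs_pow]
    exact mul_le_of_le_one_right (abs_nonneg _) (pow_le_one₀ (abs_nonneg _) hr)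
  have k5 : |e * s ^ 2| ≤ |e| := by
    rw [abs_mul, abs_pow]
    exact mul_le_of_le_one_right (abs_nonneg _) (pow_le_one₀ (abs_nonneg _) h2)
  have k6 : |g * (r * w)| ≤ 12 * |g| := by
    rw [abs_mul, abs_mul, mul_comm]
    refine mul_le_mul_of_nonneg_right ?_ (abs_nonneg _)
    calc |r| * |w| ≤ 1 * 12 := mul_le_mul hr h3 (abs_nonneg _) (by norm_num)
      _ = 12 := by norm_num
  have j0 := abs_le.1 h2
  have j1 := abs_le.1 k1
  have j2 := abs_le.1 k2
  have j3 := abs_le.1 k3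
  have j4 := abs_le.1 k4
  have j5 := abs_le.1 k5
  have j6 := abs_le.1 k6
  change |s - a * r ^ 2 + b * w + c * (r * s) + d * r ^ 3 + e * s ^ 2 + g * (r * w)| ≤ _
  rw [abs_le]
  constructor <;> linarith [j0.1, j0.2, j1.1, j1.2, j2.1, j2.2, j3.1, j3.2, j4.1, j4.2, j5.1, j5.2,
    j6.1, j6.2]

/-- the channel step, reduced to three inequalities between the invariants -/
theorem FG_chan {a b c d e g : ℝ}
    (h1 : ∀ v : V 4, (∀ i, 0 ≤ v i) → 0 ≤ a * rr v ^ 2 - b * ww v - 2 * c * (rr v * ss v) -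
      3 * (d * rr v ^ 3 + e * ss v ^ 2 + g * (rr v * ww v)))
    (h2 : ∀ v : V 4, (∀ i, 0 ≤ v i) → 0 ≤ a * rr v ^ 2 - b * ww v - c * (rr v * ss v) -
      (d * rr v ^ 3 + e * ss v ^ 2 + g * (rr v * ww v)))
    (h3 : ∀ v : V 4, (∀ i, 0 ≤ v i) → 0 ≤ a * rr v ^ 2 - b * ww v - c * (rr v * ss v))
    {lam : ℝ} (hl0 : 0 ≤ lam) (hl1 : lam ≤ 1) {v : V 4} (hv : ∀ i, 0 ≤ v i) :
    lam ^ 3 * FG a b c d e g v ≤ FG a b c d e g (chan lam v) := by
  have hs := sg_nn hv
  unfold FG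
  rw [sg_chan', ss_chan, rr_chan, ww_chan]
  have k1 := h1 v hv
  have k2 := h2 v hv
  have k3 := h3 v hv
  set Y := d * rr v ^ 3 + e * ss v ^ 2 + g * (rr v * ww v) with hY
  have hm : 0 ≤ 1 - lam := by linarith
  have key : 0 ≤ a * rr v ^ 2 - b * ww v - (1 + lam) * (c * (rr v * ss v)) -
      (1 + lam + lam ^ 2) * Y := by
    rcases le_total 0 Y with hY0 | hY0
    · have i1 : 0 ≤ lam * (a * rr v ^ 2 - b * ww v - 2 * c * (rr v * ss v) - 3 * Y) :=
        mul_nonneg hl0 k1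
      have i2 : 0 ≤ (1 - lam) * (a * rr v ^ 2 - b * ww v - c * (rr v * ss v) - Y) :=
        mul_nonneg hm k2
      have i3 : 0 ≤ lam * (1 - lam) * Y := mul_nonneg (mul_nonneg hl0 hm) hY0
      nlinarith
    · have i1 : 0 ≤ lam * (a * rr v ^ 2 - b * ww v - 2 * c * (rr v * ss v) - 3 * Y) :=
        mul_nonneg hl0 k1
      have i2 : 0 ≤ (1 - lam) * (a * rr v ^ 2 - b * ww v - c * (rr v * ss v)) :=
        mul_nonneg hm k3
      have i3 : 0 ≤ (1 - lam) * (1 + lam) * (-Y) - lam * (1 - lam) * 0 := by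
        have : 0 ≤ -Y := by linarith
        have := mul_nonneg (mul_nonneg hm (by linarith : (0 : ℝ) ≤ 1 + lam)) this
        linarith
      nlinarith [mul_nonneg (mul_nonneg hm hm) (by linarith : (0 : ℝ) ≤ -Y),
        mul_nonneg hm (by linarith : (0 : ℝ) ≤ -Y)]
  have hfin := mul_nonneg (mul_nonneg (mul_nonneg (pow_nonneg hl0 3) hm) hs) key
  rw [hY] at hfin
  nlinarith [hfin]

end Vale.Agent.P154.Q4
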