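import Vale.Agent.P154.Q4Part

/-! P154, four states: from a polynomial minorant or majorant to the two-vector inequality -/

namespace Vale.Agent.P154.Q4

open Vale.Agent.P154.G

/-- a combination of symmetric monomials -/
def Tsum (L : List ((Fin 4 → ℕ) × ℝ)) (y : V 4) : ℝ := (L.map fun x => x.2 * mono x.1 y).sum

/-- the corresponding kernel -/
def Ksum (L : List ((Fin 4 → ℕ) × ℝ)) (p r : V 4) : ℝ :=
  (L.map fun x => x.2 * (4 ^ (∑ i, x.1 i) * (mono x.1 p * mono x.1 r))).sum

lemma mono_smul (t : ℝ) (μ : Fin 4 → ℕ) (c : V 4) :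
    mono μ (fun i => t * c i) = t ^ (∑ i, μ i) * mono μ c := by
  unfold mono
  rw [Finset.mul_sum]
  refine Finset.sum_congr rfl fun σ _ => ?_
  rw [← Finset.prod_pow_eq_pow_sum, ← Finset.prod_mul_distrib]
  exact Finset.prod_congr rfl fun i _ => by rw [mul_pow]

lemma SS_Tsum (L : List ((Fin 4 → ℕ) × ℝ)) (p r : V 4) :
    SS (fun c => Tsum L (fun i => 4 * c i)) p r = Ksum L p r := by
  induction L with
  | nil => simp [Tsum, Ksum, SS]
  | cons x L ih =>
    have e : (fun c : V 4 => Tsum (x :: L) (fun i => 4 * c i)) = fun c =>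
        (x.2 * 4 ^ (∑ i, x.1 i)) * mono x.1 c + Tsum L (fun i => 4 * c i) := by
      funext c
      unfold Tsum
      rw [List.map_cons, List.sum_cons, mono_smul]
      ring
    rw [e, SS_add, SS_mul, SS_monomial, ih]
    unfold Ksum
    rw [List.map_cons, List.sum_cons]
    ring

lemma sg_perm_mul_le {p r : V 4} (hp : Pos p) (hr : Pos r) (hp1 : sg p = 1) (hr1 : sg r = 1)
    (π : Equiv.Perm (Fin 4)) : sg (fun i => 4 * (p i * r (π i))) ≤ 4 := by
  rw [sg_smul]
  have h1 : sg (fun i => p i * r (π i)) ≤ sg p := by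
    unfold sg
    refine Finset.sum_le_sum fun i _ => ?_
    have h2 : r (π i) ≤ 1 := by
      rw [← hr1]
      unfold sg
      exact Finset.single_le_sum (f := r) (fun j _ => (hr j).le) (Finset.mem_univ (π i))
    have h3 := (hp i).le
    nlinarith
  linarith

/-- lower bound for the average from a minorant -/
theorem glue_lower {F : V 4 → ℝ} (hF : Hom1 F) {L : List ((Fin 4 → ℕ) × ℝ)}
    (hmin : ∀ y : V 4, Pos y → sg y ≤ 4 → Tsum L y ≤ F y) {p r : V 4} (hp : Pos p) (hr : Pos r)
    (hp1 : sg p = 1) (hr1 : sg r = 1) :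
    1 / 24 * Ksum L p r ≤ 1 / (((4 - 1).factorial : ℕ) : ℝ) * SS F p r := by
  have h1 : Ksum L p r ≤ SS (fun c => 4 * F c) p r := by
    rw [← SS_Tsum]
    unfold SS
    refine Finset.sum_le_sum fun π _ => ?_
    have hc : Pos (fun i => p i * r (π i)) := fun i => mul_pos (hp i) (hr _)
    have h2 := hmin (fun i => 4 * (p i * r (π i))) (fun i => by have := hc i; simp only at this; linarith)
      (sg_perm_mul_le hp hr hp1 hr1 π)
    rw [hF 4 (by norm_num) _ fun i => (hc i).le] at h2
    exact h2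
  rw [SS_mul] at h1
  have e : 1 / (((4 - 1).factorial : ℕ) : ℝ) = 1 / 6 := by norm_num [Nat.factorial]
  rw [e]
  linarith

/-- upper bound for the average from a majorant -/
theorem glue_upper {F : V 4 → ℝ} (hF : Hom1 F) {L : List ((Fin 4 → ℕ) × ℝ)}
    (hmaj : ∀ y : V 4, Pos y → sg y ≤ 4 → F y ≤ Tsum L y) {p r : V 4} (hp : Pos p) (hr : Pos r)
    (hp1 : sg p = 1) (hr1 : sg r = 1) :
    1 / (((4 - 1).factorial : ℕ) : ℝ) * SS F p r ≤ 1 / 24 * Ksum L p r := by
  have h1 : SS (fun c => 4 * F c) p r ≤ Ksum L p r := by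
    rw [← SS_Tsum]
    unfold SS
    refine Finset.sum_le_sum fun π _ => ?_
    have hc : Pos (fun i => p i * r (π i)) := fun i => mul_pos (hp i) (hr _)
    have h2 := hmaj (fun i => 4 * (p i * r (π i))) (fun i => by have := hc i; simp only at this; linarith)
      (sg_perm_mul_le hp hr hp1 hr1 π)
    rw [hF 4 (by norm_num) _ fun i => (hc i).le] at h2
    exact h2
  rw [SS_mul] at h1
  have e : 1 / (((4 - 1).factorial : ℕ) : ℝ) = 1 / 6 := by norm_num [Nat.factorial]
  rw [e]
  linarith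

end Vale.Agent.P154.Q4
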