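import Vale.Agent.P154.Q4H7Tab

namespace Vale.Agent.P154.Q4.T7

open Vale.Agent.P154.G

set_option maxRecDepth 20000 in
lemma key4 (a b c d : ℝ) : dot row4 (mons a b c d) =
    E2 (sv a b c d) ^ 2 * sg (sv a b c d) ^ 3 := by
  simp only [E2_sv, E3_sv, E4_sv, sg_sv, row4, mons, exps, List.map_cons, List.map_nil, dot]
  push_cast
  ring

set_option maxRecDepth 20000 in
lemma key5 (a b c d : ℝ) : dot row5 (mons a b c d) =
    E2 (sv a b c d) * E3 (sv a b c d) * sg (sv a b c d) ^ 2 := by
  simp only [E2_sv, E3_sv, E4_sv, sg_sv, row5, mons, exps, List.map_cons, List.map_nil, dot]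
  push_cast
  ring

set_option maxRecDepth 20000 in
lemma key6 (a b c d : ℝ) : dot row6 (mons a b c d) =
    E3 (sv a b c d) ^ 2 * sg (sv a b c d) := by
  simp only [E2_sv, E3_sv, E4_sv, sg_sv, row6, mons, exps, List.map_cons, List.map_nil, dot]
  push_cast
  ring

set_option maxRecDepth 20000 in
lemma key7 (a b c d : ℝ) : dot row7 (mons a b c d) =
    E2 (sv a b c d) * E4 (sv a b c d) * sg (sv a b c d) := by
  simp only [E2_sv, E3_sv, E4_sv, sg_sv, row7, mons, exps, List.map_cons, List.map_nil, dot]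
  push_cast
  ring

end Vale.Agent.P154.Q4.T7
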