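import Vale.Agent.P154.Q4EPerm
import Vale.Agent.P154.Q4H7K0
import Vale.Agent.P154.Q4H7K1
import Vale.Agent.P154.Q4H7K2

/-! P154, four states: one-vector inequalities of degree 7 -/

namespace Vale.Agent.P154.Q4.T7

open Vale.Agent.P154.G

lemma rows_eq (a b c d : ℝ) :
    rows.map (fun B => dot B (mons a b c d)) = keys (sv a b c d) := by
  simp only [rows, List.map_cons, List.map_nil, key0, key1, key2, key3, key4, key5, key6, key7, key8, key9, key10, keys]

lemma mons_nonneg {a b c d : ℝ} (ha : 0 ≤ a) (hb : 0 ≤ b) (hc : 0 ≤ c) (hd : 0 ≤ d) :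
    ∀ m ∈ mons a b c d, 0 ≤ m := by
  intro m hm
  obtain ⟨e, _, rfl⟩ := List.mem_map.1 hm
  positivity

/-- the test -/
def chk (g : List ℤ) : Bool := (comb g rows).all fun a => decide (0 ≤ a)

lemma keys_perm (σ : Equiv.Perm (Fin 4)) (v : V 4) : keys (fun i => v (σ i)) = keys v := by
  unfold keys
  rw [E2_perm, E3_perm, E4_perm, sg_perm]

theorem cert {g : List ℤ} (hg : chk g = true) : ∀ v : V 4, (∀ i, 0 ≤ v i) → 0 ≤ dot g (keys v) := by
  refine sorted_induct ?_ ?_
  · intro σ c hc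
    rwa [keys_perm] at hc
  · intro a b c d ha hb hc hd
    have h := rows_eq a b c d
    unfold sv at h
    rw [← h, ← dot_comb]
    exact dot_nonneg _ _ hg (mons_nonneg ha hb hc hd)

end Vale.Agent.P154.Q4.T7
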