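import Vale.Agent.P154.Q4LB
import Vale.Agent.P154.Q4Mult
import Vale.Agent.P154.Q4KB

/-! P154, four states: the kernel identity -/

namespace Vale.Agent.P154.Q4

open Vale.Agent.P154.G

set_option maxHeartbeats 8000000 in
theorem Ksum_TB {p r : V 4} (hp : sg p = 1) (hr : sg r = 1) :
    182250000000 * (1 / 24 * Ksum LTB p r - D4 r * F4 p - D4 p * F4 r) =
      Q4K.KB (E2 p) (E3 p) (E4 p) (E2 r) (E3 r) (E4 r) := by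
  unfold LTB
  simp only [Ksum_append]
  rw [Ksum_TB1 hp hr, Ksum_TB2 hp hr, Ksum_TB3 hp hr, Ksum_TB4 hp hr, Ksum_TB5 hp hr, Ksum_TB6 hp hr, Ksum_TB7 hp hr, Ksum_TB8a hp hr, Ksum_TB8b hp hr, Ksum_TB8c hp hr, Ksum_TB8d hp hr, Ksum_TB9a hp hr, Ksum_TB9b hp hr, Ksum_TB9c hp hr, Ksum_TB9d hp hr, Ksum_TB9e hp hr, Ksum_TB9f hp hr, D4_E1 hp, D4_E1 hr, F4_E1 hp, F4_E1 hr]
  generalize E2 p = a
  generalize E3 p = b
  generalize E4 p = c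
  generalize E2 r = x
  generalize E3 r = y
  generalize E4 r = z
  simp only [PD, PF, Q4K.KB, Q4K.kb_0, Q4K.kb_1, Q4K.kb_2, Q4K.kb_3, Q4K.kb_4, Q4K.kb_5, Q4K.kb_6, Q4K.kb_7, Q4K.kb_8, Q4K.kb_9, Q4K.kb_10, Q4K.kb_11, Q4K.kb_12, Q4K.kb_13, Q4K.kb_14, Q4K.kb_15, Q4K.kb_16, Q4K.kb_17]
  ring

end Vale.Agent.P154.Q4
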