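import Vale.Agent.P154.Q4LC
import Vale.Agent.P154.Q4Mult
import Vale.Agent.P154.Q4KC

/-! P154, four states: the kernel identity -/

namespace Vale.Agent.P154.Q4

open Vale.Agent.P154.G

set_option maxHeartbeats 8000000 in
theorem Ksum_TC {p r : V 4} (hp : sg p = 1) (hr : sg r = 1) :
    31104000000000 * (Rf p + Rf r - 1 / 24 * Ksum LTC p r - (B4 r * F4 p + B4 p * F4 r) -
      1 / 50 * (Rf p ^ 2 * Rf r + Rf p * Rf r ^ 2)) =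
      Q4K.KC (E2 p) (E3 p) (E4 p) (E2 r) (E3 r) (E4 r) := by
  unfold LTC
  simp only [Ksum_append]
  rw [Ksum_TC0 hp hr, Ksum_TC1 hp hr, Ksum_TC2 hp hr, Ksum_TC3 hp hr, Ksum_TC4 hp hr, Ksum_TC5 hp hr, Ksum_TC6 hp hr, Ksum_TC7 hp hr, Ksum_TC8a hp hr, Ksum_TC8b hp hr, Ksum_TC8c hp hr, Ksum_TC8d hp hr, Ksum_TC9a hp hr, Ksum_TC9b hp hr, Ksum_TC9c hp hr, Ksum_TC9d hp hr, Ksum_TC9e hp hr, Ksum_TC9f hp hr, B4_E1 hp, B4_E1 hr, F4_E1 hp, F4_E1 hr, Rf_E hp, Rf_E hr]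
  generalize E2 p = a
  generalize E3 p = b
  generalize E4 p = c
  generalize E2 r = x
  generalize E3 r = y
  generalize E4 r = z
  simp only [PB, PF, Q4K.KC, Q4K.kc_0, Q4K.kc_1, Q4K.kc_2, Q4K.kc_3, Q4K.kc_4, Q4K.kc_5, Q4K.kc_6, Q4K.kc_7, Q4K.kc_8, Q4K.kc_9, Q4K.kc_10, Q4K.kc_11, Q4K.kc_12, Q4K.kc_13, Q4K.kc_14, Q4K.kc_15, Q4K.kc_16, Q4K.kc_17]
  ring

end Vale.Agent.P154.Q4
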