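import Vale.Agent.P154.Q4KTa
import Vale.Agent.P154.Q4KTb
import Vale.Agent.P154.Q4KTc

/-! P154, four states: the tables together -/

namespace Vale.Agent.P154.Q4K

open Vale.Agent.P154.G Vale.Agent.P154.Q4

def tabs9 : List (List ℕ) := [tab9_0, tab9_1, tab9_2, tab9_3, tab9_4, tab9_5, tab9_6, tab9_7, tab9_8, tab9_9, tab9_10, tab9_11, tab9_12, tab9_13, tab9_14, tab9_15, tab9_16, tab9_17]

/-- the monomials in the elementary symmetric functions -/
def kv (a b c : ℝ) : List ℝ := [1, a, a ^ 2, a ^ 3, a ^ 4, b, a * b, a ^ 2 * b, a ^ 3 * b, b ^ 2, a * b ^ 2, b ^ 3, c, a * c, a ^ 2 * c, b * c, a * b * c, c ^ 2]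

lemma ev_all {x y z w : ℝ} (h : x + 2 * y + 3 * z + 4 * w = 1) :
    (tabs9.map fun A => ndot A (mons9 x y z w)) = kv (e2c x y z w) (e3c x y z w) (e4c x y z w) := by
  simp only [tabs9, List.map_cons, List.map_nil, kv, ev9_0, ev9_1, ev9_2, ev9_3, ev9_4, ev9_5, ev9_6, ev9_7, ev9_8, ev9_9, ev9_10, ev9_11, ev9_12, ev9_13, ev9_14, ev9_15, ev9_16, ev9_17, h,
    one_pow, pow_zero, pow_one, mul_one, one_mul]

/-- the two-vector certificate on sorted vectors -/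
theorem two_sorted {Cp Cn : List (List ℕ)} (h : chkAll 220 (rowsOf 220 tabs9) tabs9 Cp Cn = true)
    {x y z w x' y' z' w' : ℝ} (hx : 0 ≤ x) (hy : 0 ≤ y) (hz : 0 ≤ z) (hw : 0 ≤ w)
    (hx' : 0 ≤ x') (hy' : 0 ≤ y') (hz' : 0 ≤ z') (hw' : 0 ≤ w')
    (h1 : x + 2 * y + 3 * z + 4 * w = 1) (h1' : x' + 2 * y' + 3 * z' + 4 * w' = 1) :
    rdot (kv (e2c x y z w) (e3c x y z w) (e4c x y z w))
        (Cn.map fun c => ndot c (kv (e2c x' y' z' w') (e3c x' y' z' w') (e4c x' y' z' w'))) ≤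
      rdot (kv (e2c x y z w) (e3c x y z w) (e4c x y z w))
        (Cp.map fun c => ndot c (kv (e2c x' y' z' w') (e3c x' y' z' w') (e4c x' y' z' w'))) := by
  have key := cert_pos (n := 220) (As := tabs9) (As' := tabs9) (Cp := Cp) (Cn := Cn)
    (rows := rowsOf 220 tabs9) (M := mons9 x y z w) (M' := mons9 x' y' z' w')
    (by rw [mons9_length]) (mons9_nonneg hx hy hz hw) (mons9_nonneg hx' hy' hz' hw') h
  rw [ev_all h1, ev_all h1'] at key
  exact key

lemma E2_perm (σ : Equiv.Perm (Fin 4)) (c : V 4) : E2 (fun i => c (σ i)) = E2 c := by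
  have h : ∀ v : V 4, E2 v = (sg v ^ 2 - ∑ i, v i ^ 2) / 2 := fun v => by
    unfold E2 sg
    simp only [Fin.sum_univ_four]
    ring
  rw [h, h, sg_perm, Equiv.sum_comp σ (fun i => c i ^ 2)]

lemma E3_perm (σ : Equiv.Perm (Fin 4)) (c : V 4) : E3 (fun i => c (σ i)) = E3 c := by
  have h : ∀ v : V 4, E3 v = (sg v ^ 3 - 3 * sg v * (∑ i, v i ^ 2) + 2 * ∑ i, v i ^ 3) / 6 :=
    fun v => by
    unfold E3 sg
    simp only [Fin.sum_univ_four]
    ring
  rw [h, h, sg_perm, Equiv.sum_comp σ (fun i => c i ^ 2), Equiv.sum_comp σ (fun i => c i ^ 3)]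

lemma E4_perm (σ : Equiv.Perm (Fin 4)) (c : V 4) : E4 (fun i => c (σ i)) = E4 c := by
  have h : ∀ v : V 4, E4 v = ∏ i, v i := fun v => by
    unfold E4
    simp only [Fin.prod_univ_four]
  rw [h, h, Equiv.prod_comp σ (fun i => c i)]

/-- the two-vector certificate -/
theorem two_all {Cp Cn : List (List ℕ)} (h : chkAll 220 (rowsOf 220 tabs9) tabs9 Cp Cn = true)
    {p r : V 4} (hp : ∀ i, 0 ≤ p i) (hr : ∀ i, 0 ≤ r i) (hp1 : sg p = 1) (hr1 : sg r = 1) :
    rdot (kv (E2 p) (E3 p) (E4 p)) (Cn.map fun c => ndot c (kv (E2 r) (E3 r) (E4 r))) ≤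
      rdot (kv (E2 p) (E3 p) (E4 p)) (Cp.map fun c => ndot c (kv (E2 r) (E3 r) (E4 r))) := by
  refine sorted_induct (P := fun p => sg p = 1 →
    rdot (kv (E2 p) (E3 p) (E4 p)) (Cn.map fun c => ndot c (kv (E2 r) (E3 r) (E4 r))) ≤
      rdot (kv (E2 p) (E3 p) (E4 p)) (Cp.map fun c => ndot c (kv (E2 r) (E3 r) (E4 r))))
    ?_ ?_ p hp hp1
  · intro σ c hc h1
    have := hc (by rw [sg_perm]; exact h1)
    rwa [E2_perm, E3_perm, E4_perm] at this
  intro a b c d ha hb hc hd h1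
  refine sorted_induct (P := fun r => sg r = 1 →
    rdot (kv (E2 ![a + b + c + d, b + c + d, c + d, d]) (E3 ![a + b + c + d, b + c + d, c + d, d])
      (E4 ![a + b + c + d, b + c + d, c + d, d]))
      (Cn.map fun c => ndot c (kv (E2 r) (E3 r) (E4 r))) ≤
    rdot (kv (E2 ![a + b + c + d, b + c + d, c + d, d]) (E3 ![a + b + c + d, b + c + d, c + d, d])
      (E4 ![a + b + c + d, b + c + d, c + d, d]))
      (Cp.map fun c => ndot c (kv (E2 r) (E3 r) (E4 r)))) ?_ ?_ r hr hr1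
  · intro σ c hc h1
    have := hc (by rw [sg_perm]; exact h1)
    rwa [E2_perm, E3_perm, E4_perm] at this
  intro a' b' c' d' ha' hb' hc' hd' h1'
  rw [sg_sorted] at h1 h1'
  rw [E2_sorted, E3_sorted, E4_sorted, E2_sorted, E3_sorted, E4_sorted]
  exact two_sorted h ha hb hc hd ha' hb' hc' hd' h1 h1'

end Vale.Agent.P154.Q4K
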