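import Vale.Agent.P154.Q4Mo3
import Vale.Agent.P154.Q4E

/-! P154, four states: a part of degree 3 of a polynomial -/

namespace Vale.Agent.P154.Q4

open Vale.Agent.P154.G

/-- coefficients on the symmetric monomials of degree 3 -/
noncomputable def LTB3 : List ((Fin 4 → ℕ) × ℝ) :=
  [(![1, 1, 1, 0], (752099 / 1200000)), (![2, 1, 0, 0], (10326421 / 2000000)), (![3, 0, 0, 0], (-1431097 / 1500000))]

theorem Tsum_TB3 (v : V 4) : Tsum LTB3 v =
    (-11097983 / 250000) * E3 v + (5499917 / 200000) * sg v * E2 v + (-1431097 / 250000) * sg v ^ 3 := by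
  unfold Tsum LTB3
  simp only [List.map_cons, List.map_nil, List.sum_cons, List.sum_nil, mo_1_1_1_0, mo_2_1_0_0, mo_3_0_0_0]
  ring

theorem Ksum_TB3 {p r : V 4} (hp : sg p = 1) (hr : sg r = 1) : Ksum LTB3 p r =
    ((-34346328 / 15625) + (-103038984 / 15625) * E3 r + (103038984 / 15625) * E2 r) +
    E3 p * ((-103038984 / 15625) + (-100678404 / 15625) * E3 r + (247158426 / 15625) * E2 r) +
    E2 p * ((103038984 / 15625) + (247158426 / 15625) * E3 r + (-57692822 / 3125) * E2 r) := by
  unfold Ksum LTB3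
  simp only [List.map_cons, List.map_nil, List.sum_cons, List.sum_nil, mo_1_1_1_0, mo_2_1_0_0, mo_3_0_0_0, hp, hr,
    Fin.sum_univ_four, Matrix.cons_val]
  ring

end Vale.Agent.P154.Q4
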