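import Vale.Agent.P154.Q4Mo4
import Vale.Agent.P154.Q4E

/-! P154, four states: a part of degree 4 of a polynomial -/

namespace Vale.Agent.P154.Q4

open Vale.Agent.P154.G

/-- coefficients on the symmetric monomials of degree 4 -/
noncomputable def LTB4 : List ((Fin 4 → ℕ) × ℝ) :=
  [(![1, 1, 1, 1], (115141189 / 12000000)), (![2, 1, 1, 0], (134305673 / 6000000)), (![2, 2, 0, 0], (-83600459 / 3000000)), (![3, 1, 0, 0], (-10947383 / 1000000)), (![4, 0, 0, 0], (5748629 / 6000000))]

theorem Tsum_TB4 (v : V 4) : Tsum LTB4 v =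
    (-28229999 / 100000) * E4 v + (-84270733 / 1500000) * E2 v ^ 2 + (312592397 / 1000000) * sg v * E3 v + (-22444641 / 500000) * sg v ^ 2 * E2 v + (5748629 / 1000000) * sg v ^ 4 := by
  unfold Tsum LTB4
  simp only [List.map_cons, List.map_nil, List.sum_cons, List.sum_nil, mo_1_1_1_1, mo_2_1_1_0, mo_2_2_0_0, mo_3_1_0_0, mo_4_0_0_0]
  ring

theorem Ksum_TB4 {p r : V 4} (hp : sg p = 1) (hr : sg r = 1) : Ksum LTB4 p r =
    ((137967096 / 15625) + (-551868384 / 15625) * E4 r + (551868384 / 15625) * E3 r + (-551868384 / 15625) * E2 r + (275934192 / 15625) * E2 r ^ 2) +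
    E4 p * ((-551868384 / 15625) + (60325563968 / 46875) * E4 r + (12583412896 / 46875) * E3 r + (1506841024 / 15625) * E2 r + (-9808273984 / 46875) * E2 r ^ 2) +
    E3 p * ((551868384 / 15625) + (12583412896 / 46875) * E4 r + (-14230325896 / 46875) * E3 r + (-2032315408 / 15625) * E2 r + (12961120288 / 46875) * E2 r ^ 2) +
    E2 p * ((-551868384 / 15625) + (1506841024 / 15625) * E4 r + (-2032315408 / 15625) * E3 r + (2032315408 / 15625) * E2 r + (-753420512 / 15625) * E2 r ^ 2) +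
    E2 p ^ 2 * ((275934192 / 15625) + (-9808273984 / 46875) * E4 r + (12961120288 / 46875) * E3 r + (-753420512 / 15625) * E2 r + (-1159344352 / 9375) * E2 r ^ 2) := by
  unfold Ksum LTB4
  simp only [List.map_cons, List.map_nil, List.sum_cons, List.sum_nil, mo_1_1_1_1, mo_2_1_1_0, mo_2_2_0_0, mo_3_1_0_0, mo_4_0_0_0, hp, hr,
    Fin.sum_univ_four, Matrix.cons_val]
  ring

end Vale.Agent.P154.Q4
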