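import Vale.Agent.P154.Q4Mo5
import Vale.Agent.P154.Q4E

/-! P154, four states: a part of degree 5 of a polynomial -/

namespace Vale.Agent.P154.Q4

open Vale.Agent.P154.G

/-- coefficients on the symmetric monomials of degree 5 -/
noncomputable def LTB5 : List ((Fin 4 → ℕ) × ℝ) :=
  [(![2, 1, 1, 1], (-927365861 / 6000000)), (![2, 2, 1, 0], (-398735371 / 3000000)), (![3, 1, 1, 0], (-63086437 / 1000000)), (![3, 2, 0, 0], (99604801 / 1000000)), (![4, 1, 0, 0], (92513 / 8000)), (![5, 0, 0, 0], (-1157519 / 2000000))]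

theorem Tsum_TB5 (v : V 4) : Tsum LTB5 v =
    (-239050199 / 3000000) * E2 v * E3 v + (1291021 / 1250) * sg v * E4 v + (112462067 / 1000000) * sg v * E2 v ^ 2 + (-565083113 / 1000000) * sg v ^ 2 * E3 v + (8098207 / 200000) * sg v ^ 3 * E2 v + (-3472557 / 1000000) * sg v ^ 5 := by
  unfold Tsum LTB5
  simp only [List.map_cons, List.map_nil, List.sum_cons, List.sum_nil, mo_2_1_1_1, mo_2_2_1_0, mo_3_1_1_0, mo_3_2_0_0, mo_4_1_0_0, mo_5_0_0_0]
  ring

theorem Ksum_TB5 {p r : V 4} (hp : sg p = 1) (hr : sg r = 1) : Ksum LTB5 p r =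
    ((-333365472 / 15625) + (333365472 / 3125) * E4 r + (-333365472 / 3125) * E3 r + (333365472 / 3125) * E2 r + (333365472 / 3125) * E2 r * E3 r + (-333365472 / 3125) * E2 r ^ 2) +
    E4 p * ((333365472 / 3125) + (-17848197056 / 15625) * E4 r + (-52115507872 / 15625) * E3 r + (-303761312 / 625) * E2 r + (-19063153312 / 15625) * E2 r * E3 r + (7597472224 / 3125) * E2 r ^ 2) +
    E3 p * ((-333365472 / 3125) + (-52115507872 / 15625) * E4 r + (13867264288 / 15625) * E3 r + (303761312 / 625) * E2 r + (25458095264 / 15625) * E2 r * E3 r + (-18863239328 / 15625) * E2 r ^ 2) +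
    E2 p * ((333365472 / 3125) + (-303761312 / 625) * E4 r + (303761312 / 625) * E3 r + (-303761312 / 625) * E2 r + (-185344672 / 625) * E2 r * E3 r + (244552992 / 625) * E2 r ^ 2) +
    E2 p * E3 p * ((333365472 / 3125) + (-19063153312 / 15625) * E4 r + (25458095264 / 15625) * E3 r + (-185344672 / 625) * E2 r + (-24339935968 / 46875) * E2 r * E3 r + (-9142130464 / 15625) * E2 r ^ 2) +
    E2 p ^ 2 * ((-333365472 / 3125) + (7597472224 / 3125) * E4 r + (-18863239328 / 15625) * E3 r + (244552992 / 625) * E2 r + (-9142130464 / 15625) * E2 r * E3 r + (4701506464 / 15625) * E2 r ^ 2) := by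
  unfold Ksum LTB5
  simp only [List.map_cons, List.map_nil, List.sum_cons, List.sum_nil, mo_2_1_1_1, mo_2_2_1_0, mo_3_1_1_0, mo_3_2_0_0, mo_4_1_0_0, mo_5_0_0_0, hp, hr,
    Fin.sum_univ_four, Matrix.cons_val]
  ring

end Vale.Agent.P154.Q4
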