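import Vale.Agent.P154.Q4Mo8
import Vale.Agent.P154.Q4E

/-! P154, four states: a part of degree 8 of a polynomial -/

namespace Vale.Agent.P154.Q4

open Vale.Agent.P154.G

/-- coefficients on the symmetric monomials of degree 8 -/
noncomputable def LTB8a : List ((Fin 4 → ℕ) × ℝ) :=
  [(![2, 2, 2, 2], (1961802517 / 6000000)), (![3, 2, 2, 1], (3719886639 / 2000000)), (![3, 3, 1, 1], (1281100061 / 2000000)), (![3, 3, 2, 0], (68593739 / 400000))]

theorem Tsum_TB8a (v : V 4) : Tsum LTB8a v =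
    (-67007683 / 125000) * E4 v ^ 2 + (68593739 / 200000) * E2 v * E3 v ^ 2 + (469065683 / 250000) * E2 v ^ 2 * E4 v + (-17474823 / 10000) * sg v * E3 v * E4 v := by
  unfold Tsum LTB8a
  simp only [List.map_cons, List.map_nil, List.sum_cons, List.sum_nil, mo_2_2_2_2, mo_3_2_2_1, mo_3_3_1_1, mo_3_3_2_0]
  ring

set_option maxHeartbeats 2000000 in
theorem Ksum_TB8a {p r : V 4} (hp : sg p = 1) (hr : sg r = 1) : Ksum LTB8a p r =
    E4 p ^ 2 * ((367963765014528 / 15625) * E4 r ^ 2 + (-75261997694976 / 15625) * E3 r * E4 r + (561919909888 / 3125) * E2 r * E3 r ^ 2 + (15370344300544 / 15625) * E2 r ^ 2 * E4 r) +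
    E3 p * E4 p * ((-75261997694976 / 15625) * E4 r ^ 2 + (10059962904576 / 3125) * E3 r * E4 r + (-140479977472 / 3125) * E2 r * E3 r ^ 2 + (-19584743624704 / 15625) * E2 r ^ 2 * E4 r) +
    E2 p * E3 p ^ 2 * ((561919909888 / 3125) * E4 r ^ 2 + (-140479977472 / 3125) * E3 r * E4 r + (140479977472 / 3125) * E2 r * E3 r ^ 2 + (-280959954944 / 3125) * E2 r ^ 2 * E4 r) +
    E2 p ^ 2 * E4 p * ((15370344300544 / 15625) * E4 r ^ 2 + (-19584743624704 / 15625) * E3 r * E4 r + (-280959954944 / 3125) * E2 r * E3 r ^ 2 + (13304371249152 / 15625) * E2 r ^ 2 * E4 r) := by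
  unfold Ksum LTB8a
  simp only [List.map_cons, List.map_nil, List.sum_cons, List.sum_nil, mo_2_2_2_2, mo_3_2_2_1, mo_3_3_1_1, mo_3_3_2_0, hp, hr,
    Fin.sum_univ_four, Matrix.cons_val]
  ring

end Vale.Agent.P154.Q4
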