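import Vale.Agent.P154.Q4Mo9
import Vale.Agent.P154.Q4E

/-! P154, four states: a part of degree 9 of a polynomial -/

namespace Vale.Agent.P154.Q4

open Vale.Agent.P154.G

/-- coefficients on the symmetric monomials of degree 9 -/
noncomputable def LTB9b : List ((Fin 4 → ℕ) × ℝ) :=
  [(![4, 2, 2, 1], (-21734217 / 40000)), (![4, 3, 1, 1], (-784455343 / 2000000)), (![4, 3, 2, 0], (-17164437 / 250000))]

theorem Tsum_TB9b (v : V 4) : Tsum LTB9b v =
    (51493311 / 250000) * E3 v ^ 3 + (2408615059 / 1000000) * E2 v * E3 v * E4 v + (-2698250369 / 1000000) * sg v * E4 v ^ 2 + (-17164437 / 250000) * sg v * E2 v * E3 v ^ 2 + (-647139847 / 1000000) * sg v * E2 v ^ 2 * E4 v + (34428599 / 62500) * sg v ^ 2 * E3 v * E4 v := by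
  unfold Tsum LTB9b
  simp only [List.map_cons, List.map_nil, List.sum_cons, List.sum_nil, mo_4_2_2_1, mo_4_3_1_1, mo_4_3_2_0]
  ring

set_option maxHeartbeats 2000000 in
theorem Ksum_TB9b {p r : V 4} (hp : sg p = 1) (hr : sg r = 1) : Ksum LTB9b p r =
    E4 p ^ 2 * ((-170683678072832 / 15625) * E4 r ^ 2 + (72602472710144 / 15625) * E3 r * E4 r + (-1687332814848 / 15625) * E3 r ^ 3 + (18826174455808 / 15625) * E2 r * E3 r * E4 r + (562444271616 / 15625) * E2 r * E3 r ^ 2 + (-33256179392512 / 15625) * E2 r ^ 2 * E4 r) +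
    E3 p * E4 p * ((72602472710144 / 15625) * E4 r ^ 2 + (-34888590098432 / 15625) * E3 r * E4 r + (-843666407424 / 15625) * E3 r ^ 3 + (7201931313152 / 15625) * E2 r * E3 r * E4 r + (281222135808 / 15625) * E2 r * E3 r ^ 2 + (12290072068096 / 15625) * E2 r ^ 2 * E4 r) +
    E3 p ^ 3 * ((-1687332814848 / 15625) * E4 r ^ 2 + (-843666407424 / 15625) * E3 r * E4 r + (-2530999222272 / 15625) * E3 r ^ 3 + (6749331259392 / 15625) * E2 r * E3 r * E4 r + (843666407424 / 15625) * E2 r * E3 r ^ 2 + (-1687332814848 / 15625) * E2 r ^ 2 * E4 r) +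
    E2 p * E3 p * E4 p * ((18826174455808 / 15625) * E4 r ^ 2 + (7201931313152 / 15625) * E3 r * E4 r + (6749331259392 / 15625) * E3 r ^ 3 + (-60033815994368 / 15625) * E2 r * E3 r * E4 r + (-2249777086464 / 15625) * E2 r * E3 r ^ 2 + (10925812342784 / 15625) * E2 r ^ 2 * E4 r) +
    E2 p * E3 p ^ 2 * ((562444271616 / 15625) * E4 r ^ 2 + (281222135808 / 15625) * E3 r * E4 r + (843666407424 / 15625) * E3 r ^ 3 + (-2249777086464 / 15625) * E2 r * E3 r * E4 r + (-281222135808 / 15625) * E2 r * E3 r ^ 2 + (562444271616 / 15625) * E2 r ^ 2 * E4 r) +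
    E2 p ^ 2 * E4 p * ((-33256179392512 / 15625) * E4 r ^ 2 + (12290072068096 / 15625) * E3 r * E4 r + (-1687332814848 / 15625) * E3 r ^ 3 + (10925812342784 / 15625) * E2 r * E3 r * E4 r + (562444271616 / 15625) * E2 r * E3 r ^ 2 + (-7551146713088 / 15625) * E2 r ^ 2 * E4 r) := by
  unfold Ksum LTB9b
  simp only [List.map_cons, List.map_nil, List.sum_cons, List.sum_nil, mo_4_2_2_1, mo_4_3_1_1, mo_4_3_2_0, hp, hr,
    Fin.sum_univ_four, Matrix.cons_val]
  ring

end Vale.Agent.P154.Q4
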