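import Vale.Agent.P154.Q4TB1
import Vale.Agent.P154.Q4TB2
import Vale.Agent.P154.Q4TB3
import Vale.Agent.P154.Q4TB4
import Vale.Agent.P154.Q4TB5
import Vale.Agent.P154.Q4TB6
import Vale.Agent.P154.Q4TB7
import Vale.Agent.P154.Q4TB8a
import Vale.Agent.P154.Q4TB8b
import Vale.Agent.P154.Q4TB8c
import Vale.Agent.P154.Q4TB8d
import Vale.Agent.P154.Q4TB9a
import Vale.Agent.P154.Q4TB9b
import Vale.Agent.P154.Q4TB9c
import Vale.Agent.P154.Q4TB9d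
import Vale.Agent.P154.Q4TB9e
import Vale.Agent.P154.Q4TB9f

/-! P154, four states: all coefficients -/

namespace Vale.Agent.P154.Q4

open Vale.Agent.P154.G

/-- all coefficients -/
noncomputable def LTB : List ((Fin 4 → ℕ) × ℝ) :=
  LTB1 ++ LTB2 ++ LTB3 ++ LTB4 ++ LTB5 ++ LTB6 ++ LTB7 ++ LTB8a ++ LTB8b ++ LTB8c ++ LTB8d ++ LTB9a ++ LTB9b ++ LTB9c ++ LTB9d ++ LTB9e ++ LTB9f

end Vale.Agent.P154.Q4
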