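import Vale.Agent.P154.Q4Mo2
import Vale.Agent.P154.Q4E

/-! P154, four states: a part of degree 2 of a polynomial -/

namespace Vale.Agent.P154.Q4

open Vale.Agent.P154.G

/-- coefficients on the symmetric monomials of degree 2 -/
noncomputable def LTC2 : List ((Fin 4 → ℕ) × ℝ) :=
  [(![1, 1, 0, 0], (-6018239237 / 1536000000)), (![2, 0, 0, 0], (-11842309 / 4608000000))]

theorem Tsum_TC2 (v : V 4) : Tsum LTC2 v =
    (-2932811 / 187500) * E2 v + (-11842309 / 768000000) * sg v ^ 2 := by
  unfold Tsum LTC2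
  simp only [List.map_cons, List.map_nil, List.sum_cons, List.sum_nil, mo_1_1_0_0, mo_2_0_0_0]
  ring

theorem Ksum_TC2 {p r : V 4} (hp : sg p = 1) (hr : sg r = 1) : Ksum LTC2 p r =
    ((-11842309 / 8000000) + (11842309 / 4000000) * E2 r) +
    E2 p * ((11842309 / 4000000) + (-1513441541 / 1500000) * E2 r) := by
  unfold Ksum LTC2
  simp only [List.map_cons, List.map_nil, List.sum_cons, List.sum_nil, mo_1_1_0_0, mo_2_0_0_0, hp, hr,
    Fin.sum_univ_four, Matrix.cons_val]
  ring

end Vale.Agent.P154.Q4
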