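import Vale.Agent.P154.Q4Mo3
import Vale.Agent.P154.Q4E

/-! P154, four states: a part of degree 3 of a polynomial -/

namespace Vale.Agent.P154.Q4

open Vale.Agent.P154.G

/-- coefficients on the symmetric monomials of degree 3 -/
noncomputable def LTC3 : List ((Fin 4 → ℕ) × ℝ) :=
  [(![1, 1, 1, 0], (20987267161 / 921600000)), (![2, 1, 0, 0], (61238868413 / 3072000000)), (![3, 0, 0, 0], (21150161 / 614400000))]

theorem Tsum_TC3 (v : V 4) : Tsum LTC3 v =
    (6618121 / 375000) * E3 v + (14718533 / 375000) * sg v * E2 v + (21150161 / 102400000) * sg v ^ 3 := by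
  unfold Tsum LTC3
  simp only [List.map_cons, List.map_nil, List.sum_cons, List.sum_nil, mo_1_1_1_0, mo_2_1_0_0, mo_3_0_0_0]
  ring

theorem Ksum_TC3 {p r : V 4} (hp : sg p = 1) (hr : sg r = 1) : Ksum LTC3 p r =
    ((63450483 / 800000) + (190351449 / 800000) * E3 r + (-190351449 / 800000) * E2 r) +
    E3 p * ((190351449 / 800000) + (49555568573 / 500000) * E3 r + (-16023535037 / 1000000) * E2 r) +
    E2 p * ((-190351449 / 800000) + (-16023535037 / 1000000) * E3 r + (34902341809 / 6000000) * E2 r) := by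
  unfold Ksum LTC3
  simp only [List.map_cons, List.map_nil, List.sum_cons, List.sum_nil, mo_1_1_1_0, mo_2_1_0_0, mo_3_0_0_0, hp, hr,
    Fin.sum_univ_four, Matrix.cons_val]
  ring

end Vale.Agent.P154.Q4
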