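import Vale.Agent.P154.Q4Mo4
import Vale.Agent.P154.Q4E

/-! P154, four states: a part of degree 4 of a polynomial -/

namespace Vale.Agent.P154.Q4

open Vale.Agent.P154.G

/-- coefficients on the symmetric monomials of degree 4 -/
noncomputable def LTC4 : List ((Fin 4 → ℕ) × ℝ) :=
  [(![1, 1, 1, 1], (-11359427 / 180000)), (![2, 1, 1, 0], (-11155521 / 62500)), (![2, 2, 0, 0], (-42274729 / 1500000)), (![3, 1, 0, 0], (-21193433 / 750000)), (![4, 0, 0, 0], (-28513 / 450000))]

theorem Tsum_TC4 (v : V 4) : Tsum LTC4 v =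
    (-8385803 / 15625) * E4 v + (-172993 / 375000) * E2 v ^ 2 + (-28693621 / 375000) * sg v * E3 v + (-6874391 / 125000) * sg v ^ 2 * E2 v + (-28513 / 75000) * sg v ^ 4 := by
  unfold Tsum LTC4
  simp only [List.map_cons, List.map_nil, List.sum_cons, List.sum_nil, mo_1_1_1_1, mo_2_1_1_0, mo_2_2_0_0, mo_3_1_0_0, mo_4_0_0_0]
  ring

theorem Ksum_TC4 {p r : V 4} (hp : sg p = 1) (hr : sg r = 1) : Ksum LTC4 p r =
    ((-1824832 / 3125) + (7299328 / 3125) * E4 r + (-7299328 / 3125) * E3 r + (7299328 / 3125) * E2 r + (-3649664 / 3125) * E2 r ^ 2) +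
    E4 p * ((7299328 / 3125) + (-617065735168 / 46875) * E4 r + (61777900288 / 46875) * E3 r + (-5863478528 / 46875) * E2 r + (82562304 / 15625) * E2 r ^ 2) +
    E3 p * ((-7299328 / 3125) + (61777900288 / 46875) * E4 r + (-32006440768 / 46875) * E3 r + (1794339392 / 46875) * E2 r + (526039424 / 3125) * E2 r ^ 2) +
    E2 p * ((7299328 / 3125) + (-5863478528 / 46875) * E4 r + (1794339392 / 46875) * E3 r + (-1794339392 / 46875) * E2 r + (2931739264 / 46875) * E2 r ^ 2) +
    E2 p ^ 2 * ((-3649664 / 3125) + (82562304 / 15625) * E4 r + (526039424 / 3125) * E3 r + (2931739264 / 46875) * E2 r + (-2189234816 / 9375) * E2 r ^ 2) := by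
  unfold Ksum LTC4
  simp only [List.map_cons, List.map_nil, List.sum_cons, List.sum_nil, mo_1_1_1_1, mo_2_1_1_0, mo_2_2_0_0, mo_3_1_0_0, mo_4_0_0_0, hp, hr,
    Fin.sum_univ_four, Matrix.cons_val]
  ring

end Vale.Agent.P154.Q4
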