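import Vale.Agent.P154.Q4Mo5
import Vale.Agent.P154.Q4E

/-! P154, four states: a part of degree 5 of a polynomial -/

namespace Vale.Agent.P154.Q4

open Vale.Agent.P154.G

/-- coefficients on the symmetric monomials of degree 5 -/
noncomputable def LTC5 : List ((Fin 4 → ℕ) × ℝ) :=
  [(![2, 1, 1, 1], (149069999 / 187500)), (![2, 2, 1, 0], (63434627 / 150000)), (![3, 1, 1, 0], (59450881 / 250000)), (![3, 2, 0, 0], (4577657 / 62500)), (![4, 1, 0, 0], (9147599 / 375000)), (![5, 0, 0, 0], (65899 / 1125000))]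

theorem Tsum_TC5 (v : V 4) : Tsum LTC5 v =
    (-729407 / 75000) * E2 v * E3 v + (39635982 / 15625) * sg v * E4 v + (17632 / 9375) * sg v * E2 v ^ 2 + (16950889 / 125000) * sg v ^ 2 * E3 v + (734842 / 15625) * sg v ^ 3 * E2 v + (65899 / 187500) * sg v ^ 5 := by
  unfold Tsum LTC5
  simp only [List.map_cons, List.map_nil, List.sum_cons, List.sum_nil, mo_2_1_1_1, mo_2_2_1_0, mo_3_1_1_0, mo_3_2_0_0, mo_4_1_0_0, mo_5_0_0_0]
  ring

theorem Ksum_TC5 {p r : V 4} (hp : sg p = 1) (hr : sg r = 1) : Ksum LTC5 p r =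
    ((33740288 / 15625) + (-33740288 / 3125) * E4 r + (33740288 / 3125) * E3 r + (-33740288 / 3125) * E2 r + (-33740288 / 3125) * E2 r * E3 r + (33740288 / 3125) * E2 r ^ 2) +
    E4 p * ((-33740288 / 3125) + (501806488064 / 9375) * E4 r + (-193497991936 / 46875) * E3 r + (7214092288 / 46875) * E2 r + (-196636850944 / 46875) * E2 r * E3 r + (17910525952 / 15625) * E2 r ^ 2) +
    E3 p * ((33740288 / 3125) + (-193497991936 / 46875) * E4 r + (109122618112 / 46875) * E3 r + (-7214092288 / 46875) * E2 r + (-89139803648 / 46875) * E2 r * E3 r + (-3847963648 / 15625) * E2 r ^ 2) +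
    E2 p * ((-33740288 / 3125) + (7214092288 / 46875) * E4 r + (-7214092288 / 46875) * E3 r + (7214092288 / 46875) * E2 r + (5189675008 / 9375) * E2 r * E3 r + (-5527077888 / 15625) * E2 r ^ 2) +
    E2 p * E3 p * ((-33740288 / 3125) + (-196636850944 / 46875) * E4 r + (-89139803648 / 46875) * E3 r + (5189675008 / 9375) * E2 r + (397511780096 / 46875) * E2 r * E3 r + (-28948881408 / 15625) * E2 r ^ 2) +
    E2 p ^ 2 * ((33740288 / 3125) + (17910525952 / 15625) * E4 r + (-3847963648 / 15625) * E3 r + (-5527077888 / 15625) * E2 r + (-28948881408 / 15625) * E2 r * E3 r + (19581740032 / 15625) * E2 r ^ 2) := by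
  unfold Ksum LTC5
  simp only [List.map_cons, List.map_nil, List.sum_cons, List.sum_nil, mo_2_1_1_1, mo_2_2_1_0, mo_3_1_1_0, mo_3_2_0_0, mo_4_1_0_0, mo_5_0_0_0, hp, hr,
    Fin.sum_univ_four, Matrix.cons_val]
  ring

end Vale.Agent.P154.Q4
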