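import Vale.Agent.P154.Q4Mo8
import Vale.Agent.P154.Q4E

/-! P154, four states: a part of degree 8 of a polynomial -/

namespace Vale.Agent.P154.Q4

open Vale.Agent.P154.G

/-- coefficients on the symmetric monomials of degree 8 -/
noncomputable def LTC8a : List ((Fin 4 → ℕ) × ℝ) :=
  [(![2, 2, 2, 2], (-5800101811 / 2250000)), (![3, 2, 2, 1], (-5527140509 / 375000)), (![3, 3, 1, 1], (-2649705583 / 750000)), (![3, 3, 2, 0], (-240059237 / 750000))]

theorem Tsum_TC8a (v : V 4) : Tsum LTC8a v =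
    (788138129 / 31250) * E4 v ^ 2 + (-240059237 / 375000) * E2 v * E3 v ^ 2 + (-1204823173 / 93750) * E2 v ^ 2 * E4 v + (-215399449 / 375000) * sg v * E3 v * E4 v := by
  unfold Tsum LTC8a
  simp only [List.map_cons, List.map_nil, List.sum_cons, List.sum_nil, mo_2_2_2_2, mo_3_2_2_1, mo_3_3_1_1, mo_3_3_2_0]
  ring

set_option maxHeartbeats 2000000 in
theorem Ksum_TC8a {p r : V 4} (hp : sg p = 1) (hr : sg r = 1) : Ksum LTC8a p r =
    E4 p ^ 2 * ((-8216733619585024 / 46875) * E4 r ^ 2 + (1434790303301632 / 46875) * E3 r * E4 r + (-15732522156032 / 46875) * E2 r * E3 r ^ 2 + (-315837165862912 / 46875) * E2 r ^ 2 * E4 r) +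
    E3 p * E4 p * ((1434790303301632 / 46875) * E4 r ^ 2 + (-879650891087872 / 46875) * E3 r * E4 r + (3933130539008 / 46875) * E2 r * E3 r ^ 2 + (67887189819392 / 9375) * E2 r ^ 2 * E4 r) +
    E2 p * E3 p ^ 2 * ((-15732522156032 / 46875) * E4 r ^ 2 + (3933130539008 / 46875) * E3 r * E4 r + (-3933130539008 / 46875) * E2 r * E3 r ^ 2 + (7866261078016 / 46875) * E2 r ^ 2 * E4 r) +
    E2 p ^ 2 * E4 p * ((-315837165862912 / 46875) * E4 r ^ 2 + (67887189819392 / 9375) * E3 r * E4 r + (7866261078016 / 46875) * E2 r * E3 r ^ 2 + (-12625575149568 / 3125) * E2 r ^ 2 * E4 r) := by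
  unfold Ksum LTC8a
  simp only [List.map_cons, List.map_nil, List.sum_cons, List.sum_nil, mo_2_2_2_2, mo_3_2_2_1, mo_3_3_1_1, mo_3_3_2_0, hp, hr,
    Fin.sum_univ_four, Matrix.cons_val]
  ring

end Vale.Agent.P154.Q4
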