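import Vale.Agent.P154.Q4Mo9
import Vale.Agent.P154.Q4E

/-! P154, four states: a part of degree 9 of a polynomial -/

namespace Vale.Agent.P154.Q4

open Vale.Agent.P154.G

/-- coefficients on the symmetric monomials of degree 9 -/
noncomputable def LTC9a : List ((Fin 4 → ℕ) × ℝ) :=
  [(![3, 2, 2, 2], (1329351529 / 281250)), (![3, 3, 2, 1], (2492753419 / 375000)), (![3, 3, 3, 0], (7439011 / 375000))]

theorem Tsum_TC9a (v : V 4) : Tsum LTC9a v =
    (7439011 / 62500) * E3 v ^ 3 + (121290116 / 9375) * E2 v * E3 v * E4 v + (-1046951521 / 93750) * sg v * E4 v ^ 2 := by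
  unfold Tsum LTC9a
  simp only [List.map_cons, List.map_nil, List.sum_cons, List.sum_nil, mo_3_2_2_2, mo_3_3_2_1, mo_3_3_3_0]
  ring

set_option maxHeartbeats 2000000 in
theorem Ksum_TC9a {p r : V 4} (hp : sg p = 1) (hr : sg r = 1) : Ksum LTC9a p r =
    E4 p ^ 2 * ((340695965237248 / 3125) * E4 r ^ 2 + (8775414448128 / 15625) * E3 r ^ 3 + (-353056419479552 / 15625) * E2 r * E3 r * E4 r) +
    E3 p ^ 3 * ((8775414448128 / 15625) * E4 r ^ 2 + (2925138149376 / 15625) * E3 r ^ 3 + (-8775414448128 / 15625) * E2 r * E3 r * E4 r) +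
    E2 p * E3 p * E4 p * ((-353056419479552 / 15625) * E4 r ^ 2 + (-8775414448128 / 15625) * E3 r ^ 3 + (81141781233664 / 9375) * E2 r * E3 r * E4 r) := by
  unfold Ksum LTC9a
  simp only [List.map_cons, List.map_nil, List.sum_cons, List.sum_nil, mo_3_2_2_2, mo_3_3_2_1, mo_3_3_3_0, hp, hr,
    Fin.sum_univ_four, Matrix.cons_val]
  ring

end Vale.Agent.P154.Q4
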