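import Vale.Agent.P154.Q4Mo9
import Vale.Agent.P154.Q4E

/-! P154, four states: a part of degree 9 of a polynomial -/

namespace Vale.Agent.P154.Q4

open Vale.Agent.P154.G

/-- coefficients on the symmetric monomials of degree 9 -/
noncomputable def LTC9b : List ((Fin 4 → ℕ) × ℝ) :=
  [(![4, 2, 2, 1], (1579033499 / 375000)), (![4, 3, 1, 1], (62026323 / 31250)), (![4, 3, 2, 0], (20134919 / 187500))]

theorem Tsum_TC9b (v : V 4) : Tsum LTC9b v =
    (-20134919 / 62500) * E3 v ^ 3 + (-623550587 / 31250) * E2 v * E3 v * E4 v + (700758681 / 62500) * sg v * E4 v ^ 2 + (20134919 / 187500) * sg v * E2 v * E3 v ^ 2 + (352023019 / 93750) * sg v * E2 v ^ 2 * E4 v + (5855569 / 15625) * sg v ^ 2 * E3 v * E4 v := by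
  unfold Tsum LTC9b
  simp only [List.map_cons, List.map_nil, List.sum_cons, List.sum_nil, mo_4_2_2_1, mo_4_3_1_1, mo_4_3_2_0]
  ring

set_option maxHeartbeats 2000000 in
theorem Ksum_TC9b {p r : V 4} (hp : sg p = 1) (hr : sg r = 1) : Ksum LTC9b p r =
    E4 p ^ 2 * ((883739863154688 / 15625) * E4 r ^ 2 + (-78661177311232 / 3125) * E3 r * E4 r + (2639124103168 / 15625) * E3 r ^ 3 + (-31657895919616 / 15625) * E2 r * E3 r * E4 r + (-2639124103168 / 46875) * E2 r * E3 r ^ 2 + (493073100701696 / 46875) * E2 r ^ 2 * E4 r) +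
    E3 p * E4 p * ((-78661177311232 / 3125) * E4 r ^ 2 + (7980300304384 / 625) * E3 r * E4 r + (1319562051584 / 15625) * E3 r ^ 3 + (-76457570992128 / 15625) * E2 r * E3 r * E4 r + (-1319562051584 / 46875) * E2 r * E3 r ^ 2 + (-192478816894976 / 46875) * E2 r ^ 2 * E4 r) +
    E3 p ^ 3 * ((2639124103168 / 15625) * E4 r ^ 2 + (1319562051584 / 15625) * E3 r * E4 r + (3958686154752 / 15625) * E3 r ^ 3 + (-10556496412672 / 15625) * E2 r * E3 r * E4 r + (-1319562051584 / 15625) * E2 r * E3 r ^ 2 + (2639124103168 / 15625) * E2 r ^ 2 * E4 r) +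
    E2 p * E3 p * E4 p * ((-31657895919616 / 15625) * E4 r ^ 2 + (-76457570992128 / 15625) * E3 r * E4 r + (-10556496412672 / 15625) * E3 r ^ 3 + (67325283794944 / 3125) * E2 r * E3 r * E4 r + (10556496412672 / 46875) * E2 r * E3 r ^ 2 + (-118671963324416 / 46875) * E2 r ^ 2 * E4 r) +
    E2 p * E3 p ^ 2 * ((-2639124103168 / 46875) * E4 r ^ 2 + (-1319562051584 / 46875) * E3 r * E4 r + (-1319562051584 / 15625) * E3 r ^ 3 + (10556496412672 / 46875) * E2 r * E3 r * E4 r + (1319562051584 / 46875) * E2 r * E3 r ^ 2 + (-2639124103168 / 46875) * E2 r ^ 2 * E4 r) +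
    E2 p ^ 2 * E4 p * ((493073100701696 / 46875) * E4 r ^ 2 + (-192478816894976 / 46875) * E3 r * E4 r + (2639124103168 / 15625) * E3 r ^ 3 + (-118671963324416 / 46875) * E2 r * E3 r * E4 r + (-2639124103168 / 46875) * E2 r * E3 r ^ 2 + (102837218705408 / 46875) * E2 r ^ 2 * E4 r) := by
  unfold Ksum LTC9b
  simp only [List.map_cons, List.map_nil, List.sum_cons, List.sum_nil, mo_4_2_2_1, mo_4_3_1_1, mo_4_3_2_0, hp, hr,
    Fin.sum_univ_four, Matrix.cons_val]
  ring

end Vale.Agent.P154.Q4
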