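import Vale.Agent.P154.Q4TC0
import Vale.Agent.P154.Q4TC1
import Vale.Agent.P154.Q4TC2
import Vale.Agent.P154.Q4TC3
import Vale.Agent.P154.Q4TC4
import Vale.Agent.P154.Q4TC5
import Vale.Agent.P154.Q4TC6
import Vale.Agent.P154.Q4TC7
import Vale.Agent.P154.Q4TC8a
import Vale.Agent.P154.Q4TC8b
import Vale.Agent.P154.Q4TC8c
import Vale.Agent.P154.Q4TC8d
import Vale.Agent.P154.Q4TC9a
import Vale.Agent.P154.Q4TC9b
import Vale.Agent.P154.Q4TC9c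
import Vale.Agent.P154.Q4TC9d
import Vale.Agent.P154.Q4TC9e
import Vale.Agent.P154.Q4TC9f

/-! P154, four states: all coefficients -/

namespace Vale.Agent.P154.Q4

open Vale.Agent.P154.G

/-- all coefficients -/
noncomputable def LTC : List ((Fin 4 → ℕ) × ℝ) :=
  LTC0 ++ LTC1 ++ LTC2 ++ LTC3 ++ LTC4 ++ LTC5 ++ LTC6 ++ LTC7 ++ LTC8a ++ LTC8b ++ LTC8c ++ LTC8d ++ LTC9a ++ LTC9b ++ LTC9c ++ LTC9d ++ LTC9e ++ LTC9f

end Vale.Agent.P154.Q4
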