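import Vale.Agent.P154.Q4MB0

namespace Vale.Agent.P154.Q4

open Vale.Agent.P154.G

/-- coefficients -/
def MB0g0 : List ℤ :=
  [0, 0, 0, 0, 0, 0, 0, 0, 0, 0, 0]

/-- coefficients -/
def MB0g1 : List ℤ :=
  [1245886272, -622080000, 15316992000, 41582592000, -6875136000, -14524416000, -5529600000, -61341696000, 2785280000, 0, 0]

/-- coefficients -/
def MB0g2 : List ℤ :=
  [6014780928, 2185901856, 107218944000, 291078144000, -48125952000, -101670912000, -38707200000, -429391872000, 19496960000, 0, 0]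

/-- coefficients -/
def MB0g3 : List ℤ :=
  [12086537904, 14454790416, 337004898624, 862838784000, -142659072000, -301381632000, -114739200000, -1272840192000, 57794560000, 0, 0]

/-- coefficients -/
def MB0g4 : List ℤ :=
  [12940425432, 25929113688, 541485847368, 1453993629840, -218182070448, -486567936000, -185241600000, -2054946816000, 93306880000, 0, 0]

/-- coefficients -/
def MB0g5 : List ℤ :=
  [7785726048, 21737835648, 457541274780, 1434417888960, -178883657028, -446189968836, -173145600000, -1920761856000, 87214080000, 0, 0]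

/-- coefficients -/
def MB0g6 : List ℤ :=
  [2496017862, 8900006058, 193008375558, 768933785754, -74389324248, -217804077540, -67041773172, -1043134848000, 43849224210, 0, 0]

/-- coefficients -/
def MB0g7 : List ℤ :=
  [333123597, 1442179134, 31901190282, 171506846016, -12269266866, -43736351688, -2795471730, -256239113175, 9025088559, 8039452122, -106457409]

set_option maxRecDepth 4000 in
lemma MB_bern0 (x y z Z : ℝ) : 27000000 * MBr x y z Z =
      (1 / 2 - Z) ^ 7 * dot MB0g0 (T7.kl x y z Z) +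
      Z * (1 / 2 - Z) ^ 6 * dot MB0g1 (T7.kl x y z Z) +
      Z ^ 2 * (1 / 2 - Z) ^ 5 * dot MB0g2 (T7.kl x y z Z) +
      Z ^ 3 * (1 / 2 - Z) ^ 4 * dot MB0g3 (T7.kl x y z Z) +
      Z ^ 4 * (1 / 2 - Z) ^ 3 * dot MB0g4 (T7.kl x y z Z) +
      Z ^ 5 * (1 / 2 - Z) ^ 2 * dot MB0g5 (T7.kl x y z Z) +
      Z ^ 6 * (1 / 2 - Z) * dot MB0g6 (T7.kl x y z Z) +
      Z ^ 7 * dot MB0g7 (T7.kl x y z Z) := by
  simp only [MBr, T7.kl, dot, MB0g0, MB0g1, MB0g2, MB0g3, MB0g4, MB0g5, MB0g6, MB0g7]
  push_cast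
  ring

theorem MB_pos0 (v : V 4) (hv : ∀ i, 0 ≤ v i) (h0 : 0 ≤ sg v) (h1 : sg v ≤ 1 / 2) :
    0 ≤ MBr (E2 v) (E3 v) (E4 v) (sg v) := by
  have ha : 0 ≤ sg v - 0 := by linarith
  have hb : 0 ≤ 1 / 2 - sg v := by linarith
  have hz : 0 ≤ sg v := by linarith
  have k0 := T7.cert (g := MB0g0) (by decide +kernel) v hv
  have k1 := T7.cert (g := MB0g1) (by decide +kernel) v hv
  have k2 := T7.cert (g := MB0g2) (by decide +kernel) v hv
  have k3 := T7.cert (g := MB0g3) (by decide +kernel) v hv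
  have k4 := T7.cert (g := MB0g4) (by decide +kernel) v hv
  have k5 := T7.cert (g := MB0g5) (by decide +kernel) v hv
  have k6 := T7.cert (g := MB0g6) (by decide +kernel) v hv
  have k7 := T7.cert (g := MB0g7) (by decide +kernel) v hv
  rw [T7.keys_kl] at k0 k1 k2 k3 k4 k5 k6 k7
  have h := MB_bern0 (E2 v) (E3 v) (E4 v) (sg v)
  have h2 : 0 ≤ 27000000 * MBr (E2 v) (E3 v) (E4 v) (sg v) := by
    rw [h]
    positivity
  exact nonneg_of_mul_nonneg_right h2 (by norm_num)

end Vale.Agent.P154.Q4
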