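import Vale.Agent.P154.Q4MB0

namespace Vale.Agent.P154.Q4

open Vale.Agent.P154.G

/-- coefficients -/
def MB1g0 : List ℤ :=
  [333123597, 1442179134, 31901190282, 171506846016, -12269266866, -43736351688, -2795471730, -256239113175, 9025088559, 8039452122, -106457409]

/-- coefficients -/
def MB1g1 : List ℤ :=
  [2167712496, 11290501818, 253608288390, 1632162058470, -97380411876, -394504846092, 27905168952, -2544212736450, 82502015616, 112552329708, -1490403726]

/-- coefficients -/
def MB1g2 : List ℤ :=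
  [5815893852, 36080810208, 821140751772, 6613787525256, -316830182796, -1506394580148, 396536052744, -10927229186700, 319130828436, 675313978248, -8942422356]

/-- coefficients -/
def MB1g3 : List ℤ :=
  [8430370488, 61259036832, 1385757645912, 14776074999000, -542689767432, -3153265572600, 1693559905920, -26311532553000, 674905263920, 2251046594160, -29808074520]

/-- coefficients -/
def MB1g4 : List ℤ :=
  [7178532768, 60154652592, 1290095579520, 19622033352000, -521046354816, -3900141436320, 3602589138720, -38256067602000, 838076439440, 4502093188320, -59616149040]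

/-- coefficients -/
def MB1g5 : List ℤ :=
  [3607090272, 34413888096, 638041828896, 15452030502432, -273660865920, -2842035647616, 4155890958720, -33390194709600, 606077381248, 5402511825984, -71539378848]

/-- coefficients -/
def MB1g6 : List ℤ :=
  [993629376, 10682100288, 140380005312, 6656750536320, -69027800256, -1124946575424, 2468161113984, -16033738766400, 233827026112, 3601674550656, -47692919232]

/-- coefficients -/
def MB1g7 : List ℤ :=
  [116055936, 1394019072, 6160952448, 1200151251072, -5432344704, -185202320256, 581915501568, -3211043990400, 36740666112, 1029049871616, -13626548352]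

set_option maxRecDepth 4000 in
lemma MB_bern1 (x y z Z : ℝ) : 27000000 * MBr x y z Z =
      (1 - Z) ^ 7 * dot MB1g0 (T7.kl x y z Z) +
      (Z - 1 / 2) * (1 - Z) ^ 6 * dot MB1g1 (T7.kl x y z Z) +
      (Z - 1 / 2) ^ 2 * (1 - Z) ^ 5 * dot MB1g2 (T7.kl x y z Z) +
      (Z - 1 / 2) ^ 3 * (1 - Z) ^ 4 * dot MB1g3 (T7.kl x y z Z) +
      (Z - 1 / 2) ^ 4 * (1 - Z) ^ 3 * dot MB1g4 (T7.kl x y z Z) +
      (Z - 1 / 2) ^ 5 * (1 - Z) ^ 2 * dot MB1g5 (T7.kl x y z Z) +
      (Z - 1 / 2) ^ 6 * (1 - Z) * dot MB1g6 (T7.kl x y z Z) +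
      (Z - 1 / 2) ^ 7 * dot MB1g7 (T7.kl x y z Z) := by
  simp only [MBr, T7.kl, dot, MB1g0, MB1g1, MB1g2, MB1g3, MB1g4, MB1g5, MB1g6, MB1g7]
  push_cast
  ring

theorem MB_pos1 (v : V 4) (hv : ∀ i, 0 ≤ v i) (h0 : 1 / 2 ≤ sg v) (h1 : sg v ≤ 1) :
    0 ≤ MBr (E2 v) (E3 v) (E4 v) (sg v) := by
  have ha : 0 ≤ sg v - 1 / 2 := by linarith
  have hb : 0 ≤ 1 - sg v := by linarith
  have hz : 0 ≤ sg v := by linarith
  have k0 := T7.cert (g := MB1g0) (by decide +kernel) v hv
  have k1 := T7.cert (g := MB1g1) (by decide +kernel) v hv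
  have k2 := T7.cert (g := MB1g2) (by decide +kernel) v hv
  have k3 := T7.cert (g := MB1g3) (by decide +kernel) v hv
  have k4 := T7.cert (g := MB1g4) (by decide +kernel) v hv
  have k5 := T7.cert (g := MB1g5) (by decide +kernel) v hv
  have k6 := T7.cert (g := MB1g6) (by decide +kernel) v hv
  have k7 := T7.cert (g := MB1g7) (by decide +kernel) v hv
  rw [T7.keys_kl] at k0 k1 k2 k3 k4 k5 k6 k7
  have h := MB_bern1 (E2 v) (E3 v) (E4 v) (sg v)
  have h2 : 0 ≤ 27000000 * MBr (E2 v) (E3 v) (E4 v) (sg v) := by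
    rw [h]
    positivity
  exact nonneg_of_mul_nonneg_right h2 (by norm_num)

end Vale.Agent.P154.Q4
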