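import Vale.Agent.P154.Q4MB0

namespace Vale.Agent.P154.Q4

open Vale.Agent.P154.G

/-- coefficients -/
def MB2g0 : List ℤ :=
  [116055936, 1394019072, 6160952448, 1200151251072, -5432344704, -185202320256, 581915501568, -3211043990400, 36740666112, 1029049871616, -13626548352]

/-- coefficients -/
def MB2g1 : List ℤ :=
  [631153728, 8834166720, -54126671040, 10145366978688, -7025025600, -1467885908160, 5678655907968, -28920877099200, 280542299456, 10805023651968, -143078757696]

/-- coefficients -/
def MB2g2 : List ℤ :=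
  [1432236384, 23326286688, -528998229216, 36383729156640, 98355782016, -4899671644032, 23418859722624, -110713024706400, 886369021312, 48622606433856, -643854409632]

/-- coefficients -/
def MB2g3 : List ℤ :=
  [1770269472, 33383551248, -1607410923840, 71535589793280, 405049193856, -8880070186080, 52802994048480, -232713870822000, 1480462317680, 121556516084640, -1609636024080]

/-- coefficients -/
def MB2g4 : List ℤ :=
  [1296343224, 28091974176, -2424001313448, 82885643069400, 681581441016, -9355407262200, 70075387785600, -288657212121000, 1375837843120, 182334774126960, -2414454036120]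

/-- coefficients -/
def MB2g5 : List ℤ :=
  [567303156, 13949543520, -1976583702924, 56157814218888, 589071240540, -5641437303324, 54462510448632, -209736178064100, 673898068748, 164101296714264, -2173008632508]

/-- coefficients -/
def MB2g6 : List ℤ :=
  [138975264, 3795156666, -834429523914, 20318942382822, 257924412396, -1747336237020, 22764114905112, -81664964680050, 137615711344, 82050648357132, -1086504316254]

/-- coefficients -/
def MB2g7 : List ℤ :=
  [14934051, 437878710, -143095627566, 2946035420460, 45344096730, -198013508928, 3890898211266, -12859028833725, 1826500353, 17582281790814, -232822353483]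

set_option maxRecDepth 4000 in
lemma MB_bern2 (x y z Z : ℝ) : 27000000 * MBr x y z Z =
      (3 / 2 - Z) ^ 7 * dot MB2g0 (T7.kl x y z Z) +
      (Z - 1) * (3 / 2 - Z) ^ 6 * dot MB2g1 (T7.kl x y z Z) +
      (Z - 1) ^ 2 * (3 / 2 - Z) ^ 5 * dot MB2g2 (T7.kl x y z Z) +
      (Z - 1) ^ 3 * (3 / 2 - Z) ^ 4 * dot MB2g3 (T7.kl x y z Z) +
      (Z - 1) ^ 4 * (3 / 2 - Z) ^ 3 * dot MB2g4 (T7.kl x y z Z) +
      (Z - 1) ^ 5 * (3 / 2 - Z) ^ 2 * dot MB2g5 (T7.kl x y z Z) +
      (Z - 1) ^ 6 * (3 / 2 - Z) * dot MB2g6 (T7.kl x y z Z) +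
      (Z - 1) ^ 7 * dot MB2g7 (T7.kl x y z Z) := by
  simp only [MBr, T7.kl, dot, MB2g0, MB2g1, MB2g2, MB2g3, MB2g4, MB2g5, MB2g6, MB2g7]
  push_cast
  ring

theorem MB_pos2 (v : V 4) (hv : ∀ i, 0 ≤ v i) (h0 : 1 ≤ sg v) (h1 : sg v ≤ 3 / 2) :
    0 ≤ MBr (E2 v) (E3 v) (E4 v) (sg v) := by
  have ha : 0 ≤ sg v - 1 := by linarith
  have hb : 0 ≤ 3 / 2 - sg v := by linarith
  have hz : 0 ≤ sg v := by linarith
  have k0 := T7.cert (g := MB2g0) (by decide +kernel) v hv
  have k1 := T7.cert (g := MB2g1) (by decide +kernel) v hv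
  have k2 := T7.cert (g := MB2g2) (by decide +kernel) v hv
  have k3 := T7.cert (g := MB2g3) (by decide +kernel) v hv
  have k4 := T7.cert (g := MB2g4) (by decide +kernel) v hv
  have k5 := T7.cert (g := MB2g5) (by decide +kernel) v hv
  have k6 := T7.cert (g := MB2g6) (by decide +kernel) v hv
  have k7 := T7.cert (g := MB2g7) (by decide +kernel) v hv
  rw [T7.keys_kl] at k0 k1 k2 k3 k4 k5 k6 k7
  have h := MB_bern2 (E2 v) (E3 v) (E4 v) (sg v)
  have h2 : 0 ≤ 27000000 * MBr (E2 v) (E3 v) (E4 v) (sg v) := by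
    rw [h]
    positivity
  exact nonneg_of_mul_nonneg_right h2 (by norm_num)

end Vale.Agent.P154.Q4
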