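import Vale.Agent.P154.Q4MB0

namespace Vale.Agent.P154.Q4

open Vale.Agent.P154.G

/-- coefficients -/
def MB3g0 : List ℤ :=
  [14934051, 437878710, -143095627566, 2946035420460, 45344096730, -198013508928, 3890898211266, -12859028833725, 1826500353, 17582281790814, -232822353483]

/-- coefficients -/
def MB3g1 : List ℤ :=
  [70101450, 2335145274, -1168909262010, 20925553503618, 376892941824, -1024852887972, 31708460052612, -98361438992100, -112044706402, 164101296714264, -2173008632508]

/-- coefficients -/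
def MB3g2 : List ℤ :=
  [154060272, 5189475168, -3983462131500, 59797480943664, 1302882417108, -1306537209036, 108128581333632, -309915023936400, -824064437728, 656405186857056, -8692034530032]

/-- coefficients -/
def MB3g3 : List ℤ :=
  [219706776, 6300099864, -7342839999432, 84445873878960, 2430013305024, 2337425950320, 198154321548480, -509334761160000, -2382379737440, 1458678193015680, -19315632288960]

/-- coefficients -/
def MB3g4 : List ℤ :=
  [218676240, 4616509680, -7903576143936, 53512068199680, 2640035472768, 8991928702080, 207344923200000, -447565094496000, -3565991294720, 1944904257354240, -25754176385280]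

/-- coefficients -/
def MB3g5 : List ℤ :=
  [143014464, 2148015456, -4963308009984, -610855879680, 1669058067456, 11129659439616, 119886654348288, -178367207500800, -2912220335616, 1555923405883392, -20603341108224]

/-- coefficients -/
def MB3g6 : List ℤ :=
  [53915328, 651525120, -1682091601920, -18090981974016, 567903458304, 6406512067584, 32639909216256, -1670384332800, -1218295873536, 691521513725952, -9157040492544]

/-- coefficients -/
def MB3g7 : List ℤ :=
  [8812800, 109831680, -237117044736, -6599628361728, 80211345408, 1451868106752, 2249656713216, 14070166732800, -199714381824, 131718383566848, -1744198189056]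

set_option maxRecDepth 4000 in
lemma MB_bern3 (x y z Z : ℝ) : 27000000 * MBr x y z Z =
      (2 - Z) ^ 7 * dot MB3g0 (T7.kl x y z Z) +
      (Z - 3 / 2) * (2 - Z) ^ 6 * dot MB3g1 (T7.kl x y z Z) +
      (Z - 3 / 2) ^ 2 * (2 - Z) ^ 5 * dot MB3g2 (T7.kl x y z Z) +
      (Z - 3 / 2) ^ 3 * (2 - Z) ^ 4 * dot MB3g3 (T7.kl x y z Z) +
      (Z - 3 / 2) ^ 4 * (2 - Z) ^ 3 * dot MB3g4 (T7.kl x y z Z) +
      (Z - 3 / 2) ^ 5 * (2 - Z) ^ 2 * dot MB3g5 (T7.kl x y z Z) +
      (Z - 3 / 2) ^ 6 * (2 - Z) * dot MB3g6 (T7.kl x y z Z) +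
      (Z - 3 / 2) ^ 7 * dot MB3g7 (T7.kl x y z Z) := by
  simp only [MBr, T7.kl, dot, MB3g0, MB3g1, MB3g2, MB3g3, MB3g4, MB3g5, MB3g6, MB3g7]
  push_cast
  ring

theorem MB_pos3 (v : V 4) (hv : ∀ i, 0 ≤ v i) (h0 : 3 / 2 ≤ sg v) (h1 : sg v ≤ 2) :
    0 ≤ MBr (E2 v) (E3 v) (E4 v) (sg v) := by
  have ha : 0 ≤ sg v - 3 / 2 := by linarith
  have hb : 0 ≤ 2 - sg v := by linarith
  have hz : 0 ≤ sg v := by linarith
  have k0 := T7.cert (g := MB3g0) (by decide +kernel) v hv
  have k1 := T7.cert (g := MB3g1) (by decide +kernel) v hv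
  have k2 := T7.cert (g := MB3g2) (by decide +kernel) v hv
  have k3 := T7.cert (g := MB3g3) (by decide +kernel) v hv
  have k4 := T7.cert (g := MB3g4) (by decide +kernel) v hv
  have k5 := T7.cert (g := MB3g5) (by decide +kernel) v hv
  have k6 := T7.cert (g := MB3g6) (by decide +kernel) v hv
  have k7 := T7.cert (g := MB3g7) (by decide +kernel) v hv
  rw [T7.keys_kl] at k0 k1 k2 k3 k4 k5 k6 k7
  have h := MB_bern3 (E2 v) (E3 v) (E4 v) (sg v)
  have h2 : 0 ≤ 27000000 * MBr (E2 v) (E3 v) (E4 v) (sg v) := by
    rw [h]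
    positivity
  exact nonneg_of_mul_nonneg_right h2 (by norm_num)

end Vale.Agent.P154.Q4
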