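import Vale.Agent.P154.Q4MB0

namespace Vale.Agent.P154.Q4

open Vale.Agent.P154.G

/-- coefficients -/
def MB4g0 : List ℤ :=
  [68850, 858060, -1852476912, -51559596576, 626651136, 11342719584, 17575443072, 109923177600, -1560268608, 1029049871616, -13626548352]

/-- coefficients -/
def MB4g1 : List ℤ :=
  [603423, 7839180, -12619333872, -800079934752, 4286182320, 138095360208, -140914276992, 2334486484800, -13729767744, 10805023651968, -143078757696]

/-- coefficients -/
def MB4g2 : List ℤ :=
  [2318166, 46057383, -32133248640, -4675764318912, 10872281664, 689744339856, -2111757778080, 15671300925600, -43251937968, 48622606433856, -643854409632]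

/-- coefficients -/
def MB4g3 : List ℤ :=
  [4706370, 154906290, -35005829724, -14193996618960, 11632718232, 1860165932760, -9003203274240, 51764059674000, -46839802720, 121556516084640, -1609636024080]

/-- coefficients -/
def MB4g4 : List ℤ :=
  [5963517, 301780593, -8600824377, -24825144963690, 2821414392, 2952063341550, -19131039754920, 96075280935000, 42086239220, 182334774126960, -2414454036120]

/-- coefficients -/
def MB4g5 : List ℤ :=
  [5100030, 343286775, 12096758322, -25367724195174, -2889381789, 2773251152721, -22314793858632, 102685208175900, 155735460268, 164101296714264, -2173008632508]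

/-- coefficients -/
def MB4g6 : List ℤ :=
  [2515860, 206700741, 7885162674, -14139663629013, -555437718, 1433970493002, -13721015088918, 59282833783950, 144447468619, 82050648357132, -1086504316254]

/-- coefficients -/
def MB4g7 : List ℤ :=
  [506169, 47068128, 878206779, -3333991207923, 745605513, 315819005319, -3492545067540, 14371875166275, 46721555808, 17582281790814, -232822353483]

set_option maxRecDepth 4000 in
lemma MB_bern4 (x y z Z : ℝ) : 27000000 * MBr x y z Z =
      (3 - Z) ^ 7 * dot MB4g0 (T7.kl x y z Z) +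
      (Z - 2) * (3 - Z) ^ 6 * dot MB4g1 (T7.kl x y z Z) +
      (Z - 2) ^ 2 * (3 - Z) ^ 5 * dot MB4g2 (T7.kl x y z Z) +
      (Z - 2) ^ 3 * (3 - Z) ^ 4 * dot MB4g3 (T7.kl x y z Z) +
      (Z - 2) ^ 4 * (3 - Z) ^ 3 * dot MB4g4 (T7.kl x y z Z) +
      (Z - 2) ^ 5 * (3 - Z) ^ 2 * dot MB4g5 (T7.kl x y z Z) +
      (Z - 2) ^ 6 * (3 - Z) * dot MB4g6 (T7.kl x y z Z) +
      (Z - 2) ^ 7 * dot MB4g7 (T7.kl x y z Z) := by
  simp only [MBr, T7.kl, dot, MB4g0, MB4g1, MB4g2, MB4g3, MB4g4, MB4g5, MB4g6, MB4g7]
  push_cast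
  ring

theorem MB_pos4 (v : V 4) (hv : ∀ i, 0 ≤ v i) (h0 : 2 ≤ sg v) (h1 : sg v ≤ 3) :
    0 ≤ MBr (E2 v) (E3 v) (E4 v) (sg v) := by
  have ha : 0 ≤ sg v - 2 := by linarith
  have hb : 0 ≤ 3 - sg v := by linarith
  have hz : 0 ≤ sg v := by linarith
  have k0 := T7.cert (g := MB4g0) (by decide +kernel) v hv
  have k1 := T7.cert (g := MB4g1) (by decide +kernel) v hv
  have k2 := T7.cert (g := MB4g2) (by decide +kernel) v hv
  have k3 := T7.cert (g := MB4g3) (by decide +kernel) v hv
  have k4 := T7.cert (g := MB4g4) (by decide +kernel) v hv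
  have k5 := T7.cert (g := MB4g5) (by decide +kernel) v hv
  have k6 := T7.cert (g := MB4g6) (by decide +kernel) v hv
  have k7 := T7.cert (g := MB4g7) (by decide +kernel) v hv
  rw [T7.keys_kl] at k0 k1 k2 k3 k4 k5 k6 k7
  have h := MB_bern4 (E2 v) (E3 v) (E4 v) (sg v)
  have h2 : 0 ≤ 27000000 * MBr (E2 v) (E3 v) (E4 v) (sg v) := by
    rw [h]
    positivity
  exact nonneg_of_mul_nonneg_right h2 (by norm_num)

end Vale.Agent.P154.Q4
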