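import Vale.Agent.P154.Q4MB0

namespace Vale.Agent.P154.Q4

open Vale.Agent.P154.G

/-- coefficients -/
def MB5g0 : List ℤ :=
  [506169, 47068128, 878206779, -3333991207923, 745605513, 315819005319, -3492545067540, 14371875166275, 46721555808, 17582281790814, -232822353483]

/-- coefficients -/
def MB5g1 : List ℤ :=
  [4570506, 452253051, 4409732232, -32536213281909, 10993914900, 2987495581464, -35174615856642, 141923418543900, 509654312693, 164101296714264, -2173008632508]

/-- coefficients -/
def MB5g2 : List ℤ :=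
  [17427906, 1816600635, -8755824330, -135747022112550, 66406733919, 12094401683493, -151036398464976, 598528716735600, 2346976524712, 656405186857056, -8692034530032]

/-- coefficients -/
def MB5g3 : List ℤ :=
  [35812503, 3908118537, -97643454723, -313989817465710, 210380574438, 27171540094860, -358668612407520, 1397931820344000, 5930455872560, 1458678193015680, -19315632288960]

/-- coefficients -/
def MB5g4 : List ℤ :=
  [41916474, 4758165666, -252159133428, -434990700511200, 379895253696, 36597069407520, -509009463175680, 1953566826912000, 8898364967680, 1944904257354240, -25754176385280]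

/-- coefficients -/
def MB5g5 : List ℤ :=
  [27137214, 3125192301, -306025365168, -361025492641344, 394411496256, 29559276531072, -431892680486400, 1633942972339200, 7940473236224, 1555923405883392, -20603341108224]

/-- coefficients -/
def MB5g6 : List ℤ :=
  [8695647, 888427224, -181703846592, -166250923241472, 219629182464, 13259754208512, -202947852174336, 757521650995200, 3906620545024, 691521513725952, -9157040492544]

/-- coefficients -/
def MB5g7 : List ℤ :=
  [1075572, 22401360, -42430321152, -32774773132800, 50901004800, 2548942654464, -40755569430528, 150207149260800, 818266116096, 131718383566848, -1744198189056]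

set_option maxRecDepth 4000 in
lemma MB_bern5 (x y z Z : ℝ) : 27000000 * MBr x y z Z =
      (4 - Z) ^ 7 * dot MB5g0 (T7.kl x y z Z) +
      (Z - 3) * (4 - Z) ^ 6 * dot MB5g1 (T7.kl x y z Z) +
      (Z - 3) ^ 2 * (4 - Z) ^ 5 * dot MB5g2 (T7.kl x y z Z) +
      (Z - 3) ^ 3 * (4 - Z) ^ 4 * dot MB5g3 (T7.kl x y z Z) +
      (Z - 3) ^ 4 * (4 - Z) ^ 3 * dot MB5g4 (T7.kl x y z Z) +
      (Z - 3) ^ 5 * (4 - Z) ^ 2 * dot MB5g5 (T7.kl x y z Z) +
      (Z - 3) ^ 6 * (4 - Z) * dot MB5g6 (T7.kl x y z Z) +
      (Z - 3) ^ 7 * dot MB5g7 (T7.kl x y z Z) := by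
  simp only [MBr, T7.kl, dot, MB5g0, MB5g1, MB5g2, MB5g3, MB5g4, MB5g5, MB5g6, MB5g7]
  push_cast
  ring

theorem MB_pos5 (v : V 4) (hv : ∀ i, 0 ≤ v i) (h0 : 3 ≤ sg v) (h1 : sg v ≤ 4) :
    0 ≤ MBr (E2 v) (E3 v) (E4 v) (sg v) := by
  have ha : 0 ≤ sg v - 3 := by linarith
  have hb : 0 ≤ 4 - sg v := by linarith
  have hz : 0 ≤ sg v := by linarith
  have k0 := T7.cert (g := MB5g0) (by decide +kernel) v hv
  have k1 := T7.cert (g := MB5g1) (by decide +kernel) v hv
  have k2 := T7.cert (g := MB5g2) (by decide +kernel) v hv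
  have k3 := T7.cert (g := MB5g3) (by decide +kernel) v hv
  have k4 := T7.cert (g := MB5g4) (by decide +kernel) v hv
  have k5 := T7.cert (g := MB5g5) (by decide +kernel) v hv
  have k6 := T7.cert (g := MB5g6) (by decide +kernel) v hv
  have k7 := T7.cert (g := MB5g7) (by decide +kernel) v hv
  rw [T7.keys_kl] at k0 k1 k2 k3 k4 k5 k6 k7
  have h := MB_bern5 (E2 v) (E3 v) (E4 v) (sg v)
  have h2 : 0 ≤ 27000000 * MBr (E2 v) (E3 v) (E4 v) (sg v) := by
    rw [h]
    positivity
  exact nonneg_of_mul_nonneg_right h2 (by norm_num)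

end Vale.Agent.P154.Q4
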