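import Vale.Agent.P154.Q4MC0

namespace Vale.Agent.P154.Q4

open Vale.Agent.P154.G

/-- coefficients -/
def MC0g0 : List ℤ :=
  [42483944, 0, 0, 0, 0, 0, 0, 0, 0, 0, 0]

/-- coefficients -/
def MC0g1 : List ℤ :=
  [281278871, 4096000000, 0, 0, 0, 0, 0, 0, 0, 0, 0]

/-- coefficients -/
def MC0g2 : List ℤ :=
  [756938370, 16659206144, 0, 0, 0, 0, 0, 0, 0, 0, 0]

/-- coefficients -/
def MC0g3 : List ℤ :=
  [1097215081, 27987014656, 6776955904, 0, 0, 0, 0, 0, 0, 0, 0]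

/-- coefficients -/
def MC0g4 : List ℤ :=
  [939533988, 24827115008, 19193645568, -103044747264, -88572416, 0, 0, 0, 0, 0, 0]

/-- coefficients -/
def MC0g5 : List ℤ :=
  [481641145, 12244559616, 20329067008, -168655515648, -173737984, -933640960, 0, 0, 0, 0, 0]

/-- coefficients -/
def MC0g6 : List ℤ :=
  [138701650, 3175555840, 9546012800, -80418343424, -111972480, -1475454720, 1331767296, -33410137728, 6359424, 0, 0]

/-- coefficients -/
def MC0g7 : List ℤ :=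
  [17541927, 337075648, 1677483392, -9158779264, -23596992, -552740416, 739329280, -22754560960, 4821376, 7168512064, 30128384]

set_option maxRecDepth 4000 in
lemma MC_bern0 (x y z Z : ℝ) : 64000000 * MCr x y z Z =
      (1 / 2 - Z) ^ 7 * dot MC0g0 (T7.kl x y z Z) +
      Z * (1 / 2 - Z) ^ 6 * dot MC0g1 (T7.kl x y z Z) +
      Z ^ 2 * (1 / 2 - Z) ^ 5 * dot MC0g2 (T7.kl x y z Z) +
      Z ^ 3 * (1 / 2 - Z) ^ 4 * dot MC0g3 (T7.kl x y z Z) +
      Z ^ 4 * (1 / 2 - Z) ^ 3 * dot MC0g4 (T7.kl x y z Z) +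
      Z ^ 5 * (1 / 2 - Z) ^ 2 * dot MC0g5 (T7.kl x y z Z) +
      Z ^ 6 * (1 / 2 - Z) * dot MC0g6 (T7.kl x y z Z) +
      Z ^ 7 * dot MC0g7 (T7.kl x y z Z) := by
  simp only [MCr, T7.kl, dot, MC0g0, MC0g1, MC0g2, MC0g3, MC0g4, MC0g5, MC0g6, MC0g7]
  push_cast
  ring

theorem MC_pos0 (v : V 4) (hv : ∀ i, 0 ≤ v i) (h0 : 0 ≤ sg v) (h1 : sg v ≤ 1 / 2) :
    0 ≤ MCr (E2 v) (E3 v) (E4 v) (sg v) := by
  have ha : 0 ≤ sg v - 0 := by linarith
  have hb : 0 ≤ 1 / 2 - sg v := by linarith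
  have hz : 0 ≤ sg v := by linarith
  have k0 := T7.cert (g := MC0g0) (by decide +kernel) v hv
  have k1 := T7.cert (g := MC0g1) (by decide +kernel) v hv
  have k2 := T7.cert (g := MC0g2) (by decide +kernel) v hv
  have k3 := T7.cert (g := MC0g3) (by decide +kernel) v hv
  have k4 := T7.cert (g := MC0g4) (by decide +kernel) v hv
  have k5 := T7.cert (g := MC0g5) (by decide +kernel) v hv
  have k6 := T7.cert (g := MC0g6) (by decide +kernel) v hv
  have k7 := T7.cert (g := MC0g7) (by decide +kernel) v hv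
  rw [T7.keys_kl] at k0 k1 k2 k3 k4 k5 k6 k7
  have h := MC_bern0 (E2 v) (E3 v) (E4 v) (sg v)
  have h2 : 0 ≤ 64000000 * MCr (E2 v) (E3 v) (E4 v) (sg v) := by
    rw [h]
    positivity
  exact nonneg_of_mul_nonneg_right h2 (by norm_num)

end Vale.Agent.P154.Q4
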