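import Vale.Agent.P154.Q4MC0

namespace Vale.Agent.P154.Q4

open Vale.Agent.P154.G

/-- coefficients -/
def MC1g0 : List ℤ :=
  [17541927, 337075648, 1677483392, -9158779264, -23596992, -552740416, 739329280, -22754560960, 4821376, 7168512064, 30128384]

/-- coefficients -/
def MC1g1 : List ℤ :=
  [106885328, 1543503232, 13938754688, -47804566272, -218385408, -6262911104, 9018842624, -285153715712, 61139840, 100359168896, 421797376]

/-- coefficients -/
def MC1g2 : List ℤ :=
  [290743213, 2452243968, 46685518336, 27027147264, -812215552, -29658379264, 46122451968, -1510461467904, 328682496, 602155013376, 2530784256]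

/-- coefficients -/
def MC1g3 : List ℤ :=
  [466518022, 1466312192, 81031606272, 677132002304, -1537616384, -75576442880, 127106160640, -4366668805120, 968419840, 2007183377920, 8435947520]

/-- coefficients -/
def MC1g4 : List ℤ :=
  [477804097, -174092288, 78419123200, 1816155912192, -1539658752, -110807516160, 200941629440, -7396932101120, 1682462720, 4014366755840, 16871895040]

/-- coefficients -/
def MC1g5 : List ℤ :=
  [308606948, -641675264, 42565369856, 2126335438848, -757084160, -92023703552, 177205125120, -7272631910400, 1713702912, 4817240107008, 20246274048]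

/-- coefficients -/
def MC1g6 : List ℤ :=
  [114376843, -296390656, 12130275328, 1142179487744, -137457664, -39031676928, 75520196608, -3779296866304, 938967040, 3211493404672, 13497516032]

/-- coefficients -/
def MC1g7 : List ℤ :=
  [18474854, -46530560, 1420517376, 226189688832, 3366912, -6198181888, 9401040896, -774334988288, 210132992, 917569544192, 3856433152]

set_option maxRecDepth 4000 in
lemma MC_bern1 (x y z Z : ℝ) : 64000000 * MCr x y z Z =
      (1 - Z) ^ 7 * dot MC1g0 (T7.kl x y z Z) +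
      (Z - 1 / 2) * (1 - Z) ^ 6 * dot MC1g1 (T7.kl x y z Z) +
      (Z - 1 / 2) ^ 2 * (1 - Z) ^ 5 * dot MC1g2 (T7.kl x y z Z) +
      (Z - 1 / 2) ^ 3 * (1 - Z) ^ 4 * dot MC1g3 (T7.kl x y z Z) +
      (Z - 1 / 2) ^ 4 * (1 - Z) ^ 3 * dot MC1g4 (T7.kl x y z Z) +
      (Z - 1 / 2) ^ 5 * (1 - Z) ^ 2 * dot MC1g5 (T7.kl x y z Z) +
      (Z - 1 / 2) ^ 6 * (1 - Z) * dot MC1g6 (T7.kl x y z Z) +
      (Z - 1 / 2) ^ 7 * dot MC1g7 (T7.kl x y z Z) := by
  simp only [MCr, T7.kl, dot, MC1g0, MC1g1, MC1g2, MC1g3, MC1g4, MC1g5, MC1g6, MC1g7]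
  push_cast
  ring

theorem MC_pos1 (v : V 4) (hv : ∀ i, 0 ≤ v i) (h0 : 1 / 2 ≤ sg v) (h1 : sg v ≤ 1) :
    0 ≤ MCr (E2 v) (E3 v) (E4 v) (sg v) := by
  have ha : 0 ≤ sg v - 1 / 2 := by linarith
  have hb : 0 ≤ 1 - sg v := by linarith
  have hz : 0 ≤ sg v := by linarith
  have k0 := T7.cert (g := MC1g0) (by decide +kernel) v hv
  have k1 := T7.cert (g := MC1g1) (by decide +kernel) v hv
  have k2 := T7.cert (g := MC1g2) (by decide +kernel) v hv
  have k3 := T7.cert (g := MC1g3) (by decide +kernel) v hv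
  have k4 := T7.cert (g := MC1g4) (by decide +kernel) v hv
  have k5 := T7.cert (g := MC1g5) (by decide +kernel) v hv
  have k6 := T7.cert (g := MC1g6) (by decide +kernel) v hv
  have k7 := T7.cert (g := MC1g7) (by decide +kernel) v hv
  rw [T7.keys_kl] at k0 k1 k2 k3 k4 k5 k6 k7
  have h := MC_bern1 (E2 v) (E3 v) (E4 v) (sg v)
  have h2 : 0 ≤ 64000000 * MCr (E2 v) (E3 v) (E4 v) (sg v) := by
    rw [h]
    positivity
  exact nonneg_of_mul_nonneg_right h2 (by norm_num)

end Vale.Agent.P154.Q4
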