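import Vale.Agent.P154.Q4MC0

namespace Vale.Agent.P154.Q4

open Vale.Agent.P154.G

/-- coefficients -/
def MC2g0 : List ℤ :=
  [18474854, -46530560, 1420517376, 226189688832, 3366912, -6198181888, 9401040896, -774334988288, 210132992, 917569544192, 3856433152]

/-- coefficients -/
def MC2g1 : List ℤ :=
  [144271113, -355037184, 7756967936, 2024476155904, 184594432, -47742869504, 56094375936, -7061392969728, 2002894848, 9634480214016, 40492548096]

/-- coefficients -/
def MC2g2 : List ℤ :=
  [487972568, -993554432, 16325525504, 7420115447808, 1175228416, -144290859008, 60650201088, -26965208530944, 8097269760, 43355160963072, 182216466432]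

/-- coefficients -/
def MC2g3 : List ℤ :=
  [918613923, -1487777792, 17162920960, 14249542084608, 3159012352, -203019832320, -327810723840, -55385371745280, 17953781760, 108387902407680, 455541166080]

/-- coefficients -/
def MC2g4 : List ℤ :=
  [1033986526, -1442568704, 10939092992, 15118809965568, 4374984192, -95978004480, -1210870425600, -65036583244800, 23496583680, 162581853611520, 683311749120]

/-- coefficients -/
def MC2g5 : List ℤ :=
  [694281999, -944955904, 5996348928, 8431251918336, 3223998720, 76108059648, -1737022288896, -42295597984512, 18056245248, 146323668250368, 614980574208]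

/-- coefficients -/
def MC2g6 : List ℤ :=
  [257334212, -371479168, 2772524160, 1994035739904, 1181675520, 106694008704, -1192130597376, -13029135524352, 7482782592, 73161834125184, 307490287104]

/-- coefficients -/
def MC2g7 : List ℤ :=
  [40620197, -63589056, 585270144, 59529479040, 170859456, 34870678848, -324803582208, -1052244012096, 1272309120, 15677535883968, 65890775808]

set_option maxRecDepth 4000 in
lemma MC_bern2 (x y z Z : ℝ) : 64000000 * MCr x y z Z =
      (3 / 2 - Z) ^ 7 * dot MC2g0 (T7.kl x y z Z) +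
      (Z - 1) * (3 / 2 - Z) ^ 6 * dot MC2g1 (T7.kl x y z Z) +
      (Z - 1) ^ 2 * (3 / 2 - Z) ^ 5 * dot MC2g2 (T7.kl x y z Z) +
      (Z - 1) ^ 3 * (3 / 2 - Z) ^ 4 * dot MC2g3 (T7.kl x y z Z) +
      (Z - 1) ^ 4 * (3 / 2 - Z) ^ 3 * dot MC2g4 (T7.kl x y z Z) +
      (Z - 1) ^ 5 * (3 / 2 - Z) ^ 2 * dot MC2g5 (T7.kl x y z Z) +
      (Z - 1) ^ 6 * (3 / 2 - Z) * dot MC2g6 (T7.kl x y z Z) +
      (Z - 1) ^ 7 * dot MC2g7 (T7.kl x y z Z) := by
  simp only [MCr, T7.kl, dot, MC2g0, MC2g1, MC2g2, MC2g3, MC2g4, MC2g5, MC2g6, MC2g7]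
  push_cast
  ring

theorem MC_pos2 (v : V 4) (hv : ∀ i, 0 ≤ v i) (h0 : 1 ≤ sg v) (h1 : sg v ≤ 3 / 2) :
    0 ≤ MCr (E2 v) (E3 v) (E4 v) (sg v) := by
  have ha : 0 ≤ sg v - 1 := by linarith
  have hb : 0 ≤ 3 / 2 - sg v := by linarith
  have hz : 0 ≤ sg v := by linarith
  have k0 := T7.cert (g := MC2g0) (by decide +kernel) v hv
  have k1 := T7.cert (g := MC2g1) (by decide +kernel) v hv
  have k2 := T7.cert (g := MC2g2) (by decide +kernel) v hv
  have k3 := T7.cert (g := MC2g3) (by decide +kernel) v hv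
  have k4 := T7.cert (g := MC2g4) (by decide +kernel) v hv
  have k5 := T7.cert (g := MC2g5) (by decide +kernel) v hv
  have k6 := T7.cert (g := MC2g6) (by decide +kernel) v hv
  have k7 := T7.cert (g := MC2g7) (by decide +kernel) v hv
  rw [T7.keys_kl] at k0 k1 k2 k3 k4 k5 k6 k7
  have h := MC_bern2 (E2 v) (E3 v) (E4 v) (sg v)
  have h2 : 0 ≤ 64000000 * MCr (E2 v) (E3 v) (E4 v) (sg v) := by
    rw [h]
    positivity
  exact nonneg_of_mul_nonneg_right h2 (by norm_num)

end Vale.Agent.P154.Q4
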