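import Vale.Agent.P154.Q4MC0

namespace Vale.Agent.P154.Q4

open Vale.Agent.P154.G

/-- coefficients -/
def MC3g0 : List ℤ :=
  [40620197, -63589056, 585270144, 59529479040, 170859456, 34870678848, -324803582208, -1052244012096, 1272309120, 15677535883968, 65890775808]

/-- coefficients -/
def MC3g1 : List ℤ :=
  [311348546, -518767616, 5421257856, -1160623033344, 1210356864, 381495495168, -3355119553536, -1702280644992, 10329545088, 146323668250368, 614980574208]

/-- coefficients -/
def MC3g2 : List ℤ :=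
  [1018368003, -1828686592, 21888751104, -10496700721152, 3396086784, 1724916978432, -14714956025856, 25665531291648, 35136820224, 585294673001472, 2459922296832]

/-- coefficients -/
def MC3g3 : List ℤ :=
  [1842435904, -3523175936, 46548587008, -33780181045248, 4805119488, 4219208156160, -35576519639040, 129200411473920, 64345466880, 1300654828892160, 5466493992960]

/-- coefficients -/
def MC3g4 : List ℤ :=
  [1991838075, -3918668800, 53651549184, -55160071028736, 3732299776, 6065665351680, -51270849331200, 268488411955200, 67478814720, 1734206438522880, 7288658657280]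

/-- coefficients -/
def MC3g5 : List ℤ :=
  [1287155770, -2484781056, 31717421056, -48838916308992, 1914552320, 5144822841344, -44085071314944, 291767686889472, 39330938880, 1387365150818304, 5830926925824]

/-- coefficients -/
def MC3g6 : List ℤ :=
  [460418557, -832323584, 7943241728, -22148901502976, 975568896, 2389937946624, -20957094739968, 163886508539904, 10968367104, 616606733697024, 2591523078144]

/-- coefficients -/
def MC3g7 : List ℤ :=
  [70323684, -113770496, 425394176, -3960774590464, 347996160, 469853536256, -4251585609728, 37733045633024, 848822272, 117448901656576, 493623443456]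

set_option maxRecDepth 4000 in
lemma MC_bern3 (x y z Z : ℝ) : 64000000 * MCr x y z Z =
      (2 - Z) ^ 7 * dot MC3g0 (T7.kl x y z Z) +
      (Z - 3 / 2) * (2 - Z) ^ 6 * dot MC3g1 (T7.kl x y z Z) +
      (Z - 3 / 2) ^ 2 * (2 - Z) ^ 5 * dot MC3g2 (T7.kl x y z Z) +
      (Z - 3 / 2) ^ 3 * (2 - Z) ^ 4 * dot MC3g3 (T7.kl x y z Z) +
      (Z - 3 / 2) ^ 4 * (2 - Z) ^ 3 * dot MC3g4 (T7.kl x y z Z) +
      (Z - 3 / 2) ^ 5 * (2 - Z) ^ 2 * dot MC3g5 (T7.kl x y z Z) +
      (Z - 3 / 2) ^ 6 * (2 - Z) * dot MC3g6 (T7.kl x y z Z) +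
      (Z - 3 / 2) ^ 7 * dot MC3g7 (T7.kl x y z Z) := by
  simp only [MCr, T7.kl, dot, MC3g0, MC3g1, MC3g2, MC3g3, MC3g4, MC3g5, MC3g6, MC3g7]
  push_cast
  ring

theorem MC_pos3 (v : V 4) (hv : ∀ i, 0 ≤ v i) (h0 : 3 / 2 ≤ sg v) (h1 : sg v ≤ 2) :
    0 ≤ MCr (E2 v) (E3 v) (E4 v) (sg v) := by
  have ha : 0 ≤ sg v - 3 / 2 := by linarith
  have hb : 0 ≤ 2 - sg v := by linarith
  have hz : 0 ≤ sg v := by linarith
  have k0 := T7.cert (g := MC3g0) (by decide +kernel) v hv
  have k1 := T7.cert (g := MC3g1) (by decide +kernel) v hv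
  have k2 := T7.cert (g := MC3g2) (by decide +kernel) v hv
  have k3 := T7.cert (g := MC3g3) (by decide +kernel) v hv
  have k4 := T7.cert (g := MC3g4) (by decide +kernel) v hv
  have k5 := T7.cert (g := MC3g5) (by decide +kernel) v hv
  have k6 := T7.cert (g := MC3g6) (by decide +kernel) v hv
  have k7 := T7.cert (g := MC3g7) (by decide +kernel) v hv
  rw [T7.keys_kl] at k0 k1 k2 k3 k4 k5 k6 k7
  have h := MC_bern3 (E2 v) (E3 v) (E4 v) (sg v)
  have h2 : 0 ≤ 64000000 * MCr (E2 v) (E3 v) (E4 v) (sg v) := by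
    rw [h]
    positivity
  exact nonneg_of_mul_nonneg_right h2 (by norm_num)

end Vale.Agent.P154.Q4
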