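import Vale.Agent.P154.Q4MC0

namespace Vale.Agent.P154.Q4

open Vale.Agent.P154.G

/-- coefficients -/
def MC4g0 : List ℤ :=
  [35161842, -56885248, 212697088, -1980387295232, 173998080, 234926768128, -2125792804864, 18866522816512, 424411136, 58724450828288, 246811721728]

/-- coefficients -/
def MC4g1 : List ℤ :=
  [277980125, -362266624, -3476602880, -19439231696896, 2678390784, 2543524184064, -23684554162176, 232310470606848, -2055733248, 616606733697024, 2591523078144]

/-- coefficients -/
def MC4g2 : List ℤ :=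
  [932365652, -739049472, -39343759360, -73290804363264, 19154501632, 11671921819648, -112717277429760, 1199351032381440, -38555025408, 2774730301636608, 11661853851648]

/-- coefficients -/
def MC4g3 : List ℤ :=
  [1718756295, -261632000, -134422450176, -125891496247296, 75233755136, 29446196920320, -297135152824320, 3383262367580160, -169648128000, 6936825754091520, 29154634629120]

/-- coefficients -/
def MC4g4 : List ℤ :=
  [1877099522, 835162112, -180104163328, -67554144976896, 170387337216, 44120736276480, -468715668111360, 5652220731310080, -364363038720, 10405238631137280, 43731951943680]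

/-- coefficients -/
def MC4g5 : List ℤ :=
  [1210921611, 1228742656, -25694466048, 82333670178816, 221908709376, 39261626560512, -442555746287616, 5606593120124928, -426828496896, 9364714768023552, 39358756749312]

/-- coefficients -/
def MC4g6 : List ℤ :=
  [428729368, 1381978112, 144443547648, 130834724290560, 154579525632, 19205628788736, -231633695637504, 3063093791035392, -262865129472, 4682357384011776, 19679378374656]

/-- coefficients -/
def MC4g7 : List ℤ :=
  [66918961, 993828864, 91608109056, 51367968350208, 44679942144, 3981166682112, -51854896742400, 712048076144640, -66924859392, 1003362296573952, 4217009651712]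

set_option maxRecDepth 4000 in
lemma MC_bern4 (x y z Z : ℝ) : 4096000000 * MCr x y z Z =
      (3 - Z) ^ 7 * dot MC4g0 (T7.kl x y z Z) +
      (Z - 2) * (3 - Z) ^ 6 * dot MC4g1 (T7.kl x y z Z) +
      (Z - 2) ^ 2 * (3 - Z) ^ 5 * dot MC4g2 (T7.kl x y z Z) +
      (Z - 2) ^ 3 * (3 - Z) ^ 4 * dot MC4g3 (T7.kl x y z Z) +
      (Z - 2) ^ 4 * (3 - Z) ^ 3 * dot MC4g4 (T7.kl x y z Z) +
      (Z - 2) ^ 5 * (3 - Z) ^ 2 * dot MC4g5 (T7.kl x y z Z) +
      (Z - 2) ^ 6 * (3 - Z) * dot MC4g6 (T7.kl x y z Z) +
      (Z - 2) ^ 7 * dot MC4g7 (T7.kl x y z Z) := by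
  simp only [MCr, T7.kl, dot, MC4g0, MC4g1, MC4g2, MC4g3, MC4g4, MC4g5, MC4g6, MC4g7]
  push_cast
  ring

theorem MC_pos4 (v : V 4) (hv : ∀ i, 0 ≤ v i) (h0 : 2 ≤ sg v) (h1 : sg v ≤ 3) :
    0 ≤ MCr (E2 v) (E3 v) (E4 v) (sg v) := by
  have ha : 0 ≤ sg v - 2 := by linarith
  have hb : 0 ≤ 3 - sg v := by linarith
  have hz : 0 ≤ sg v := by linarith
  have k0 := T7.cert (g := MC4g0) (by decide +kernel) v hv
  have k1 := T7.cert (g := MC4g1) (by decide +kernel) v hv
  have k2 := T7.cert (g := MC4g2) (by decide +kernel) v hv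
  have k3 := T7.cert (g := MC4g3) (by decide +kernel) v hv
  have k4 := T7.cert (g := MC4g4) (by decide +kernel) v hv
  have k5 := T7.cert (g := MC4g5) (by decide +kernel) v hv
  have k6 := T7.cert (g := MC4g6) (by decide +kernel) v hv
  have k7 := T7.cert (g := MC4g7) (by decide +kernel) v hv
  rw [T7.keys_kl] at k0 k1 k2 k3 k4 k5 k6 k7
  have h := MC_bern4 (E2 v) (E3 v) (E4 v) (sg v)
  have h2 : 0 ≤ 4096000000 * MCr (E2 v) (E3 v) (E4 v) (sg v) := by
    rw [h]
    positivity
  exact nonneg_of_mul_nonneg_right h2 (by norm_num)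

end Vale.Agent.P154.Q4
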