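import Vale.Agent.P154.Q4MC0

namespace Vale.Agent.P154.Q4

open Vale.Agent.P154.G

/-- coefficients -/
def MC5g0 : List ℤ :=
  [66918961, 993828864, 91608109056, 51367968350208, 44679942144, 3981166682112, -51854896742400, 712048076144640, -66924859392, 1003362296573952, 4217009651712]

/-- coefficients -/
def MC5g1 : List ℤ :=
  [508136086, 12531625984, 1138069979136, 588316832612352, 470939664384, 36530704760832, -494334858756096, 6905579274989568, -674082902016, 9364714768023552, 39358756749312]

/-- coefficients -/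
def MC5g2 : List ℤ :=
  [1687361919, 68126629888, 5936064122880, 2827226320109568, 2120069541888, 143212082393088, -2018762724999168, 28661506023849984, -2894135132160, 37458859072094208, 157435026997248]

/-- coefficients -/
def MC5g3 : List ℤ :=
  [3245663588, 206805659648, 16906817179648, 7423838527389696, 5284312018944, 310884472995840, -4578191144386560, 66001544328314880, -6870974791680, 83241909049098240, 349855615549440]

/-- coefficients -/
def MC5g4 : List ℤ :=
  [4016743839, 377634443264, 28468205662208, 11540394860347392, 7876526931968, 403498104913920, -6226990533181440, 91081137397432320, -9747384238080, 110989212065464320, 466474154065920]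

/-- coefficients -/
def MC5g5 : List ℤ :=
  [3278005942, 413603028992, 28393949544448, 10644875822235648, 7021483655168, 313030814990336, -5079780965744640, 75328172552355840, -8266775003136, 88791369652371456, 373179323252736]

/-- coefficients -/
def MC5g6 : List ℤ :=
  [1643793105, 250924105728, 15555876683776, 5404035041460224, 3466512564224, 134358710091776, -2301319779975168, 34573971194118144, -3882507829248, 39462830956609536, 165857477001216]

/-- coefficients -/
def MC5g7 : List ℤ :=
  [384232816, 64916160512, 3615724142592, 1166354530959360, 731259076608, 24603372027904, -446658882043904, 6794048492797952, -779217797120, 7516729706020864, 31591900381184]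

set_option maxRecDepth 4000 in
lemma MC_bern5 (x y z Z : ℝ) : 4096000000 * MCr x y z Z =
      (4 - Z) ^ 7 * dot MC5g0 (T7.kl x y z Z) +
      (Z - 3) * (4 - Z) ^ 6 * dot MC5g1 (T7.kl x y z Z) +
      (Z - 3) ^ 2 * (4 - Z) ^ 5 * dot MC5g2 (T7.kl x y z Z) +
      (Z - 3) ^ 3 * (4 - Z) ^ 4 * dot MC5g3 (T7.kl x y z Z) +
      (Z - 3) ^ 4 * (4 - Z) ^ 3 * dot MC5g4 (T7.kl x y z Z) +
      (Z - 3) ^ 5 * (4 - Z) ^ 2 * dot MC5g5 (T7.kl x y z Z) +
      (Z - 3) ^ 6 * (4 - Z) * dot MC5g6 (T7.kl x y z Z) +
      (Z - 3) ^ 7 * dot MC5g7 (T7.kl x y z Z) := by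
  simp only [MCr, T7.kl, dot, MC5g0, MC5g1, MC5g2, MC5g3, MC5g4, MC5g5, MC5g6, MC5g7]
  push_cast
  ring

theorem MC_pos5 (v : V 4) (hv : ∀ i, 0 ≤ v i) (h0 : 3 ≤ sg v) (h1 : sg v ≤ 4) :
    0 ≤ MCr (E2 v) (E3 v) (E4 v) (sg v) := by
  have ha : 0 ≤ sg v - 3 := by linarith
  have hb : 0 ≤ 4 - sg v := by linarith
  have hz : 0 ≤ sg v := by linarith
  have k0 := T7.cert (g := MC5g0) (by decide +kernel) v hv
  have k1 := T7.cert (g := MC5g1) (by decide +kernel) v hv
  have k2 := T7.cert (g := MC5g2) (by decide +kernel) v hv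
  have k3 := T7.cert (g := MC5g3) (by decide +kernel) v hv
  have k4 := T7.cert (g := MC5g4) (by decide +kernel) v hv
  have k5 := T7.cert (g := MC5g5) (by decide +kernel) v hv
  have k6 := T7.cert (g := MC5g6) (by decide +kernel) v hv
  have k7 := T7.cert (g := MC5g7) (by decide +kernel) v hv
  rw [T7.keys_kl] at k0 k1 k2 k3 k4 k5 k6 k7
  have h := MC_bern5 (E2 v) (E3 v) (E4 v) (sg v)
  have h2 : 0 ≤ 4096000000 * MCr (E2 v) (E3 v) (E4 v) (sg v) := by
    rw [h]
    positivity
  exact nonneg_of_mul_nonneg_right h2 (by norm_num)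

end Vale.Agent.P154.Q4
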