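import Vale.Agent.P154.Q4MBI0
import Vale.Agent.P154.Q4MBI1
import Vale.Agent.P154.Q4MBI2
import Vale.Agent.P154.Q4MBI3
import Vale.Agent.P154.Q4MBI4
import Vale.Agent.P154.Q4MBI5
import Vale.Agent.P154.Q4Conv

/-! P154, four states: polynomial minorant of the functional `F4` -/

namespace Vale.Agent.P154.Q4

open Vale.Agent.P154.G

theorem MB_pos (v : V 4) (hv : ∀ i, 0 ≤ v i) (h0 : 0 ≤ sg v) (h4 : sg v ≤ 4) :
    0 ≤ MBr (E2 v) (E3 v) (E4 v) (sg v) := by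
  rcases le_total (sg v) (1 / 2) with h | h
  · exact MB_pos0 v hv h0 h
  rcases le_total (sg v) 1 with h' | h'
  · exact MB_pos1 v hv h h'
  rcases le_total (sg v) (3 / 2) with h'' | h''
  · exact MB_pos2 v hv h' h''
  rcases le_total (sg v) 2 with h''' | h'''
  · exact MB_pos3 v hv h'' h'''
  rcases le_total (sg v) 3 with h5 | h5
  · exact MB_pos4 v hv h''' h5
  · exact MB_pos5 v hv h5 h4

/-- minorant of `F4` -/
theorem minB (v : V 4) (hv : ∀ i, 0 ≤ v i) (h0 : 0 < sg v) (h4 : sg v ≤ 4) :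
    MBp (E2 v) (E3 v) (E4 v) (sg v) ≤ F4 v := by
  have h := MB_id (E2 v) (E3 v) (E4 v) (sg v)
  have h2 := mul_nonneg (sq_nonneg (sg v - 1)) (MB_pos v hv h0.le h4)
  have h3 : MBf (E2 v) (E3 v) (E4 v) (sg v) = F4 v * sg v ^ 7 := by
    rw [F4_rat v h0.ne']
    unfold MBf
    field_simp
    ring
  rw [← h, h3] at h2
  have h5 : 0 < sg v ^ 7 := by positivity
  have h6 : 0 ≤ (F4 v - MBp (E2 v) (E3 v) (E4 v) (sg v)) * sg v ^ 7 := by
    rw [sub_mul]; exact h2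
  have := nonneg_of_mul_nonneg_left h6 h5
  linarith

end Vale.Agent.P154.Q4
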