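import Vale.Agent.P154.Q4MCI0
import Vale.Agent.P154.Q4MCI1
import Vale.Agent.P154.Q4MCI2
import Vale.Agent.P154.Q4MCI3
import Vale.Agent.P154.Q4MCI4
import Vale.Agent.P154.Q4MCI5
import Vale.Agent.P154.Q4Conv

/-! P154, four states: polynomial minorant of `e₂ / Z`, polynomial majorant of `Rf` -/

namespace Vale.Agent.P154.Q4

open Vale.Agent.P154.G

theorem MC_pos (v : V 4) (hv : ∀ i, 0 ≤ v i) (h0 : 0 ≤ sg v) (h4 : sg v ≤ 4) :
    0 ≤ MCr (E2 v) (E3 v) (E4 v) (sg v) := by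
  rcases le_total (sg v) (1 / 2) with h | h
  · exact MC_pos0 v hv h0 h
  rcases le_total (sg v) 1 with h' | h'
  · exact MC_pos1 v hv h h'
  rcases le_total (sg v) (3 / 2) with h'' | h''
  · exact MC_pos2 v hv h' h''
  rcases le_total (sg v) 2 with h''' | h'''
  · exact MC_pos3 v hv h'' h'''
  rcases le_total (sg v) 3 with h5 | h5
  · exact MC_pos4 v hv h''' h5
  · exact MC_pos5 v hv h5 h4

/-- minorant of `e₂ / Z` -/
theorem minC (v : V 4) (hv : ∀ i, 0 ≤ v i) (h0 : 0 < sg v) (h4 : sg v ≤ 4) :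
    MCp (E2 v) (E3 v) (E4 v) (sg v) ≤ E2 v / sg v := by
  have h := MC_id (E2 v) (E3 v) (E4 v) (sg v)
  have h2 := mul_nonneg (sq_nonneg (sg v - 1)) (MC_pos v hv h0.le h4)
  have h3 : MCf (E2 v) (E3 v) (E4 v) (sg v) = E2 v / sg v * sg v ^ 7 := by
    unfold MCf
    field_simp
  rw [← h, h3] at h2
  have h5 : 0 < sg v ^ 7 := by positivity
  have h6 : 0 ≤ (E2 v / sg v - MCp (E2 v) (E3 v) (E4 v) (sg v)) * sg v ^ 7 := by
    rw [sub_mul]; exact h2
  have := nonneg_of_mul_nonneg_left h6 h5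
  linarith

/-- majorant of `Rf` -/
theorem majC (v : V 4) (hv : ∀ i, 0 ≤ v i) (h0 : 0 < sg v) (h4 : sg v ≤ 4) :
    Rf v ≤ sg v - 8 / 3 * MCp (E2 v) (E3 v) (E4 v) (sg v) := by
  have h := minC v hv h0 h4
  have e : Rf v = sg v - 8 / 3 * (E2 v / sg v) := by
    rw [Rf_rr, rr_E v h0.ne']
    field_simp
  rw [e]
  linarith

end Vale.Agent.P154.Q4
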