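import Vale.Agent.P154.Q4Part

/-! P154, four states: symmetric monomials of degree 4 -/

namespace Vale.Agent.P154.Q4

open Vale.Agent.P154.G

lemma mo_4_0_0_0 (v : V 4) : mono ![4, 0, 0, 0] v =
    6 * sg v ^ 4 - 24 * sg v ^ 2 * E2 v + 24 * sg v * E3 v + 12 * E2 v ^ 2 - 24 * E4 v := by
  rw [mono_eq]; (try unfold E2); (try unfold E3); (try unfold E4); (try rw [sgE4]); ring

lemma mo_3_1_0_0 (v : V 4) : mono ![3, 1, 0, 0] v =
    2 * sg v ^ 2 * E2 v - 2 * sg v * E3 v - 4 * E2 v ^ 2 + 8 * E4 v := by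
  rw [mono_eq]; (try unfold E2); (try unfold E3); (try unfold E4); (try rw [sgE4]); ring

lemma mo_2_2_0_0 (v : V 4) : mono ![2, 2, 0, 0] v =
    - 8 * sg v * E3 v + 4 * E2 v ^ 2 + 8 * E4 v := by
  rw [mono_eq]; (try unfold E2); (try unfold E3); (try unfold E4); (try rw [sgE4]); ring

lemma mo_2_1_1_0 (v : V 4) : mono ![2, 1, 1, 0] v =
    2 * sg v * E3 v - 8 * E4 v := by
  rw [mono_eq]; (try unfold E2); (try unfold E3); (try unfold E4); (try rw [sgE4]); ring

lemma mo_1_1_1_1 (v : V 4) : mono ![1, 1, 1, 1] v =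
    24 * E4 v := by
  rw [mono_eq]; (try unfold E2); (try unfold E3); (try unfold E4); (try rw [sgE4]); ring

end Vale.Agent.P154.Q4
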