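import Vale.Agent.P154.Q4Part

/-! P154, four states: symmetric monomials of degree 6 -/

namespace Vale.Agent.P154.Q4

open Vale.Agent.P154.G

lemma mo_6_0_0_0 (v : V 4) : mono ![6, 0, 0, 0] v =
    6 * sg v ^ 6 - 36 * sg v ^ 4 * E2 v + 36 * sg v ^ 3 * E3 v + 54 * sg v ^ 2 * E2 v ^ 2 - 36 * sg v ^ 2 * E4 v - 72 * sg v * E2 v * E3 v - 12 * E2 v ^ 3 + 36 * E2 v * E4 v + 18 * E3 v ^ 2 := by
  rw [mono_eq]; (try unfold E2); (try unfold E3); (try unfold E4); (try rw [sgE4]); ring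

lemma mo_5_1_0_0 (v : V 4) : mono ![5, 1, 0, 0] v =
    2 * sg v ^ 4 * E2 v - 2 * sg v ^ 3 * E3 v - 8 * sg v ^ 2 * E2 v ^ 2 + 2 * sg v ^ 2 * E4 v + 14 * sg v * E2 v * E3 v + 4 * E2 v ^ 3 - 12 * E2 v * E4 v - 6 * E3 v ^ 2 := by
  rw [mono_eq]; (try unfold E2); (try unfold E3); (try unfold E4); (try rw [sgE4]); ring

lemma mo_4_2_0_0 (v : V 4) : mono ![4, 2, 0, 0] v =
    - 4 * sg v ^ 3 * E3 v + 2 * sg v ^ 2 * E2 v ^ 2 + 4 * sg v ^ 2 * E4 v + 8 * sg v * E2 v * E3 v - 4 * E2 v ^ 3 + 4 * E2 v * E4 v - 6 * E3 v ^ 2 := by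
  rw [mono_eq]; (try unfold E2); (try unfold E3); (try unfold E4); (try rw [sgE4]); ring

lemma mo_4_1_1_0 (v : V 4) : mono ![4, 1, 1, 0] v =
    2 * sg v ^ 3 * E3 v - 2 * sg v ^ 2 * E4 v - 6 * sg v * E2 v * E3 v + 4 * E2 v * E4 v + 6 * E3 v ^ 2 := by
  rw [mono_eq]; (try unfold E2); (try unfold E3); (try unfold E4); (try rw [sgE4]); ring

lemma mo_3_3_0_0 (v : V 4) : mono ![3, 3, 0, 0] v =
    12 * sg v ^ 2 * E4 v - 12 * sg v * E2 v * E3 v + 4 * E2 v ^ 3 - 12 * E2 v * E4 v + 12 * E3 v ^ 2 := by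
  rw [mono_eq]; (try unfold E2); (try unfold E3); (try unfold E4); (try rw [sgE4]); ring

lemma mo_3_2_1_0 (v : V 4) : mono ![3, 2, 1, 0] v =
    - 3 * sg v ^ 2 * E4 v + 1 * sg v * E2 v * E3 v + 4 * E2 v * E4 v - 3 * E3 v ^ 2 := by
  rw [mono_eq]; (try unfold E2); (try unfold E3); (try unfold E4); (try rw [sgE4]); ring

lemma mo_3_1_1_1 (v : V 4) : mono ![3, 1, 1, 1] v =
    6 * sg v ^ 2 * E4 v - 12 * E2 v * E4 v := by
  rw [mono_eq]; (try unfold E2); (try unfold E3); (try unfold E4); (try rw [sgE4]); ring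

lemma mo_2_2_2_0 (v : V 4) : mono ![2, 2, 2, 0] v =
    - 12 * E2 v * E4 v + 6 * E3 v ^ 2 := by
  rw [mono_eq]; (try unfold E2); (try unfold E3); (try unfold E4); (try rw [sgE4]); ring

lemma mo_2_2_1_1 (v : V 4) : mono ![2, 2, 1, 1] v =
    4 * E2 v * E4 v := by
  rw [mono_eq]; (try unfold E2); (try unfold E3); (try unfold E4); (try rw [sgE4]); ring

end Vale.Agent.P154.Q4
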