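import Vale.Agent.P154.Q4G

/-! P154, four states: polynomials in the invariants given by lists -/

namespace Vale.Agent.P154.Q4

open Vale.Agent.P154.G

/-- the polynomial `∑ c r^i s^j w^k` given by a list of `(c, i, j, k)` -/
def QL (L : List (ℝ × ℕ × ℕ × ℕ)) (r s w : ℝ) : ℝ :=
  (L.map fun x => x.1 * (r ^ x.2.1 * s ^ x.2.2.1 * w ^ x.2.2.2)).sum

/-- a bound for it on the simplex -/
def KL (L : List (ℝ × ℕ × ℕ × ℕ)) : ℝ := (L.map fun x => |x.1| * 12 ^ x.2.2.2).sum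

theorem KL_nn (L : List (ℝ × ℕ × ℕ × ℕ)) : 0 ≤ KL L := by
  refine List.sum_nonneg ?_
  intro y hy
  obtain ⟨x, -, rfl⟩ := List.mem_map.1 hy
  positivity

theorem QL_bd (L : List (ℝ × ℕ × ℕ × ℕ)) {r s w : ℝ} (h0 : 0 ≤ r) (h1 : r ≤ 1) (h2 : |s| ≤ 1)
    (h3 : |w| ≤ 12) : |QL L r s w| ≤ KL L := by
  have hr : |r| ≤ 1 := by rwa [abs_of_nonneg h0]
  induction L with
  | nil => simp [QL, KL]
  | cons x L ih =>
    have e1 : QL (x :: L) r s w = x.1 * (r ^ x.2.1 * s ^ x.2.2.1 * w ^ x.2.2.2) + QL L r s w := by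
      simp [QL]
    have e2 : KL (x :: L) = |x.1| * 12 ^ x.2.2.2 + KL L := by simp [KL]
    rw [e1, e2]
    refine (abs_add_le _ _).trans (add_le_add ?_ ih)
    rw [abs_mul, abs_mul, abs_mul, abs_pow, abs_pow, abs_pow]
    refine mul_le_mul_of_nonneg_left ?_ (abs_nonneg _)
    have k1 : |r| ^ x.2.1 * |s| ^ x.2.2.1 ≤ 1 :=
      mul_le_one₀ (pow_le_one₀ (abs_nonneg _) hr) (by positivity) (pow_le_one₀ (abs_nonneg _) h2)
    have k2 : |w| ^ x.2.2.2 ≤ 12 ^ x.2.2.2 := pow_le_pow_left₀ (abs_nonneg _) h3 _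
    calc |r| ^ x.2.1 * |s| ^ x.2.2.1 * |w| ^ x.2.2.2 ≤ 1 * 12 ^ x.2.2.2 :=
          mul_le_mul k1 k2 (by positivity) (by norm_num)
      _ = 12 ^ x.2.2.2 := one_mul _

/-- the homogeneous functional of a polynomial in the invariants -/
noncomputable def ML (L : List (ℝ × ℕ × ℕ × ℕ)) (v : V 4) : ℝ :=
  sg v * QL L (rr v) (ss v) (ww v)

theorem ML_smul (L : List (ℝ × ℕ × ℕ × ℕ)) (t : ℝ) (v : V 4) :
    ML L (fun i => t * v i) = t * ML L v := hom_inv (QL L) t v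

theorem ML_bd (L : List (ℝ × ℕ × ℕ × ℕ)) {v : V 4} (hv : ∀ i, 0 ≤ v i) :
    |ML L v| ≤ KL L * sg v :=
  bd_inv (Q := QL L) (fun _ _ _ h0 h1 h2 h3 => QL_bd L h0 h1 h2 h3) hv

theorem ML_nn {L : List (ℝ × ℕ × ℕ × ℕ)} (h : ∀ v : V 4, (∀ i, 0 ≤ v i) →
    0 ≤ QL L (rr v) (ss v) (ww v)) {v : V 4} (hv : ∀ i, 0 ≤ v i) : 0 ≤ ML L v :=
  mul_nonneg (sg_nn hv) (h v hv)

end Vale.Agent.P154.Q4
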