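import Vale.Agent.P154.Q4Poly
import Vale.Agent.P154.Q4QL

/-! P154, four states: a polynomial in the invariants `r, s, w` is nonnegative on the simplex if its
homogenisation has nonnegative coefficients in the sorted chamber (checked by the kernel). -/

namespace Vale.Agent.P154.Q4

open Vale.Agent.P154.G PP

/-- `p a + q b + r c + t d` with `a = x 3, b = x 2, c = x 1, d = x 0` -/
def lin4 (p q r t : ℤ) : PP 4 :=
  ([[[[0, t], [r]], [[q]]], [[[p]]]] : List (List (List (List ℤ))))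

theorem ev_lin4 (x : ℕ → ℝ) (p q r t : ℤ) :
    ev x 4 (lin4 p q r t) = p * x 3 + q * x 2 + r * x 1 + t * x 0 := by
  change (((((0 : ℤ) : ℝ) + x 0 * ((t : ℝ) + x 0 * 0)) + x 1 * (((r : ℝ) + x 0 * 0) + x 1 * 0)) +
    x 2 * ((((q : ℝ) + x 0 * 0) + x 1 * 0) + x 2 * 0)) +
    x 3 * (((((p : ℝ) + x 0 * 0) + x 1 * 0) + x 2 * 0) + x 3 * 0) = _
  push_cast
  ring

def vS : PP 4 := lin4 1 2 3 4
def vR : PP 4 := add 4 (mul 4 (lin4 1 2 1 0) (lin4 1 2 1 0))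
  (add 4 (mul 4 (lin4 1 0 1 0) (lin4 1 0 1 0)) (mul 4 (lin4 1 0 (-1) 0) (lin4 1 0 (-1) 0)))
def vT : PP 4 := mul 4 (mul 4 (lin4 1 2 1 0) (lin4 1 0 1 0)) (lin4 1 0 (-1) 0)
def vW : PP 4 := mul 4 (mul 4 (lin4 3 2 1 0) (lin4 (-1) 2 1 0))
  (mul 4 (lin4 (-1) (-2) 1 0) (lin4 (-1) (-2) (-3) 0))

/-- the point with coordinates `a, b, c, d` -/
def pt (a b c d : ℝ) : ℕ → ℝ
  | 0 => d
  | 1 => c
  | 2 => b
  | _ => a

/-- `∑ c R^i T^j W^k S^(N-2i-3j-4k)` -/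
def sum4 (N : ℕ) (R T W S : ℝ) : List (ℤ × ℕ × ℕ × ℕ) → ℝ
  | [] => 0
  | x :: L => (x.1 : ℝ) * (R ^ x.2.1 * T ^ x.2.2.1 *
      (W ^ x.2.2.2 * S ^ (N - 2 * x.2.1 - 3 * x.2.2.1 - 4 * x.2.2.2))) + sum4 N R T W S L

theorem ev_comb4 (x : ℕ → ℝ) (n N : ℕ) (R T W S : PP n) :
    ∀ L : List (ℤ × ℕ × ℕ × ℕ), ev x n (comb4 n N R T W S L) =
      sum4 N (ev x n R) (ev x n T) (ev x n W) (ev x n S) L
  | [] => ev_zero x n
  | y :: L => by
    rw [comb4, sum4, ev_add, ev_mul, ev_mul, ev_mul, ev_mul, ev_const, ev_pow, ev_pow, ev_pow,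
      ev_pow, ev_comb4 x n N R T W S L]

/-- rational coefficients from integers: `c 3^i / M` -/
noncomputable def conv (M : ℕ) (x : ℤ × ℕ × ℕ × ℕ) : ℝ × ℕ × ℕ × ℕ :=
  ((x.1 : ℝ) * 3 ^ x.2.1 / M, x.2.1, x.2.2.1, x.2.2.2)

theorem QL_sum4 {M N : ℕ} (hM : 0 < M) {R T W S : ℝ} (hS : 0 < S) :
    ∀ L : List (ℤ × ℕ × ℕ × ℕ),
      (L.all fun x => decide (2 * x.2.1 + 3 * x.2.2.1 + 4 * x.2.2.2 ≤ N)) = true →
      QL (L.map (conv M)) (R / 3 / S ^ 2) (T / S ^ 3) (W / S ^ 4) =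
        sum4 N R T W S L / (M * S ^ N)
  | [], _ => by simp [QL, sum4]
  | x :: L, h => by
    rw [List.all_cons, Bool.and_eq_true] at h
    have h1 : 2 * x.2.1 + 3 * x.2.2.1 + 4 * x.2.2.2 ≤ N := of_decide_eq_true h.1
    have ih := QL_sum4 hM hS (R := R) (T := T) (W := W) L h.2
    have e1 : QL ((x :: L).map (conv M)) (R / 3 / S ^ 2) (T / S ^ 3) (W / S ^ 4) =
        (x.1 : ℝ) * 3 ^ x.2.1 / M * ((R / 3 / S ^ 2) ^ x.2.1 * (T / S ^ 3) ^ x.2.2.1 *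
          (W / S ^ 4) ^ x.2.2.2) +
        QL (L.map (conv M)) (R / 3 / S ^ 2) (T / S ^ 3) (W / S ^ 4) := by
      simp [QL, conv]
    rw [e1, ih, sum4]
    obtain ⟨q, hq⟩ := Nat.exists_eq_add_of_le h1
    have e2 : N - 2 * x.2.1 - 3 * x.2.2.1 - 4 * x.2.2.2 = q := by omega
    have hM' : (M : ℝ) ≠ 0 := by exact_mod_cast hM.ne'
    have e3 : (x.1 : ℝ) * 3 ^ x.2.1 / M * ((R / 3 / S ^ 2) ^ x.2.1 * (T / S ^ 3) ^ x.2.2.1 *
          (W / S ^ 4) ^ x.2.2.2) =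
        (x.1 : ℝ) * (R ^ x.2.1 * T ^ x.2.2.1 * (W ^ x.2.2.2 * S ^ q)) / (M * S ^ N) := by
      rw [hq]
      simp only [div_pow, ← pow_mul]
      have hS' : S ≠ 0 := hS.ne'
      field_simp
      rw [pow_add, pow_add, pow_add]
      ring
    rw [e3, e2]
    ring

/-- the criterion -/
theorem QL_nn_of_check {M N : ℕ} (hM : 0 < M) (L : List (ℤ × ℕ × ℕ × ℕ))
    (hdeg : (L.all fun x => decide (2 * x.2.1 + 3 * x.2.2.1 + 4 * x.2.2.2 ≤ N)) = true)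
    (h0 : 0 ≤ QL (L.map (conv M)) 0 0 0)
    (h : nn 4 (comb4 4 N vR vT vW vS L) = true) (v : V 4) (hv : ∀ i, 0 ≤ v i) :
    0 ≤ QL (L.map (conv M)) (rr v) (ss v) (ww v) := by
  refine inv_ineq (Q := QL (L.map (conv M))) h0 ?_ v hv
  intro a b c d ha hb hc hd hS
  rw [QL_sum4 hM hS L hdeg]
  have h1 := ev_nn (pt a b c d) (by
    intro i
    match i with
    | 0 => exact hd
    | 1 => exact hc
    | 2 => exact hb
    | _ + 3 => exact ha) 4 _ h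
  rw [ev_comb4] at h1
  have eS : ev (pt a b c d) 4 vS = a + 2 * b + 3 * c + 4 * d := by
    rw [vS, ev_lin4]; simp [pt]
  have eR : ev (pt a b c d) 4 vR = (a + 2 * b + c) ^ 2 + (a + c) ^ 2 + (a - c) ^ 2 := by
    rw [vR, ev_add, ev_add, ev_mul, ev_mul, ev_mul, ev_lin4, ev_lin4, ev_lin4]
    simp only [pt]; push_cast; ring
  have eT : ev (pt a b c d) 4 vT = (a + 2 * b + c) * (a + c) * (a - c) := by
    rw [vT, ev_mul, ev_mul, ev_lin4, ev_lin4, ev_lin4]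
    simp only [pt]; push_cast; ring
  have eW : ev (pt a b c d) 4 vW = (3 * a + 2 * b + c) * (2 * b + c - a) * (c - a - 2 * b) *
      (-(a + 2 * b + 3 * c)) := by
    rw [vW, ev_mul, ev_mul, ev_mul, ev_lin4, ev_lin4, ev_lin4, ev_lin4]
    simp only [pt]; push_cast; ring
  rw [eS, eR, eT, eW] at h1
  have hM' : (0 : ℝ) < M := by exact_mod_cast hM
  positivity

end Vale.Agent.P154.Q4
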