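import Vale.Agent.P154.GNorm

/-! P154, four states: the sum over the 24 permutations written out, and symmetric monomials as
polynomials in the elementary symmetric functions -/

namespace Vale.Agent.P154.Q4

open Vale.Agent.P154.G

lemma image_perm : (Finset.univ : Finset (Equiv.Perm (Fin 4))).image
    (fun σ : Equiv.Perm (Fin 4) => (σ : Fin 4 → Fin 4)) =
    ({![0, 1, 2, 3], ![0, 1, 3, 2], ![0, 2, 1, 3], ![0, 2, 3, 1], ![0, 3, 1, 2], ![0, 3, 2, 1],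
    ![1, 0, 2, 3], ![1, 0, 3, 2], ![1, 2, 0, 3], ![1, 2, 3, 0], ![1, 3, 0, 2], ![1, 3, 2, 0],
    ![2, 0, 1, 3], ![2, 0, 3, 1], ![2, 1, 0, 3], ![2, 1, 3, 0], ![2, 3, 0, 1], ![2, 3, 1, 0],
    ![3, 0, 1, 2], ![3, 0, 2, 1], ![3, 1, 0, 2], ![3, 1, 2, 0], ![3, 2, 0, 1], ![3, 2, 1, 0]} : Finset (Fin 4 → Fin 4)) := by
  decide +kernel

lemma sum_perm (G : (Fin 4 → Fin 4) → ℝ) :
    ∑ σ : Equiv.Perm (Fin 4), G (σ : Fin 4 → Fin 4) =
    G ![0, 1, 2, 3] + G ![0, 1, 3, 2] + G ![0, 2, 1, 3] + G ![0, 2, 3, 1] +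
    G ![0, 3, 1, 2] + G ![0, 3, 2, 1] + G ![1, 0, 2, 3] + G ![1, 0, 3, 2] +
    G ![1, 2, 0, 3] + G ![1, 2, 3, 0] + G ![1, 3, 0, 2] + G ![1, 3, 2, 0] +
    G ![2, 0, 1, 3] + G ![2, 0, 3, 1] + G ![2, 1, 0, 3] + G ![2, 1, 3, 0] +
    G ![2, 3, 0, 1] + G ![2, 3, 1, 0] + G ![3, 0, 1, 2] + G ![3, 0, 2, 1] +
    G ![3, 1, 0, 2] + G ![3, 1, 2, 0] + G ![3, 2, 0, 1] + G ![3, 2, 1, 0] := by
  have h : ∑ σ : Equiv.Perm (Fin 4), G (σ : Fin 4 → Fin 4) =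
      ∑ f ∈ (Finset.univ : Finset (Equiv.Perm (Fin 4))).image
        (fun σ : Equiv.Perm (Fin 4) => (σ : Fin 4 → Fin 4)), G f := by
    rw [Finset.sum_image]
    intro σ _ τ _ h
    exact Equiv.coe_fn_injective h
  rw [h, image_perm]
  rw [Finset.sum_insert (by decide +kernel), Finset.sum_insert (by decide +kernel), Finset.sum_insert (by decide +kernel), Finset.sum_insert (by decide +kernel), Finset.sum_insert (by decide +kernel), Finset.sum_insert (by decide +kernel), Finset.sum_insert (by decide +kernel), Finset.sum_insert (by decide +kernel), Finset.sum_insert (by decide +kernel), Finset.sum_insert (by decide +kernel), Finset.sum_insert (by decide +kernel), Finset.sum_insert (by decide +kernel), Finset.sum_insert (by decide +kernel), Finset.sum_insert (by decide +kernel), Finset.sum_insert (by decide +kernel), Finset.sum_insert (by decide +kernel), Finset.sum_insert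 (by decide +kernel), Finset.sum_insert (by decide +kernel), Finset.sum_insert (by decide +kernel), Finset.sum_insert (by decide +kernel), Finset.sum_insert (by decide +kernel), Finset.sum_insert (by decide +kernel), Finset.sum_insert (by decide +kernel),
    Finset.sum_singleton]
  ring

/-- the symmetric monomial with exponents `a, b, c, d`, divided by the order of the stabiliser -/
theorem mono_eq (a b c d : ℕ) (v : V 4) : mono ![a, b, c, d] v =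
    v 0 ^ a * v 1 ^ b * v 2 ^ c * v 3 ^ d +
    v 0 ^ a * v 1 ^ b * v 3 ^ c * v 2 ^ d +
    v 0 ^ a * v 2 ^ b * v 1 ^ c * v 3 ^ d +
    v 0 ^ a * v 2 ^ b * v 3 ^ c * v 1 ^ d +
    v 0 ^ a * v 3 ^ b * v 1 ^ c * v 2 ^ d +
    v 0 ^ a * v 3 ^ b * v 2 ^ c * v 1 ^ d +
    v 1 ^ a * v 0 ^ b * v 2 ^ c * v 3 ^ d +
    v 1 ^ a * v 0 ^ b * v 3 ^ c * v 2 ^ d +
    v 1 ^ a * v 2 ^ b * v 0 ^ c * v 3 ^ d +
    v 1 ^ a * v 2 ^ b * v 3 ^ c * v 0 ^ d +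
    v 1 ^ a * v 3 ^ b * v 0 ^ c * v 2 ^ d +
    v 1 ^ a * v 3 ^ b * v 2 ^ c * v 0 ^ d +
    v 2 ^ a * v 0 ^ b * v 1 ^ c * v 3 ^ d +
    v 2 ^ a * v 0 ^ b * v 3 ^ c * v 1 ^ d +
    v 2 ^ a * v 1 ^ b * v 0 ^ c * v 3 ^ d +
    v 2 ^ a * v 1 ^ b * v 3 ^ c * v 0 ^ d +
    v 2 ^ a * v 3 ^ b * v 0 ^ c * v 1 ^ d +
    v 2 ^ a * v 3 ^ b * v 1 ^ c * v 0 ^ d +
    v 3 ^ a * v 0 ^ b * v 1 ^ c * v 2 ^ d +
    v 3 ^ a * v 0 ^ b * v 2 ^ c * v 1 ^ d +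
    v 3 ^ a * v 1 ^ b * v 0 ^ c * v 2 ^ d +
    v 3 ^ a * v 1 ^ b * v 2 ^ c * v 0 ^ d +
    v 3 ^ a * v 2 ^ b * v 0 ^ c * v 1 ^ d +
    v 3 ^ a * v 2 ^ b * v 1 ^ c * v 0 ^ d := by
  have h := sum_perm (fun f => v (f 0) ^ a * v (f 1) ^ b * v (f 2) ^ c * v (f 3) ^ d)
  have e : mono ![a, b, c, d] v = ∑ σ : Equiv.Perm (Fin 4),
      v (σ 0) ^ a * v (σ 1) ^ b * v (σ 2) ^ c * v (σ 3) ^ d := by
    unfold mono
    refine Finset.sum_congr rfl fun σ _ => ?_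
    rw [Fin.prod_univ_four]
    rfl
  rw [e, h]
  simp only [Matrix.cons_val]

/-- elementary symmetric functions -/
def E2 (c : V 4) : ℝ := c 0 * c 1 + c 0 * c 2 + c 0 * c 3 + c 1 * c 2 + c 1 * c 3 + c 2 * c 3

def E3 (c : V 4) : ℝ := c 0 * c 1 * c 2 + c 0 * c 1 * c 3 + c 0 * c 2 * c 3 + c 1 * c 2 * c 3

def E4 (c : V 4) : ℝ := c 0 * c 1 * c 2 * c 3

theorem sgE4 (c : V 4) : sg c = c 0 + c 1 + c 2 + c 3 := by
  simp [sg, Fin.sum_univ_four]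

end Vale.Agent.P154.Q4
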