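import Vale.Agent.P154.Q4LB
import Vale.Agent.P154.Q4MinB

/-! P154, four states: the polynomial in the elementary symmetric functions -/

namespace Vale.Agent.P154.Q4

open Vale.Agent.P154.G

theorem Tsum_TB (v : V 4) : Tsum LTB v = MBp (E2 v) (E3 v) (E4 v) (sg v) := by
  unfold LTB
  simp only [Tsum_append, Tsum_TB1, Tsum_TB2, Tsum_TB3, Tsum_TB4, Tsum_TB5, Tsum_TB6, Tsum_TB7, Tsum_TB8a, Tsum_TB8b, Tsum_TB8c, Tsum_TB8d, Tsum_TB9a, Tsum_TB9b, Tsum_TB9c, Tsum_TB9d, Tsum_TB9e, Tsum_TB9f]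
  unfold MBp
  ring

end Vale.Agent.P154.Q4
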