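import Vale.Agent.P154.Q4LC
import Vale.Agent.P154.Q4MinC

/-! P154, four states: the polynomial in the elementary symmetric functions -/

namespace Vale.Agent.P154.Q4

open Vale.Agent.P154.G

theorem Tsum_TC (v : V 4) :
    Tsum LTC v = sg v - 8 / 3 * MCp (E2 v) (E3 v) (E4 v) (sg v) := by
  unfold LTC
  simp only [Tsum_append, Tsum_TC0, Tsum_TC1, Tsum_TC2, Tsum_TC3, Tsum_TC4, Tsum_TC5, Tsum_TC6, Tsum_TC7, Tsum_TC8a, Tsum_TC8b, Tsum_TC8c, Tsum_TC8d, Tsum_TC9a, Tsum_TC9b, Tsum_TC9c, Tsum_TC9d, Tsum_TC9e, Tsum_TC9f]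
  unfold MCp
  ring

end Vale.Agent.P154.Q4
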