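import Vale.Agent.P154.Q4A

/-! P154, four states: the invariants `r, s, w` are symmetric; reduction of one-vector inequalities
to the sorted chamber. -/

namespace Vale.Agent.P154.Q4

open Vale.Agent.P154.G

/-- reduction to sorted vectors -/
theorem sorted_induct {P : V 4 → Prop}
    (hperm : ∀ (σ : Equiv.Perm (Fin 4)) (c : V 4), P (fun i => c (σ i)) → P c)
    (h : ∀ a b c d : ℝ, 0 ≤ a → 0 ≤ b → 0 ≤ c → 0 ≤ d →
      P ![a + b + c + d, b + c + d, c + d, d]) (c : V 4) (hc : ∀ i, 0 ≤ c i) : P c := by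
  have hm : Antitone (fun i => c ((Tuple.sort (fun i => -c i)) i)) := by
    have := Tuple.monotone_sort (fun i => -c i)
    intro i j hij
    have h2 := this hij
    simp only [Function.comp] at h2
    linarith
  set σ := Tuple.sort (fun i => -c i) with hσ
  refine hperm σ c ?_
  have h01 : c (σ 1) ≤ c (σ 0) := hm (by decide)
  have h12 : c (σ 2) ≤ c (σ 1) := hm (by decide)
  have h23 : c (σ 3) ≤ c (σ 2) := hm (by decide)
  have h3 : 0 ≤ c (σ 3) := hc _
  have := h (c (σ 0) - c (σ 1)) (c (σ 1) - c (σ 2)) (c (σ 2) - c (σ 3)) (c (σ 3))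
    (by linarith) (by linarith) (by linarith) h3
  convert this using 1
  funext i
  fin_cases i <;> simp

theorem sg_perm (σ : Equiv.Perm (Fin 4)) (c : V 4) : sg (fun i => c (σ i)) = sg c :=
  Equiv.sum_comp σ c

theorem rr_sum (c : V 4) (h : sg c ≠ 0) : rr c = (4 * (∑ i, c i ^ 2) / sg c ^ 2 - 1) / 3 := by
  unfold rr al be ga
  simp only [Fin.sum_univ_four]
  field_simp
  simp only [sgE]
  ring

theorem ss_sum (c : V 4) (h : sg c ≠ 0) :
    ss c = (∑ i, (4 * c i - sg c) ^ 3) / (24 * sg c ^ 3) := by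
  unfold ss al be ga
  simp only [Fin.sum_univ_four]
  field_simp
  simp only [sgE]
  ring

theorem ww_prod (c : V 4) (h : sg c ≠ 0) : ww c = (∏ i, (4 * c i - sg c)) / sg c ^ 4 := by
  unfold ww rr al be ga
  simp only [Fin.prod_univ_four]
  field_simp
  simp only [sgE]
  ring

theorem zero_of_sg (c : V 4) (h : sg c = 0) : rr c = 0 ∧ ss c = 0 ∧ ww c = 0 := by
  have h1 : al c = 0 := by unfold al; rw [h]; simp
  have h2 : be c = 0 := by unfold be; rw [h]; simp
  have h3 : ga c = 0 := by unfold ga; rw [h]; simp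
  unfold ww ss rr
  rw [h1, h2, h3]
  norm_num

theorem rr_perm (σ : Equiv.Perm (Fin 4)) (c : V 4) : rr (fun i => c (σ i)) = rr c := by
  by_cases h : sg c = 0
  · rw [(zero_of_sg c h).1, (zero_of_sg _ ((sg_perm σ c).trans h)).1]
  · have h' : sg (fun i => c (σ i)) ≠ 0 := by rwa [sg_perm]
    rw [rr_sum c h, rr_sum _ h', sg_perm, Equiv.sum_comp σ (fun i => c i ^ 2)]

theorem ss_perm (σ : Equiv.Perm (Fin 4)) (c : V 4) : ss (fun i => c (σ i)) = ss c := by
  by_cases h : sg c = 0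
  · rw [(zero_of_sg c h).2.1, (zero_of_sg _ ((sg_perm σ c).trans h)).2.1]
  · have h' : sg (fun i => c (σ i)) ≠ 0 := by rwa [sg_perm]
    rw [ss_sum c h, ss_sum _ h', sg_perm, Equiv.sum_comp σ (fun i => (4 * c i - sg c) ^ 3)]

theorem ww_perm (σ : Equiv.Perm (Fin 4)) (c : V 4) : ww (fun i => c (σ i)) = ww c := by
  by_cases h : sg c = 0
  · rw [(zero_of_sg c h).2.2, (zero_of_sg _ ((sg_perm σ c).trans h)).2.2]
  · have h' : sg (fun i => c (σ i)) ≠ 0 := by rwa [sg_perm]
    rw [ww_prod c h, ww_prod _ h', sg_perm, Equiv.prod_comp σ (fun i => 4 * c i - sg c)]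

/-- sorted vector with total mass `S = a + 2b + 3c + 4d` -/
theorem sg_sorted (a b c d : ℝ) :
    sg (![a + b + c + d, b + c + d, c + d, d] : V 4) = a + 2 * b + 3 * c + 4 * d := by
  rw [sgE]
  simp
  ring

/-- an inequality between the invariants only has to be checked on sorted vectors -/
theorem inv_ineq {Q : ℝ → ℝ → ℝ → ℝ} (h0 : 0 ≤ Q 0 0 0)
    (h : ∀ a b c d : ℝ, 0 ≤ a → 0 ≤ b → 0 ≤ c → 0 ≤ d → 0 < a + 2 * b + 3 * c + 4 * d →
      0 ≤ Q (((a + 2 * b + c) ^ 2 + (a + c) ^ 2 + (a - c) ^ 2) / 3 /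
          (a + 2 * b + 3 * c + 4 * d) ^ 2)
        ((a + 2 * b + c) * (a + c) * (a - c) / (a + 2 * b + 3 * c + 4 * d) ^ 3)
        ((3 * a + 2 * b + c) * (2 * b + c - a) * (c - a - 2 * b) * (-(a + 2 * b + 3 * c)) /
          (a + 2 * b + 3 * c + 4 * d) ^ 4)) :
    ∀ c : V 4, (∀ i, 0 ≤ c i) → 0 ≤ Q (rr c) (ss c) (ww c) := by
  refine sorted_induct ?_ ?_
  · intro σ c hc
    rwa [rr_perm, ss_perm, ww_perm] at hc
  · intro a b c d ha hb hc hd
    by_cases hS : a + 2 * b + 3 * c + 4 * d = 0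
    · obtain ⟨h1, h2, h3⟩ := zero_of_sg _ ((sg_sorted a b c d).trans hS)
      rw [h1, h2, h3]
      exact h0
    have hpos : 0 < a + 2 * b + 3 * c + 4 * d :=
      lt_of_le_of_ne (by positivity) (Ne.symm hS)
    have hne : sg (![a + b + c + d, b + c + d, c + d, d] : V 4) ≠ 0 := by
      rw [sg_sorted]; exact hS
    have key := h a b c d ha hb hc hd hpos
    set v : V 4 := ![a + b + c + d, b + c + d, c + d, d] with hv
    have hsg : sg v = a + 2 * b + 3 * c + 4 * d := sg_sorted a b c d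
    have v0 : v 0 = a + b + c + d := rfl
    have v1 : v 1 = b + c + d := rfl
    have v2 : v 2 = c + d := rfl
    have v3 : v 3 = d := rfl
    have ha' : al v = (a + 2 * b + c) / (a + 2 * b + 3 * c + 4 * d) := by
      unfold al; rw [hsg, v0, v1, v2, v3]; congr 1; ring
    have hb' : be v = (a + c) / (a + 2 * b + 3 * c + 4 * d) := by
      unfold be; rw [hsg, v0, v1, v2, v3]; congr 1; ring
    have hc' : ga v = (a - c) / (a + 2 * b + 3 * c + 4 * d) := by
      unfold ga; rw [hsg, v0, v1, v2, v3]; congr 1; ring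
    have e1 : rr v = ((a + 2 * b + c) ^ 2 + (a + c) ^ 2 + (a - c) ^ 2) / 3 /
          (a + 2 * b + 3 * c + 4 * d) ^ 2 := by
      unfold rr; rw [ha', hb', hc']
      generalize a + 2 * b + 3 * c + 4 * d = S
      ring
    have e2 : ss v = (a + 2 * b + c) * (a + c) * (a - c) / (a + 2 * b + 3 * c + 4 * d) ^ 3 := by
      unfold ss; rw [ha', hb', hc']
      generalize a + 2 * b + 3 * c + 4 * d = S
      ring
    have e3 : ww v = (3 * a + 2 * b + c) * (2 * b + c - a) * (c - a - 2 * b) *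
        (-(a + 2 * b + 3 * c)) / (a + 2 * b + 3 * c + 4 * d) ^ 4 := by
      unfold ww; rw [e1, ha', hb', hc']
      generalize a + 2 * b + 3 * c + 4 * d = S
      ring
    rw [e1, e2, e3]
    exact key

end Vale.Agent.P154.Q4
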