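import Vale.Agent.P154.Q4Mo1
import Vale.Agent.P154.Q4E

/-! P154, four states: a part of degree 1 of a polynomial -/

namespace Vale.Agent.P154.Q4

open Vale.Agent.P154.G

/-- coefficients on the symmetric monomials of degree 1 -/
noncomputable def LTB1 : List ((Fin 4 → ℕ) × ℝ) :=
  [(![1, 0, 0, 0], (-497999 / 6000000))]

theorem Tsum_TB1 (v : V 4) : Tsum LTB1 v =
    (-497999 / 1000000) * sg v := by
  unfold Tsum LTB1
  simp only [List.map_cons, List.map_nil, List.sum_cons, List.sum_nil, mo_1_0_0_0]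
  ring

theorem Ksum_TB1 {p r : V 4} (hp : sg p = 1) (hr : sg r = 1) : Ksum LTB1 p r =
    ((-1493997 / 125000)) := by
  unfold Ksum LTB1
  simp only [List.map_cons, List.map_nil, List.sum_cons, List.sum_nil, mo_1_0_0_0, hp, hr,
    Fin.sum_univ_four, Matrix.cons_val]
  ring

end Vale.Agent.P154.Q4
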