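import Vale.Agent.P154.Q4E

/-! P154, four states: a part of degree 0 of a polynomial -/

namespace Vale.Agent.P154.Q4

open Vale.Agent.P154.G

/-- coefficients on the symmetric monomials of degree 0 -/
noncomputable def LTC0 : List ((Fin 4 → ℕ) × ℝ) :=
  [(![0, 0, 0, 0], (5310493 / 9216000000))]

theorem Tsum_TC0 (v : V 4) : Tsum LTC0 v =
    (5310493 / 384000000) := by
  unfold Tsum LTC0
  simp only [List.map_cons, List.map_nil, List.sum_cons, List.sum_nil, mo_0_0_0_0]
  ring

theorem Ksum_TC0 {p r : V 4} (hp : sg p = 1) (hr : sg r = 1) : Ksum LTC0 p r =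
    ((5310493 / 16000000)) := by
  unfold Ksum LTC0
  simp only [List.map_cons, List.map_nil, List.sum_cons, List.sum_nil, mo_0_0_0_0, hp, hr,
    Fin.sum_univ_four, Matrix.cons_val]
  ring

end Vale.Agent.P154.Q4
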