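import Mathlib

/-! Reflection: nonnegativity of a sum of products of two families of integer polynomials -/

namespace Vale.Agent.P154

/-- pairing of integer coefficients with monomial values -/
def dot : List ℤ → List ℝ → ℝ
  | a :: l, x :: m => a * x + dot l m
  | _, _ => 0

def addL : List ℤ → List ℤ → List ℤ
  | a :: l, b :: m => (a + b) :: addL l m
  | [], m => m
  | l, [] => l

def smulL (c : ℤ) (l : List ℤ) : List ℤ := l.map (c * ·)

def comb : List ℤ → List (List ℤ) → List ℤ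
  | c :: cs, B :: Bs => addL (smulL c B) (comb cs Bs)
  | _, _ => []

def rdot : List ℝ → List ℝ → ℝ
  | x :: l, y :: m => x * y + rdot l m
  | _, _ => 0

def hd (l : List ℤ) : ℤ := l.headD 0

def table : ℕ → List (List ℤ) → List (List ℤ) → List (List ℤ)
  | 0, _, _ => []
  | N + 1, As, Bs => comb (As.map hd) Bs :: table N (As.map List.tail) Bs

@[simp] lemma dot_nil_left (M : List ℝ) : dot [] M = 0 := by cases M <;> rfl
@[simp] lemma dot_nil_right (l : List ℤ) : dot l [] = 0 := by cases l <;> rfl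

lemma dot_addL : ∀ (l m : List ℤ) (M : List ℝ), dot (addL l m) M = dot l M + dot m M
  | [], m, M => by simp [addL]
  | a :: l, [], M => by simp [addL]
  | a :: l, b :: m, [] => by simp
  | a :: l, b :: m, x :: M => by
    simp only [addL, dot, dot_addL l m M]
    push_cast
    ring

lemma dot_smulL (c : ℤ) : ∀ (l : List ℤ) (M : List ℝ), dot (smulL c l) M = c * dot l M
  | [], M => by simp [smulL]
  | a :: l, [] => by simp
  | a :: l, x :: M => by
    have h := dot_smulL c l M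
    simp only [smulL, List.map_cons, dot] at h ⊢
    rw [h]
    push_cast
    ring

lemma dot_comb : ∀ (cs : List ℤ) (Bs : List (List ℤ)) (M : List ℝ),
    dot (comb cs Bs) M = dot cs (Bs.map fun B => dot B M)
  | [], Bs, M => by simp [comb]
  | c :: cs, [], M => by simp [comb]
  | c :: cs, B :: Bs, M => by
    simp only [comb, List.map_cons, dot, dot_addL, dot_smulL, dot_comb cs Bs M]

lemma dot_cons_hd (A : List ℤ) (x : ℝ) (M : List ℝ) :
    dot A (x :: M) = hd A * x + dot A.tail M := by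
  cases A <;> simp [dot, hd]

lemma rdot_split : ∀ (As : List (List ℤ)) (ys : List ℝ) (x : ℝ) (M : List ℝ),
    rdot (As.map fun A => dot A (x :: M)) ys =
      x * dot (As.map hd) ys + rdot ((As.map List.tail).map fun A => dot A M) ys
  | [], ys, x, M => by simp [rdot]
  | A :: As, [], x, M => by simp [rdot]
  | A :: As, y :: ys, x, M => by
    simp only [List.map_cons, rdot, dot, rdot_split As ys x M, dot_cons_hd A x M]
    ring

lemma rdot_zero : ∀ (As : List (List ℤ)) (ys : List ℝ), rdot (As.map fun A => dot A []) ys = 0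
  | [], ys => by simp [rdot]
  | A :: As, [] => by simp [rdot]
  | A :: As, y :: ys => by
    have h := rdot_zero As ys
    rw [List.map_cons, rdot, h, dot_nil_right]
    ring

lemma rdot_table : ∀ (M : List ℝ) (As Bs : List (List ℤ)) (M' : List ℝ),
    rdot (As.map fun A => dot A M) (Bs.map fun B => dot B M') =
      rdot M ((table M.length As Bs).map fun B => dot B M')
  | [], As, Bs, M' => by
    rw [rdot_zero]
    simp [rdot]
  | x :: M, As, Bs, M' => by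
    rw [rdot_split, rdot_table M (As.map List.tail) Bs M', List.length_cons, table, List.map_cons,
      rdot, dot_comb]

lemma dot_nonneg : ∀ (l : List ℤ) (M : List ℝ), (l.all fun a => decide (0 ≤ a)) = true →
    (∀ x ∈ M, 0 ≤ x) → 0 ≤ dot l M
  | [], M, _, _ => by simp
  | a :: l, [], _, _ => by simp
  | a :: l, x :: M, h, hM => by
    simp only [List.all_cons, Bool.and_eq_true, decide_eq_true_eq] at h
    have h1 := dot_nonneg l M h.2 fun y hy => hM y (List.mem_cons_of_mem _ hy)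
    have h2 : (0 : ℝ) ≤ (a : ℝ) * x :=
      mul_nonneg (by exact_mod_cast h.1) (hM x List.mem_cons_self)
    simp only [dot]
    linarith

lemma rdot_nonneg : ∀ (M ys : List ℝ), (∀ x ∈ M, 0 ≤ x) → (∀ y ∈ ys, 0 ≤ y) → 0 ≤ rdot M ys
  | [], ys, _, _ => by simp [rdot]
  | x :: M, [], _, _ => by simp [rdot]
  | x :: M, y :: ys, h, h' => by
    have h1 := rdot_nonneg M ys (fun z hz => h z (List.mem_cons_of_mem _ hz))
      fun z hz => h' z (List.mem_cons_of_mem _ hz)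
    have h2 : 0 ≤ x * y := mul_nonneg (h x List.mem_cons_self) (h' y List.mem_cons_self)
    simp only [rdot]
    linarith

/-- the test -/
def chk (N : ℕ) (As As' Cs : List (List ℤ)) : Bool :=
  (table N As (Cs.map fun c => comb c As')).all fun row => row.all fun a => decide (0 ≤ a)

theorem cert_pos {N : ℕ} {As As' Cs : List (List ℤ)} {M M' : List ℝ} (hN : M.length = N)
    (hM : ∀ x ∈ M, 0 ≤ x) (hM' : ∀ x ∈ M', 0 ≤ x) (h : chk N As As' Cs = true) :
    0 ≤ rdot (As.map fun A => dot A M)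
      (Cs.map fun c => dot c (As'.map fun A => dot A M')) := by
  have h1 : (Cs.map fun c => dot c (As'.map fun A => dot A M')) =
      (Cs.map fun c => comb c As').map fun B => dot B M' := by
    rw [List.map_map]
    refine List.map_congr_left fun c _ => ?_
    rw [Function.comp_apply, dot_comb]
  rw [h1, rdot_table, hN]
  refine rdot_nonneg _ _ hM ?_
  intro y hy
  obtain ⟨row, hrow, rfl⟩ := List.mem_map.mp hy
  exact dot_nonneg row M' (List.all_eq_true.mp h row hrow) hM'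

/-- the monomials of degree 10 -/
def mons (x y z : ℝ) : List ℝ :=
  [x ^ 10,
   x ^ 9 * y,
   x ^ 9 * z,
   x ^ 8 * y ^ 2,
   x ^ 8 * y * z,
   x ^ 8 * z ^ 2,
   x ^ 7 * y ^ 3,
   x ^ 7 * y ^ 2 * z,
   x ^ 7 * y * z ^ 2,
   x ^ 7 * z ^ 3,
   x ^ 6 * y ^ 4,
   x ^ 6 * y ^ 3 * z,
   x ^ 6 * y ^ 2 * z ^ 2,
   x ^ 6 * y * z ^ 3,
   x ^ 6 * z ^ 4,
   x ^ 5 * y ^ 5,
   x ^ 5 * y ^ 4 * z,
   x ^ 5 * y ^ 3 * z ^ 2,
   x ^ 5 * y ^ 2 * z ^ 3,
   x ^ 5 * y * z ^ 4,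
   x ^ 5 * z ^ 5,
   x ^ 4 * y ^ 6,
   x ^ 4 * y ^ 5 * z,
   x ^ 4 * y ^ 4 * z ^ 2,
   x ^ 4 * y ^ 3 * z ^ 3,
   x ^ 4 * y ^ 2 * z ^ 4,
   x ^ 4 * y * z ^ 5,
   x ^ 4 * z ^ 6,
   x ^ 3 * y ^ 7,
   x ^ 3 * y ^ 6 * z,
   x ^ 3 * y ^ 5 * z ^ 2,
   x ^ 3 * y ^ 4 * z ^ 3,
   x ^ 3 * y ^ 3 * z ^ 4,
   x ^ 3 * y ^ 2 * z ^ 5,
   x ^ 3 * y * z ^ 6,
   x ^ 3 * z ^ 7,
   x ^ 2 * y ^ 8,
   x ^ 2 * y ^ 7 * z,
   x ^ 2 * y ^ 6 * z ^ 2,
   x ^ 2 * y ^ 5 * z ^ 3,
   x ^ 2 * y ^ 4 * z ^ 4,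
   x ^ 2 * y ^ 3 * z ^ 5,
   x ^ 2 * y ^ 2 * z ^ 6,
   x ^ 2 * y * z ^ 7,
   x ^ 2 * z ^ 8,
   x * y ^ 9,
   x * y ^ 8 * z,
   x * y ^ 7 * z ^ 2,
   x * y ^ 6 * z ^ 3,
   x * y ^ 5 * z ^ 4,
   x * y ^ 4 * z ^ 5,
   x * y ^ 3 * z ^ 6,
   x * y ^ 2 * z ^ 7,
   x * y * z ^ 8,
   x * z ^ 9,
   y ^ 10,
   y ^ 9 * z,
   y ^ 8 * z ^ 2,
   y ^ 7 * z ^ 3,
   y ^ 6 * z ^ 4,
   y ^ 5 * z ^ 5,
   y ^ 4 * z ^ 6,
   y ^ 3 * z ^ 7,
   y ^ 2 * z ^ 8,
   y * z ^ 9,
   z ^ 10]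

lemma mons_length (x y z : ℝ) : (mons x y z).length = 66 := rfl

lemma mons_nonneg {x y z : ℝ} (hx : 0 ≤ x) (hy : 0 ≤ y) (hz : 0 ≤ z) : ∀ m ∈ mons x y z, 0 ≤ m := by
  intro m hm
  simp only [mons, List.mem_cons, List.not_mem_nil, or_false] at hm
  rcases hm with rfl | rfl | rfl | rfl | rfl | rfl | rfl | rfl | rfl | rfl | rfl | rfl | rfl | rfl | rfl | rfl | rfl | rfl | rfl | rfl | rfl | rfl | rfl | rfl | rfl | rfl | rfl | rfl | rfl | rfl | rfl | rfl | rfl | rfl | rfl | rfl | rfl | rfl | rfl | rfl | rfl | rfl | rfl | rfl | rfl | rfl | rfl | rfl | rfl | rfl | rfl | rfl | rfl | rfl | rfl | rfl | rfl | rfl | rfl | rfl | rfl | rfl | rfl | rfl | rfl | rfl <;> positivity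

/-- values of the homogenised invariant monomials -/
def keysV (R S G : ℝ) : List ℝ :=
  [G ^ 10, R * G ^ 8, R ^ 2 * G ^ 6, R ^ 3 * G ^ 4, R ^ 4 * G ^ 2, R ^ 5, S * G ^ 7, R * S * G ^ 5, R ^ 2 * S * G ^ 3, R ^ 3 * S * G, S ^ 2 * G ^ 4, R * S ^ 2 * G ^ 2, R ^ 2 * S ^ 2, S ^ 3 * G]

end Vale.Agent.P154
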