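import Vale.Agent.P154.Fam
import Vale.Agent.P154.GDefs
import Vale.Agent.P154.GBase

/-! the scheme for three states -/

namespace Vale.Agent.P154

open Vale.Agent.P154

lemma sg3 (c : V3) : G.sg (q := 3) c = sg c := by
  unfold G.sg sg
  rw [Fin.sum_univ_three]

lemma Rf3 (c : V3) : G.Rf (q := 3) c = Rf c := by
  unfold G.Rf Rf
  rw [Fin.sum_univ_three, Fin.sum_univ_three]
  have e : sg c = c 0 + c 1 + c 2 := rfl
  rw [e]
  rcases eq_or_ne (c 0 + c 1 + c 2) 0 with h | h
  · rw [h]; simp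
  · push_cast
    rw [div_eq_div_iff (by norm_num; exact h) h]
    ring

lemma chan3 (lam : ℝ) (c : V3) : G.chan (q := 3) lam c = chan lam c := by
  funext i
  unfold G.chan chan
  rw [sg3]
  norm_num

/-- the scheme -/
noncomputable def sch3 : G.Scheme 3 where
  Ff := Ff
  Bf := Bf
  Df := Df
  K := 2
  t := 1 / 200
  hq := by norm_num
  t_pos := by norm_num
  Ff_bd := fun c hc => by rw [sg3]; exact Ff_abs_le hc
  Bf_bd := fun c hc => by rw [sg3]; exact bBf c hc
  Df_bd := fun c hc => by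
    rw [sg3]
    have h1 := bDf c hc
    have h2 := bsg c hc
    have h3 : 0 ≤ sg c := add_nonneg (add_nonneg (hc 0) (hc 1)) (hc 2)
    linarith
  Bf_nn := fun c hc => Bf_nonneg hc
  Df_nn := fun c hc => Df_nonneg hc
  Ff_smul := fun s hs c hc => Ff_smul s hs c hc
  Ff_one := Ff_one
  Ff_leaf := fun i => by
    fin_cases i <;> (simp [Ff, Sf, sg, gm]; try norm_num)
  pt_chan := fun lam h0 h1 c hc => by
    rw [chan3]
    exact pt_chan h0 h1 hc
  pt_prod := fun p r hp hr => by
    have h := pt_prod (p := p) (q := r) hp hr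
    have e : 1 / (((3 - 1).factorial : ℕ) : ℝ) = 1 / 2 := by norm_num [Nat.factorial]
    rw [e]
    exact h
  pt_upper := fun p r hp hr => by
    have h := pt_upper (p := p) (q := r) hp hr
    have e : 1 / (((3 - 1).factorial : ℕ) : ℝ) = 1 / 2 := by norm_num [Nat.factorial]
    have e2 : G.SS (q := 3) G.Rf p r = S6 Rf p r := by
      unfold G.SS S6
      exact Finset.sum_congr rfl fun π _ => Rf3 _
    rw [e, e2, Rf3, Rf3, sg3, sg3]
    have hp0 : ∀ i, 0 ≤ p i := fun i => (hp i).le
    have hr0 : ∀ i, 0 ≤ r i := fun i => (hr i).le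
    have sp : 0 < sg p := add_pos (add_pos (hp 0) (hp 1)) (hp 2)
    have sr : 0 < sg r := add_pos (add_pos (hr 0) (hr 1)) (hr 2)
    have r1 := Rf_nonneg hp0
    have r2 := Rf_nonneg hr0
    have r3 : Rf p ^ 2 / sg p ≤ Rf p := by
      rw [div_le_iff₀ sp, sq]
      exact mul_le_mul_of_nonneg_left (Rf_le hp0) r1
    have r4 : Rf r ^ 2 / sg r ≤ Rf r := by
      rw [div_le_iff₀ sr, sq]
      exact mul_le_mul_of_nonneg_left (Rf_le hr0) r2
    have r5 := mul_le_mul_of_nonneg_right r3 r2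
    have r6 := mul_le_mul_of_nonneg_left r4 r1
    linarith

end Vale.Agent.P154
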