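import Vale.Agent.P154.Q4SB
import Vale.Agent.P154.Q4SC
import Vale.Agent.P154.Q4IdB
import Vale.Agent.P154.Q4IdC

/-! the scheme for four states -/

namespace Vale.Agent.P154

open Vale.Agent.P154.G Vale.Agent.P154.Q4

lemma hom_F4 : Hom1 (q := 4) F4 := fun s _ c _ => F4_smul s c

lemma hom_D4 : Hom1 (q := 4) D4 := fun s _ c _ => D4_smul s c

lemma hom_B4 : Hom1 (q := 4) B4 := fun s _ c _ => B4_smul s c

theorem prod4 (p r : V 4) (hp : Pos p) (hr : Pos r) :
    D4 r * F4 p + D4 p * F4 r ≤ 1 / (((4 - 1).factorial : ℕ) : ℝ) * SS F4 p r := by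
  refine pt_prod_of_norm (by norm_num) hom_F4 hom_D4 ?_ p r hp hr
  intro p r hp hr hp1 hr1
  have h1 := glue_lower (L := LTB) hom_F4 (fun y hy hy4 => by
    rw [Tsum_TB]
    exact minB y (fun i => (hy i).le) (scale_pos (by norm_num) hy) hy4) hp hr hp1 hr1
  have h2 := Q4K.KB_pos (fun i => (hp i).le) (fun i => (hr i).le) hp1 hr1
  rw [← Ksum_TB hp1 hr1] at h2
  linarith

theorem upper4 (p r : V 4) (hp : Pos p) (hr : Pos r) :
    1 / (((4 - 1).factorial : ℕ) : ℝ) * SS Rf p r ≤ Rf p * sg r + sg p * Rf r -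
      (B4 r * F4 p + B4 p * F4 r) -
      1 / 50 * (Rf p ^ 2 / sg p * Rf r + Rf p * (Rf r ^ 2 / sg r)) := by
  refine pt_upper_of_norm (by norm_num) hom_F4 hom_B4 ?_ p r hp hr
  intro p r hp hr hp1 hr1
  have h1 := glue_upper (L := LTC) (Hom1_Rf (q := 4)) (fun y hy hy4 => by
    rw [Tsum_TC]
    exact majC y (fun i => (hy i).le) (scale_pos (by norm_num) hy) hy4) hp hr hp1 hr1
  have h2 := Q4K.KC_pos (fun i => (hp i).le) (fun i => (hr i).le) hp1 hr1
  rw [← Ksum_TC hp1 hr1] at h2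
  linarith

/-- the scheme -/
noncomputable def sch4 : G.Scheme 4 where
  Ff := F4
  Bf := B4
  Df := D4
  K := 5 + |KL LD| + |KL Q4.LB|
  t := 1 / 50
  hq := by norm_num
  t_pos := by norm_num
  Ff_bd := fun c hc => by
    have h1 := F4_bd hc
    have h2 := sg_nn hc
    have h3 := mul_nonneg (abs_nonneg (KL LD)) h2
    have h4 := mul_nonneg (abs_nonneg (KL Q4.LB)) h2
    nlinarith
  Bf_bd := fun c hc => by
    have h1 := B4_bd hc
    have h2 := sg_nn hc
    have h3 := mul_nonneg (abs_nonneg (KL LD)) h2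
    have h4 := mul_le_mul_of_nonneg_right (le_abs_self (KL Q4.LB)) h2
    nlinarith
  Df_bd := fun c hc => by
    have h1 := D4_bd hc
    have h2 := sg_nn hc
    have h3 := mul_le_mul_of_nonneg_right (le_abs_self (KL LD)) h2
    have h4 := mul_nonneg (abs_nonneg (KL Q4.LB)) h2
    nlinarith
  Bf_nn := fun c hc => B4_nn hc
  Df_nn := fun c hc => D4_nn hc
  Ff_smul := fun s _ c _ => F4_smul s c
  Ff_one := F4_one
  Ff_leaf := fun i => F4_leaf i
  pt_chan := fun lam h0 h1 c hc => F4_chan h0 h1 hc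
  pt_prod := prod4
  pt_upper := upper4

end Vale.Agent.P154
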